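import Vale.Agent.P166.Stmt

/-! The Haar measure of the orthogonal group, log partition functions, atomic spectra. -/

namespace Vale.Agent.P166

open MeasureTheory ProbabilityTheory Real Finset Matrix Filter Topology

noncomputable section

/-- the orthogonal group -/
abbrev O (ι : Type) [Fintype ι] [DecidableEq ι] : Type := Matrix.orthogonalGroup ι ℝ

variable {ι : Type} [Fintype ι] [DecidableEq ι]

instance O.ms : MeasurableSpace (O ι) := borel _

instance O.bs : BorelSpace (O ι) := ⟨rfl⟩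

instance O.sc : SecondCountableTopology (O ι) :=
  have : SecondCountableTopology (Matrix ι ι ℝ) :=
    inferInstanceAs (SecondCountableTopology (ι → ι → ℝ))
  TopologicalSpace.Subtype.secondCountableTopology
    ((Matrix.orthogonalGroup ι ℝ : Submonoid (Matrix ι ι ℝ)) : Set (Matrix ι ι ℝ))

theorem O.abs_le (U : O ι) (i j : ι) : |(U : Matrix ι ι ℝ) i j| ≤ 1 :=
  entry_norm_bound_of_unitary U.2 i j

instance O.cs : CompactSpace (O ι) := by
  refine isCompact_iff_compactSpace.1 ?_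
  have h1 : IsCompact (Set.pi Set.univ fun _ : ι => Set.pi Set.univ fun _ : ι =>
      Set.Icc (-1 : ℝ) 1) := isCompact_univ_pi fun _ => isCompact_univ_pi fun _ => isCompact_Icc
  refine IsCompact.of_isClosed_subset (X := Matrix ι ι ℝ) h1 ?_ ?_
  · have : ((Matrix.orthogonalGroup ι ℝ : Submonoid (Matrix ι ι ℝ)) : Set (Matrix ι ι ℝ)) =
        {A | A * Aᵀ = 1} := by
      ext A
      exact Matrix.mem_orthogonalGroup_iff ι ℝ
    rw [this]
    exact isClosed_eq (by fun_prop) continuous_const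
  · intro A hA i _ j _
    exact _root_.abs_le.1 (O.abs_le ⟨A, hA⟩ i j)

/-- the Haar probability measure -/
def hO (ι : Type) [Fintype ι] [DecidableEq ι] : Measure (O ι) := Measure.haarMeasure ⊤

instance hO.prob : IsProbabilityMeasure (hO ι) :=
  ⟨by simpa [hO] using Measure.haarMeasure_self (G := O ι) (K₀ := ⊤)⟩

instance hO.haar : (hO ι).IsHaarMeasure := by unfold hO; infer_instance

/-- the uniform law of the spins -/
def unif (ι : Type) [Fintype ι] : Measure (ι → Bool) := uniformOn Set.univ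

instance unif.prob : IsProbabilityMeasure (unif ι) := by unfold unif; infer_instance

/-- the rotated spin vector `U σ` -/
def xc (U : O ι) (σ : ι → Bool) : ι → ℝ := (U : Matrix ι ι ℝ) *ᵥ spin σ

/-- log partition function for the coefficients `c i = β λ_i` -/
def lz (c : ι → ℝ) (U : O ι) : ℝ :=
  Real.log (∫ σ, Real.exp ((1 / 2) * ∑ i, c i * xc U σ i ^ 2) ∂unif ι)

/-- the fractional moment `k log E Z ^ (1 / k)` -/
def Yk (k : ℕ) (c : ι → ℝ) : ℝ := k * Real.log (∫ U, Real.exp (lz c U / k) ∂hO ι)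

/-- a finitely supported spectrum with top atom `0` -/
structure Atoms (α : Type) [Fintype α] where
  c : α → ℝ
  p : α → ℝ
  top : α
  c_top : c top = 0
  c_neg : ∀ a, a ≠ top → c a < 0
  p_pos : ∀ a, 0 < p a
  p_sum : ∑ a, p a = 1

/-- the spectral measure of the atoms -/
def Atoms.μ {α : Type} [Fintype α] (Λ : Atoms α) : Measure ℝ :=
  ∑ a, ENNReal.ofReal (Λ.p a) • Measure.dirac (Λ.c a)

/-- labellings with the right asymptotic frequencies -/
def Atoms.Freq {α : Type} [Fintype α] [DecidableEq α] (Λ : Atoms α)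
    (ℓ : (N : ℕ) → Fin N → α) : Prop :=
  ∀ a, Tendsto (fun N : ℕ => ((univ.filter fun i => ℓ N i = a).card : ℝ) / N) atTop (𝓝 (Λ.p a))

/-- the upper bound for atomic spectra -/
def CoreUpper : Prop :=
  ∀ (α : Type) [Fintype α] [DecidableEq α] (Λ : Atoms α) (ε : ℝ), 0 < ε → ∀ᶠ k : ℕ in atTop,
    ∀ ℓ, Λ.Freq ℓ → ∀ q, AdmQ k q → ∀ S : ℝ, (∀ r, AdmR r → XI k r + pairing k q r ≤ S) →
      ∀ᶠ N : ℕ in atTop, Yk k (fun i => Λ.c (ℓ N i)) / N ≤ EE Λ.μ 0 1 k q + S + ε

/-- the lower bound for atomic spectra -/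
def CoreLower : Prop :=
  ∀ (α : Type) [Fintype α] [DecidableEq α] (Λ : Atoms α) (ε : ℝ), 0 < ε → ∀ᶠ k : ℕ in atTop,
    ∀ v : ℝ, (v : EReal) ≤ parisi Λ.μ 0 1 k → ∃ ℓ, Λ.Freq ℓ ∧
      ∀ᶠ N : ℕ in atTop, v - ε ≤ Yk k (fun i => Λ.c (ℓ N i)) / N

end

end Vale.Agent.P166
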