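import Vale.Agent.P166.Defs

/-! Paths, Abel summation, tilted paths. -/

namespace Vale.Agent.P166

open MeasureTheory ProbabilityTheory Real Finset Matrix Filter Topology
open Vale.Agent.P157 (Sys St γ GS s0 YY mm pp sh DirD pull mrg Rg Sp νB xB)
open scoped ENNReal

variable {k j : ℕ} {v q A : ℕ → ℝ} {P s : ℝ}

theorem th_eq_thv (k : ℕ) (q : ℕ → ℝ) : th k q = thv k (inc q) := rfl
theorem thv_nonneg (hv : ∀ j < k, 0 ≤ v j) (j : ℕ) : 0 ≤ thv k v j :=
  sum_nonneg fun i hi => mul_nonneg (by positivity) (hv i (mem_Ico.1 hi).2)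
theorem thv_succ (hj : j < k) : thv k v j = thv k v (j + 1) + ((j : ℝ) + 1) / k * v j := by
  rw [thv, thv, sum_eq_sum_Ico_succ_bot hj, add_comm]
theorem thv_of_le (hj : k ≤ j) : thv k v j = 0 := by
  rw [thv, Ico_eq_empty_of_le hj, sum_empty]
theorem calcA_z_le (hj : j < k) : ((j : ℝ) + 1) / k ≤ 1 := by
  have h : (j : ℝ) + 1 ≤ k := by exact_mod_cast hj
  exact div_le_one_of_le₀ h (Nat.cast_nonneg k)
theorem thv_le (hv : ∀ j < k, 0 ≤ v j) (j : ℕ) : thv k v j ≤ ∑ i ∈ range k, v i := by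
  refine le_trans (sum_le_sum fun i hi => ?_) (sum_le_sum_of_subset_of_nonneg
    (s := Ico j k) (fun i hi => mem_range.2 (mem_Ico.1 hi).2) fun i hi _ => hv i (mem_range.1 hi))
  exact mul_le_of_le_one_left (hv i (mem_Ico.1 hi).2) (calcA_z_le (mem_Ico.1 hi).2)
theorem thv_anti (hv : ∀ j < k, 0 ≤ v j) : Antitone (thv k v) := fun _ _ h =>
  sum_le_sum_of_subset_of_nonneg (Ico_subset_Ico_left h) fun i hi _ =>
    mul_nonneg (by positivity) (hv i (mem_Ico.1 hi).2)
theorem IsPath.inc_nonneg (hA : IsPath k P A) (j : ℕ) : 0 ≤ inc A j :=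
  sub_nonneg.2 (hA.2.1 (Nat.le_succ j))
theorem IsPath.sum_inc (hA : IsPath k P A) (l : ℕ) : ∑ j ∈ range l, inc A j = A l := by
  simp only [inc]
  rw [sum_range_sub, hA.1, sub_zero]
theorem IsPath.nonneg (hA : IsPath k P A) (l : ℕ) : 0 ≤ A l := hA.1 ▸ hA.2.1 (Nat.zero_le l)
theorem IsPath.abs_le (hA : IsPath k P A) {l : ℕ} (hl : l ≤ k) : |A l| ≤ P := by
  rw [abs_of_nonneg (hA.nonneg l)]
  exact (hA.2.1 hl).trans hA.2.2
theorem IsPath.th_mem (hA : IsPath k P A) (j : ℕ) : 0 ≤ th k A j ∧ th k A j ≤ P :=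
  ⟨thv_nonneg (fun i _ => hA.inc_nonneg i) j,
    (thv_le (fun i _ => hA.inc_nonneg i) j).trans ((hA.sum_inc k).trans_le hA.2.2)⟩
theorem IsPath.tail_mem (hA : IsPath k P A) (j : ℕ) : 0 ≤ tail k A j ∧ tail k A j ≤ P := by
  have h0 : 0 ≤ ∑ l ∈ Ioo j k, A l := sum_nonneg fun l _ => hA.nonneg l
  have h1 : ∑ l ∈ Ioo j k, A l ≤ k * A k := by
    refine (sum_le_card_nsmul _ _ (A k) fun l hl => hA.2.1 (mem_Ioo.1 hl).2.le).trans ?_
    rw [nsmul_eq_mul]
    refine mul_le_mul_of_nonneg_right ?_ (hA.nonneg k)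
    rw [Nat.card_Ioo]
    exact Nat.cast_le.2 (by omega)
  refine ⟨sub_nonneg.2 ?_, (sub_le_self _ (mul_nonneg (by positivity) h0)).trans hA.2.2⟩
  rw [one_div, ← div_eq_inv_mul]
  exact div_le_of_le_mul₀ (Nat.cast_nonneg k) (hA.nonneg k) (h1.trans_eq (mul_comm _ _))
theorem IsPath.mono {P' : ℝ} (hA : IsPath k P A) (h : P ≤ P') : IsPath k P' A :=
  ⟨hA.1, hA.2.1, hA.2.2.trans h⟩
theorem AdmQ.isPath (hq : AdmQ k q) : IsPath k 1 q := ⟨hq.1, hq.2.1, hq.2.2.le⟩
theorem admR_cum {ρ : ℕ → ℝ} (h : ∀ j, 0 ≤ ρ j) : AdmR (cum ρ) :=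
  ⟨sum_range_zero _, fun _ _ hab =>
    sum_le_sum_of_subset_of_nonneg (range_subset_range.2 hab) fun i _ _ => h i⟩

theorem calcA_Ioo {a b : ℕ} (h : b ≤ a + 1) : Ioo a b = ∅ := by
  ext l
  simp only [mem_Ioo, notMem_empty, iff_false]
  omega

theorem calcA_abel (q : ℕ → ℝ) (j n : ℕ) (h : j + 1 ≤ n) :
    ∑ i ∈ Ico j n, ((i : ℝ) + 1) * (q (i + 1) - q i) =
      n * q n - ((j : ℝ) + 1) * q j - ∑ l ∈ Ioo j n, q l := by
  induction n, h using Nat.le_induction with
  | base =>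
    rw [Nat.Ico_succ_singleton, sum_singleton, calcA_Ioo le_rfl, sum_empty]
    push_cast
    ring
  | succ n hn ih =>
    have e : Ioo j (n + 1) = insert n (Ioo j n) := by
      ext l
      simp only [mem_Ioo, mem_insert]
      omega
    rw [sum_Ico_succ_top (by omega), ih, e, sum_insert (by simp)]
    push_cast
    ring

theorem th_eq_tail (hj : j < k) : th k q j = tail k q j - ((j : ℝ) + 1) / k * q j := by
  have hk : (k : ℝ) ≠ 0 := Nat.cast_ne_zero.2 (by omega)
  have e : th k q j = (1 / (k : ℝ)) * ∑ i ∈ Ico j k, ((i : ℝ) + 1) * (q (i + 1) - q i) := by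
    rw [th, mul_sum]
    exact sum_congr rfl fun i _ => by ring
  rw [e, calcA_abel q j k hj, tail]
  field_simp
  ring
theorem tail_last (hk : 0 < k) : tail k A (k - 1) = A k := by
  rw [tail, calcA_Ioo (by omega), sum_empty, mul_zero, sub_zero]
theorem tail_sum {α : Type} [Fintype α] (p : α → ℝ) (A : α → ℕ → ℝ) :
    tail k (fun l => ∑ a, p a * A a l) j = ∑ a, p a * tail k (A a) j := by
  simp only [tail, mul_sub, sum_sub_distrib, mul_sum]
  rw [sum_comm]
  exact congrArg _ (sum_congr rfl fun a _ => sum_congr rfl fun l _ => by ring)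

theorem LS_add (f g : ℕ → ℝ) : LS k (fun j => f j + g j) = LS k f + LS k g := by
  rw [LS, LS, LS, ← sum_add_distrib]
  exact sum_congr rfl fun j _ => by ring
theorem LS_sub (f g : ℕ → ℝ) : LS k (fun j => f j - g j) = LS k f - LS k g := by
  rw [LS, LS, LS, ← sum_sub_distrib]
  exact sum_congr rfl fun j _ => by ring
theorem LS_const_mul (c : ℝ) (f : ℕ → ℝ) : LS k (fun j => c * f j) = c * LS k f := by
  rw [LS, LS, mul_sum]
  exact sum_congr rfl fun j _ => by ring
theorem LS_const (c : ℝ) : LS k (fun _ => c) = 0 := by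
  simp [LS]
theorem LS_sum {α : Type} [Fintype α] (f : α → ℕ → ℝ) :
    LS k (fun j => ∑ a, f a j) = ∑ a, LS k (f a) := by
  simp only [LS, ← sum_sub_distrib, mul_sum]
  exact sum_comm
theorem calcA_th_succ (hj : j < k) :
    th k q j = th k q (j + 1) + ((j : ℝ) + 1) / k * (q (j + 1) - q j) := thv_succ (v := inc q) hj
theorem LS_th (h0 : q 0 = 0) : LS k (th k q) = q k := by
  rw [← sub_zero (q k), ← h0, ← sum_range_sub]
  refine sum_congr rfl fun j hj => ?_
  have hj := mem_range.1 hj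
  have hk : (k : ℝ) ≠ 0 := Nat.cast_ne_zero.2 (by omega)
  rw [calcA_th_succ hj]
  field_simp
  ring

/-- the tree Abel identity -/
theorem abel (hk : 0 < k) (κ : ℕ → ℝ) (h0 : q 0 = 0) : LS k (fun j => κ j * th k q j) =
    κ k * q k + ∑ j ∈ range k, (k : ℝ) / (j + 1) * (κ j - κ (j + 1)) * tail k q j := by
  have hk' : (k : ℝ) ≠ 0 := Nat.cast_ne_zero.2 hk.ne'
  have e : κ k * q k = ∑ j ∈ range k, (κ (j + 1) * q (j + 1) - κ j * q j) := by
    rw [sum_range_sub (fun j => κ j * q j), h0, mul_zero, sub_zero]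
  rw [e, ← sum_add_distrib]
  refine sum_congr rfl fun j hj => ?_
  have hj := mem_range.1 hj
  beta_reduce
  rw [eq_add_of_sub_eq (th_eq_tail (q := q) hj).symm, calcA_th_succ hj]
  field_simp
  ring

theorem sum_tail (ρ : ℕ → ℝ) : (1 / 2) * ∑ j ∈ range k, ρ j * tail k q j =
    (1 / 2) * (∑ j ∈ range k, ρ j) * q k - pairing k q (cum ρ) := by
  have e : ∑ j ∈ range k, ∑ l ∈ Ioo j k, ρ j * q l = ∑ l ∈ range k, ∑ j ∈ range l, ρ j * q l := by
    refine sum_comm' fun j l => ?_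
    simp only [mem_range, mem_Ioo]
    omega
  have e1 : ∑ j ∈ range k, ρ j * tail k q j = (∑ j ∈ range k, ρ j) * q k -
      (1 / (k : ℝ)) * ∑ j ∈ range k, ∑ l ∈ Ioo j k, ρ j * q l := by
    rw [sum_mul, mul_sum, ← sum_sub_distrib]
    refine sum_congr rfl fun j _ => ?_
    rw [tail, ← mul_sum]
    ring
  have e2 : ∑ l ∈ range k, q l * cum ρ l = ∑ l ∈ range k, ∑ j ∈ range l, ρ j * q l :=
    sum_congr rfl fun l _ => by rw [cum, ← sum_mul, mul_comm]
  rw [e1, e, pairing, e2]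
  ring

theorem calcA_den (hA : IsPath k P A) (hs : 0 ≤ s) (j : ℕ) : 1 ≤ 1 + s * th k A j :=
  le_add_of_nonneg_right (mul_nonneg hs (hA.th_mem j).1)

theorem calcA_inc_Tilt (j : ℕ) : Tilt k s A (j + 1) - Tilt k s A j =
    inc A j / ((1 + s * th k A j) * (1 + s * th k A (j + 1))) := by
  rw [Tilt, Tilt, sum_range_succ, add_sub_cancel_left]

theorem isPath_Tilt (hA : IsPath k P A) (hs : 0 ≤ s) : IsPath k P (Tilt k s A) := by
  refine ⟨sum_range_zero _, fun _ _ hab => sum_le_sum_of_subset_of_nonneg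
    (range_subset_range.2 hab) fun i _ _ => div_nonneg (hA.inc_nonneg i) ?_, ?_⟩
  · exact mul_nonneg (zero_le_one.trans (calcA_den hA hs _)) (zero_le_one.trans (calcA_den hA hs _))
  · refine le_trans (sum_le_sum fun i _ => div_le_self (hA.inc_nonneg i) ?_)
      ((hA.sum_inc k).trans_le hA.2.2)
    exact one_le_mul_of_one_le_of_one_le (calcA_den hA hs _) (calcA_den hA hs _)
theorem th_Tilt (hA : IsPath k P A) (hs : 0 ≤ s) (j : ℕ) :
    th k (Tilt k s A) j = th k A j / (1 + s * th k A j) := by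
  rcases le_total k j with h | h
  · rw [th_eq_thv, th_eq_thv, thv_of_le h, thv_of_le h, zero_div]
  have e := sum_Ico_sub (fun i => -(th k A i / (1 + s * th k A i))) h
  rw [show th k A k = 0 from thv_of_le (v := inc A) le_rfl, zero_div, neg_zero, sub_neg_eq_add,
    zero_add] at e
  rw [← e]
  refine sum_congr rfl fun i hi => ?_
  have hi := (mem_Ico.1 hi).2
  have h1 := (zero_lt_one.trans_le (calcA_den hA hs i)).ne'
  have h2 := (zero_lt_one.trans_le (calcA_den hA hs (i + 1))).ne'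
  have h3 : ((i : ℝ) + 1) / k * inc A i = th k A i - th k A (i + 1) := by
    rw [calcA_th_succ hi, add_sub_cancel_left, inc]
  rw [calcA_inc_Tilt, ← mul_div_assoc, h3, neg_sub_neg, div_sub_div _ _ h1 h2]
  congr 1
  ring
theorem Tilt_zero (h0 : A 0 = 0) : Tilt k 0 A = A := by
  funext l
  simp only [Tilt, inc, zero_mul, add_zero, mul_one, div_one]
  rw [sum_range_sub, h0, sub_zero]

theorem isPath_qA {α : Type} [Fintype α] {p e : α → ℝ} (hp : ∀ a, 0 ≤ p a) (h1 : ∑ a, p a = 1)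
    (he : ∀ a, 0 ≤ e a) (hA : IsPath k P A) : IsPath k P (qA k p e A) := by
  refine ⟨sum_eq_zero fun a _ => by rw [(isPath_Tilt hA (he a)).1, mul_zero], fun _ _ hab =>
    sum_le_sum fun a _ => mul_le_mul_of_nonneg_left ((isPath_Tilt hA (he a)).2.1 hab) (hp a), ?_⟩
  refine (sum_le_sum fun a _ =>
    mul_le_mul_of_nonneg_left (isPath_Tilt hA (he a)).2.2 (hp a)).trans_eq ?_
  rw [← sum_mul, h1, one_mul]
theorem th_qA {α : Type} [Fintype α] {p e : α → ℝ} (he : ∀ a, 0 ≤ e a) (hA : IsPath k P A)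
    (j : ℕ) : th k (qA k p e A) j = th k A j * tauF p e (th k A j) := by
  have e1 : th k (qA k p e A) j = ∑ a, p a * th k (Tilt k (e a) A) j := by
    simp only [th, qA, ← sum_sub_distrib, mul_sum]
    rw [sum_comm]
    exact sum_congr rfl fun a _ => sum_congr rfl fun l _ => by ring
  rw [e1, tauF, mul_sum]
  refine sum_congr rfl fun a _ => ?_
  rw [th_Tilt hA (he a)]
  ring

theorem calcA_log {a u u' : ℝ} (h0 : 0 ≤ u') (h : u' ≤ u) (ha : u ≤ a) :
    |(log (1 + u') - u') - (log (1 + u) - u)| ≤ a * (u - u') := by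
  have p1 : 0 < 1 + u' := by linarith
  have p2 : 0 < 1 + u := by linarith
  have e1 := log_le_sub_one_of_pos (div_pos p2 p1)
  have e2 := log_le_sub_one_of_pos (div_pos p1 p2)
  rw [log_div p2.ne' p1.ne'] at e1
  rw [log_div p1.ne' p2.ne'] at e2
  have e3 : (1 + u) / (1 + u') - 1 ≤ u - u' := by
    rw [div_sub_one p1.ne', div_le_iff₀ p1]
    nlinarith
  have e4 : (1 + u') / (1 + u) - 1 ≤ (a - 1) * (u - u') := by
    rw [div_sub_one p2.ne', div_le_iff₀ p2]
    have : 0 ≤ (u - u') * (a - u + a * u) := mul_nonneg (by linarith) (by nlinarith)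
    nlinarith
  rw [abs_le]
  constructor <;> nlinarith

theorem calcA_LS_cut (hj : j < k) (f : ℕ → ℝ) : LS k (fun i => if i ≤ j then f i else 0) =
    ∑ i ∈ range j, (k : ℝ) / (i + 1) * (f i - f (i + 1)) + (k : ℝ) / (j + 1) * f j := by
  rw [LS, ← sum_subset (range_subset_range.2 (Nat.succ_le_of_lt hj)), sum_range_succ,
    if_pos le_rfl, if_neg (by omega), sub_zero]
  · refine congrArg (· + _) (sum_congr rfl fun i hi => ?_)
    have hi := mem_range.1 hi
    rw [if_pos hi.le, if_pos (by omega)]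
  · intro i _ hi
    have hi : ¬ i < j + 1 := fun h => hi (mem_range.2 h)
    rw [if_neg (by omega), if_neg (by omega), sub_zero, mul_zero]

theorem calcA_thv_one (hj : j < k) (t : ℝ) (i : ℕ) : thv k (fun i => v i + one j t i) i =
    thv k v i + if i ≤ j then ((j : ℝ) + 1) / k * t else 0 := by
  simp only [thv, mul_add, sum_add_distrib, one, mul_ite, mul_zero, sum_ite_eq', mem_Ico, hj,
    and_true]

/-- first order expansion in a noise at one level -/
theorem psi_noise (hA : IsPath k P A) {S t : ℝ} (hs : 0 ≤ s) (hS : s ≤ S) (ht : 0 ≤ t)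
    (hj : j < k) : |psi k s (fun i => inc A i + one j t i) - psi k s (inc A) -
      t * (-s / 2 + s ^ 2 / 2 * tail k (Tilt k s A) j)| ≤ (S ^ 2 + S ^ 3 * P) * t ^ 2 := by
  have hk : (0 : ℝ) < k := Nat.cast_pos.2 (by omega)
  have hz := calcA_z_le hj
  have hz0 : 0 < ((j : ℝ) + 1) / k := by positivity
  have hP : 0 ≤ P := (hA.nonneg k).trans hA.2.2
  have hd := calcA_den hA hs
  have hd0 : ∀ i, 1 + s * th k A i ≠ 0 := fun i => (zero_lt_one.trans_le (hd i)).ne'
  obtain ⟨a, ha⟩ : ∃ a, a = s * (((j : ℝ) + 1) / k * t) := ⟨_, rfl⟩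
  have ha0 : 0 ≤ a := ha ▸ mul_nonneg hs (mul_nonneg hz0.le ht)
  have ha1 : a ≤ S * t := ha ▸ mul_le_mul hS (mul_le_of_le_one_left ht hz)
    (mul_nonneg hz0.le ht) (hs.trans hS)
  obtain ⟨u, hu⟩ : ∃ u : ℕ → ℝ, u = fun i => a / (1 + s * th k A i) := ⟨_, rfl⟩
  have hu0 : ∀ i, 0 ≤ u i := fun i => hu ▸ div_nonneg ha0 (zero_le_one.trans (hd i))
  have hu1 : ∀ i, u i ≤ a := fun i => hu ▸ div_le_self ha0 (hd i)
  have hu2 : ∀ i < k, u (i + 1) - u i =
      ((i : ℝ) + 1) / k * (a * s * (Tilt k s A (i + 1) - Tilt k s A i)) := fun i hi => by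
    have h3 : ((i : ℝ) + 1) / k * inc A i = th k A i - th k A (i + 1) := by
      rw [calcA_th_succ hi, add_sub_cancel_left, inc]
    have h1 := hd0 i
    have h2 := hd0 (i + 1)
    rw [calcA_inc_Tilt, mul_left_comm, ← mul_div_assoc _ (inc A i), h3, hu]
    field_simp
    ring
  have hT := isPath_Tilt hA hs
  have e1 : psi k s (fun i => inc A i + one j t i) - psi k s (inc A) =
      -(1 / 2) * LS k fun i => if i ≤ j then log (1 + u i) else 0 := by
    rw [psi, psi, ← mul_sub, ← LS_sub]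
    refine congrArg _ (congrArg _ (funext fun i => ?_))
    rw [calcA_thv_one hj, ← th_eq_thv]
    split_ifs with h
    · have h1 := hd0 i
      have h2 : 1 + s * (th k A i + ((j : ℝ) + 1) / k * t) = (1 + u i) * (1 + s * th k A i) := by
        rw [hu, add_mul, div_mul_cancel₀ _ h1, ha]
        ring
      rw [h2, log_mul (by linarith [hu0 i]) h1, add_sub_cancel_right]
    · rw [add_zero, sub_self]
  have e2 : t * (-s / 2 + s ^ 2 / 2 * tail k (Tilt k s A) j) =
      -(1 / 2) * LS k fun i => if i ≤ j then u i else 0 := by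
    have e3 : ∑ i ∈ range j, (k : ℝ) / (i + 1) * (u i - u (i + 1)) =
        -(a * s) * Tilt k s A j := by
      rw [← hT.sum_inc j, mul_sum]
      refine sum_congr rfl fun i hi => ?_
      rw [← neg_sub, hu2 i ((mem_range.1 hi).trans hj), inc]
      field_simp
    have h1 := hd0 j
    rw [calcA_LS_cut hj, e3, eq_add_of_sub_eq (th_eq_tail (q := Tilt k s A) hj).symm,
      th_Tilt hA hs, hu, ha]
    field_simp
    ring
  have e4 : (LS k fun i => if i ≤ j then log (1 + u i) else 0) -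
      (LS k fun i => if i ≤ j then u i else 0) =
        LS k fun i => if i ≤ j then log (1 + u i) - u i else 0 := by
    rw [← LS_sub]
    refine congrArg _ (funext fun i => ?_)
    split_ifs <;> simp
  have b1 : |(k : ℝ) / (j + 1) * (log (1 + u j) - u j)| ≤ S ^ 2 * t ^ 2 := by
    have h1 := calcA_log le_rfl (hu0 j) (hu1 j)
    rw [add_zero, log_one, sub_zero, zero_sub, abs_neg, sub_zero] at h1
    have h2 : (k : ℝ) / (j + 1) * a = s * t := by
      rw [ha]
      field_simp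
    rw [abs_mul, abs_of_nonneg (by positivity)]
    calc (k : ℝ) / (j + 1) * |log (1 + u j) - u j| ≤ (k : ℝ) / (j + 1) * (a * u j) := by gcongr
      _ = s * t * u j := by rw [← mul_assoc, h2]
      _ ≤ S * t * (S * t) := mul_le_mul (mul_le_mul_of_nonneg_right hS ht) ((hu1 j).trans ha1)
          (hu0 j) (mul_nonneg (hs.trans hS) ht)
      _ = S ^ 2 * t ^ 2 := by ring
  have b2 : |∑ i ∈ range j, (k : ℝ) / (i + 1) *
      ((log (1 + u i) - u i) - (log (1 + u (i + 1)) - u (i + 1)))| ≤ S ^ 3 * P * t ^ 2 := by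
    have h1 : ∀ i ∈ range j, |(k : ℝ) / (i + 1) *
        ((log (1 + u i) - u i) - (log (1 + u (i + 1)) - u (i + 1)))| ≤
          a * (a * s) * inc (Tilt k s A) i := fun i hi => by
      have hi := (mem_range.1 hi).trans hj
      have h2 : u i ≤ u (i + 1) := sub_nonneg.1 (by
        rw [hu2 i hi]
        exact mul_nonneg (by positivity) (mul_nonneg (mul_nonneg ha0 hs) (hT.inc_nonneg i)))
      have h3 := calcA_log (hu0 i) h2 (hu1 (i + 1))
      rw [abs_mul, abs_of_nonneg (by positivity)]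
      refine (mul_le_mul_of_nonneg_left h3 (by positivity)).trans_eq ?_
      rw [hu2 i hi, inc]
      field_simp
    refine (abs_sum_le_sum_abs _ _).trans ((sum_le_sum h1).trans ?_)
    rw [← mul_sum, hT.sum_inc]
    have h4 : Tilt k s A j ≤ P := (hT.2.1 hj.le).trans hT.2.2
    have h5 : 0 ≤ S * t := mul_nonneg (hs.trans hS) ht
    calc a * (a * s) * Tilt k s A j ≤ S * t * (S * t * S) * P :=
          mul_le_mul (mul_le_mul ha1 (mul_le_mul ha1 hS hs h5) (mul_nonneg ha0 hs) h5) h4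
            (hT.nonneg j) (mul_nonneg h5 (mul_nonneg h5 (hs.trans hS)))
      _ = S ^ 3 * P * t ^ 2 := by ring
  rw [e1, e2, ← mul_sub, e4, calcA_LS_cut hj, abs_mul, abs_neg, abs_of_nonneg (by norm_num)]
  have b3 := (abs_add_le _ _).trans (add_le_add b2 b1)
  have b4 := abs_nonneg (∑ i ∈ range j, (k : ℝ) / (i + 1) *
      ((log (1 + u i) - u i) - (log (1 + u (i + 1)) - u (i + 1))) +
        (k : ℝ) / (j + 1) * (log (1 + u j) - u j))
  linarith

theorem rhoT_eq (hv : ∀ j < k, 0 ≤ v j) (hs : 0 ≤ s) (μ : ℝ) (hj : j < k) :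
    rhoT k s μ v j = (k : ℝ) / (j + 1) * ((s * μ) ^ 2 * thv k v j / (1 + s * thv k v j) -
      (s * μ) ^ 2 * thv k v (j + 1) / (1 + s * thv k v (j + 1))) := by
  have hk : (k : ℝ) ≠ 0 := Nat.cast_ne_zero.2 (by omega)
  have hd : ∀ i, 1 + s * thv k v i ≠ 0 := fun i =>
    (add_pos_of_pos_of_nonneg zero_lt_one (mul_nonneg hs (thv_nonneg hv i))).ne'
  have h1 := hd j
  have h2 := hd (j + 1)
  have h3 : v j = (k : ℝ) / (j + 1) * (thv k v j - thv k v (j + 1)) := by
    rw [thv_succ hj, add_sub_cancel_left]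
    field_simp
  rw [rhoT, h3]
  field_simp
  ring

/-- secant slopes -/
theorem secant {f f1 : ℝ → ℝ} {L : ℝ}
    (hd : ∀ x, 0 ≤ x → HasDerivWithinAt f (f1 x) (Set.Ici 0) x)
    (hL : ∀ x y, 0 ≤ x → 0 ≤ y → |f1 x - f1 y| ≤ L * |x - y|) : ∃ κ : ℝ → ℝ → ℝ,
    (∀ x y, 0 ≤ x → 0 ≤ y → f y - f x = κ x y * (y - x)) ∧ κ 0 0 = f1 0 ∧
    (∀ x y x' y', 0 ≤ x → 0 ≤ y → 0 ≤ x' → 0 ≤ y' →
      |κ x y - κ x' y'| ≤ L * (|x - x'| + |y - y'|)) ∧
    (MonotoneOn f1 (Set.Ici 0) → ∀ x y x' y', 0 ≤ x → 0 ≤ y → x ≤ x' → y ≤ y' →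
      κ x y ≤ κ x' y') := by
  have hL0 : 0 ≤ L := by
    have := (abs_nonneg _).trans (hL 1 0 zero_le_one le_rfl)
    simpa using this
  have hc : ContinuousOn f1 (Set.Ici 0) :=
    (LipschitzOnWith.of_dist_le_mul (K := L.toNNReal) fun x hx y hy => by
      rw [Real.dist_eq, Real.dist_eq, Real.coe_toNNReal L hL0]
      exact hL x y hx hy).continuousOn
  have hm : ∀ x y : ℝ, 0 ≤ x → 0 ≤ y → ∀ t ∈ Set.Icc (0 : ℝ) 1, 0 ≤ x + t * (y - x) :=
    fun x y hx hy t ht => by nlinarith [ht.1, ht.2, mul_nonneg ht.1 hy]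
  have hi : ∀ x y : ℝ, 0 ≤ x → 0 ≤ y →
      IntervalIntegrable (fun t => f1 (x + t * (y - x))) volume 0 1 := fun x y hx hy =>
    ContinuousOn.intervalIntegrable_of_Icc zero_le_one
      (hc.comp (by fun_prop) fun t ht => hm x y hx hy t ht)
  refine ⟨fun x y => ∫ t in (0 : ℝ)..1, f1 (x + t * (y - x)), fun x y hx hy => ?_, by simp,
    fun x y x' y' hx hy hx' hy' => ?_, fun h x y x' y' hx hy hx' hy' => ?_⟩
  · have h1 : ∀ t ∈ Set.Icc (0 : ℝ) 1, HasDerivWithinAt (fun t => f (x + t * (y - x)))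
        (f1 (x + t * (y - x)) * (y - x)) (Set.Icc 0 1) t := fun t ht => by
      have h2 : HasDerivWithinAt (fun t : ℝ => x + t * (y - x)) (y - x) (Set.Icc 0 1) t :=
        ((hasDerivAt_mul_const (y - x)).const_add x).hasDerivWithinAt
      exact (hd _ (hm x y hx hy t ht)).comp t h2 fun t ht => hm x y hx hy t ht
    have h3 := intervalIntegral.integral_eq_sub_of_hasDerivAt_of_le zero_le_one
      (fun t ht => (h1 t ht).continuousWithinAt)
      (fun t ht => (h1 t (Set.Ioo_subset_Icc_self ht)).hasDerivAt (Icc_mem_nhds ht.1 ht.2))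
      ((hi x y hx hy).mul_const (y - x))
    rw [intervalIntegral.integral_mul_const] at h3
    rw [h3]
    simp
  · rw [← intervalIntegral.integral_sub (hi x y hx hy) (hi x' y' hx' hy')]
    have h1 := intervalIntegral.norm_integral_le_of_norm_le_const (a := 0) (b := 1)
      (C := L * (|x - x'| + |y - y'|))
      (f := fun t => f1 (x + t * (y - x)) - f1 (x' + t * (y' - x'))) fun t ht => by
        rw [Set.uIoc_of_le zero_le_one] at ht
        have ht' := Set.Ioc_subset_Icc_self ht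
        refine (hL _ _ (hm x y hx hy t ht') (hm x' y' hx' hy' t ht')).trans
          (mul_le_mul_of_nonneg_left ?_ hL0)
        rw [show x + t * (y - x) - (x' + t * (y' - x')) = (1 - t) * (x - x') + t * (y - y') by ring]
        refine (abs_add_le _ _).trans (add_le_add ?_ ?_)
        · rw [abs_mul, abs_of_nonneg (by linarith [ht.2])]
          exact mul_le_of_le_one_left (abs_nonneg _) (by linarith [ht.1])
        · rw [abs_mul, abs_of_nonneg ht'.1]
          exact mul_le_of_le_one_left (abs_nonneg _) ht.2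
    simpa using h1
  · refine intervalIntegral.integral_mono_on zero_le_one (hi x y hx hy)
      (hi x' y' (hx.trans hx') (hy.trans hy')) fun t ht => ?_
    refine h (hm x y hx hy t ht) (hm x' y' (hx.trans hx') (hy.trans hy') t ht) ?_
    nlinarith [mul_nonneg ht.1 (sub_nonneg.2 hy'), mul_nonneg (sub_nonneg.2 ht.2) (sub_nonneg.2 hx')]

end Vale.Agent.P166
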