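import Vale.Agent.P166.Base

/-! Monotonicity of the variational formula in the spectral measure. -/

namespace Vale.Agent.P166

open MeasureTheory ProbabilityTheory Real Filter

noncomputable section

variable {Ω : Type*} [MeasurableSpace Ω]

/-- the function minimised in the spherical integral -/
def sV (m : Measure Ω) (Y : Ω → ℝ) (x t : ℝ) : ℝ :=
  (1 / 2) * (t - 1 - ∫ l, Real.log (t - x * Y l) ∂m)

/-- the spherical integral of a random variable -/
def sI (m : Measure Ω) (Y : Ω → ℝ) (b x : ℝ) : ℝ := ⨅ t : {t : ℝ // x * b < t}, sV m Y x t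

/-- a bounded random variable -/
structure Bd (m : Measure Ω) (Y : Ω → ℝ) (A b : ℝ) : Prop where
  meas : Measurable Y
  bd : ∀ᵐ l ∂m, A ≤ Y l ∧ Y l ≤ b

variable {m : Measure Ω} [IsProbabilityMeasure m] {Y Y' : Ω → ℝ} {A A' b b' : ℝ}

lemma Bd.integrable_log (h : Bd m Y A b) {x t : ℝ} (hx : 0 ≤ x) (ht : x * b < t) :
    Integrable (fun l => Real.log (t - x * Y l)) m := by
  refine Integrable.of_bound (((h.meas.const_mul x).const_sub t).log).aestronglyMeasurable
    (|Real.log (t - x * b)| + |Real.log (t - x * A)|) ?_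
  filter_upwards [h.bd] with l hl
  have h1 : x * Y l ≤ x * b := mul_le_mul_of_nonneg_left hl.2 hx
  have h2 : x * A ≤ x * Y l := mul_le_mul_of_nonneg_left hl.1 hx
  have h3 := log_le_log (by linarith : 0 < t - x * b) (by linarith : t - x * b ≤ t - x * Y l)
  have h4 := log_le_log (by linarith : 0 < t - x * Y l) (by linarith : t - x * Y l ≤ t - x * A)
  rw [Real.norm_eq_abs, abs_le]
  constructor
  · linarith [neg_abs_le (Real.log (t - x * b)), abs_nonneg (Real.log (t - x * A))]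
  · linarith [le_abs_self (Real.log (t - x * A)), abs_nonneg (Real.log (t - x * b))]

lemma Bd.le_sV (h : Bd m Y A b) {x t : ℝ} (hx : 0 ≤ x) (ht : x * b < t) :
    x * A / 2 ≤ sV m Y x t := by
  have h1 : ∫ l, Real.log (t - x * Y l) ∂m ≤ ∫ _l, (t - x * A - 1) ∂m := by
    refine integral_mono_ae (h.integrable_log hx ht) (integrable_const _) ?_
    filter_upwards [h.bd] with l hl
    have h1 : x * Y l ≤ x * b := mul_le_mul_of_nonneg_left hl.2 hx
    have h2 : x * A ≤ x * Y l := mul_le_mul_of_nonneg_left hl.1 hx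
    have := log_le_sub_one_of_pos (by linarith : 0 < t - x * Y l)
    linarith
  simp only [integral_const, probReal_univ, smul_eq_mul, one_mul] at h1
  unfold sV
  linarith

lemma Bd.sI_le (h : Bd m Y A b) {x t : ℝ} (hx : 0 ≤ x) (ht : x * b < t) :
    sI m Y b x ≤ sV m Y x t :=
  ciInf_le (f := fun t : {t : ℝ // x * b < t} => sV m Y x t)
    ⟨x * A / 2, by rintro _ ⟨t, rfl⟩; exact h.le_sV hx t.2⟩ ⟨t, ht⟩

omit [IsProbabilityMeasure m] in
lemma le_sI {x v : ℝ} (h : ∀ t, x * b < t → v ≤ sV m Y x t) : v ≤ sI m Y b x := by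
  have : Nonempty {t : ℝ // x * b < t} := ⟨⟨x * b + 1, by linarith⟩⟩
  exact le_ciInf fun t => h t t.2

omit [IsProbabilityMeasure m] in
lemma Bd.add (h : Bd m Y A b) (d : ℝ) : Bd m (fun l => Y l + d) (A + d) (b + d) :=
  ⟨h.meas.add_const d, by filter_upwards [h.bd] with l hl; constructor <;> linarith [hl.1, hl.2]⟩

omit [IsProbabilityMeasure m] in
lemma sV_shift (x t d : ℝ) : sV m (fun l => Y l + d) x (t + x * d) = sV m Y x t + x * d / 2 := by
  unfold sV
  have : ∀ l, t + x * d - x * (Y l + d) = t - x * Y l := fun l => by ring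
  simp only [this]
  ring

lemma Bd.sI_shift (h : Bd m Y A b) {x : ℝ} (hx : 0 ≤ x) (d : ℝ) :
    sI m (fun l => Y l + d) (b + d) x = sI m Y b x + x * d / 2 := by
  apply le_antisymm
  · rw [← sub_le_iff_le_add]
    refine le_sI fun t ht => ?_
    have := (h.add d).sI_le hx (t := t + x * d) (by linarith)
    rw [sV_shift] at this
    linarith
  · refine le_sI fun t ht => ?_
    have h1 := h.sI_le hx (t := t - x * d) (by linarith)
    have h2 := sV_shift (m := m) (Y := Y) x (t - x * d) d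
    rw [sub_add_cancel] at h2
    linarith

lemma Bd.sV_scale (h : Bd m Y A b) {x g : ℝ} (hx : 0 < x) (hg : b < g) :
    sV m Y x (g * x) = (1 / 2) * (g * x - 1 - Real.log x - ∫ l, Real.log (g - 1 * Y l) ∂m) := by
  unfold sV
  have h1 : ∫ l, Real.log (g * x - x * Y l) ∂m = ∫ l, (Real.log x + Real.log (g - 1 * Y l)) ∂m := by
    refine integral_congr_ae ?_
    filter_upwards [h.bd] with l hl
    rw [← log_mul hx.ne' (by linarith [hl.2])]
    congr 1
    ring
  rw [h1, integral_add (integrable_const _) (h.integrable_log zero_le_one (by linarith))]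
  simp only [integral_const, probReal_univ, smul_eq_mul, one_mul]
  ring

lemma sI_incr (h : Bd m Y A b) (h' : Bd m Y' A' b') (hY : ∀ᵐ l ∂m, Y l ≤ Y' l) (hb : b ≤ b')
    {x x' : ℝ} (hx' : 0 ≤ x') (hx : x' ≤ x) :
    sI m Y b x - sI m Y b x' ≤ sI m Y' b' x - sI m Y' b' x' := by
  have hx0 : 0 ≤ x := hx'.trans hx
  suffices H : ∀ t, x * b' < t → ∀ t', x' * b < t' →
      sI m Y b x + sI m Y' b' x' ≤ sV m Y' x t + sV m Y x' t' by
    have h1 : ∀ t, x * b' < t → sI m Y b x + sI m Y' b' x' - sV m Y' x t ≤ sI m Y b x' :=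
      fun t ht => le_sI fun t' ht' => by linarith [H t ht t' ht']
    have h2 : sI m Y b x + sI m Y' b' x' - sI m Y b x' ≤ sI m Y' b' x :=
      le_sI fun t ht => by linarith [h1 t ht]
    linarith
  intro t ht t' ht'
  have hbb : x * b ≤ x * b' := mul_le_mul_of_nonneg_left hb hx0
  rcases hx'.eq_or_lt with h0 | h0
  · subst h0
    have h1 := h.sI_le hx0 (t := t) (by linarith)
    have h2 := h'.sI_le le_rfl (t := t') (by simpa using ht')
    have h3 : sV m Y' 0 t' = sV m Y 0 t' := by simp [sV]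
    have h4 : ∫ l, Real.log (t - x * Y' l) ∂m ≤ ∫ l, Real.log (t - x * Y l) ∂m := by
      refine integral_mono_ae (h'.integrable_log hx0 ht) (h.integrable_log hx0 (by linarith)) ?_
      filter_upwards [h'.bd, hY] with l hl hl'
      have k1 : x * Y' l ≤ x * b' := mul_le_mul_of_nonneg_left hl.2 hx0
      have k2 : x * Y l ≤ x * Y' l := mul_le_mul_of_nonneg_left hl' hx0
      exact log_le_log (by linarith) (by linarith)
    have h5 : sV m Y x t ≤ sV m Y' x t := by unfold sV; linarith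
    linarith
  have hxp : 0 < x := h0.trans_le hx
  obtain ⟨a, rfl⟩ : ∃ a, t = a * x := ⟨t / x, by field_simp⟩
  obtain ⟨g, rfl⟩ : ∃ g, t' = g * x' := ⟨t' / x', by field_simp⟩
  have ha : b' < a := by nlinarith
  have hg : b < g := by nlinarith
  rw [h'.sV_scale hxp ha, h.sV_scale h0 hg]
  rcases le_or_gt g a with hga | hga
  · have h1 := h.sI_le hx0 (t := g * x) (by nlinarith)
    have h2 := h'.sI_le hx' (t := a * x') (by nlinarith)
    rw [h.sV_scale hxp hg] at h1
    rw [h'.sV_scale h0 ha] at h2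
    nlinarith [mul_nonneg (sub_nonneg.2 hga) (sub_nonneg.2 hx)]
  · have h1 := h.sI_le hx0 (t := a * x) (by nlinarith)
    have h2 := h'.sI_le hx' (t := g * x') (by nlinarith)
    rw [h.sV_scale hxp (by linarith)] at h1
    rw [h'.sV_scale h0 (by linarith)] at h2
    have i1 := h.integrable_log (x := 1) (t := g) zero_le_one (by linarith)
    have i2 := h.integrable_log (x := 1) (t := a) zero_le_one (by linarith)
    have i3 := h'.integrable_log (x := 1) (t := g) zero_le_one (by linarith)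
    have i4 := h'.integrable_log (x := 1) (t := a) zero_le_one (by linarith)
    have h3 : ∫ l, (Real.log (g - 1 * Y l) + Real.log (a - 1 * Y' l)) ∂m ≤
        ∫ l, (Real.log (g - 1 * Y' l) + Real.log (a - 1 * Y l)) ∂m := by
      refine integral_mono_ae (i1.add i4) (i3.add i2) ?_
      filter_upwards [h'.bd, hY] with l hl hl'
      have k1 : 0 < a - 1 * Y' l := by linarith [hl.2]
      have k2 : 0 < a - 1 * Y l := by linarith
      have k3 : 0 < g - 1 * Y' l := by linarith
      have k4 : 0 < g - 1 * Y l := by linarith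
      rw [← log_mul k4.ne' k1.ne', ← log_mul k3.ne' k2.ne']
      refine log_le_log (by positivity) ?_
      nlinarith [mul_nonneg (sub_nonneg.2 hga.le) (sub_nonneg.2 hl')]
    rw [integral_add i1 i4, integral_add i3 i2] at h3
    linarith

/-- the energy functional of a random variable -/
def eE (m : Measure Ω) (Y : Ω → ℝ) (b : ℝ) (k : ℕ) (q : ℕ → ℝ) : ℝ :=
  ∑ j ∈ Finset.range k, (k : ℝ) / (j + 1) * (sI m Y b (th k q j) - sI m Y b (th k q (j + 1)))

lemma th_nonneg {k : ℕ} {q : ℕ → ℝ} (hq : Monotone q) (j : ℕ) : 0 ≤ th k q j :=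
  Finset.sum_nonneg fun i _ => mul_nonneg (by positivity) (sub_nonneg.2 (hq (Nat.le_succ i)))

lemma th_sub {k j : ℕ} (q : ℕ → ℝ) (hj : j < k) :
    th k q j - th k q (j + 1) = ((j : ℝ) + 1) / k * (q (j + 1) - q j) := by
  unfold th
  rw [Finset.sum_eq_sum_Ico_succ_bot hj]
  ring

lemma th_succ_le {k j : ℕ} {q : ℕ → ℝ} (hq : Monotone q) (hj : j < k) :
    th k q (j + 1) ≤ th k q j := by
  have := th_sub q hj
  have h2 : 0 ≤ ((j : ℝ) + 1) / k * (q (j + 1) - q j) :=
    mul_nonneg (by positivity) (sub_nonneg.2 (hq (Nat.le_succ j)))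
  linarith

lemma eE_mono (h : Bd m Y A b) (h' : Bd m Y' A' b') (hY : ∀ᵐ l ∂m, Y l ≤ Y' l) (hb : b ≤ b')
    {k : ℕ} {q : ℕ → ℝ} (hq : AdmQ k q) : eE m Y b k q ≤ eE m Y' b' k q :=
  Finset.sum_le_sum fun j hj => mul_le_mul_of_nonneg_left
    (sI_incr h h' hY hb (th_nonneg hq.2.1 _) (th_succ_le hq.2.1 (Finset.mem_range.1 hj)))
    (by positivity)

lemma eE_shift (h : Bd m Y A b) (d : ℝ) {k : ℕ} {q : ℕ → ℝ} (hq : AdmQ k q) :
    eE m (fun l => Y l + d) (b + d) k q = eE m Y b k q + d / 2 := by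
  unfold eE
  simp only [h.sI_shift (th_nonneg hq.2.1 _)]
  have e : d / 2 = ∑ j ∈ Finset.range k, d / 2 * (q (j + 1) - q j) := by
    rw [← Finset.mul_sum, Finset.sum_range_sub, hq.1, hq.2.2]; ring
  conv_rhs => rw [e]
  rw [← Finset.sum_add_distrib]
  refine Finset.sum_congr rfl fun j hj => ?_
  have hj' := Finset.mem_range.1 hj
  have h1 := th_sub q hj'
  have hk : (k : ℝ) ≠ 0 := by
    have : k ≠ 0 := by omega
    exact_mod_cast this
  have h2 : th k q j = th k q (j + 1) + ((j : ℝ) + 1) / k * (q (j + 1) - q j) := by linarith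
  have h3 : (k : ℝ) / (j + 1) * (((j : ℝ) + 1) / k * (q (j + 1) - q j) * d / 2) =
      d / 2 * (q (j + 1) - q j) := by field_simp
  rw [← h3]
  conv_lhs => enter [2, 1, 2]; rw [h2]
  ring

lemma le_eE (h : Bd m Y A b) (hA : A ≤ b) {k : ℕ} {q : ℕ → ℝ} (hq : AdmQ k q) :
    A / 2 ≤ eE m Y b k q := by
  have h0 : Bd m (fun _ => (0 : ℝ)) 0 0 := ⟨measurable_const, by simp⟩
  have h1 := eE_mono (h0.add A) h (by filter_upwards [h.bd] with l hl; simpa using hl.1)
    (by simpa using hA) hq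
  rw [eE_shift h0 A hq] at h1
  have h2 : ∀ x, sI m (fun _ => (0 : ℝ)) 0 x = sI m (fun _ => (0 : ℝ)) 0 0 := by
    intro x
    have h3 : ∀ x', sI m (fun _ => (0 : ℝ)) 0 x' =
        ⨅ t : {t : ℝ // 0 < t}, (1 / 2) * ((t : ℝ) - 1 - Real.log t) := by
      intro x'
      unfold sI sV
      simp only [mul_zero, sub_zero, integral_const, probReal_univ, smul_eq_mul, one_mul]
      exact Equiv.iInf_congr (Equiv.subtypeEquivRight fun t => by rw [mul_zero]) fun t => rfl
    rw [h3, h3]
  have h3 : eE m (fun _ => (0 : ℝ)) 0 k q = 0 :=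
    Finset.sum_eq_zero fun j _ => by rw [h2, h2 (th k q (j + 1))]; ring
  linarith

lemma casc_zero (k : ℕ) (hk : 0 < k) (Φ : ℝ → ℝ) (n : ℕ) :
    ∀ j x, casc k (fun _ => 0) Φ n j x = Φ x := by
  induction n with
  | zero => intro j x; rfl
  | succ n ih =>
    intro j x
    have hk' : ((j : ℝ) + 1) / k ≠ 0 := by positivity
    simp only [casc, stp, ih, sub_self, sqrt_zero, zero_mul, add_zero, integral_const,
      probReal_univ, smul_eq_mul, one_mul, log_exp]
    field_simp

lemma AdmQ.pos {k : ℕ} {q : ℕ → ℝ} (hq : AdmQ k q) : 0 < k := by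
  rcases Nat.eq_zero_or_pos k with h | h
  · subst h
    have h1 := hq.1
    rw [hq.2.2] at h1
    exact absurd h1 one_ne_zero
  · exact h

lemma le_parisi {μ : Measure ℝ} {b β : ℝ} {k : ℕ} {v : ℝ}
    (h : ∀ q, AdmQ k q → v ≤ EE μ b β k q) : (v : EReal) ≤ parisi μ b β k := by
  refine le_iInf fun q => le_iSup_of_le ⟨fun _ => 0, rfl, monotone_const⟩ ?_
  have h1 : XI k (fun _ => 0) = 0 := by simp [XI, casc_zero k q.2.pos]
  have h2 : pairing k q (fun _ => 0) = 0 := by simp [pairing]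
  simp only [h1, h2, add_zero]
  exact_mod_cast h q q.2

lemma parisi_lt_iff {μ : Measure ℝ} {b β : ℝ} {k : ℕ} {w : ℝ} (h : parisi μ b β k < w) :
    ∃ q, AdmQ k q ∧ ∀ r, AdmR r → EE μ b β k q + XI k r + pairing k q r ≤ w := by
  obtain ⟨q, hq⟩ := iInf_lt_iff.1 h
  refine ⟨q, q.2, fun r hr => ?_⟩
  have := (le_iSup (fun r : {r // AdmR r} =>
    ((EE μ b β k q + XI k r + pairing k q r : ℝ) : EReal)) ⟨r, hr⟩).trans hq.le
  exact_mod_cast this

lemma le_parisi_of_le {μ μ' : Measure ℝ} {b b' β β' d : ℝ} {k : ℕ}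
    (h : ∀ q, AdmQ k q → EE μ b β k q ≤ EE μ' b' β' k q + d) {v : ℝ}
    (hv : (v : EReal) ≤ parisi μ b β k) {η : ℝ} (hη : 0 < η) :
    ((v - d - η : ℝ) : EReal) ≤ parisi μ' b' β' k := by
  by_contra hc
  obtain ⟨q, hq, hr⟩ := parisi_lt_iff (not_le.1 hc)
  have h1 : parisi μ b β k ≤ ((v - η : ℝ) : EReal) := by
    refine iInf_le_of_le ⟨q, hq⟩ (iSup_le fun r => ?_)
    have h2 := hr r r.2
    have h3 := h q hq
    exact_mod_cast (by linarith : EE μ b β k q + XI k r + pairing k q r ≤ v - η)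
  have h4 : v ≤ v - η := by exact_mod_cast hv.trans h1
  linarith

end

end Vale.Agent.P166
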