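import Vale.Agent.P166.RedB
import Vale.Agent.P166.RedC

/-! Empirical counts and discretisation of the spectral measure. -/

namespace Vale.Agent.P166

open MeasureTheory ProbabilityTheory Real Filter Topology Set

noncomputable section

/-- weak convergence of the empirical measures -/
def Weak (m : Measure ℝ) (c : (N : ℕ) → Fin N → ℝ) : Prop :=
  ∀ f : BoundedContinuousFunction ℝ ℝ,
    Tendsto (fun N : ℕ => (N : ℝ)⁻¹ * ∑ i, f (c N i)) atTop (𝓝 (∫ x, f x ∂m))

lemma Weak.tendsto_cnt {m : Measure ℝ} [IsProbabilityMeasure m] {c : (N : ℕ) → Fin N → ℝ}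
    (h : Weak m c) {v : ℝ} (hv : m {v} = 0) :
    Tendsto (fun N : ℕ => (cnt (c N) v : ℝ) / N) atTop (𝓝 (m.real (Iic v))) := by
  have hm : ∀ N : ℕ, Measurable (c N) := fun N => measurable_of_countable _
  let μs : ℕ → ProbabilityMeasure ℝ := fun N =>
    ⟨(uniformOn (univ : Set (Fin (N + 1)))).map (c (N + 1)),
      Measure.isProbabilityMeasure_map (hm _).aemeasurable⟩
  let μ0 : ProbabilityMeasure ℝ := ⟨m, inferInstance⟩
  have h1 : Tendsto μs atTop (𝓝 μ0) := by
    rw [ProbabilityMeasure.tendsto_iff_forall_integral_tendsto]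
    intro f
    refine ((tendsto_add_atTop_iff_nat 1).2 (h f)).congr fun N => ?_
    simp only [μs, ProbabilityMeasure.coe_mk]
    rw [integral_map (hm _).aemeasurable f.continuous.aestronglyMeasurable, integral_uniform,
      Fintype.card_fin]
  have h2 := ProbabilityMeasure.tendsto_measure_of_null_frontier_of_tendsto' h1 (E := Iic v)
    (by rw [frontier_Iic]; exact hv)
  have h3 := (ENNReal.tendsto_toReal (measure_ne_top _ _)).comp h2
  rw [← tendsto_add_atTop_iff_nat 1]
  refine h3.congr fun N => ?_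
  simp only [μs, ProbabilityMeasure.coe_mk, Function.comp]
  rw [← measureReal_def, ← integral_indicator_one measurableSet_Iic,
    integral_map (hm _).aemeasurable
      (measurable_one.indicator measurableSet_Iic).aestronglyMeasurable, integral_uniform,
    Fintype.card_fin, div_eq_inv_mul]
  congr 1
  simp [cnt, indicator]

lemma exists_good (m : Measure ℝ) [IsProbabilityMeasure m] {lo hi : ℝ} (h : lo < hi) (δ : ℝ) :
    ∃ s, lo < s ∧ s < hi ∧ ∀ j : ℕ, m {s - j * δ} = 0 := by
  have h1 : Set.Countable {t : ℝ | 0 < m {a | id a = t}} :=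
    Measure.countable_meas_level_set_pos measurable_id
  have h2 : Set.Countable (⋃ j : ℕ, (fun s : ℝ => s - j * δ) ⁻¹' {t : ℝ | 0 < m {a | id a = t}}) :=
    countable_iUnion fun j => h1.preimage sub_left_injective
  obtain ⟨s, hs1, hs2⟩ := (h2.dense_compl ℝ).exists_mem_open isOpen_Ioo (nonempty_Ioo.2 h)
  refine ⟨s, hs2.1, hs2.2, fun j => ?_⟩
  simp only [mem_compl_iff, mem_iUnion, mem_preimage, mem_ofPred_eq, not_exists, not_lt,
    nonpos_iff_eq_zero] at hs1
  exact hs1 j

lemma integral_atoms {α : Type} [Fintype α] (Λ : Atoms α) (g : ℝ → ℝ) :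
    ∫ l, g l ∂Λ.μ = ∑ a, Λ.p a * g (Λ.c a) := by
  unfold Atoms.μ
  rw [integral_finsetSum_measure fun a _ =>
    (integrable_dirac (by simp)).smul_measure ENNReal.ofReal_ne_top]
  refine Finset.sum_congr rfl fun a _ => ?_
  rw [integral_smul_measure, integral_dirac, ENNReal.toReal_ofReal (Λ.p_pos a).le, smul_eq_mul]

lemma integral_comp_finset {m : Measure ℝ} [IsProbabilityMeasure m] {J : ℝ → ℕ}
    (hJ : Measurable J) (S : Finset ℕ) (hS : ∀ᵐ l ∂m, J l ∈ S) (φ : ℕ → ℝ) :
    ∫ l, φ (J l) ∂m = ∑ j ∈ S, m.real (J ⁻¹' {j}) * φ j := by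
  have h1 : ∫ l, φ (J l) ∂m = ∫ l, ∑ j ∈ S, (J ⁻¹' {j}).indicator (fun _ => φ j) l ∂m := by
    refine integral_congr_ae ?_
    filter_upwards [hS] with l hl
    rw [Finset.sum_eq_single_of_mem (J l) hl fun j _ hj => indicator_of_notMem (by
      simpa using hj.symm) _, indicator_of_mem (by simp)]
  rw [h1, integral_finsetSum _ fun j _ =>
    (integrable_const _).indicator (hJ (measurableSet_singleton j))]
  refine Finset.sum_congr rfl fun j _ => ?_
  rw [integral_indicator_const _ (hJ (measurableSet_singleton j)), smul_eq_mul]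

/-- the hypotheses on the limiting measure -/
structure Spec (m : Measure ℝ) (A B : ℝ) : Prop where
  bd : ∀ᵐ l ∂m, A ≤ l ∧ l ≤ B
  top : ∀ η, 0 < η → 0 < m.real (Ioi (B - η))

lemma Spec.le {m : Measure ℝ} [IsProbabilityMeasure m] {A B : ℝ} (h : Spec m A B) : A ≤ B := by
  obtain ⟨l, hl⟩ := h.bd.exists
  exact hl.1.trans hl.2

lemma exists_atoms {m : Measure ℝ} [IsProbabilityMeasure m] {A B : ℝ} (h : Spec m A B) {δ : ℝ}
    (hδ : 0 < δ) : ∃ (S : Finset ℕ) (Λ : Atoms S) (κ : ℝ) (V : Finset ℝ), B < κ ∧ κ < B + δ ∧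
      (∀ a, κ + Λ.c a ∈ V ∧ κ + Λ.c a - δ ∈ V ∧ A ≤ κ + Λ.c a) ∧
      (∀ v ∈ V, m {v} = 0 ∧
        ∑ a ∈ Finset.univ.filter (fun a => κ + Λ.c a ≤ v), Λ.p a = m.real (Iic v)) ∧
      ∀ k q, AdmQ k q → A - κ ≤ 2 * EE Λ.μ 0 1 k q ∧ EE m B 1 k q ≤ EE Λ.μ 0 1 k q + κ / 2 ∧
        EE Λ.μ 0 1 k q ≤ EE m B 1 k q + (δ - κ) / 2 := by
  obtain ⟨κ, hκ1, hκ2, hκ⟩ := exists_good m (lo := B) (hi := B + δ) (by linarith) δ
  have hAB := h.le
  set J : ℝ → ℕ := fun l => ⌊(κ - l) / δ⌋₊ with hJ
  have hJm : Measurable J := (measurable_id.const_sub κ |>.div_const δ).nat_floor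
  set K := ⌊(κ - A) / δ⌋₊ with hK
  set S : Finset ℕ := (Finset.range (K + 1)).filter fun j => 0 < m.real (J ⁻¹' {j}) with hS
  have hJK : ∀ l, A ≤ l → J l ≤ K := fun l hl => Nat.floor_mono (by gcongr)
  have hJ1 : ∀ l, l ≤ κ → (J l : ℝ) * δ ≤ κ - l := fun l hl => by
    rw [← le_div_iff₀ hδ]; exact Nat.floor_le (div_nonneg (by linarith) hδ.le)
  have hJ2 : ∀ l, κ - l < (J l + 1) * δ := fun l => by
    rw [← div_lt_iff₀ hδ]; exact Nat.lt_floor_add_one _
  have hJS : ∀ᵐ l ∂m, J l ∈ S := by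
    have h1 : ∀ j : ℕ, ∀ᵐ l ∂m, J l = j → 0 < m.real (J ⁻¹' {j}) := by
      intro j
      by_cases hj : 0 < m.real (J ⁻¹' {j})
      · exact Eventually.of_forall fun _ _ => hj
      · have h0 : m (J ⁻¹' {j}) = 0 := by
          rw [← measureReal_eq_zero_iff]
          exact le_antisymm (not_lt.1 hj) measureReal_nonneg
        filter_upwards [measure_eq_zero_iff_ae_notMem.1 h0] with l hl hl'
        exact absurd hl' hl
    filter_upwards [ae_all_iff.2 h1, h.bd] with l hl hl'
    exact Finset.mem_filter.2 ⟨Finset.mem_range.2 (Nat.lt_succ_of_le (hJK l hl'.1)), hl _ rfl⟩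
  have hint := integral_comp_finset hJm S hJS
  have h0S : 0 ∈ S := by
    refine Finset.mem_filter.2 ⟨by simp, (h.top (B + δ - κ) (by linarith)).trans_le ?_⟩
    refine measureReal_mono (fun l hl => ?_)
    simp only [mem_Ioi] at hl
    simp only [mem_preimage, mem_singleton_iff, hJ]
    rw [Nat.floor_eq_zero, div_lt_one hδ]
    linarith
  let Λ : Atoms S :=
    { c := fun a => -((a : ℕ) * δ)
      p := fun a => m.real (J ⁻¹' {(a : ℕ)})
      top := ⟨0, h0S⟩
      c_top := by simp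
      c_neg := fun a ha => by
        have : (a : ℕ) ≠ 0 := fun e => ha (Subtype.ext e)
        have : (0 : ℝ) < (a : ℕ) := by positivity
        nlinarith
      p_pos := fun a => (Finset.mem_filter.1 a.2).2
      p_sum := by
        have := hint fun _ => 1
        rw [Finset.sum_coe_sort S fun j => m.real (J ⁻¹' {j})]
        simpa using this.symm }
  have hΛ : ∀ g : ℝ → ℝ, ∑ a, Λ.p a * g (Λ.c a) = ∫ l, g (-(J l * δ)) ∂m := by
    intro g
    rw [hint fun j => g (-(j * δ))]
    exact Finset.sum_coe_sort S fun j => m.real (J ⁻¹' {j}) * g (-(j * δ))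
  have hKA : (K : ℝ) * δ ≤ κ - A := hJ1 A (by linarith)
  refine ⟨S, Λ, κ, (Finset.range (K + 2)).image fun j : ℕ => κ - j * δ, hκ1, hκ2, fun a => ?_,
    fun v hv => ?_, fun k q hq => ?_⟩
  · have ha : (a : ℕ) < K + 1 := Finset.mem_range.1 (Finset.mem_filter.1 a.2).1
    refine ⟨Finset.mem_image.2 ⟨a, Finset.mem_range.2 (by omega), by simp only [Λ]; ring⟩,
      Finset.mem_image.2 ⟨a + 1, Finset.mem_range.2 (by omega), by simp only [Λ]; push_cast; ring⟩,
      ?_⟩
    have : ((a : ℕ) : ℝ) ≤ K := by exact_mod_cast Nat.lt_succ_iff.1 ha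
    simp only [Λ]
    nlinarith
  · obtain ⟨j, -, rfl⟩ := Finset.mem_image.1 hv
    refine ⟨hκ j, ?_⟩
    have h1 := hΛ fun y => if κ + y ≤ κ - j * δ then 1 else 0
    rw [Finset.sum_filter, ← integral_indicator_one measurableSet_Iic]
    simp only [mul_ite, mul_one, mul_zero] at h1
    rw [h1]
    refine integral_congr_ae ?_
    filter_upwards [h.bd] with l hl
    have h2 : κ + -(J l * δ) ≤ κ - j * δ ↔ l ≤ κ - j * δ := by
      constructor
      · intro h3
        linarith [hJ1 l (by linarith [hl.2])]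
      · intro h3
        have h4 : j ≤ J l := Nat.le_floor (by rw [le_div_iff₀ hδ]; linarith)
        have h5 : (j : ℝ) ≤ J l := by exact_mod_cast h4
        nlinarith
    simp only [indicator, mem_Iic, Pi.one_apply, h2]
  · have e1 : EE m B 1 k q = eE m id B k q := by
      simp only [EE, eE, one_mul]; rfl
    have e2 : EE Λ.μ 0 1 k q = eE m (fun l => -(J l * δ)) 0 k q := by
      have : ∀ x, sphI Λ.μ 0 x = sI m (fun l => -(J l * δ)) 0 x := by
        intro x
        unfold sphI sI sV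
        refine iInf_congr fun t => ?_
        rw [integral_atoms, hΛ fun y => Real.log (t - x * y)]
      simp only [EE, eE, one_mul, this]
    have b1 : Bd m id A B := ⟨measurable_id, h.bd⟩
    have b2 : Bd m (fun l => -(J l * δ)) (A - κ) 0 := by
      refine ⟨((measurable_from_nat.comp hJm).mul_const δ).neg, ?_⟩
      filter_upwards [h.bd] with l hl
      have : 0 ≤ (J l : ℝ) * δ := by positivity
      constructor <;> linarith [hJ1 l (by linarith [hl.2]), hl.1]
    have k1 := le_eE b2 (by linarith) hq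
    have k2 := eE_mono b1 (b2.add κ) (by
      filter_upwards [h.bd] with l hl
      simp only [id]
      linarith [hJ1 l (by linarith [hl.2])]) (by linarith) hq
    have k3 := eE_mono b2 (b1.add (δ - κ)) (by
      filter_upwards with l
      simp only [id]
      linarith [hJ2 l]) (by linarith) hq
    rw [eE_shift b2 κ hq] at k2
    rw [eE_shift b1 _ hq] at k3
    rw [e1, e2]
    exact ⟨by linarith, k2, k3⟩

lemma Atoms.c_le {α : Type} [Fintype α] (Λ : Atoms α) (a : α) : Λ.c a ≤ 0 := by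
  by_cases h : a = Λ.top
  · rw [h, Λ.c_top]
  · exact (Λ.c_neg a h).le

lemma Atoms.Freq.tendsto_cnt {α : Type} [Fintype α] [DecidableEq α] {Λ : Atoms α}
    {ℓ : (N : ℕ) → Fin N → α} (h : Λ.Freq ℓ) (κ v : ℝ) :
    Tendsto (fun N : ℕ => (cnt (fun i => κ + Λ.c (ℓ N i)) v : ℝ) / N) atTop
      (𝓝 (∑ a ∈ Finset.univ.filter (fun a => κ + Λ.c a ≤ v), Λ.p a)) := by
  refine (tendsto_finsetSum _ fun a _ => h a).congr fun N => ?_
  rw [← Finset.sum_div, ← Nat.cast_sum]
  congr 2
  unfold cnt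
  rw [Finset.card_eq_sum_card_fiberwise (f := ℓ N)
    (t := Finset.univ.filter fun a => κ + Λ.c a ≤ v) fun i hi => by simpa using hi]
  refine Finset.sum_congr rfl fun a ha => ?_
  congr 1
  ext i
  simp only [Finset.mem_filter, Finset.mem_univ, true_and] at ha ⊢
  constructor
  · intro h1
    exact ⟨by rw [h1]; exact ha, h1⟩
  · exact fun h1 => h1.2

lemma Atoms.Freq.top_le {α : Type} [Fintype α] [DecidableEq α] {Λ : Atoms α}
    {ℓ : (N : ℕ) → Fin N → α} (h : Λ.Freq ℓ) : ∀ᶠ N : ℕ in atTop,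
      Λ.p Λ.top / 2 * N ≤ (Finset.univ.filter fun i => ℓ N i = Λ.top).card := by
  have h1 := (h Λ.top).eventually (lt_mem_nhds (half_lt_self (Λ.p_pos Λ.top)))
  filter_upwards [h1, eventually_gt_atTop 0] with N hN hN0
  have : (0 : ℝ) < N := by exact_mod_cast hN0
  rw [lt_div_iff₀ this] at hN
  exact hN.le

end

end Vale.Agent.P166
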