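import Vale.Agent.P166.CalcA
import Vale.Agent.P166.RedD

/-! The spherical integral of an atomic spectrum. -/

namespace Vale.Agent.P166

open MeasureTheory ProbabilityTheory Real Finset Matrix Filter Topology
open Vale.Agent.P157 (Sys St γ GS s0 YY mm pp sh DirD pull mrg Rg Sp νB xB)
open scoped ENNReal

variable {α : Type} [Fintype α] {p e : α → ℝ} {x y C : ℝ}

omit [Fintype α] in
theorem calcB_D (he : ∀ a, 0 ≤ e a) (hx : 0 ≤ x) (a : α) : 1 ≤ 1 + e a * x :=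
  le_add_of_nonneg_right (mul_nonneg (he a) hx)

theorem calcB_sum_pos (hp : ∀ a, 0 ≤ p a) (h1 : ∑ a, p a = 1) {D : α → ℝ} (hD : ∀ a, 0 < D a) :
    0 < ∑ a, p a / D a := by
  obtain ⟨a, -, ha⟩ := Finset.exists_ne_zero_of_sum_ne_zero (h1.trans_ne one_ne_zero)
  exact Finset.sum_pos' (fun b _ => div_nonneg (hp b) (hD b).le)
    ⟨a, mem_univ a, div_pos ((hp a).lt_of_ne' ha) (hD a)⟩

theorem calcB_mean {w w' : α → ℝ} {M : ℝ} (hw : 0 < ∑ a, w a) (hw' : 0 < ∑ a, w' a)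
    (h : ∀ a b, 0 ≤ (e a - e b) * (w a * w' b - w b * w' a) ∧
      (e a - e b) * (w a * w' b - w b * w' a) ≤ M * (w a * w' b + w b * w' a)) :
    0 ≤ (∑ a, w a * e a) / (∑ a, w a) - (∑ a, w' a * e a) / (∑ a, w' a) ∧
      (∑ a, w a * e a) / (∑ a, w a) - (∑ a, w' a * e a) / (∑ a, w' a) ≤ M := by
  have e1 : ∑ a, ∑ b, (e a - e b) * (w a * w' b - w b * w' a) =
      2 * ((∑ a, w a * e a) * (∑ a, w' a) - (∑ a, w a) * (∑ a, w' a * e a)) := by
    have h2 : ∀ a b, (e a - e b) * (w a * w' b - w b * w' a) =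
        (w a * e a) * w' b - (w' a * e a) * w b - w a * (w' b * e b) + w' a * (w b * e b) :=
      fun a b => by ring
    simp only [h2, Finset.sum_add_distrib, Finset.sum_sub_distrib, ← Finset.mul_sum,
      ← Finset.sum_mul]
    ring
  have e2 : ∑ a, ∑ b, M * (w a * w' b + w b * w' a) = 2 * (M * ((∑ a, w a) * ∑ a, w' a)) := by
    have h2 : ∀ a b, M * (w a * w' b + w b * w' a) = M * (w a * w' b + w' a * w b) :=
      fun a b => by ring
    simp only [h2, Finset.sum_add_distrib, ← Finset.mul_sum, ← Finset.sum_mul]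
    ring
  have h3 : 0 ≤ ∑ a, ∑ b, (e a - e b) * (w a * w' b - w b * w' a) :=
    Finset.sum_nonneg fun a _ => Finset.sum_nonneg fun b _ => (h a b).1
  have h4 : ∑ a, ∑ b, (e a - e b) * (w a * w' b - w b * w' a) ≤
      ∑ a, ∑ b, M * (w a * w' b + w b * w' a) :=
    Finset.sum_le_sum fun a _ => Finset.sum_le_sum fun b _ => (h a b).2
  rw [e1] at h3
  rw [e1, e2] at h4
  rw [div_sub_div _ _ hw.ne' hw'.ne']
  exact ⟨div_nonneg (by linarith) (mul_pos hw hw').le,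
    (div_le_iff₀ (mul_pos hw hw')).2 (by linarith)⟩

theorem calcB_mean_mem {w : α → ℝ} (hw0 : ∀ a, 0 ≤ w a) (hw : 0 < ∑ a, w a)
    (he : ∀ a, 0 ≤ e a ∧ e a ≤ C) :
    0 ≤ (∑ a, w a * e a) / (∑ a, w a) ∧ (∑ a, w a * e a) / (∑ a, w a) ≤ C := by
  refine ⟨div_nonneg (Finset.sum_nonneg fun a _ => mul_nonneg (hw0 a) (he a).1) hw.le, ?_⟩
  rw [div_le_iff₀ hw, Finset.mul_sum]
  exact Finset.sum_le_sum fun a _ => by nlinarith [hw0 a, (he a).2]

theorem calcB_key {d δ u v r t C : ℝ} (hr : 0 ≤ r) (hδ : 0 ≤ δ) (hd : d ^ 2 ≤ C ^ 2)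
    (hu : 0 < u) (hv : 0 < v) (ht : 0 ≤ t) (ht' : t ≤ u + v) (h : u - v = d * δ * t) :
    0 ≤ d * (r / v - r / u) ∧ d * (r / v - r / u) ≤ C ^ 2 * δ * (r / v + r / u) := by
  have e1 : d * (r / v - r / u) = r * δ * (d ^ 2 * t) / (u * v) := by
    rw [div_sub_div _ _ hv.ne' hu.ne', show r * u - v * r = r * (u - v) by ring, h]
    field_simp
  have e2 : C ^ 2 * δ * (r / v + r / u) = r * δ * (C ^ 2 * (u + v)) / (u * v) := by
    field_simp
  rw [e1, e2]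
  refine ⟨by positivity, div_le_div_of_nonneg_right (mul_le_mul_of_nonneg_left
    (mul_le_mul hd ht' ht (sq_nonneg C)) (mul_nonneg hr hδ)) (mul_pos hu hv).le⟩

/-- means of the gaps with weights `p / (1 + e x) ^ n` -/
noncomputable def calcBm (n : ℕ) (p e : α → ℝ) (x : ℝ) : ℝ :=
  (∑ a, p a / (1 + e a * x) ^ n * e a) / ∑ a, p a / (1 + e a * x) ^ n

theorem calcB_m_mem (n : ℕ) (hp : ∀ a, 0 ≤ p a) (h1 : ∑ a, p a = 1)
    (he : ∀ a, 0 ≤ e a ∧ e a ≤ C) (hx : 0 ≤ x) : 0 ≤ calcBm n p e x ∧ calcBm n p e x ≤ C := by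
  have hD := fun a => pow_pos (one_pos.trans_le (calcB_D (fun a => (he a).1) hx a)) n
  exact calcB_mean_mem (fun a => div_nonneg (hp a) (hD a).le) (calcB_sum_pos hp h1 hD) he

theorem calcB_m_sub {n : ℕ} (hn : n = 1 ∨ n = 2) (hp : ∀ a, 0 ≤ p a) (h1 : ∑ a, p a = 1)
    (he : ∀ a, 0 ≤ e a ∧ e a ≤ C) (hx : 0 ≤ x) (hxy : x ≤ y) :
    0 ≤ calcBm n p e x - calcBm n p e y ∧ calcBm n p e x - calcBm n p e y ≤ C ^ 2 * (y - x) := by
  have hX := calcB_D (fun a => (he a).1) hx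
  have hY := calcB_D (fun a => (he a).1) (hx.trans hxy)
  have hX' := fun a => one_pos.trans_le (hX a)
  have hY' := fun a => one_pos.trans_le (hY a)
  refine calcB_mean (calcB_sum_pos hp h1 fun a => pow_pos (hX' a) n)
    (calcB_sum_pos hp h1 fun a => pow_pos (hY' a) n) fun a b => ?_
  rw [div_mul_div_comm, div_mul_div_comm, ← mul_pow, ← mul_pow, mul_comm (p b) (p a)]
  have hd : (e a - e b) ^ 2 ≤ C ^ 2 :=
    sq_le_sq' (by linarith [(he a).1, (he b).2]) (by linarith [(he a).2, (he b).1])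
  have hu := one_le_mul_of_one_le_of_one_le (hX b) (hY a)
  have hv := one_le_mul_of_one_le_of_one_le (hX a) (hY b)
  have huv : (1 + e b * x) * (1 + e a * y) - (1 + e a * x) * (1 + e b * y) =
      (e a - e b) * (y - x) := by ring
  generalize (1 + e b * x) * (1 + e a * y) = u at hu huv
  generalize (1 + e a * x) * (1 + e b * y) = v at hv huv
  rcases hn with rfl | rfl
  · refine calcB_key (t := 1) (mul_nonneg (hp a) (hp b)) (sub_nonneg.2 hxy) hd (by positivity)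
      (by positivity) zero_le_one (by rw [pow_one, pow_one]; linarith) ?_
    rw [pow_one, pow_one, huv, mul_one]
  · refine calcB_key (t := u + v) (mul_nonneg (hp a) (hp b)) (sub_nonneg.2 hxy) hd
      (by positivity) (by positivity) (by positivity) (by nlinarith) ?_
    rw [← huv]
    ring

theorem calcB_kap (p e : α → ℝ) (x : ℝ) : kapF p e x = -calcBm 1 p e x := by
  simp only [kapF, calcBm, tauF, pow_one, neg_div, div_mul_eq_mul_div]

theorem tauF_pos (hp : ∀ a, 0 ≤ p a) (h1 : ∑ a, p a = 1) (he : ∀ a, 0 ≤ e a) (hx : 0 ≤ x) :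
    0 < tauF p e x := by
  exact calcB_sum_pos hp h1 fun a => one_pos.trans_le (calcB_D he hx a)
theorem kap_tau (hp : ∀ a, 0 ≤ p a) (h1 : ∑ a, p a = 1) (he : ∀ a, 0 ≤ e a) (hx : 0 ≤ x) :
    kapF p e x * (x * tauF p e x) = tauF p e x - 1 := by
  have h := tauF_pos hp h1 he hx
  rw [kapF, mul_comm x, ← mul_assoc, div_mul_cancel₀ _ h.ne', tauF, eq_sub_iff_add_eq,
    neg_mul, Finset.sum_mul, ← Finset.sum_neg_distrib]
  refine Eq.trans (congrArg _ h1.symm) ?_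
  rw [← Finset.sum_add_distrib]
  refine Finset.sum_congr rfl fun a _ => ?_
  rw [eq_div_iff (one_pos.trans_le (calcB_D he hx a)).ne', add_mul, neg_mul, mul_right_comm,
    div_mul_cancel₀ _ (one_pos.trans_le (calcB_D he hx a)).ne']
  ring
theorem kapF_mem (hp : ∀ a, 0 ≤ p a) (h1 : ∑ a, p a = 1) (he : ∀ a, 0 ≤ e a ∧ e a ≤ C)
    (hx : 0 ≤ x) : -C ≤ kapF p e x ∧ kapF p e x ≤ 0 := by
  have h := calcB_m_mem 1 hp h1 he hx
  rw [calcB_kap]
  exact ⟨by linarith [h.2], by linarith [h.1]⟩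
theorem kapF_sub (hp : ∀ a, 0 ≤ p a) (h1 : ∑ a, p a = 1) (he : ∀ a, 0 ≤ e a ∧ e a ≤ C)
    (hx : 0 ≤ x) (hxy : x ≤ y) :
    0 ≤ kapF p e y - kapF p e x ∧ kapF p e y - kapF p e x ≤ C ^ 2 * (y - x) := by
  have h := calcB_m_sub (Or.inl rfl) hp h1 he hx hxy
  rw [calcB_kap, calcB_kap]
  exact ⟨by linarith [h.1], by linarith [h.2]⟩
theorem rhoA_nonneg (hp : ∀ a, 0 ≤ p a) (h1 : ∑ a, p a = 1) (he : ∀ a, 0 ≤ e a) {k : ℕ} {P : ℝ}
    {A : ℕ → ℝ} (hA : IsPath k P A) (j : ℕ) : 0 ≤ rhoA k p e A j := by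
  have h := kapF_sub (C := ∑ a, e a) hp h1
    (fun a => ⟨he a, Finset.single_le_sum (fun b _ => he b) (mem_univ a)⟩) (hA.th_mem (j + 1)).1
    (thv_anti (fun i _ => hA.inc_nonneg i) (Nat.le_succ j))
  exact mul_nonneg (by positivity) h.1
theorem sum_rhoA_le (hp : ∀ a, 0 ≤ p a) (h1 : ∑ a, p a = 1) (he : ∀ a, 0 ≤ e a ∧ e a ≤ C) {k : ℕ}
    {P : ℝ} {A : ℕ → ℝ} (hA : IsPath k P A) : ∑ j ∈ range k, rhoA k p e A j ≤ C ^ 2 * P := by
  have h2 : ∀ j ∈ range k, rhoA k p e A j ≤ C ^ 2 * inc A j := fun j hj => by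
    have hj := Finset.mem_range.1 hj
    have h := (kapF_sub hp h1 he (hA.th_mem (j + 1)).1
      (thv_anti (fun i _ => hA.inc_nonneg i) (Nat.le_succ j))).2
    have hk : (0 : ℝ) < k := Nat.cast_pos.2 (by omega)
    refine (mul_le_mul_of_nonneg_left h (by positivity)).trans (le_of_eq ?_)
    rw [thv_succ hj, th_eq_thv]
    field_simp
    ring
  refine (Finset.sum_le_sum h2).trans ?_
  rw [← Finset.mul_sum, hA.sum_inc]
  exact mul_le_mul_of_nonneg_left hA.2.2 (sq_nonneg C)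

theorem Atoms.e_nonneg (Λ : Atoms α) {s : ℝ} (hs : 0 ≤ s) (a : α) : 0 ≤ Λ.e s a := by
  exact neg_nonneg.2 (mul_nonpos_of_nonneg_of_nonpos hs (Λ.c_le a))
theorem Atoms.e_top (Λ : Atoms α) (s : ℝ) : Λ.e s Λ.top = 0 := by
  simp [Atoms.e, Λ.c_top]
theorem Atoms.e_bd (Λ : Atoms α) : ∃ c0 > (0 : ℝ), ∃ C ≥ (0 : ℝ), ∀ s, 0 ≤ s →
    (∀ a, Λ.e s a ≤ C * s) ∧ ∀ a, a ≠ Λ.top → c0 * s ≤ Λ.e s a := by
  classical
  obtain ⟨b, -, hb⟩ := Finset.exists_min_image univ (fun a => if a = Λ.top then 1 else -Λ.c a)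
    ⟨Λ.top, mem_univ _⟩
  refine ⟨if b = Λ.top then 1 else -Λ.c b, ?_, ∑ a, -Λ.c a,
    Finset.sum_nonneg fun a _ => neg_nonneg.2 (Λ.c_le a), fun s hs => ⟨fun a => ?_, fun a ha => ?_⟩⟩
  · split_ifs with h
    · exact one_pos
    · exact neg_pos.2 (Λ.c_neg b h)
  · have h := Finset.single_le_sum (f := fun a => -Λ.c a)
      (fun a _ => neg_nonneg.2 (Λ.c_le a)) (mem_univ a)
    have := mul_le_mul_of_nonneg_right h hs
    unfold Atoms.e
    linarith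
  · have h := hb a (mem_univ a)
    rw [if_neg ha] at h
    have := mul_le_mul_of_nonneg_right h hs
    unfold Atoms.e
    linarith

theorem sphI_atoms (Λ : Atoms α) (hx : 0 ≤ x) : sphI Λ.μ 0 (x * tauF Λ.p (Λ.e 1) x) =
    (1 / 2) * (tauF Λ.p (Λ.e 1) x - 1 - log (tauF Λ.p (Λ.e 1) x) -
      ∑ a, Λ.p a * log (1 + Λ.e 1 a * x)) := by
  have hp := fun a => (Λ.p_pos a).le
  have he := Λ.e_nonneg zero_le_one
  have hτ := tauF_pos hp Λ.p_sum he hx
  have hD := fun a => one_pos.trans_le (calcB_D he hx a)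
  have hs : ∑ a, Λ.p a / (1 + Λ.e 1 a * x) = tauF Λ.p (Λ.e 1) x := rfl
  set τ := tauF Λ.p (Λ.e 1) x
  have e0 : ∀ t a, t - x * τ * Λ.c a = t + x * τ * Λ.e 1 a := fun t a => by
    unfold Atoms.e
    ring
  have e1 : ∀ a, log (τ + x * τ * Λ.e 1 a) = log τ + log (1 + Λ.e 1 a * x) := fun a => by
    rw [← log_mul hτ.ne' (hD a).ne']
    congr 1
    ring
  have e2 : ∑ a, Λ.p a * (log τ + log (1 + Λ.e 1 a * x)) =
      log τ + ∑ a, Λ.p a * log (1 + Λ.e 1 a * x) := by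
    simp only [mul_add, Finset.sum_add_distrib, ← Finset.sum_mul, Λ.p_sum, one_mul]
  have low : ∀ t : {t : ℝ // x * τ * 0 < t}, (1 / 2) * (τ - 1 - log τ -
      ∑ a, Λ.p a * log (1 + Λ.e 1 a * x)) ≤
      (1 / 2) * ((t : ℝ) - 1 - ∫ l, Real.log (t - x * τ * l) ∂Λ.μ) := by
    rintro ⟨t, ht⟩
    rw [mul_zero] at ht
    rw [integral_atoms]
    have h3 : ∀ a, Λ.p a * log (t - x * τ * Λ.c a) ≤ Λ.p a * (log τ + log (1 + Λ.e 1 a * x)) +
        (t - τ) / τ * (Λ.p a / (1 + Λ.e 1 a * x)) := fun a => by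
      have h4 : 0 < t + x * τ * Λ.e 1 a := by have := he a; positivity
      have h5 : 0 < τ + x * τ * Λ.e 1 a := by have := he a; positivity
      have h6 := Real.log_le_sub_one_of_pos (div_pos h4 h5)
      rw [log_div h4.ne' h5.ne', e1] at h6
      have h7 : (t + x * τ * Λ.e 1 a) / (τ + x * τ * Λ.e 1 a) - 1 =
          (t - τ) / τ * (1 / (1 + Λ.e 1 a * x)) := by
        rw [div_sub_one h5.ne', div_mul_div_comm]
        congr 1 <;> ring
      rw [h7] at h6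
      have h8 := mul_le_mul_of_nonneg_left h6 (hp a)
      rw [e0, div_eq_mul_one_div (Λ.p a)]
      linarith
    have h9 := Finset.sum_le_sum fun a (_ : a ∈ univ) => h3 a
    rw [Finset.sum_add_distrib, e2, ← Finset.mul_sum, hs, div_mul_cancel₀ _ hτ.ne'] at h9
    linarith
  have : Nonempty {t : ℝ // x * τ * 0 < t} := ⟨⟨τ, by simpa using hτ⟩⟩
  refine le_antisymm ((ciInf_le ⟨_, Set.forall_mem_range.2 low⟩ ⟨τ, by simpa using hτ⟩).trans
    (le_of_eq ?_)) (le_ciInf low)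
  rw [integral_atoms]
  simp only [e0, e1, e2]
  ring

omit [Fintype α] in
theorem calcB_dD (a : α) (x : ℝ) : HasDerivAt (fun x => 1 + e a * x) (e a) x := by
  simpa using ((hasDerivAt_id x).const_mul (e a)).const_add 1

theorem calcB_dtau (he : ∀ a, 0 ≤ e a) (hx : 0 ≤ x) :
    HasDerivAt (tauF p e) (-∑ a, p a / (1 + e a * x) ^ 2 * e a) x := by
  have h := HasDerivAt.fun_sum (u := univ) fun a _ => (hasDerivAt_const x (p a)).fun_div
    (calcB_dD (e := e) a x) (one_pos.trans_le (calcB_D he hx a)).ne'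
  rw [← Finset.sum_neg_distrib]
  refine h.congr_deriv (Finset.sum_congr rfl fun a _ => ?_)
  ring

theorem calcB_W (he : ∀ a, 0 ≤ e a) (hx : 0 ≤ x) :
    tauF p e x + x * -∑ a, p a / (1 + e a * x) ^ 2 * e a = ∑ a, p a / (1 + e a * x) ^ 2 := by
  rw [tauF, mul_neg, Finset.mul_sum, ← sub_eq_add_neg, ← Finset.sum_sub_distrib]
  refine Finset.sum_congr rfl fun a _ => ?_
  have := one_pos.trans_le (calcB_D he hx a)
  field_simp
  ring

theorem calcB_dTh (he : ∀ a, 0 ≤ e a) (hx : 0 ≤ x) :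
    HasDerivAt (fun x => x * tauF p e x) (∑ a, p a / (1 + e a * x) ^ 2) x := by
  refine ((hasDerivAt_id' x).fun_mul (calcB_dtau (p := p) he hx)).congr_deriv ?_
  rw [one_mul, calcB_W he hx]

theorem calcB_dF (hp : ∀ a, 0 ≤ p a) (h1 : ∑ a, p a = 1) (he : ∀ a, 0 ≤ e a) (hx : 0 ≤ x) :
    HasDerivAt (fun x => (1 / 2) * (tauF p e x - 1 - log (tauF p e x) -
      ∑ a, p a * log (1 + e a * x))) (kapF p e x / 2 * ∑ a, p a / (1 + e a * x) ^ 2) x := by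
  have hτ := tauF_pos hp h1 he hx
  have h2 := calcB_dtau (p := p) he hx
  have h3 := HasDerivAt.fun_sum (u := univ) fun a _ => ((calcB_dD (e := e) a x).log
    (one_pos.trans_le (calcB_D he hx a)).ne').const_mul (p a)
  refine ((((h2.sub_const 1).fun_sub (h2.log hτ.ne')).fun_sub h3).const_mul (1 / 2)).congr_deriv ?_
  have h4 := kap_tau hp h1 he hx
  have h5 : ∑ a, p a * (e a / (1 + e a * x)) = -(kapF p e x * tauF p e x) := by
    rw [kapF, div_mul_cancel₀ _ hτ.ne', neg_neg]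
    simp only [mul_div_assoc]
  rw [← calcB_W he hx, h5]
  generalize -∑ a, p a / (1 + e a * x) ^ 2 * e a = T
  field_simp
  linear_combination (-T) * h4

theorem calcB_Th_sub (hp : ∀ a, 0 ≤ p a) (he : ∀ a, 0 ≤ e a) {b : α} (hb : e b = 0) (hx : 0 ≤ x)
    (hxy : x ≤ y) : p b * (y - x) ≤ y * tauF p e y - x * tauF p e x := by
  have hX := fun a => one_pos.trans_le (calcB_D he hx a)
  have hY := fun a => one_pos.trans_le (calcB_D he (hx.trans hxy) a)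
  have h1 : y * tauF p e y - x * tauF p e x =
      ∑ a, p a * (y - x) / ((1 + e a * x) * (1 + e a * y)) := by
    rw [tauF, tauF, Finset.mul_sum, Finset.mul_sum, ← Finset.sum_sub_distrib]
    refine Finset.sum_congr rfl fun a _ => ?_
    rw [← mul_div_assoc, ← mul_div_assoc, div_sub_div _ _ (hY a).ne' (hX a).ne']
    congr 1 <;> ring
  rw [h1]
  refine le_trans (le_of_eq ?_) (Finset.single_le_sum (fun a _ => div_nonneg
    (mul_nonneg (hp a) (sub_nonneg.2 hxy)) (mul_pos (hX a) (hY a)).le) (mem_univ b))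
  simp [hb]

theorem calcB_inv (hp : ∀ a, 0 ≤ p a) (h1 : ∑ a, p a = 1) (he : ∀ a, 0 ≤ e a) {b : α}
    (hb : e b = 0) (hpb : 0 < p b) : ∃ g : ℝ → ℝ, (∀ θ, 0 ≤ θ → 0 ≤ g θ) ∧
      (∀ θ, 0 ≤ θ → g θ * tauF p e (g θ) = θ) ∧ (∀ x, 0 ≤ x → g (x * tauF p e x) = x) ∧
      (∀ x y, 0 ≤ x → x ≤ y → g x ≤ g y ∧ g y - g x ≤ (p b)⁻¹ * (y - x)) ∧
      ∀ θ, 0 ≤ θ → HasDerivWithinAt g (∑ a, p a / (1 + e a * g θ) ^ 2)⁻¹ (Set.Ici 0) θ := by
  have hex : ∀ θ : ℝ, ∃ x, 0 ≤ θ → 0 ≤ x ∧ x * tauF p e x = θ := fun θ => by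
    by_cases h : 0 ≤ θ
    · have h2 : 0 ≤ θ / p b := div_nonneg h hpb.le
      have h3 := calcB_Th_sub hp he hb le_rfl h2
      rw [sub_zero, zero_mul, sub_zero, mul_div_cancel₀ _ hpb.ne'] at h3
      obtain ⟨x, hx, hx'⟩ := intermediate_value_Icc h2 (f := fun x => x * tauF p e x)
        (fun x hx => (calcB_dTh he hx.1).continuousAt.continuousWithinAt)
        ⟨(zero_mul _).trans_le h, h3⟩
      exact ⟨x, fun _ => ⟨hx.1, hx'⟩⟩
    · exact ⟨0, fun h' => absurd h' h⟩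
  choose g hg using hex
  have hm : ∀ x y, 0 ≤ x → x ≤ y → g x ≤ g y ∧ g y - g x ≤ (p b)⁻¹ * (y - x) := by
    intro x y hx hxy
    have hy := hx.trans hxy
    have h2 : g x ≤ g y := by
      by_contra h
      have h3 := calcB_Th_sub hp he hb (hg y hy).1 (not_le.1 h).le
      rw [(hg x hx).2, (hg y hy).2] at h3
      nlinarith [not_le.1 h]
    have h3 := calcB_Th_sub hp he hb (hg x hx).1 h2
    rw [(hg x hx).2, (hg y hy).2] at h3
    exact ⟨h2, (le_inv_mul_iff₀ hpb).2 h3⟩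
  have hl : ∀ x y, 0 ≤ x → 0 ≤ y → dist (g x) (g y) ≤ (p b)⁻¹ * dist x y := by
    intro x y hx hy
    rw [Real.dist_eq, Real.dist_eq]
    rcases le_total x y with h | h
    · have h2 := hm x y hx h
      rw [abs_of_nonpos (sub_nonpos.2 h2.1), abs_of_nonpos (sub_nonpos.2 h), neg_sub, neg_sub]
      exact h2.2
    · have h2 := hm y x hy h
      rw [abs_of_nonneg (sub_nonneg.2 h2.1), abs_of_nonneg (sub_nonneg.2 h)]
      exact h2.2
  have hc : ContinuousOn g (Set.Ici 0) :=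
    (LipschitzOnWith.of_dist_le' fun x hx y hy => hl x y hx hy).continuousOn
  refine ⟨g, fun θ h => (hg θ h).1, fun θ h => (hg θ h).2, fun x hx => ?_, hm, fun θ h => ?_⟩
  · have h2 := hg _ (mul_nonneg hx (tauF_pos hp h1 he hx).le)
    rcases le_total x (g (x * tauF p e x)) with h | h
    · have h3 := calcB_Th_sub hp he hb hx h
      rw [h2.2] at h3
      nlinarith
    · have h3 := calcB_Th_sub hp he hb h2.1 h
      rw [h2.2] at h3
      nlinarith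
  · have hW := calcB_sum_pos hp h1 fun a => pow_pos (one_pos.trans_le (calcB_D he (hg θ h).1 a)) 2
    exact HasFDerivWithinAt.of_local_left_inverse (t := Set.univ)
      (by rw [nhdsWithin_univ]; exact hc θ h)
      ((calcB_dTh he (hg θ h).1).hasFDerivAt_equiv hW.ne').hasFDerivWithinAt h
      (eventually_nhdsWithin_of_forall fun y hy => (hg y hy).2)

theorem calcB_lip {f : ℝ → ℝ} {L : ℝ}
    (h : ∀ x y, 0 ≤ x → x ≤ y → 0 ≤ f y - f x ∧ f y - f x ≤ L * (y - x)) (x y : ℝ) (hx : 0 ≤ x)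
    (hy : 0 ≤ y) : |f x - f y| ≤ L * |x - y| := by
  rcases le_total x y with h1 | h1
  · have h2 := h x y hx h1
    rw [abs_sub_comm, abs_sub_comm x, abs_of_nonneg h2.1, abs_of_nonneg (sub_nonneg.2 h1)]
    exact h2.2
  · have h2 := h y x hy h1
    rw [abs_of_nonneg h2.1, abs_of_nonneg (sub_nonneg.2 h1)]
    exact h2.2

/-- smoothness of the spherical integral, convexity of `θ R(θ)` -/
theorem sphI_C2 (Λ : Atoms α) : ∃ (I1 h1 : ℝ → ℝ) (L : ℝ),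
    (∀ θ, 0 ≤ θ → HasDerivWithinAt (sphI Λ.μ 0) (I1 θ) (Set.Ici 0) θ) ∧
    (∀ θ, 0 ≤ θ → HasDerivWithinAt (fun θ => θ * I1 θ) (h1 θ) (Set.Ici 0) θ) ∧
    (∀ x, 0 ≤ x → I1 (x * tauF Λ.p (Λ.e 1) x) = kapF Λ.p (Λ.e 1) x / 2) ∧
    MonotoneOn h1 (Set.Ici 0) ∧ (∀ θ, 0 ≤ θ → |I1 θ| ≤ L ∧ |h1 θ| ≤ L) ∧
    (∀ x y, 0 ≤ x → 0 ≤ y → |I1 x - I1 y| ≤ L * |x - y|) ∧
    (∀ x y, 0 ≤ x → 0 ≤ y → |h1 x - h1 y| ≤ L * |x - y|) := by
  have hp := fun a => (Λ.p_pos a).le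
  have he := Λ.e_nonneg zero_le_one
  obtain ⟨_, -, C, hC, hC'⟩ := Λ.e_bd
  have he' : ∀ a, 0 ≤ Λ.e 1 a ∧ Λ.e 1 a ≤ C := fun a =>
    ⟨he a, ((hC' 1 zero_le_one).1 a).trans_eq (mul_one C)⟩
  have ht := Λ.p_pos Λ.top
  obtain ⟨g, g0, g1, g2, g3, g4⟩ := calcB_inv hp Λ.p_sum he (Λ.e_top 1) ht
  have hW := fun θ (h : 0 ≤ θ) => calcB_sum_pos hp Λ.p_sum fun a =>
    pow_pos (one_pos.trans_le (calcB_D he (g0 θ h) a)) 2
  have hL : 0 ≤ C ^ 2 * (Λ.p Λ.top)⁻¹ := by positivity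
  have key : ∀ n, n = 1 ∨ n = 2 → ∀ x y, 0 ≤ x → x ≤ y →
      0 ≤ -calcBm n Λ.p (Λ.e 1) (g y) / 2 - -calcBm n Λ.p (Λ.e 1) (g x) / 2 ∧
      -calcBm n Λ.p (Λ.e 1) (g y) / 2 - -calcBm n Λ.p (Λ.e 1) (g x) / 2 ≤
        (C + C ^ 2 * (Λ.p Λ.top)⁻¹) * (y - x) := fun n hn x y hx hxy => by
    have h2 := calcB_m_sub hn hp Λ.p_sum he' (g0 x hx) (g3 x y hx hxy).1
    have h3 := mul_le_mul_of_nonneg_left (g3 x y hx hxy).2 (sq_nonneg C)
    have h4 := mul_nonneg hC (sub_nonneg.2 hxy)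
    exact ⟨by linarith [h2.1], by linarith [h2.1, h2.2]⟩
  have bd : ∀ n θ, 0 ≤ θ → |-calcBm n Λ.p (Λ.e 1) (g θ) / 2| ≤ C + C ^ 2 * (Λ.p Λ.top)⁻¹ :=
    fun n θ h => by
      have h2 := calcB_m_mem n hp Λ.p_sum he' (g0 θ h)
      exact abs_le.2 ⟨by linarith [h2.1, h2.2], by linarith [h2.1, h2.2]⟩
  refine ⟨fun θ => -calcBm 1 Λ.p (Λ.e 1) (g θ) / 2, fun θ => -calcBm 2 Λ.p (Λ.e 1) (g θ) / 2,
    C + C ^ 2 * (Λ.p Λ.top)⁻¹, fun θ h => ?_, fun θ h => ?_, fun x hx => ?_,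
    fun x hx y _ hxy => sub_nonneg.1 (key 2 (Or.inr rfl) x y hx hxy).1,
    fun θ h => ⟨bd 1 θ h, bd 2 θ h⟩, calcB_lip (key 1 (Or.inl rfl)),
    calcB_lip (key 2 (Or.inr rfl))⟩
  · have h2 := (calcB_dF hp Λ.p_sum he (g0 θ h)).comp_hasDerivWithinAt θ (g4 θ h)
    rw [mul_inv_cancel_right₀ (hW θ h).ne', calcB_kap] at h2
    refine h2.congr_of_mem (fun y hy => ?_) h
    rw [Function.comp_apply, ← sphI_atoms Λ (g0 y hy), g1 y hy]
  · have h2 := (((calcB_dtau (p := Λ.p) he (g0 θ h)).sub_const 1).div_const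
      2).comp_hasDerivWithinAt θ (g4 θ h)
    refine (h2.congr_of_mem (fun y hy => ?_) h).congr_deriv ?_
    · rw [Function.comp_apply, ← kap_tau hp Λ.p_sum he (g0 y hy), g1 y hy, calcB_kap]
      ring
    · simp only [calcBm]
      ring
  · simp only [g2 x hx, calcB_kap]

end Vale.Agent.P166
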