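import Vale.Agent.P166.CalcB

/-! The energy functional: Lipschitz bound, Hamilton Jacobi inequality, cavity identity. -/

namespace Vale.Agent.P166

open MeasureTheory ProbabilityTheory Real Finset Matrix Filter Topology
open Vale.Agent.P157 (Sys St γ GS s0 YY mm pp sh DirD pull mrg Rg Sp νB xB)
open scoped ENNReal

variable {α : Type} [Fintype α]

theorem calcC_EE (μ : Measure ℝ) (s : ℝ) (k : ℕ) (q : ℕ → ℝ) :
    EE μ 0 s k q = LS k fun j => sphI μ 0 (s * th k q j) := rfl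

theorem calcC_anti {k : ℕ} {P : ℝ} {q : ℕ → ℝ} (hq : IsPath k P q) (j : ℕ) :
    th k q (j + 1) ≤ th k q j := thv_anti (fun i _ => hq.inc_nonneg i) (Nat.le_succ j)

theorem calcC_inc {k j : ℕ} (hj : j < k) (q : ℕ → ℝ) :
    (k : ℝ) / (j + 1) * (th k q j - th k q (j + 1)) = inc q j := by
  have hk : (0 : ℝ) < k := Nat.cast_pos.2 (by omega)
  rw [th_eq_thv, thv_succ hj]
  field_simp
  ring

theorem calcC_LS {k : ℕ} {f g : ℕ → ℝ} (h : ∀ j, f j = g j) : LS k f = LS k g := by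
  rw [funext h]

/-- secant expansion of a level sum -/
theorem calcC_secant {f f1 : ℝ → ℝ} {L s P P' : ℝ} {k : ℕ} {q q' : ℕ → ℝ}
    (hd : ∀ x, 0 ≤ x → HasDerivWithinAt f (f1 x) (Set.Ici 0) x)
    (hL : ∀ x y, 0 ≤ x → 0 ≤ y → |f1 x - f1 y| ≤ L * |x - y|) (hL0 : 0 ≤ L) (hk : 0 < k)
    (hs : 0 ≤ s) (hq : IsPath k P q) (hq' : IsPath k P' q') : ∃ ρ : ℕ → ℝ,
      (MonotoneOn f1 (Set.Ici 0) → ∀ j, 0 ≤ ρ j) ∧ ∑ j ∈ range k, |ρ j| ≤ L * s * (P + P') ∧
      LS k (fun j => f (s * th k q j)) - LS k (fun j => f (s * th k q' j)) =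
        s * (f1 0 * (q k - q' k) + (∑ j ∈ range k, ρ j * tail k q j -
          ∑ j ∈ range k, ρ j * tail k q' j)) := by
  obtain ⟨κ, k1, k2, k3, k4⟩ := secant hd hL
  have t0 := fun j => mul_nonneg hs (hq.th_mem j).1
  have t0' := fun j => mul_nonneg hs (hq'.th_mem j).1
  have t1 := fun j => mul_le_mul_of_nonneg_left (calcC_anti hq j) hs
  have t1' := fun j => mul_le_mul_of_nonneg_left (calcC_anti hq' j) hs
  refine ⟨fun j => (k : ℝ) / (j + 1) * (κ (s * th k q' j) (s * th k q j) -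
    κ (s * th k q' (j + 1)) (s * th k q (j + 1))), fun hm j => mul_nonneg (by positivity)
      (sub_nonneg.2 (k4 hm _ _ _ _ (t0' _) (t0 _) (t1' j) (t1 j))), ?_, ?_⟩
  · have h2 : ∀ j ∈ range k, |(k : ℝ) / (j + 1) * (κ (s * th k q' j) (s * th k q j) -
        κ (s * th k q' (j + 1)) (s * th k q (j + 1)))| ≤ L * s * (inc q j + inc q' j) := by
      intro j hj
      have hj := Finset.mem_range.1 hj
      have h3 := k3 _ _ _ _ (t0' j) (t0 j) (t0' (j + 1)) (t0 (j + 1))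
      rw [abs_of_nonneg (sub_nonneg.2 (t1 j)), abs_of_nonneg (sub_nonneg.2 (t1' j))] at h3
      rw [abs_mul, abs_of_nonneg (by positivity), ← calcC_inc hj, ← calcC_inc hj]
      refine (mul_le_mul_of_nonneg_left h3 (by positivity)).trans (le_of_eq ?_)
      ring
    refine (Finset.sum_le_sum h2).trans ?_
    rw [← Finset.mul_sum, Finset.sum_add_distrib, hq.sum_inc, hq'.sum_inc]
    exact mul_le_mul_of_nonneg_left (add_le_add hq.2.2 hq'.2.2) (mul_nonneg hL0 hs)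
  · have z1 : th k q k = 0 := thv_of_le (v := inc q) le_rfl
    have z2 : th k q' k = 0 := thv_of_le (v := inc q') le_rfl
    rw [← LS_sub, calcC_LS (g := fun j => s * (κ (s * th k q' j) (s * th k q j) * th k q j -
      κ (s * th k q' j) (s * th k q j) * th k q' j)) fun j => by
        rw [k1 _ _ (t0' j) (t0 j)]; ring,
      LS_const_mul, LS_sub, abel hk _ hq.1, abel hk _ hq'.1, z1, z2, mul_zero, k2]
    ring

theorem EE_lip (Λ : Atoms α) : ∃ C ≥ (0 : ℝ), ∀ (k : ℕ) (P δ : ℝ) (q q' : ℕ → ℝ), 0 < k →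
    IsPath k P q → IsPath k P q' → (∀ j < k, |tail k q j - tail k q' j| ≤ δ) →
    |EE Λ.μ 0 1 k q - EE Λ.μ 0 1 k q'| ≤ C * (1 + P) * δ := by
  obtain ⟨I1, h1, L, d1, -, -, -, b1, l1, -⟩ := sphI_C2 Λ
  have hL : 0 ≤ L := (abs_nonneg _).trans (b1 0 le_rfl).1
  refine ⟨2 * L, by positivity, fun k P δ q q' hk hq hq' hδ => ?_⟩
  obtain ⟨ρ, -, r1, r2⟩ := calcC_secant d1 l1 hL hk zero_le_one hq hq'
  have h2 := hδ (k - 1) (by omega)
  rw [tail_last hk, tail_last hk] at h2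
  have hδ0 : 0 ≤ δ := (abs_nonneg _).trans h2
  have h3 : |∑ j ∈ range k, ρ j * tail k q j - ∑ j ∈ range k, ρ j * tail k q' j| ≤
      (∑ j ∈ range k, |ρ j|) * δ := by
    rw [← Finset.sum_sub_distrib, Finset.sum_mul]
    refine (Finset.abs_sum_le_sum_abs _ _).trans (Finset.sum_le_sum fun j hj => ?_)
    rw [← mul_sub, abs_mul]
    exact mul_le_mul_of_nonneg_left (hδ j (Finset.mem_range.1 hj)) (abs_nonneg _)
  have h4 : |I1 0 * (q k - q' k)| ≤ L * δ := by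
    rw [abs_mul]
    exact mul_le_mul (b1 0 le_rfl).1 h2 (abs_nonneg _) hL
  have h5 := mul_le_mul_of_nonneg_right r1 hδ0
  have h6 := mul_nonneg hL hδ0
  rw [calcC_EE, calcC_EE, r2, one_mul]
  refine (abs_add_le _ _).trans ?_
  linarith

theorem EE_bd (Λ : Atoms α) : ∃ C ≥ (0 : ℝ), ∀ (k : ℕ) (q : ℕ → ℝ) (s : ℝ), AdmQ k q → 0 ≤ s →
    |EE Λ.μ 0 s k q| ≤ C * s := by
  obtain ⟨I1, h1, L, d1, -, -, -, b1, -, -⟩ := sphI_C2 Λ
  have hL : 0 ≤ L := (abs_nonneg _).trans (b1 0 le_rfl).1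
  refine ⟨L, hL, fun k q s hq hs => ?_⟩
  have hq' := hq.isPath
  have h2 : ∀ j ∈ range k, |(k : ℝ) / (j + 1) * (sphI Λ.μ 0 (s * th k q j) -
      sphI Λ.μ 0 (s * th k q (j + 1)))| ≤ L * s * inc q j := by
    intro j hj
    have h3 := (convex_Ici (0 : ℝ)).norm_image_sub_le_of_norm_hasDerivWithin_le d1
      (fun x hx => (b1 x hx).1) (mul_nonneg hs (hq'.th_mem (j + 1)).1)
      (mul_nonneg hs (hq'.th_mem j).1)
    rw [Real.norm_eq_abs, Real.norm_eq_abs, abs_of_nonneg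
      (sub_nonneg.2 (mul_le_mul_of_nonneg_left (calcC_anti hq' j) hs))] at h3
    rw [abs_mul, abs_of_nonneg (by positivity), ← calcC_inc (Finset.mem_range.1 hj)]
    refine (mul_le_mul_of_nonneg_left h3 (by positivity)).trans (le_of_eq ?_)
    ring
  refine (Finset.abs_sum_le_sum_abs _ _).trans ((Finset.sum_le_sum h2).trans (le_of_eq ?_))
  rw [← Finset.mul_sum, hq'.sum_inc, hq.2.2, mul_one]

theorem calcC_deriv {f f1 : ℝ → ℝ} (hd : ∀ x, 0 ≤ x → HasDerivWithinAt f (f1 x) (Set.Ici 0) x)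
    {k : ℕ} {θ : ℕ → ℝ} (hθ : ∀ j, 0 ≤ θ j) {s : ℝ} (hs : 0 ≤ s) :
    HasDerivWithinAt (fun s => LS k fun j => f (s * θ j)) (LS k fun j => θ j * f1 (s * θ j))
      (Set.Ici 0) s := by
  have h : ∀ j, HasDerivWithinAt (fun s => f (s * θ j)) (θ j * f1 (s * θ j)) (Set.Ici 0) s :=
    fun j => by
      have h2 := (hd _ (mul_nonneg hs (hθ j))).comp s
        ((hasDerivAt_mul_const (θ j)).hasDerivWithinAt (s := Set.Ici 0))
        fun y hy => mul_nonneg hy (hθ j)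
      rw [mul_comm] at h2
      exact h2
  exact HasDerivWithinAt.fun_sum fun j _ => ((h j).fun_sub (h (j + 1))).const_mul _

theorem EE_cont (Λ : Atoms α) {k : ℕ} {q : ℕ → ℝ} (hq : AdmQ k q) :
    ContinuousOn (fun s => EE Λ.μ 0 s k q) (Set.Ici 0) := by
  obtain ⟨I1, h1, L, d1, -⟩ := sphI_C2 Λ
  exact fun s hs => (calcC_deriv (k := k) d1 (fun j => (hq.isPath.th_mem j).1) hs).continuousWithinAt

theorem hj (Λ : Atoms α) : ∃ C ≥ (0 : ℝ), ∀ (k : ℕ) (s P : ℝ) (A q : ℕ → ℝ), 0 < k → 0 < s →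
    s ≤ 1 → IsPath k P A → AdmQ k q → ∃ (ρ : ℕ → ℝ) (E' : ℝ), (∀ j, 0 ≤ ρ j) ∧
      ∑ j ∈ range k, ρ j ≤ C * (1 + P) ∧ HasDerivAt (fun s => EE Λ.μ 0 s k q) E' s ∧
      |((1 / 2) * ∑ a, Λ.p a * Λ.c a * Tilt k (Λ.e s a) A k -
          (1 / 2) * ∑ j ∈ range k, ρ j * tail k (qA k Λ.p (Λ.e s) A) j) -
        (E' - (1 / 2) * ∑ j ∈ range k, ρ j * tail k q j)| ≤
        C * |qA k Λ.p (Λ.e s) A k - 1| := by
  obtain ⟨I1, h1, L, d1, d2, e1, m1, b1, -, l2⟩ := sphI_C2 Λ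
  have hL : 0 ≤ L := (abs_nonneg _).trans (b1 0 le_rfl).1
  refine ⟨4 * L, by positivity, fun k s P A q hk hs hs1 hA hq => ?_⟩
  have hp := fun a => (Λ.p_pos a).le
  have he := Λ.e_nonneg hs.le
  have hQ := isPath_qA hp Λ.p_sum he hA
  have hP : 0 ≤ P := (hA.nonneg k).trans hA.2.2
  obtain ⟨ρ, r0, r1, r2⟩ := calcC_secant d2 l2 hL hk hs.le hQ hq.isPath
  have r0 := r0 m1
  refine ⟨fun j => 2 * ρ j, LS k fun j => th k q j * I1 (s * th k q j),
    fun j => mul_nonneg zero_le_two (r0 j), ?_, (calcC_deriv d1 (fun j => (hq.isPath.th_mem j).1)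
      hs.le).hasDerivAt (Ici_mem_nhds hs), ?_⟩
  · rw [← Finset.mul_sum]
    rw [Finset.sum_congr rfl fun j _ => abs_of_nonneg (r0 j)] at r1
    have h2 := mul_le_mul_of_nonneg_left hs1 (mul_nonneg hL (add_nonneg hP zero_le_one))
    nlinarith [mul_nonneg hL hP]
  · have e2 : LS k (fun j => s * th k q j * I1 (s * th k q j)) =
        s * LS k fun j => th k q j * I1 (s * th k q j) := by
      rw [← LS_const_mul]
      exact calcC_LS fun j => mul_assoc _ _ _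
    have e3 : LS k (fun j => s * th k (qA k Λ.p (Λ.e s) A) j *
        I1 (s * th k (qA k Λ.p (Λ.e s) A) j)) =
        s * ((1 / 2) * ∑ a, Λ.p a * Λ.c a * Tilt k (Λ.e s a) A k) := by
      have e4 : ∀ a, Λ.p a * Λ.c a * Tilt k (Λ.e s a) A k =
          LS k fun j => Λ.p a * Λ.c a * th k (Tilt k (Λ.e s a) A) j := fun a => by
        rw [LS_const_mul, LS_th (isPath_Tilt hA (he a)).1]
      simp only [e4]
      rw [← LS_sum, ← LS_const_mul, ← LS_const_mul]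
      refine calcC_LS fun j => ?_
      have h0 := (hA.th_mem j).1
      have e5 : ∀ a, Λ.e s a * th k A j = Λ.e 1 a * (s * th k A j) := fun a => by
        unfold Atoms.e
        ring
      have e6 : tauF Λ.p (Λ.e s) (th k A j) = tauF Λ.p (Λ.e 1) (s * th k A j) := by
        simp only [tauF, e5]
      have e7 := kap_tau hp Λ.p_sum (Λ.e_nonneg zero_le_one) (mul_nonneg hs.le h0)
      have e8 : tauF Λ.p (Λ.e s) (th k A j) - 1 =
          s * ∑ a, Λ.p a * Λ.c a * th k (Tilt k (Λ.e s a) A) j := by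
        rw [tauF, sub_eq_iff_eq_add, Finset.mul_sum]
        refine Eq.trans ?_ (congrArg _ Λ.p_sum)
        rw [← Finset.sum_add_distrib]
        refine Finset.sum_congr rfl fun a _ => ?_
        have h3 := (one_pos.trans_le (calcB_D he h0 a)).ne'
        rw [th_Tilt hA (he a), div_eq_iff h3, add_mul, ← mul_div_assoc, ← mul_div_assoc,
          div_mul_cancel₀ _ h3]
        unfold Atoms.e
        ring
      rw [th_qA he hA, ← mul_assoc, e6, e1 _ (mul_nonneg hs.le h0)]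
      rw [e6] at e8
      linear_combination (1 / 2) * e7 + (1 / 2) * e8
    rw [e2, e3, ← mul_sub] at r2
    have r3 := mul_left_cancel₀ hs.ne' r2
    have e9 : ∀ B : ℕ → ℝ, (1 / 2) * ∑ j ∈ range k, 2 * ρ j * tail k B j =
        ∑ j ∈ range k, ρ j * tail k B j := fun B => by
      rw [Finset.mul_sum]
      exact Finset.sum_congr rfl fun j _ => by ring
    rw [e9, e9, show ∀ a b c d : ℝ, a - b - (c - d) = a - c - (b - d) from fun _ _ _ _ => by ring,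
      r3, add_sub_cancel_right, hq.2.2, abs_mul]
    exact mul_le_mul_of_nonneg_right ((b1 0 le_rfl).2.trans (by linarith)) (abs_nonneg _)

theorem tot (Λ : Atoms α) {k : ℕ} (hk : 0 < k) {P : ℝ} {A : ℕ → ℝ} (hA : IsPath k P A) :
    ∑ a, Λ.p a * CE k Λ.p (Λ.e 1) a A = EE Λ.μ 0 1 k (qA k Λ.p (Λ.e 1) A) +
      kapF Λ.p (Λ.e 1) 0 / 2 * (1 - qA k Λ.p (Λ.e 1) A k) -
      (1 / 2) * ∑ j ∈ range k, rhoA k Λ.p (Λ.e 1) A j * tail k (qA k Λ.p (Λ.e 1) A) j := by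
  have hp := fun a => (Λ.p_pos a).le
  have he := Λ.e_nonneg zero_le_one
  have hQ := isPath_qA hp Λ.p_sum he hA
  have e1 : ∑ a, Λ.p a * CE k Λ.p (Λ.e 1) a A = -(1 / 2) * LS k (fun j =>
      (∑ a, Λ.p a * log (1 + Λ.e 1 a * th k A j)) + log (tauF Λ.p (Λ.e 1) (th k A j))) +
      kapF Λ.p (Λ.e 1) 0 / 2 := by
    have e2 : ∀ a, Λ.p a * CE k Λ.p (Λ.e 1) a A = -(1 / 2) * LS k (fun j =>
        Λ.p a * (log (1 + Λ.e 1 a * th k A j) + log (tauF Λ.p (Λ.e 1) (th k A j)))) +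
        Λ.p a * (kapF Λ.p (Λ.e 1) 0 / 2) := fun a => by
      rw [LS_const_mul, CE]
      ring
    simp only [e2]
    rw [Finset.sum_add_distrib, ← Finset.sum_mul, Λ.p_sum, one_mul, ← Finset.mul_sum, ← LS_sum]
    congr 2
    refine calcC_LS fun j => ?_
    simp only [mul_add, Finset.sum_add_distrib, ← Finset.sum_mul, Λ.p_sum, one_mul]
  have e3 : EE Λ.μ 0 1 k (qA k Λ.p (Λ.e 1) A) = (1 / 2) * (LS k (fun j =>
      kapF Λ.p (Λ.e 1) (th k A j) * th k (qA k Λ.p (Λ.e 1) A) j) - LS k fun j =>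
      (∑ a, Λ.p a * log (1 + Λ.e 1 a * th k A j)) + log (tauF Λ.p (Λ.e 1) (th k A j))) := by
    rw [calcC_EE, ← LS_sub, ← LS_const_mul]
    refine calcC_LS fun j => ?_
    rw [one_mul, th_qA he hA, sphI_atoms Λ (hA.th_mem j).1, kap_tau hp Λ.p_sum he (hA.th_mem j).1]
    ring
  have z1 : th k A k = 0 := thv_of_le (v := inc A) le_rfl
  rw [e1, e3, abel hk _ hQ.1, z1]
  unfold rhoA
  ring

end Vale.Agent.P166
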