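import Vale.Agent.P166.MdlB

/-! From an orthonormal frame to Gaussian directions. -/

namespace Vale.Agent.P166

open MeasureTheory ProbabilityTheory Real Finset Matrix Filter Topology
open Vale.Agent.P157 (Sys St γ GS s0 YY mm pp sh DirD pull mrg Rg Sp νB xB)
open scoped ENNReal

section Basic

variable {ι β : Type} [Fintype ι] [DecidableEq ι] [Fintype β] {k : ℕ} {M : Mdl ι}
  {F : β → ℝ → ℝ} {g : β → ι → ℝ} {n : ℕ → β → ℝ} {t : ℕ → ℝ} {B : Finset ι}

theorem lin_UC (hk : 0 < k) (b : β) : (AS k ι (β ⊕ Unit)).Lin (UC k g n b) :=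
  BM.mul_lin hk bm_es (((bm_dot (g b)).lin hk).add (Sys.Lin.sum (ds_ok hk) _ fun _ hj =>
    (lin_coordD hk (mem_range.1 hj) _).const_mul _))

theorem lin_HE (hk : 0 < k) : (AS k ι (β ⊕ Unit)).Lin (HE k t) :=
  BM.mul_lin hk bm_es (Sys.Lin.sum (ds_ok hk) _ fun _ hj =>
    (lin_coordD hk (mem_range.1 hj) _).const_mul _)

theorem cava_lin_base (hk : 0 < k) :
    (AS k ι (β ⊕ Unit)).Lin fun s => M.H k (β ⊕ Unit) s + HE k t s :=
  (M.lin hk).add (lin_HE hk)

theorem lin_HC (hk : 0 < k) (hF : ∀ b, Measurable (F b)) {K : ℝ} (hK : ∀ b u, |F b u| ≤ K) :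
    (AS k ι (β ⊕ Unit)).Lin (HC k M F g n t) :=
  (cava_lin_base hk).add (Sys.Lin.sum (ds_ok hk) _ fun b _ =>
    Sys.Lin.of_bdd (ds_ok hk) ((hF b).comp (lin_UC hk b).1) K fun _ => hK b _)

omit [Fintype β] in
theorem UC_zero (b : β) (s : AT ι (β ⊕ Unit)) : UC k g 0 b s = es s.1 * (g b ⬝ᵥ xs s.1) := by
  simp [UC]

theorem lin_HC0 (hk : 0 < k) (hF : ∀ b, Continuous (F b)) :
    (AS k ι (β ⊕ Unit)).Lin (HC k M F g 0 t) := by
  refine (cava_lin_base hk).add (Sys.Lin.sum (ds_ok hk) _ fun b _ => ?_)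
  simp only [UC_zero]
  exact ((bm_es.mul (bm_dot (g b))).comp (hF b)).lin hk

omit [Fintype β] in
theorem HE_rotA (S : O ι) (s : AT ι (β ⊕ Unit)) : HE k t (rotA S s) = HE k t s := rfl

omit [Fintype β] in
theorem UC_rotA (S : O ι) (b : β) (s : AT ι (β ⊕ Unit)) :
    UC k (fun b => (S : Matrix ι ι ℝ) *ᵥ g b) n b (rotA S s) = UC k g n b s := by
  unfold UC
  rw [xs_rotA, O.dot]
  rfl

theorem rotB_base (hM : M.Iso B) :
    RotB B fun s : AT ι (β ⊕ Unit) => M.H k (β ⊕ Unit) s + HE k t s := fun S hS s => by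
  show M.H k (β ⊕ Unit) (rotA S s) + HE k t (rotA S s) = _
  rw [hM.rotB S hS s, HE_rotA]

theorem YC_rot (hk : 0 < k) (hM : M.Iso B) {S : O ι} (hS : FixO B S)
    (hH : (AS k ι (β ⊕ Unit)).Lin (HC k M F (fun b => (S : Matrix ι ι ℝ) *ᵥ g b) n t)) :
    YC k M F (fun b => (S : Matrix ι ι ℝ) *ᵥ g b) n t = YC k M F g n t := by
  unfold YC
  rw [← YA_rot hk S hH]
  congr 1
  funext s
  unfold HC
  rw [hM.rotB S hS s, HE_rotA]
  simp only [UC_rotA]

/-- variances of the field on the auxiliary spin -/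
def cavaW (ι β : Type) (t : ℕ → ℝ) (j : ℕ) : (ι ⊕ ι) ⊕ (β ⊕ Unit) → ℝ :=
  Sum.elim (fun _ => 0) (Sum.elim (fun _ => 0) fun _ => t j)

theorem cava_HE_fld (s : AT ι (β ⊕ Unit)) :
    HE k t s = fld k (fun _ c => es c) (cavaW ι β t) s := by
  unfold HE fld
  rw [Finset.mul_sum]
  refine Finset.sum_congr rfl fun j _ => ?_
  simp [cavaW, Fintype.sum_sum_type]
  ring

theorem exp_HE_le (hk : 0 < k) (ht : ∀ j < k, 0 ≤ t j) {T : ℝ} (hT : ∑ j ∈ range k, t j ≤ T) :
    ∫ s, exp (4 * |HE k t s|) ∂mA k (M.H k (β ⊕ Unit)) ≤ 2 * exp (8 * T) := by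
  have hH : (AS k ι (β ⊕ Unit)).Lin (M.H k (β ⊕ Unit)) := M.lin hk
  have := mD_prob hk hH
  have h := exp_fld_le (p := fun i : (ι ⊕ ι) ⊕ (β ⊕ Unit) => i.isRight = true) hk hH
    (M.free fun j _ i hi => by
      rcases i with i | i
      · simp at hi
      · rfl)
    (e := fun _ c => es c) (fun _ => bm_es) (w := cavaW ι β t)
    (fun j hj i => by
      rcases i with i | i | i
      · exact le_rfl
      · exact le_rfl
      · exact ht j hj)
    (fun j _ i hi => by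
      rcases i with i | i
      · exact Or.inl rfl
      · simp at hi) (BM.const 0) 4
  simp only [add_zero, ← cava_HE_fld] at h
  refine h.trans (mul_le_mul_of_nonneg_left ?_ zero_le_two)
  have e : ∀ c : CF ι, fvar k (fun _ c => es c) (cavaW ι β t) c = ∑ j ∈ range k, t j := fun c => by
    unfold fvar
    refine Finset.sum_congr rfl fun j _ => ?_
    simp [cavaW, Fintype.sum_sum_type, es_sq]
  simp only [e, integral_const, probReal_univ, one_smul]
  exact exp_le_exp.2 (by linarith)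

/-- the system with Gaussian directions at level `0` -/
noncomputable def HG (k : ℕ) (M : Mdl ι) (B : Finset ι) (F : β → ℝ → ℝ) (n : ℕ → β → ℝ)
    (t : ℕ → ℝ) (s : AT ι ((β × ι) ⊕ (β ⊕ Unit))) : ℝ :=
  HC k M F (gG B fun a => s.2 0 (.inr (.inl a))) n t
    (s.1, fun j => Sum.elim (fun i => s.2 j (.inl i)) fun a => s.2 j (.inr (.inr a)))

/-- the directions as a part of the disorder -/
noncomputable def cavaH (k : ℕ) (M : Mdl ι) (B : Finset ι) (F : β → ℝ → ℝ) (n : ℕ → β → ℝ)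
    (t : ℕ → ℝ)
    (s : St ((ι ⊕ ι) ⊕ (β ⊕ Unit)) (((β × ι → ℝ) × O ι) × ((ι → Bool) × Bool))) : ℝ :=
  HC k M F (gG B s.1.1.1) n t ((s.1.1.2, s.1.2), s.2)

theorem cava_linH (hk : 0 < k) (hF : ∀ b, Measurable (F b)) {K : ℝ} (hK : ∀ b u, |F b u| ≤ K) :
    (DS k ((ι ⊕ ι) ⊕ (β ⊕ Unit)) ((γ (β × ι)).prod (hO ι)) (nC ι)).Lin (cavaH k M B F n t) := by
  have hh := DHom.of_inj (I := (ι ⊕ ι) ⊕ (β ⊕ Unit)) (νD' := (γ (β × ι)).prod (hO ι))
    measurePreserving_snd (MeasurePreserving.id (nC ι)) Function.injective_id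
  refine (hh.lin hk (cava_lin_base (M := M) (t := t) hk)).add
    (Sys.Lin.sum (ds_ok hk) _ fun b _ => Sys.Lin.of_bdd (ds_ok hk) ((hF b).comp ?_) K
      fun _ => hK b _)
  have m0 : Measurable fun s : St ((ι ⊕ ι) ⊕ (β ⊕ Unit))
      (((β × ι → ℝ) × O ι) × ((ι → Bool) × Bool)) => ((s.1.1.2, s.1.2) : CF ι) := by fun_prop
  unfold UC
  refine (bm_es.1.comp m0).mul (Measurable.add ?_ (by fun_prop))
  unfold dotProduct
  refine Finset.measurable_sum _ fun i _ => Measurable.mul ?_ ((bm_xs i).1.comp m0)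
  unfold gG
  split_ifs
  · fun_prop
  · fun_prop

/-- splitting of the Gaussian coordinates -/
def cavaE (ι β : Type) :
    (β × ι) ⊕ ((ι ⊕ ι) ⊕ (β ⊕ Unit)) → (ι ⊕ ι) ⊕ ((β × ι) ⊕ (β ⊕ Unit)) :=
  Sum.elim (fun a => .inr (.inl a)) (Sum.elim (fun i => .inl i) fun a => .inr (.inr a))

omit [Fintype ι] [DecidableEq ι] [Fintype β] in
theorem cava_inj : Function.Injective (cavaE ι β) := by
  rintro (a | a | a) (b | b | b) h <;> simp_all [cavaE]

theorem cava_hom : DHom (hO ι) (nC ι) ((γ (β × ι)).prod (hO ι)) (nC ι)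
    (fun z : O ι × ((ι ⊕ ι) ⊕ ((β × ι) ⊕ (β ⊕ Unit)) → ℝ) => (fun a => z.2 (.inr (.inl a)), z.1))
    id fun z => Sum.elim (fun i => z (.inl i)) fun a : β ⊕ Unit => z (.inr (.inr a)) := by
  refine ⟨?_, MeasurePreserving.id _, ?_, 1, fun z => ?_⟩
  · have h1 := (measurePreserving_sumPiEquivProdPi
      fun _ : (β × ι) ⊕ ((ι ⊕ ι) ⊕ (β ⊕ Unit)) => gaussianReal 0 1).comp
      (P157.measurePreserving_coord (cava_inj (ι := ι) (β := β)))
    have h2 := (MeasurePreserving.id (hO ι)).prod h1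
    have h3 := (measurePreserving_prodAssoc (hO ι) (γ (β × ι))
      (γ ((ι ⊕ ι) ⊕ (β ⊕ Unit)))).symm.comp h2
    have h4 := ((Measure.measurePreserving_swap (μ := hO ι) (ν := γ (β × ι))).prod
      (MeasurePreserving.id (γ ((ι ⊕ ι) ⊕ (β ⊕ Unit))))).comp h3
    refine (congrArg (fun f => MeasurePreserving f _ _) ?_).mp h4
    funext z
    refine Prod.ext rfl ?_
    funext i
    rcases i with i | i <;> rfl
  · funext i
    rcases i with i | i <;> rfl
  · simp only [Fintype.sum_sum_type, Sum.elim_inl, Sum.elim_inr, one_mul]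
    have : 0 ≤ ∑ a : β × ι, |z (.inr (.inl a))| := sum_nonneg fun _ _ => abs_nonneg _
    linarith

theorem YG_eq (hk : 0 < k) (hF : ∀ b, Measurable (F b)) {K : ℝ} (hK : ∀ b u, |F b u| ≤ K) :
    (Measurable fun z => YC k M F (gG B z) n t) ∧ YG k M B F n t = YA k (HG k M B F n t) := by
  have hL := cava_linH (M := M) (B := B) (n := n) (t := t) hk hF hK
  obtain ⟨h1, h2⟩ := mix hk (γ (β × ι)) hL
  exact ⟨h1, h2.symm.trans (cava_hom.YD_eq hk hL).symm⟩

theorem cava_diff {K : ℝ} (hK : ∀ b u, |F b u| ≤ K) {m : ℕ} (hm : Fintype.card β ≤ m)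
    (s : AT ι (β ⊕ Unit)) :
    |HC k M F g n t s - (M.H k (β ⊕ Unit) s + HE k t s)| ≤ m * |K| := by
  unfold HC
  rw [add_sub_cancel_left]
  refine (abs_sum_le_sum_abs _ _).trans ((sum_le_card_nsmul _ _ |K| fun b _ =>
    (hK b _).trans (le_abs_self K)).trans ?_)
  rw [nsmul_eq_mul, card_univ]
  exact mul_le_mul_of_nonneg_right (by exact_mod_cast hm) (abs_nonneg K)

theorem cava_crude (hk : 0 < k) (hF : ∀ b, Measurable (F b)) {K : ℝ} (hK : ∀ b u, |F b u| ≤ K)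
    {m : ℕ} (hm : Fintype.card β ≤ m) (g g' : β → ι → ℝ) :
    |YC k M F g n t - YC k M F g' n t| ≤ 2 * (m * |K|) := by
  have h := fun g : β → ι → ℝ => abs_YD_sub_le hk (cava_lin_base (M := M) (t := t) hk)
    (lin_HC (g := g) (n := n) hk hF hK) (cava_diff hK hm)
  have h1 := abs_le.1 (h g)
  have h2 := abs_le.1 (h g')
  unfold YC YA
  rw [abs_le]
  constructor <;> linarith [h1.1, h1.2, h2.1, h2.2]

theorem cava_lip {f f1 f2 : ℝ → ℝ} {K : ℝ} (h : Nc f f1 f2 K) (u v : ℝ) :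
    |f u - f v| ≤ K * |u - v| := by
  have := (convex_univ (𝕜 := ℝ) (E := ℝ)).norm_image_sub_le_of_norm_hasDerivWithin_le
    (f := f) (f' := f1) (C := K) (fun x _ => (h.d1 x).hasDerivWithinAt) (fun x _ => h.b1 x)
    (Set.mem_univ v) (Set.mem_univ u)
  simpa only [Real.norm_eq_abs] using this

theorem cava_abs_le (x : ℝ) {η : ℝ} (hη : 0 < η) : |x| ≤ η + η⁻¹ * x ^ 2 := by
  rw [← sq_abs]
  have h1 := abs_nonneg x
  have h2 : |x| = η⁻¹ * (η * |x|) := by field_simp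
  have h3 : η = η⁻¹ * η ^ 2 := by field_simp
  have h4 : η * |x| ≤ η ^ 2 + |x| ^ 2 := by nlinarith [sq_nonneg (η - |x|)]
  have h5 := mul_le_mul_of_nonneg_left h4 (inv_pos.2 hη).le
  linarith

theorem cava_one (hk : 0 < k) (hM : M.Iso B) {F1 F2 : β → ℝ → ℝ} {K P η : ℝ}
    (hN : ∀ b, Nc (F b) (F1 b) (F2 b) K) (hK : ∀ b u, |F b u| ≤ K) {m : ℕ}
    (hm : Fintype.card β ≤ m) (hP0 : 0 < P) (hP : (Fintype.card ι : ℝ) ≤ P * B.card) (hη : 0 < η)
    {g g' : β → ι → ℝ} (hs : ∀ b, ∀ i ∉ B, (g b - g' b) i = 0)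
    (hd : ∀ b, (g b - g' b) ⬝ᵥ (g b - g' b) ≤ η ^ 2) :
    YC k M F g n t - YC k M F g' n t ≤
      exp (2 * (m * |K|)) * (m * |K| * (η * (1 + 32 * P))) := by
  have hF : ∀ b, Measurable (F b) := fun b =>
    (continuous_iff_continuousAt.2 fun u => ((hN b).d1 u).continuousAt).measurable
  have hok : (AS k ι (β ⊕ Unit)).OK := ds_ok hk
  have h0 := cava_lin_base (β := β) (M := M) (t := t) hk
  have h1 := lin_HC (M := M) (g := g) (n := n) (t := t) hk hF hK
  have h2 := lin_HC (M := M) (g := g') (n := n) (t := t) hk hF hK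
  have p0 := mD_prob hk h0
  have p1 := mD_prob hk h1
  have bq : ∀ b, BM fun c : CF ι => |K| * (η + η⁻¹ * ((g b - g' b) ⬝ᵥ xs c) ^ 2) := fun b =>
    (bm_dot (g b - g' b)).comp (F := fun x => |K| * (η + η⁻¹ * x ^ 2)) (by fun_prop)
  have bQ := BM.sum univ fun b _ => bq b
  have a1 := le_YD_sub hk h1 h2
  have a2 : ∫ s, -(HC k M F g' n t s - HC k M F g n t s) ∂mA k (HC k M F g n t) ≤
      ∫ s, ∑ b, |K| * (η + η⁻¹ * ((g b - g' b) ⬝ᵥ xs s.1) ^ 2) ∂mA k (HC k M F g n t) := by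
    refine integral_mono (integrable_mD hk h1 ((h2.sub h1).ex hok)).neg
      (integrable_mD hk h1 (bQ.ex hk)) fun s => ?_
    show -(HC k M F g' n t s - HC k M F g n t s) ≤ _
    unfold HC
    rw [add_sub_add_left_eq_sub, neg_sub, ← sum_sub_distrib]
    refine sum_le_sum fun b _ => (le_abs_self _).trans ((cava_lip (hN b) _ _).trans ?_)
    refine mul_le_mul (le_abs_self K) ?_ (abs_nonneg _) (abs_nonneg K)
    have e : UC k g n b s - UC k g' n b s = es s.1 * ((g b - g' b) ⬝ᵥ xs s.1) := by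
      unfold UC
      rw [sub_dotProduct]
      ring
    refine (cava_abs_le _ hη).trans (le_of_eq ?_)
    rw [e, mul_pow, es_sq, one_mul]
  have a3 := Sys.DL1 hok ds_mono h0 h1 (cava_diff hK hm) (bQ.ex hk)
    (fun s => sum_nonneg fun b _ => by positivity) (k + 1) 0 (s0 _ _)
  have a4 : ∫ s, ∑ b, |K| * (η + η⁻¹ * ((g b - g' b) ⬝ᵥ xs s.1) ^ 2)
      ∂mA k (fun s => M.H k (β ⊕ Unit) s + HE k t s) ≤ m * |K| * (η * (1 + 32 * P)) := by
    rw [integral_finsetSum _ fun b _ => integrable_mD hk h0 ((bq b).ex hk)]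
    refine (sum_le_card_nsmul _ _ (|K| * (η * (1 + 32 * P))) fun b _ => ?_).trans ?_
    · have i1 : Integrable (fun s : AT ι (β ⊕ Unit) => ((g b - g' b) ⬝ᵥ xs s.1) ^ 2)
          (mA k fun s => M.H k (β ⊕ Unit) s + HE k t s) :=
        integrable_mD hk h0 (((bm_dot (g b - g' b)).comp (F := fun x => x ^ 2)
          (by fun_prop)).ex hk)
      rw [integral_const_mul, integral_add (integrable_const _) (i1.const_mul _),
        integral_const_mul, integral_const, probReal_univ, one_smul]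
      refine mul_le_mul_of_nonneg_left ?_ (abs_nonneg K)
      have b1 := (em_sq hk h0 (rotB_base hM) hP0 hP (hs b)).trans
        (mul_le_mul_of_nonneg_left (hd b) (by positivity))
      have b2 := mul_le_mul_of_nonneg_left b1 (inv_pos.2 hη).le
      have b3 : η⁻¹ * (32 * P * η ^ 2) = η * (32 * P) := by field_simp
      linarith
    · rw [nsmul_eq_mul, card_univ, mul_assoc]
      exact mul_le_mul_of_nonneg_right (by exact_mod_cast hm) (by positivity)
  rw [integral_neg] at a2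
  have a5 := a3.trans (mul_le_mul_of_nonneg_left a4 (exp_pos _).le)
  have a6 : -∫ s, (HC k M F g' n t s - HC k M F g n t s) ∂mA k (HC k M F g n t) ≤ _ :=
    a2.trans a5
  unfold YC YA
  linarith

theorem cava_bad [DecidableEq β] (hB : B.Nonempty) {m : ℕ} (hm : Fintype.card β ≤ m) {δ : ℝ}
    (hδ : 0 < δ) : (γ (β × ι)).real (⋃ p : β × β,
      {z | δ < |gG B z p.1 ⬝ᵥ gG B z p.2 - if p.1 = p.2 then 1 else 0|}) ≤
      (m : ℝ) ^ 2 * (2 / (δ ^ 2 * B.card)) := by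
  refine (measureReal_iUnion_fintype_le _).trans ((sum_le_card_nsmul _ _ _ fun p _ =>
    gram_conc hB p.1 p.2 hδ).trans ?_)
  rw [nsmul_eq_mul, card_univ, Fintype.card_prod]
  refine mul_le_mul_of_nonneg_right ?_ (by positivity)
  rw [pow_two]
  exact_mod_cast Nat.mul_le_mul hm hm

end Basic

theorem cavA (K P ε : ℝ) (m : ℕ) (hP : 0 < P) (hε : 0 < ε) : ∃ N0 : ℕ, ∀ {ι β : Type} [Fintype ι]
    [DecidableEq ι] [Fintype β] [DecidableEq β] {k : ℕ} (M : Mdl ι) (B : Finset ι)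
    (F F1 F2 : β → ℝ → ℝ) (g : β → ι → ℝ) (n : ℕ → β → ℝ) (t : ℕ → ℝ), 0 < k →
    Fintype.card β ≤ m → N0 ≤ B.card → (Fintype.card ι : ℝ) ≤ P * B.card → M.Iso B →
    (∀ b, Nc (F b) (F1 b) (F2 b) K) → (∀ b u, |F b u| ≤ K) → Frame B g →
    |YG k M B F n t - YC k M F g n t| ≤ ε := by
  set R : ℝ := 2 * (m * |K|) with hR
  have hR0 : 0 ≤ R := by positivity
  set A : ℝ := exp R * (m * |K| * (1 + 32 * P)) with hA
  have hA0 : 0 ≤ A := by positivity
  set η : ℝ := ε / (2 * (A + 1)) with hη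
  have hη0 : 0 < η := by positivity
  have hηA : A * η ≤ ε / 2 := by
    rw [hη, ← mul_div_assoc, div_le_div_iff₀ (by positivity) (by positivity)]
    nlinarith
  obtain ⟨δ, hδ, hfc⟩ := frame_close m (η ^ 2) (by positivity)
  obtain ⟨N0, hN0⟩ := exists_nat_ge (R * exp R * ((m : ℝ) ^ 2 * 2) / (δ ^ 2 * (ε / 2)))
  refine ⟨N0 + 1, fun {ι β} _ _ _ _ {k} M B F F1 F2 g n t hk hm hB hP' hM hN hK hg => ?_⟩
  have hF : ∀ b, Measurable (F b) := fun b =>
    (continuous_iff_continuousAt.2 fun u => ((hN b).d1 u).continuousAt).measurable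
  have hBn : B.Nonempty := card_pos.1 (by omega)
  have hBc : (0 : ℝ) < B.card := by exact_mod_cast hBn.card_pos
  have h := mixest (γ (β × ι)) (YG_eq (M := M) (B := B) (n := n) (t := t) hk hF hK).1 hk
    (y := YC k M F g n t) (half_pos hε).le (fun z => cava_crude hk hF hK hm _ _)
    (B := ⋃ p : β × β, {z | δ < |gG B z p.1 ⬝ᵥ gG B z p.2 - if p.1 = p.2 then 1 else 0|})
    fun z hz => by
      simp only [Set.mem_iUnion, Set.mem_ofPred_eq, not_exists, not_lt, Prod.forall] at hz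
      have hz0 : ∀ b, ∀ i ∉ B, gG B z b i = 0 := fun b i hi => if_neg hi
      obtain ⟨S, hS, hd⟩ := hfc ι β B (gG B z) g hm hg hz0 hz
      rw [← YC_rot (g := gG B z) hk hM hS (lin_HC hk hF hK)]
      have hs : ∀ b, ∀ i ∉ B, ((S : Matrix ι ι ℝ) *ᵥ gG B z b - g b) i = 0 := fun b i hi => by
        rw [Pi.sub_apply, hS.mulVec_of_notMem _ hi, hz0 b i hi, hg.1 b i hi, sub_self]
      have c1 := cava_one (n := n) (t := t) (g := fun b => (S : Matrix ι ι ℝ) *ᵥ gG B z b)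
        hk hM hN hK hm hP hP' hη0 hs hd
      have c2 := cava_one (n := n) (t := t) (g' := fun b => (S : Matrix ι ι ℝ) *ᵥ gG B z b)
        (g := g) hk hM hN hK hm hP hP' hη0
        (fun b i hi => by rw [← neg_sub, Pi.neg_apply, hs b i hi, neg_zero])
        fun b => by rw [← neg_sub, neg_dotProduct_neg]; exact hd b
      have e : exp (2 * (m * |K|)) * (m * |K| * (η * (1 + 32 * P))) = A * η := by
        rw [hA, hR]; ring
      rw [e] at c1 c2
      rw [abs_le]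
      constructor <;> linarith
  refine h.trans ?_
  have b1 := mul_le_mul_of_nonneg_left (cava_bad (ι := ι) hBn hm hδ)
    (mul_nonneg hR0 (exp_pos R).le)
  have b2 : (N0 : ℝ) ≤ B.card := by exact_mod_cast (by omega : N0 ≤ B.card)
  have b3 := hN0.trans b2
  rw [div_le_iff₀ (by positivity)] at b3
  have b4 : R * exp R * ((m : ℝ) ^ 2 * (2 / (δ ^ 2 * B.card))) ≤ ε / 2 := by
    rw [← mul_div_assoc, ← mul_div_assoc, div_le_iff₀ (by positivity)]
    linarith
  linarith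

end Vale.Agent.P166
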