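import Vale.Agent.P166.Defs
import Vale.Agent.P157.DL

/-! One sided density lemmas, truncation, monotone limits, mixtures. -/

namespace Vale.Agent.P166

open MeasureTheory ProbabilityTheory Real Finset Matrix Filter Topology
open Vale.Agent.P157 (Sys St γ GS s0 YY mm pp sh DirD pull mrg Rg Sp νB xB)
open scoped ENNReal

section Sys

variable {S Ω : Type*} [MeasurableSpace S] [MeasurableSpace Ω] {Y : Sys S Ω}
  {H H0 H1 g W : S → ℝ} {G : S × S → ℝ}

theorem odl_key (hY : Y.OK) (hM : Y.Mono) (h0 : Y.Lin H0) (h1 : Y.Lin H1)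
    (hle : ∀ s, H1 s ≤ H0 s) {F0 F1 : S → ℝ} (hF0 : Y.Ex F0) (hF1 : Y.Ex F1)
    (hF10 : ∀ s, 0 ≤ F1 s) {c' : ℝ} (hF : ∀ s, F0 s ≤ F1 s * exp (c' * (H1 s - H0 s)))
    (n j : ℕ) (hc' : Y.ζ (j + n) ≤ c') (c : ℝ) (hc : c ≤ Y.ζ j) (s : S) :
    Y.P n j H0 F0 s ≤ exp (c * (Y.X n j H1 s - Y.X n j H0 s)) * Y.P n j H1 F1 s := by
  induction n generalizing j c s with
  | zero =>
    rw [Sys.P_zero hF0.1, Sys.P_zero hF1.1, mul_comm]
    refine (hF s).trans (mul_le_mul_of_nonneg_left (exp_le_exp.2 ?_) (hF10 s))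
    have a1 : c ≤ c' := hc.trans hc'
    have a2 := mul_nonneg (sub_nonneg.2 a1) (sub_nonneg.2 (hle s))
    simp only [Sys.X]
    linarith
  | succ n ih =>
    have hX := Sys.lin_X hY h0 n (j + 1)
    rw [Sys.dl_step hY h0 h1 hF1, Sys.P_succ hY h0 hF0]
    have a1 := Sys.X_mono hY h1 h0 hle (n + 1) j s
    have a2 : ∫ s', Y.P n (j + 1) H0 F0 s' ∂Y.stepM j (Y.X n (j + 1) H0) s ≤
        ∫ s', exp (Y.ζ j * (Y.X n (j + 1) H1 s' - Y.X n (j + 1) H0 s')) *
        Y.P n (j + 1) H1 F1 s' ∂Y.stepM j (Y.X n (j + 1) H0) s :=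
      integral_mono ((Sys.ex_P hY h0 hF0 _ _).integrable_stepM hY hX j s)
        ((Sys.dl_step_ex hY h0 h1 hF1 _ _ _).integrable_stepM hY hX j s)
        fun s' => ih (j + 1) (by rwa [Nat.add_right_comm j 1 n, Nat.add_assoc]) (Y.ζ j)
          (hM.1 (Nat.le_succ j)) s'
    refine a2.trans (le_mul_of_one_le_left (integral_nonneg fun s' =>
      mul_nonneg (exp_pos _).le (integral_nonneg hF10)) (one_le_exp ?_))
    have := mul_nonneg (sub_nonneg.2 hc) (sub_nonneg.2 a1)
    linarith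

theorem odl1 (hY : Y.OK) (hM : Y.Mono) (h0 : Y.Lin H0) (h1 : Y.Lin H1) (hle : ∀ s, H1 s ≤ H0 s)
    (hg : Y.Ex g) (hg0 : ∀ s, 0 ≤ g s) (n j : ℕ) (s : S) :
    Y.P n j H0 (fun s => g s * exp (H1 s - H0 s)) s ≤ Y.P n j H1 g s := by
  simpa using odl_key hY hM h0 h1 hle (hg.mul hY ((h1.sub h0).ex_exp hY)) hg hg0 (c' := 1)
    (fun s => by rw [one_mul]) n j (hM.2 _) 0 (hY.ζ_pos j).le s

theorem odl2 (hY : Y.OK) (hM : Y.Mono) (h0 : Y.Lin H0) (h1 : Y.Lin H1) (hle : ∀ s, H1 s ≤ H0 s)
    (hG : Measurable G) (hG0 : ∀ p, 0 ≤ G p) (hG1 : ∀ p, G p ≤ 1) (l n j : ℕ) (s : S) :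
    ∫ p, G p * exp ((H1 p.1 - H0 p.1) + (H1 p.2 - H0 p.2)) ∂Y.pr l n j H0 s ≤
      ∫ p, G p ∂Y.pr l n j H1 s := by
  have hb : ∀ p, |G p| ≤ 1 := fun p => by rw [abs_of_nonneg (hG0 p)]; exact hG1 p
  have hd := h1.sub h0
  have hG' : Measurable fun p : S × S => G p * exp ((H1 p.1 - H0 p.1) + (H1 p.2 - H0 p.2)) :=
    hG.mul ((hd.1.comp measurable_fst).add (hd.1.comp measurable_snd)).exp
  have hb' : ∀ p : S × S, |G p * exp ((H1 p.1 - H0 p.1) + (H1 p.2 - H0 p.2))| ≤ 1 := fun p => by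
    rw [abs_mul, abs_exp]
    exact mul_le_one₀ (hb p) (exp_pos _).le (exp_le_one_iff.2 (by linarith [hle p.1, hle p.2]))
  have hK0 := Sys.lin_X hY h0 n (j + l)
  have hK1 := Sys.lin_X hY h1 n (j + l)
  rw [Sys.integral_pr hY h0 (Sys.Ex2.of_bdd hY hG' 1 hb'),
    Sys.integral_pr hY h1 (Sys.Ex2.of_bdd hY hG 1 hb)]
  have key := odl_key hY hM hK0 hK1 (Sys.X_mono hY h1 h0 hle n (j + l))
    (Sys.dl_gg_ex hY h0 hG' hb' n (j + l)) (Sys.dl_gg_ex hY h1 hG hb n (j + l))
    (fun _ => integral_nonneg fun _ => integral_nonneg fun _ => hG0 _) (c' := Y.ζ (j + l))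
    (fun s' => ?_) l j le_rfl 0 (hY.ζ_pos j).le s
  · rw [zero_mul, exp_zero, one_mul] at key
    exact key
  have e1 := Sys.dl_in_ex hY h1 hG hb n (j + l) s'
  have e0 := Sys.dl_in_ex hY h0 hG' hb' n (j + l) s'
  rw [mul_comm]
  refine odl_key hY hM h0 h1 hle e0 e1 (fun _ => integral_nonneg fun _ => hG0 _) (c' := 1)
    (fun s1 => ?_) n (j + l) (hM.2 _) _ le_rfl s'
  have e2 : Y.Ex fun s2 => G (s1, s2) :=
    Sys.Ex.of_bdd hY (hG.comp measurable_prodMk_left) 1 fun _ => hb _
  have a1 := odl1 hY hM h0 h1 hle e2 (fun _ => hG0 _) n (j + l) s'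
  rw [one_mul]
  refine le_trans (le_of_eq ?_) (mul_le_mul_of_nonneg_right a1 (exp_pos (H1 s1 - H0 s1)).le)
  rw [Sys.P, ← integral_mul_const]
  refine integral_congr_ae (ae_of_all _ fun s2 => ?_)
  simp only [exp_add]
  ring

theorem act (hY : Y.OK) (hM : Y.Mono) (hH : Y.Lin H) (hW : Y.Lin W) {κ : ℝ}
    (hκ : ∀ s, -κ ≤ W s) (hg : Y.Ex g) (hg0 : ∀ s, 0 ≤ g s) (n j : ℕ) (s : S) :
    Y.P n j (fun s => H s + W s) g s ≤ Y.P n j H (fun s => g s * exp (W s + κ)) s := by
  have hWκ := hW.add (Sys.Lin.const hY κ)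
  have a1 := odl1 hY hM ((hH.add hW).add (Sys.Lin.const hY κ)) hH
    (fun s => by linarith [hκ s]) (hg.mul hY (hWκ.ex_exp hY))
    (fun s => mul_nonneg (hg0 s) (exp_pos _).le) n j s
  refine le_trans (le_of_eq ?_) a1
  rw [Sys.P, Sys.P, Sys.m_add_const hY (hH.add hW)]
  refine integral_congr_ae (ae_of_all _ fun s' => ?_)
  simp only
  rw [mul_assoc, ← exp_add, show W s' + κ + (H s' - (H s' + W s' + κ)) = 0 by ring, exp_zero,
    mul_one]

theorem odl_tv1 (hY : Y.OK) (hM : Y.Mono) (h0 : Y.Lin H0) (h1 : Y.Lin H1)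
    (hle : ∀ s, H1 s ≤ H0 s) (hg : Measurable g) (hb : ∀ s, |g s| ≤ 1) (n j : ℕ) (s : S) :
    Y.P n j H0 g s - Y.P n j H1 g s ≤ 2 * Y.P n j H0 (fun s => H0 s - H1 s) s := by
  have := Sys.m_prob hY h0 n j s
  have := Sys.m_prob hY h1 n j s
  have he : Y.Ex g := Sys.Ex.of_bdd hY hg 1 hb
  have hu : Y.Ex fun s => 1 + g s := (Sys.Ex.const hY 1).add hY he
  have a1 := odl1 hY hM h0 h1 hle hu (fun s => by linarith [(abs_le.1 (hb s)).1]) n j s
  have hd := (h0.sub h1).ex hY
  have a2 := Sys.dl_P_mono hY h0 (hu.sub hY (hd.const_mul hY 2))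
    (hu.mul hY ((h1.sub h0).ex_exp hY)) (fun s' => by
      have b1 := abs_le.1 (hb s')
      have b2 := add_one_le_exp (H1 s' - H0 s')
      have b3 := hle s'
      nlinarith) n j s
  have a3 := a2.trans a1
  rw [Sys.P, Sys.P, integral_sub (hu.integrable_m hY h0 n j s)
    ((hd.integrable_m hY h0 n j s).const_mul 2), integral_const_mul,
    integral_add (integrable_const _) (he.integrable_m hY h0 n j s),
    integral_add (integrable_const _) (he.integrable_m hY h1 n j s)] at a3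
  simp only [integral_const, probReal_univ, smul_eq_mul, one_mul] at a3
  simp only [Sys.P]
  linarith

theorem tv1 (hY : Y.OK) (hM : Y.Mono) (h0 : Y.Lin H0) (h1 : Y.Lin H1) (hle : ∀ s, H1 s ≤ H0 s)
    (hg : Measurable g) (hb : ∀ s, |g s| ≤ 1) (n j : ℕ) (s : S) :
    |Y.P n j H1 g s - Y.P n j H0 g s| ≤ 2 * Y.P n j H0 (fun s => H0 s - H1 s) s := by
  have a1 := odl_tv1 hY hM h0 h1 hle hg hb n j s
  have a2 := odl_tv1 (g := fun s => -g s) hY hM h0 h1 hle hg.neg
    (fun s => by rw [abs_neg]; exact hb s) n j s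
  simp only [Sys.P, integral_neg] at a1 a2 ⊢
  rw [abs_le]
  constructor <;> linarith

theorem odl_pr_add (hY : Y.OK) (hH : Y.Lin H) (hg : Y.Ex g) (l n j : ℕ) (s : S) :
    ∫ p, g p.1 + g p.2 ∂Y.pr l n j H s = 2 * Y.P (l + n) j H g s := by
  rw [integral_add ((hg.fst hY).integrable_pr hY hH l n j s)
    ((hg.snd hY).integrable_pr hY hH l n j s), Sys.P, two_mul]
  congr 1
  · rw [← Sys.pr_map_fst hY hH l n j s,
      integral_map measurable_fst.aemeasurable hg.1.aestronglyMeasurable]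
  · rw [← Sys.pr_map_snd hY hH l n j s,
      integral_map measurable_snd.aemeasurable hg.1.aestronglyMeasurable]

theorem odl_ex2 (hY : Y.OK) (h0 : Y.Lin H0) (h1 : Y.Lin H1) (hG : Y.Ex2 G) :
    Y.Ex2 fun p => G p * exp ((H1 p.1 - H0 p.1) + (H1 p.2 - H0 p.2)) := by
  have he := (h1.sub h0).ex_exp hY
  simpa only [exp_add] using hG.mul hY ((he.fst hY).mul hY (he.snd hY))

theorem odl_tv2 (hY : Y.OK) (hM : Y.Mono) (h0 : Y.Lin H0) (h1 : Y.Lin H1)
    (hle : ∀ s, H1 s ≤ H0 s) (hG : Measurable G) (hb : ∀ p, |G p| ≤ 1) (l n j : ℕ) (s : S) :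
    (∫ p, G p ∂Y.pr l n j H0 s) - ∫ p, G p ∂Y.pr l n j H1 s ≤
      4 * Y.P (l + n) j H0 (fun s => H0 s - H1 s) s := by
  have := Sys.pr_prob hY h0 l n j s
  have := Sys.pr_prob hY h1 l n j s
  have he : Y.Ex2 G := Sys.Ex2.of_bdd hY hG 1 hb
  have hum : Measurable fun p => 1 / 2 + 1 / 2 * G p := (hG.const_mul _).const_add _
  have hu0 : ∀ p, 0 ≤ 1 / 2 + 1 / 2 * G p := fun p => by linarith [(abs_le.1 (hb p)).1]
  have hu1 : ∀ p, 1 / 2 + 1 / 2 * G p ≤ 1 := fun p => by linarith [(abs_le.1 (hb p)).2]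
  have hu : Y.Ex2 fun p => 1 / 2 + 1 / 2 * G p :=
    Sys.Ex2.of_bdd hY hum 1 fun p => by rw [abs_of_nonneg (hu0 p)]; exact hu1 p
  have a1 := odl2 hY hM h0 h1 hle hum hu0 hu1 l n j s
  have hd := (h0.sub h1).ex hY
  have i1 := ((hd.fst hY).add hY (hd.snd hY)).integrable_pr hY h0 l n j s
  have a2 := integral_mono ((hu.integrable_pr hY h0 l n j s).sub i1)
    ((odl_ex2 hY h0 h1 hu).integrable_pr hY h0 l n j s) fun p => by
      have b2 := add_one_le_exp ((H1 p.1 - H0 p.1) + (H1 p.2 - H0 p.2))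
      have b3 := hle p.1
      have b4 := hle p.2
      have b5 := hu0 p
      have b6 := hu1 p
      simp only [Pi.sub_apply]
      nlinarith
  have a3 := a2.trans a1
  simp only [Pi.sub_apply] at a3
  rw [integral_sub (hu.integrable_pr hY h0 l n j s) i1, odl_pr_add hY h0 hd,
    integral_add (integrable_const _) ((he.integrable_pr hY h0 l n j s).const_mul _),
    integral_add (integrable_const _) ((he.integrable_pr hY h1 l n j s).const_mul _),
    integral_const_mul, integral_const_mul] at a3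
  simp only [integral_const, probReal_univ, smul_eq_mul, one_mul] at a3
  linarith

theorem tv2 (hY : Y.OK) (hM : Y.Mono) (h0 : Y.Lin H0) (h1 : Y.Lin H1) (hle : ∀ s, H1 s ≤ H0 s)
    (hG : Measurable G) (hb : ∀ p, |G p| ≤ 1) (l n j : ℕ) (s : S) :
    |(∫ p, G p ∂Y.pr l n j H1 s) - ∫ p, G p ∂Y.pr l n j H0 s| ≤
      4 * Y.P (l + n) j H0 (fun s => H0 s - H1 s) s := by
  have a1 := odl_tv2 hY hM h0 h1 hle hG hb l n j s
  have a2 := odl_tv2 (G := fun p => -G p) hY hM h0 h1 hle hG.neg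
    (fun s => by rw [abs_neg]; exact hb s) l n j s
  simp only [integral_neg] at a2
  rw [abs_le]
  constructor <;> linarith

/-- transfer of smallness to a larger Hamiltonian -/
theorem odl_small (hY : Y.OK) (hM : Y.Mono) (h0 : Y.Lin H0) (h1 : Y.Lin H1)
    (hle : ∀ s, H1 s ≤ H0 s) (hG : Measurable G) (hG0 : ∀ p, 0 ≤ G p) (hG1 : ∀ p, G p ≤ 1)
    (l n j : ℕ) (s : S) {L : ℝ} (hL : 0 < L) : ∫ p, G p ∂Y.pr l n j H0 s ≤
      exp L * (∫ p, G p ∂Y.pr l n j H1 s) + 2 * Y.P (l + n) j H0 (fun s => H0 s - H1 s) s / L := by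
  have hb : ∀ p, |G p| ≤ 1 := fun p => by rw [abs_of_nonneg (hG0 p)]; exact hG1 p
  have he : Y.Ex2 G := Sys.Ex2.of_bdd hY hG 1 hb
  have a1 := odl2 hY hM h0 h1 hle hG hG0 hG1 l n j s
  have hd := (h0.sub h1).ex hY
  have i1 := (((hd.fst hY).add hY (hd.snd hY)).integrable_pr hY h0 l n j s).div_const L
  have i2 := ((odl_ex2 hY h0 h1 he).integrable_pr hY h0 l n j s).const_mul (exp L)
  have a2 := integral_mono (he.integrable_pr hY h0 l n j s) (i2.add i1) fun p => by
      have b3 := hle p.1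
      have b4 := hle p.2
      simp only [Pi.add_apply]
      rcases le_total ((H0 p.1 - H1 p.1) + (H0 p.2 - H1 p.2)) L with h | h
      · have b5 : 0 ≤ ((H0 p.1 - H1 p.1) + (H0 p.2 - H1 p.2)) / L :=
          div_nonneg (by linarith) hL.le
        have b6 : 1 ≤ exp L * exp ((H1 p.1 - H0 p.1) + (H1 p.2 - H0 p.2)) := by
          rw [← exp_add]
          exact one_le_exp (by linarith)
        have b7 := mul_le_mul_of_nonneg_left b6 (hG0 p)
        linarith
      · have b5 := (one_le_div hL).2 h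
        have b6 : 0 ≤ exp L * (G p * exp ((H1 p.1 - H0 p.1) + (H1 p.2 - H0 p.2))) :=
          mul_nonneg (exp_pos _).le (mul_nonneg (hG0 p) (exp_pos _).le)
        linarith [hG1 p]
  simp only [Pi.add_apply] at a2
  rw [integral_add i2 i1, integral_const_mul, integral_div, odl_pr_add hY h0 hd] at a2
  exact a2.trans (add_le_add (mul_le_mul_of_nonneg_left a1 (exp_pos _).le) le_rfl)

theorem X_convex (hY : Y.OK) (hH : Y.Lin H) (hg : Y.Lin g) {θ : ℝ} (h0 : 0 ≤ θ) (h1 : θ ≤ 1)
    (n j : ℕ) (s : S) : Y.X n j (fun s => H s + θ * g s) s ≤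
      (1 - θ) * Y.X n j H s + θ * Y.X n j (fun s => H s + g s) s := by
  have hK := hH.add (hg.const_mul θ)
  have a1 := Sys.le_X_sub hY hK hH n j s
  have a2 := Sys.le_X_sub hY hK (hH.add hg) n j s
  have e1 : (fun s => H s - (H s + θ * g s)) = fun s => -θ * g s := by funext s; ring
  have e2 : (fun s => H s + g s - (H s + θ * g s)) = fun s => (1 - θ) * g s := by funext s; ring
  rw [e1, Sys.P, integral_const_mul] at a1
  rw [e2, Sys.P, integral_const_mul] at a2
  have a3 := mul_le_mul_of_nonneg_left a1 (sub_nonneg.2 h1)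
  have a4 := mul_le_mul_of_nonneg_left a2 h0
  nlinarith

/-- Lipschitz bound below a nonpositive weight -/
theorem ql (hY : Y.OK) (hM : Y.Mono) (hH : Y.Lin H) (hW : Y.Lin W) (hW0 : ∀ s, W s ≤ 0)
    (hg : Y.Lin g) (hg0 : ∀ s, 0 ≤ g s) {l A t : ℝ} (hl : 0 < l) (n j : ℕ) (s : S)
    (h1 : Y.P n j H (fun s => exp (l * g s)) s ≤ A) (h2 : Y.P n j H (fun s => -W s) s ≤ A)
    (ht : 0 ≤ t) (htl : t ≤ l) :
    Y.X n j (fun s => H s + W s + t * g s) s - Y.X n j (fun s => H s + W s) s ≤ 2 * t * A / l ∧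
    Y.X n j (fun s => H s + W s) s - Y.X n j (fun s => H s + W s - t * g s) s ≤ 2 * t * A / l := by
  have hK := hH.add hW
  have hlg := hg.const_mul l
  have a1 := X_convex hY hK hlg (div_nonneg ht hl.le) ((div_le_one hl).2 htl) n j s
  have e1 : (fun s => H s + W s + t / l * (l * g s)) = fun s => H s + W s + t * g s := by
    funext s; field_simp
  rw [e1] at a1
  have a2 := Sys.X_mono hY (hK.add hlg) (hH.add hlg) (fun s => by linarith [hW0 s]) n j s
  have a3 := Sys.X_sub_le hY hM.2 hH (hH.add hlg) n j s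
  simp only [add_sub_cancel_left] at a3
  have a4 := (log_le_sub_one_of_pos (Sys.P_exp_pos hY hH hlg n j s)).trans (sub_le_sub_right h1 1)
  have a5 := Sys.le_X_sub hY hH hK n j s
  simp only [add_sub_cancel_left] at a5
  rw [Sys.P, integral_neg] at h2
  rw [Sys.P] at a5
  have a6 : Y.X n j (fun s => H s + W s + l * g s) s - Y.X n j (fun s => H s + W s) s ≤ 2 * A := by
    linarith
  have a7 := mul_le_mul_of_nonneg_left a6 (div_nonneg ht hl.le)
  have a8 : Y.X n j (fun s => H s + W s + t * g s) s - Y.X n j (fun s => H s + W s) s ≤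
      2 * t * A / l := by
    have : 2 * t * A / l = t / l * (2 * A) := by ring
    rw [this]
    linarith
  refine ⟨a8, ?_⟩
  have b1 := X_convex hY (hK.sub (hg.const_mul t)) (hg.const_mul (2 * t)) (θ := 1 / 2)
    (by norm_num) (by norm_num) n j s
  have e2 : (fun s => H s + W s - t * g s + 1 / 2 * (2 * t * g s)) = fun s => H s + W s := by
    funext s; ring
  have e3 : (fun s => H s + W s - t * g s + 2 * t * g s) = fun s => H s + W s + t * g s := by
    funext s; ring
  rw [e2, e3] at b1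
  linarith

/-- removal of truncations, one term at a time -/
theorem trunc (hY : Y.OK) (hM : Y.Mono) (hH : Y.Lin H) {β : Type} [Fintype β] [DecidableEq β]
    {q g : β → S → ℝ} (hq : ∀ b, Y.Lin (q b)) (hg : ∀ b, Y.Lin (g b))
    (hle : ∀ b s, q b s ≤ g b s) {κ a : ℝ} (hκ : ∀ b s, -κ ≤ g b s) (n j : ℕ) (s : S)
    (h : ∀ b, ∀ T : Finset β,
      Y.P n j (fun s => H s + ∑ b' ∈ univ.erase b, if b' ∈ T then g b' s else q b' s)
        (fun s => (g b s - q b s) * exp (g b s + κ)) s ≤ a) :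
    Y.X n j (fun s => H s + ∑ b, q b s) s ≤ Y.X n j (fun s => H s + ∑ b, g b s) s ∧
    Y.X n j (fun s => H s + ∑ b, g b s) s - Y.X n j (fun s => H s + ∑ b, q b s) s ≤
      Fintype.card β * a := by
  have hite : ∀ (T : Finset β) b, Y.Lin fun s => if b ∈ T then g b s else q b s := fun T b => by
    by_cases hb : b ∈ T
    · simpa only [hb, if_true] using hg b
    · simpa only [hb, if_false] using hq b
  refine ⟨Sys.X_mono hY (hH.add (Sys.Lin.sum hY _ fun b _ => hq b))
    (hH.add (Sys.Lin.sum hY _ fun b _ => hg b))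
    (fun s => add_le_add le_rfl (sum_le_sum fun b _ => hle b s)) n j s, ?_⟩
  have key : ∀ T : Finset β,
      Y.X n j (fun s => H s + ∑ b, if b ∈ T then g b s else q b s) s -
        Y.X n j (fun s => H s + ∑ b, q b s) s ≤ T.card * a := by
    intro T
    induction T using Finset.induction_on with
    | empty => simp
    | insert b T hb ih =>
      have hB := hH.add (Sys.Lin.sum hY (univ.erase b) fun b' _ => hite T b')
      have e1 : (fun s => H s + ∑ b', if b' ∈ insert b T then g b' s else q b' s) = fun s =>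
          (H s + ∑ b' ∈ univ.erase b, if b' ∈ T then g b' s else q b' s) + g b s := by
        funext s
        rw [← add_sum_erase _ _ (mem_univ b), if_pos (mem_insert_self b T), add_assoc, add_comm (g b s)]
        congr 2
        refine sum_congr rfl fun b' hb' => ?_
        simp only [mem_insert, (mem_erase.1 hb').1, false_or]
      have e2 : (fun s => H s + ∑ b', if b' ∈ T then g b' s else q b' s) = fun s =>
          (H s + ∑ b' ∈ univ.erase b, if b' ∈ T then g b' s else q b' s) + q b s := by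
        funext s
        rw [← add_sum_erase _ _ (mem_univ b), if_neg hb, add_assoc, add_comm (q b s)]
      rw [e2] at ih
      rw [e1, card_insert_of_notMem hb]
      have a1 := Sys.le_X_sub hY (hB.add (hg b)) (hB.add (hq b)) n j s
      have a2 := (act hY hM hB (hg b) (hκ b) (((hg b).sub (hq b)).ex hY)
        (fun s => sub_nonneg.2 (hle b s)) n j s).trans (h b T)
      simp only [add_sub_add_left_eq_sub] at a1
      have e3 : (fun s => q b s - g b s) = fun s => -(g b s - q b s) := by funext s; ring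
      rw [e3, Sys.P, integral_neg] at a1
      rw [Sys.P] at a2
      push_cast
      linarith
  simpa using key univ

/-- limits of Hamiltonians under a common upper bound -/
theorem X_lim (hY : Y.OK) {B : S → ℝ} (hB : Y.Lin B) {Ht : ℕ → S → ℝ} (ht : ∀ m, Y.Lin (Ht m))
    (hle : ∀ m s, Ht m s ≤ B s) (hlim : ∀ s, Tendsto (fun m => Ht m s) atTop (𝓝 (H s)))
    (n j : ℕ) (s : S) : Tendsto (fun m => Y.X n j (Ht m) s) atTop (𝓝 (Y.X n j H s)) := by
  have := hY.prob
  induction n generalizing j s with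
  | zero => exact hlim s
  | succ n ih =>
    have hz := hY.ζ_pos j
    have hXB := Sys.lin_X hY hB n (j + 1)
    have hm : Measurable (Y.X n (j + 1) H) :=
      measurable_of_tendsto_metrizable (fun m => (Sys.lin_X hY (ht m) n (j + 1)).1)
        (tendsto_pi_nhds.2 (ih (j + 1)))
    have hmono : ∀ m s, Y.X n (j + 1) (Ht m) s ≤ Y.X n (j + 1) B s := fun m =>
      Sys.X_mono hY (ht m) hB (hle m) n (j + 1)
    have iB := Sys.integrable_exp_step hY hXB j (Y.ζ j) s
    have iH : Integrable (fun w => exp (Y.ζ j * Y.X n (j + 1) H (Y.a j s w))) Y.μ := by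
      refine iB.mono' ((hm.comp (hY.meas_as j s)).const_mul _).exp.aestronglyMeasurable
        (ae_of_all _ fun w => ?_)
      rw [Real.norm_eq_abs, abs_exp]
      exact exp_le_exp.2 (mul_le_mul_of_nonneg_left
        (le_of_tendsto' (ih (j + 1) _) fun m => hmono m _) hz.le)
    have a1 : Tendsto (fun m => ∫ w, exp (Y.ζ j * Y.X n (j + 1) (Ht m) (Y.a j s w)) ∂Y.μ) atTop
        (𝓝 (∫ w, exp (Y.ζ j * Y.X n (j + 1) H (Y.a j s w)) ∂Y.μ)) := by
      refine tendsto_integral_of_dominated_convergence _ (fun m =>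
        (((Sys.lin_X hY (ht m) n (j + 1)).1.comp (hY.meas_as j s)).const_mul
          _).exp.aestronglyMeasurable) iB (fun m => ae_of_all _ fun w => ?_)
        (ae_of_all _ fun w => ((ih (j + 1) _).const_mul _).rexp)
      rw [Real.norm_eq_abs, abs_exp]
      exact exp_le_exp.2 (mul_le_mul_of_nonneg_left (hmono m _) hz.le)
    exact (a1.log (integral_exp_pos iH).ne').const_mul _

end Sys

/-- a fractional moment is insensitive to rare events -/
theorem mixest {Ω : Type*} [MeasurableSpace Ω] (μ : Measure Ω) [IsProbabilityMeasure μ]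
    {f : Ω → ℝ} (hf : Measurable f) {k : ℕ} (hk : 0 < k) {y R ε : ℝ} (hε : 0 ≤ ε)
    (hR : ∀ w, |f w - y| ≤ R) {B : Set Ω} (hB : ∀ w ∉ B, |f w - y| ≤ ε) :
    |k * log (∫ w, exp (f w / k) ∂μ) - y| ≤ ε + R * exp R * μ.real B := by
  have hk1 : (1 : ℝ) ≤ k := Nat.one_le_cast.2 hk
  have hk0 : (0 : ℝ) < k := by linarith
  obtain ⟨w0⟩ := nonempty_of_isProbabilityMeasure μ
  have hR0 : 0 ≤ R := (abs_nonneg _).trans (hR w0)
  set B' := toMeasurable μ B with hB'
  have mB : MeasurableSet B' := measurableSet_toMeasurable μ B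
  have pB : μ.real B' = μ.real B := by rw [Measure.real, measure_toMeasurable]; rfl
  have hB2 : ∀ w ∉ B', |f w - y| ≤ ε := fun w hw => hB w fun h => hw (subset_toMeasurable μ B h)
  have p0 : 0 ≤ μ.real B := measureReal_nonneg
  have mD : Measurable fun w => (f w - y) / k := (hf.sub_const y).div_const _
  have bD : ∀ w, |(f w - y) / k| ≤ R / k := fun w => by
    rw [abs_div, abs_of_pos hk0]
    exact div_le_div_of_nonneg_right (hR w) hk0.le
  have iD : Integrable (fun w => (f w - y) / k) μ :=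
    (integrable_const (R / k)).mono' mD.aestronglyMeasurable (ae_of_all _ bD)
  have iE : Integrable (fun w => exp ((f w - y) / k)) μ :=
    (integrable_const (exp (R / k))).mono' mD.exp.aestronglyMeasurable (ae_of_all _ fun w => by
      rw [Real.norm_eq_abs, abs_exp]
      exact exp_le_exp.2 ((le_abs_self _).trans (bD w)))
  have hpos := integral_exp_pos iE
  have e1 : ∫ w, exp (f w / k) ∂μ = exp (y / k) * ∫ w, exp ((f w - y) / k) ∂μ := by
    rw [← integral_const_mul]
    refine integral_congr_ae (ae_of_all _ fun w => ?_)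
    simp only
    rw [← exp_add]
    congr 1
    ring
  have e2 : k * log (∫ w, exp (f w / k) ∂μ) - y = k * log (∫ w, exp ((f w - y) / k) ∂μ) := by
    rw [e1, log_mul (exp_pos _).ne' hpos.ne', log_exp]
    field_simp
    ring
  have iI : ∀ a c : ℝ, Integrable (fun w => a + B'.indicator (fun _ => c) w) μ := fun a c =>
    (integrable_const a).add ((integrable_const c).indicator mB)
  have vI : ∀ a c : ℝ, ∫ w, a + B'.indicator (fun _ => c) w ∂μ = a + μ.real B * c := fun a c => by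
    rw [integral_add (integrable_const a) ((integrable_const c).indicator mB),
      integral_indicator_const _ mB, pB]
    simp
  have hRe : R ≤ R * exp R := le_mul_of_one_le_right hR0 (one_le_exp hR0)
  rw [e2, abs_le]
  constructor
  · have a1 := (le_log_iff_exp_le hpos).2 (Vale.Agent.P157.c2_jensen iD iE)
    have a2 := integral_mono (iI (-ε / k) (-R / k)) iD fun w => by
      by_cases hw : w ∈ B'
      · simp only [Set.indicator_of_mem hw, ← add_div]
        exact div_le_div_of_nonneg_right (by linarith [(abs_le.1 (hR w)).1]) hk0.le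
      · simp only [Set.indicator_of_notMem hw, add_zero]
        exact div_le_div_of_nonneg_right (abs_le.1 (hB2 w hw)).1 hk0.le
    rw [vI] at a2
    have a3 := mul_le_mul_of_nonneg_left (a2.trans a1) hk0.le
    have a4 : k * (-ε / k + μ.real B * (-R / k)) = -ε - R * μ.real B := by field_simp; ring
    have a5 := mul_le_mul_of_nonneg_right hRe p0
    linarith
  · have c0 : 0 ≤ exp (R / k) - 1 := sub_nonneg.2 (one_le_exp (by positivity))
    have a2 := integral_mono iE ((iI 1 (exp (R / k) - 1)).const_mul (exp (ε / k))) fun w => by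
      by_cases hw : w ∈ B'
      · simp only [Set.indicator_of_mem hw, add_sub_cancel, ← exp_add, ← add_div]
        exact exp_le_exp.2 (div_le_div_of_nonneg_right (by linarith [(abs_le.1 (hR w)).2]) hk0.le)
      · simp only [Set.indicator_of_notMem hw, add_zero, mul_one]
        exact exp_le_exp.2 (div_le_div_of_nonneg_right (abs_le.1 (hB2 w hw)).2 hk0.le)
    rw [integral_const_mul, vI] at a2
    have a3 : log (∫ w, exp ((f w - y) / k) ∂μ) ≤ ε / k + μ.real B * (exp (R / k) - 1) := by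
      rw [log_le_iff_le_exp hpos, exp_add]
      refine a2.trans (mul_le_mul_of_nonneg_left ?_ (exp_pos _).le)
      linarith [add_one_le_exp (μ.real B * (exp (R / k) - 1))]
    have a4 : exp (R / k) - 1 ≤ R / k * exp R := by
      have b1 := add_one_le_exp (-(R / k))
      have b2 := mul_le_mul_of_nonneg_right b1 (exp_pos (R / k)).le
      rw [← exp_add, neg_add_cancel, exp_zero] at b2
      have b3 : exp (R / k) ≤ exp R := exp_le_exp.2 (div_le_self hR0 hk1)
      have b4 := mul_le_mul_of_nonneg_left b3 (div_nonneg hR0 hk0.le)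
      linarith
    have a5 := mul_le_mul_of_nonneg_left (a3.trans (add_le_add le_rfl
      (mul_le_mul_of_nonneg_left a4 p0))) hk0.le
    have a6 : k * (ε / k + μ.real B * (R / k * exp R)) = ε + R * exp R * μ.real B := by
      field_simp
    linarith

end Vale.Agent.P166
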