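import Vale.Agent.P166.Defs

/-! Truncated quadratics. -/

namespace Vale.Agent.P166

open MeasureTheory ProbabilityTheory Real Finset Matrix Filter Topology
open Vale.Agent.P157 (Sys St γ GS s0 YY mm pp sh DirD pull mrg Rg Sp νB xB)
open scoped ENNReal

variable {κ κ' s μ S t u u' l : ℝ}

theorem le_chi (κ t : ℝ) : t ≤ chi κ t := by
  have h : 2 * t ≤ log (exp (2 * t) + exp (-2 * κ)) :=
    (Real.le_log_iff_exp_le (by positivity)).2 (le_add_of_nonneg_right (exp_pos _).le)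
  unfold chi
  linarith

theorem neg_le_chi (κ t : ℝ) : -κ ≤ chi κ t := by
  have h : -2 * κ ≤ log (exp (2 * t) + exp (-2 * κ)) :=
    (Real.le_log_iff_exp_le (by positivity)).2 (le_add_of_nonneg_left (exp_pos _).le)
  unfold chi
  linarith

theorem tq_chi_le {m : ℝ} (h1 : t ≤ m) (h2 : -κ ≤ m) : chi κ t ≤ m + 1 / 2 := by
  have a1 : exp (2 * t) ≤ exp (2 * m) := exp_le_exp.2 (by linarith)
  have a2 : exp (-2 * κ) ≤ exp (2 * m) := exp_le_exp.2 (by linarith)
  have a3 := Real.add_one_le_exp 1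
  have h : log (exp (2 * t) + exp (-2 * κ)) ≤ 2 * m + 1 := by
    rw [Real.log_le_iff_le_exp (by positivity), exp_add]
    nlinarith [exp_pos (2 * m)]
  unfold chi
  linarith

theorem chi_le (hκ : 0 ≤ κ) (ht : t ≤ 0) : chi κ t ≤ 1 := by
  have := tq_chi_le (κ := κ) ht (by linarith)
  linarith

theorem chi_anti (h : κ ≤ κ') (t : ℝ) : chi κ' t ≤ chi κ t := by
  have a : exp (-2 * κ') ≤ exp (-2 * κ) := exp_le_exp.2 (by linarith)
  have := Real.log_le_log (x := exp (2 * t) + exp (-2 * κ')) (y := exp (2 * t) + exp (-2 * κ))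
    (by positivity) (by linarith)
  unfold chi
  linarith

theorem tq_chi_sub (κ t : ℝ) : chi κ t - t ≤ exp (-2 * (t + κ)) / 2 := by
  have h : log (exp (2 * t) + exp (-2 * κ)) ≤ 2 * t + exp (-2 * (t + κ)) := by
    rw [Real.log_le_iff_le_exp (by positivity), exp_add]
    have e1 : exp (-2 * κ) = exp (2 * t) * exp (-2 * (t + κ)) := by
      rw [← exp_add]
      congr 1
      ring
    have := mul_le_mul_of_nonneg_left (Real.add_one_le_exp (exp (-2 * (t + κ)))) (exp_pos (2 * t)).le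
    linarith
  unfold chi
  linarith

theorem chi_tendsto (t : ℝ) : Tendsto (fun m : ℕ => chi m t) atTop (𝓝 t) := by
  have h1 : Tendsto (fun m : ℕ => exp (-2 * (m : ℝ))) atTop (𝓝 0) :=
    Real.tendsto_exp_atBot.comp (tendsto_natCast_atTop_atTop.const_mul_atTop_of_neg (by norm_num))
  have h2 := ((h1.const_add (exp (2 * t))).log (by positivity)).const_mul (1 / 2)
  rw [add_zero, log_exp, show 1 / 2 * (2 * t) = t by ring] at h2
  exact h2

theorem chi_tail (h0 : 0 < l) (h1 : l ≤ 1) (κ t : ℝ) :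
    (chi κ t - t) * exp (chi κ t + κ) ≤ 4 / l * exp (-(l * κ)) * exp (-(l * t)) := by
  have e2 : exp (1 / 2 : ℝ) ≤ 2 := by
    have := Real.exp_one_lt_d9
    have e : exp (1 : ℝ) = exp (1 / 2) * exp (1 / 2) := by
      rw [← exp_add]
      norm_num
    nlinarith [exp_pos (1 / 2 : ℝ)]
  have l4 : 4 ≤ 4 / l := by
    rw [le_div_iff₀ h0]
    linarith
  have c0 : 0 ≤ chi κ t - t := sub_nonneg.2 (le_chi κ t)
  rw [mul_assoc, ← exp_add]
  rcases le_total 0 (t + κ) with h | h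
  · have a1 : exp (chi κ t + κ) ≤ exp (t + κ) * 2 := by
      refine le_trans (exp_le_exp.2 ?_) ((exp_add _ _).le.trans
        (mul_le_mul_of_nonneg_left e2 (exp_pos _).le))
      have := tq_chi_le (κ := κ) (le_refl t) (by linarith)
      linarith
    have a2 := mul_le_mul (tq_chi_sub κ t) a1 (exp_pos _).le (by positivity)
    have a3 : exp (-2 * (t + κ)) * exp (t + κ) ≤ exp (-(l * κ) + -(l * t)) := by
      rw [← exp_add]
      refine exp_le_exp.2 ?_
      nlinarith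
    nlinarith [exp_pos (-(l * κ) + -(l * t))]
  · have a0 := tq_chi_le (κ := κ) (t := t) (m := -κ) (by linarith) le_rfl
    have a1 : exp (chi κ t + κ) ≤ 2 := le_trans (exp_le_exp.2 (by linarith)) e2
    have a2 := mul_le_mul (show chi κ t - t ≤ -(t + κ) + 1 / 2 by linarith) a1 (exp_pos _).le
      (by linarith)
    have a3 := mul_le_mul_of_nonneg_left (Real.add_one_le_exp (-(l * κ) + -(l * t)))
      (by positivity : 0 ≤ 4 / l)
    have a4 : 4 / l * (-(l * κ) + -(l * t) + 1) = -4 * (t + κ) + 4 / l := by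
      field_simp
      ring
    linarith

theorem sgm_mem (κ t : ℝ) : 0 < sgm κ t ∧ sgm κ t < 1 := by
  unfold sgm
  exact ⟨by positivity, (div_lt_one (by positivity)).2 (lt_add_of_pos_right _ (exp_pos _))⟩

theorem one_sub_sgm_le (h0 : 0 ≤ l) (h1 : l ≤ 1) (κ t : ℝ) :
    1 - sgm κ t ≤ exp (-(l * κ)) * exp (-(l * t)) := by
  rw [← exp_add]
  rcases le_total 0 (t + κ) with h | h
  · have e1 : 1 - sgm κ t = exp (-2 * κ) / (exp (2 * t) + exp (-2 * κ)) := by
      unfold sgm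
      field_simp
      ring
    rw [e1, div_le_iff₀ (by positivity), mul_add, ← exp_add]
    refine le_add_of_le_of_nonneg (exp_le_exp.2 ?_) (by positivity)
    nlinarith
  · have a := Real.one_le_exp (x := -(l * κ) + -(l * t)) (by nlinarith)
    have := (sgm_mem κ t).1
    linarith

theorem qq_nonpos (hs : 0 ≤ s) (μ u : ℝ) : qq s μ u ≤ 0 := by
  unfold qq
  have := mul_nonneg hs (sq_nonneg (u - μ))
  linarith

theorem neg_qq_le (hs : 0 ≤ s) (μ u : ℝ) : -qq s μ u ≤ s * u ^ 2 + s * μ ^ 2 := by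
  unfold qq
  have := mul_nonneg hs (sq_nonneg (u + μ))
  linarith

theorem continuous_qq (s μ : ℝ) : Continuous (qq s μ) := by
  unfold qq
  fun_prop

theorem tq_dchi (κ t : ℝ) : HasDerivAt (chi κ) (sgm κ t) t := by
  have h1 : HasDerivAt (fun t : ℝ => exp (2 * t) + exp (-2 * κ)) (exp (2 * t) * 2) t := by
    simpa using ((hasDerivAt_id t).const_mul 2).exp.add_const (exp (-2 * κ))
  have h2 := (h1.log (by positivity)).const_mul (1 / 2)
  refine h2.congr_deriv ?_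
  unfold sgm
  ring

theorem tq_dsgm (κ t : ℝ) : HasDerivAt (sgm κ) (2 * sgm κ t * (1 - sgm κ t)) t := by
  have h0 : HasDerivAt (fun t : ℝ => exp (2 * t)) (exp (2 * t) * 2) t := by
    simpa using ((hasDerivAt_id t).const_mul 2).exp
  have h2 := h0.div (h0.add_const (exp (-2 * κ))) (by positivity)
  refine h2.congr_deriv ?_
  unfold sgm
  field_simp

theorem tq_dqq (s μ u : ℝ) : HasDerivAt (qq s μ) (-(s * (u - μ))) u := by
  have h := (((hasDerivAt_id u).sub_const μ).pow 2).const_mul (-(s / 2))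
  refine h.congr_deriv ?_
  simp only [id]
  push_cast
  ring

theorem continuous_tq (κ s μ : ℝ) : Continuous (tq κ s μ) :=
  (continuous_iff_continuousAt.2 fun t => (tq_dchi κ t).continuousAt).comp (continuous_qq s μ)

theorem tq_even (κ s u : ℝ) {ε : ℝ} (hε : ε ^ 2 = 1) : tq κ s 0 (ε * u) = tq κ s 0 u := by
  unfold tq qq
  rw [sub_zero, sub_zero, mul_pow, hε, one_mul]

theorem tq_sgm_sq (hκ : 0 ≤ κ) (ht : t ≤ 0) : sgm κ t * t ^ 2 ≤ (1 + κ) ^ 2 := by
  obtain ⟨p0, p1⟩ := sgm_mem κ t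
  rcases le_total 0 (t + κ) with h | h
  · have : t ^ 2 ≤ (1 + κ) ^ 2 := by nlinarith
    nlinarith [sq_nonneg t]
  · have a1 : sgm κ t * exp (-(t + κ)) ^ 2 ≤ 1 := by
      unfold sgm
      rw [div_mul_eq_mul_div, div_le_one (by positivity), ← exp_nat_mul, ← exp_add]
      refine le_add_of_nonneg_of_le (exp_pos _).le (le_of_eq ?_)
      congr 1
      push_cast
      ring
    have a2 := Real.add_one_le_exp (-(t + κ))
    have a3 : -t ≤ (1 + κ) * exp (-(t + κ)) := by nlinarith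
    have a4 : t ^ 2 ≤ ((1 + κ) * exp (-(t + κ))) ^ 2 := by
      rw [← neg_sq]
      exact pow_le_pow_left₀ (by linarith) a3 2
    calc sgm κ t * t ^ 2 ≤ sgm κ t * ((1 + κ) * exp (-(t + κ))) ^ 2 :=
          mul_le_mul_of_nonneg_left a4 p0.le
      _ = (1 + κ) ^ 2 * (sgm κ t * exp (-(t + κ)) ^ 2) := by ring
      _ ≤ _ := mul_le_of_le_one_right (by positivity) a1

theorem tq_bounds {σ v q L : ℝ} (hs : 0 ≤ s) (hS : s ≤ S) (p0 : 0 < σ) (p1 : σ < 1) (hL : 1 ≤ L)
    (hq : σ * q ^ 2 ≤ L) (hv : v ^ 2 = -2 * s * q) :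
    |-(σ * v)| ≤ 50 * (1 + S) ^ 2 * L ∧ |2 * σ * (1 - σ) * v ^ 2 - s * σ| ≤ 50 * (1 + S) ^ 2 * L ∧
      |-(4 * σ * (1 - σ) * (1 - 2 * σ) * v ^ 3) + 6 * s * σ * (1 - σ) * v| ≤
        50 * (1 + S) ^ 2 * L := by
  have hS0 : 0 ≤ S := hs.trans hS
  have b1 : σ * -q ≤ L := by nlinarith [mul_nonneg p0.le (sq_nonneg (q + 1))]
  have b2 : σ * v ^ 2 ≤ 2 * S * L := by
    have := mul_le_mul_of_nonneg_left b1 hs
    have := mul_le_mul_of_nonneg_right hS (by linarith : 0 ≤ L)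
    rw [hv]
    linarith
  have b3 : σ * v ^ 4 ≤ 4 * S ^ 2 * L := by
    have e : σ * v ^ 4 = 4 * (s ^ 2 * (σ * q ^ 2)) := by
      rw [show v ^ 4 = (v ^ 2) ^ 2 by ring, hv]
      ring
    have := mul_le_mul (pow_le_pow_left₀ hs hS 2) hq (by positivity) (by positivity)
    linarith
  have b4 : σ * |v| ≤ (1 + S) * L := by
    have := mul_nonneg p0.le (sq_nonneg (|v| - 1))
    rw [← sq_abs] at b2
    nlinarith
  have b5 : σ * |v| ^ 3 ≤ (S + 2 * S ^ 2) * L := by
    have := mul_nonneg p0.le (sq_nonneg (|v| ^ 2 - |v|))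
    have e4 : v ^ 4 = |v| ^ 4 := (Even.pow_abs (by decide) v).symm
    rw [← sq_abs] at b2
    rw [e4] at b3
    nlinarith
  have c1 : 0 ≤ S * L := by positivity
  have c2 : 0 ≤ S ^ 2 * L := by positivity
  have c3 : S ≤ S * L := le_mul_of_one_le_right hS0 hL
  have d0 : 0 ≤ 1 - σ := by linarith
  refine ⟨?_, ?_, ?_⟩
  · rw [abs_neg, abs_mul, abs_of_pos p0]
    nlinarith
  · have d1 : 0 ≤ σ * (1 - σ) * v ^ 2 := by positivity
    have d2 : 0 ≤ σ * σ * v ^ 2 := by positivity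
    have d3 : s * σ ≤ s := mul_le_of_le_one_right hs p1.le
    have d4 : 0 ≤ s * σ := by positivity
    rw [abs_le]
    constructor <;> nlinarith
  · refine (abs_add_le _ _).trans ?_
    have d1 : |-(4 * σ * (1 - σ) * (1 - 2 * σ) * v ^ 3)| ≤ 4 * (σ * |v| ^ 3) := by
      have e : |-(4 * σ * (1 - σ) * (1 - 2 * σ) * v ^ 3)| =
          4 * (σ * |v| ^ 3) * ((1 - σ) * |1 - 2 * σ|) := by
        rw [abs_neg, abs_mul, abs_mul, abs_mul, abs_mul, abs_pow, abs_of_pos p0, abs_of_nonneg d0,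
          abs_of_pos (by norm_num : (0 : ℝ) < 4)]
        ring
      rw [e]
      exact mul_le_of_le_one_right (by positivity) (mul_le_one₀ (by linarith) (abs_nonneg _)
        (abs_le.2 ⟨by linarith, by linarith⟩))
    have d2 : |6 * s * σ * (1 - σ) * v| ≤ 6 * (S * ((1 + S) * L)) := by
      have e : |6 * s * σ * (1 - σ) * v| = 6 * (s * (σ * |v|)) * (1 - σ) := by
        rw [abs_mul, abs_of_nonneg (by positivity)]
        ring
      have := mul_le_mul hS b4 (by positivity) hS0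
      rw [e]
      exact (mul_le_of_le_one_right (by positivity) (by linarith)).trans (by linarith)
    nlinarith

theorem tq_one_le_KK (hκ : 0 ≤ κ) (hS : 0 ≤ S) : 1 + κ ≤ KK S κ := by
  unfold KK
  have a1 : 1 ≤ 50 * (1 + S) ^ 2 := by nlinarith
  have a2 : 1 + κ ≤ (1 + κ) ^ 2 := by nlinarith
  exact a2.trans (le_mul_of_one_le_left (by positivity) a1)

theorem nc_tq (hκ : 0 ≤ κ) (hs : 0 ≤ s) (hS : s ≤ S) (μ : ℝ) :
    Nc (tq κ s μ) (tq1 κ s μ) (tq2 κ s μ) (KK S κ) := by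
  have hb := fun u => tq_bounds (v := s * (u - μ)) hs hS (sgm_mem κ (qq s μ u)).1
    (sgm_mem κ (qq s μ u)).2 (by nlinarith) (tq_sgm_sq hκ (qq_nonpos hs μ u)) (by unfold qq; ring)
  have d0 := fun u => (tq_dsgm κ (qq s μ u)).comp u (tq_dqq s μ u)
  have dv : ∀ u, HasDerivAt (fun u => s * (u - μ)) s u := fun u => by
    simpa using ((hasDerivAt_id u).sub_const μ).const_mul s
  have d3 : ∀ u, HasDerivAt (tq2 κ s μ) (-(4 * sgm κ (qq s μ u) * (1 - sgm κ (qq s μ u)) *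
      (1 - 2 * sgm κ (qq s μ u)) * (s * (u - μ)) ^ 3) +
      6 * s * sgm κ (qq s μ u) * (1 - sgm κ (qq s μ u)) * (s * (u - μ))) u := fun u => by
    have h := ((((d0 u).const_mul 2).mul ((d0 u).const_sub 1)).mul ((dv u).pow 2)).sub
      ((d0 u).const_mul s)
    refine h.congr_deriv ?_
    simp only [Function.comp, Pi.mul_apply, Pi.pow_apply]
    push_cast
    ring
  refine ⟨by linarith [tq_one_le_KK hκ (hs.trans hS)], fun u => ?_, fun u => ?_,
    fun u => (hb u).1, fun u => (hb u).2.1, fun u u' => ?_⟩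
  · refine ((tq_dchi κ (qq s μ u)).comp u (tq_dqq s μ u)).congr_deriv ?_
    unfold tq1
    ring
  · refine ((d0 u).mul (dv u)).neg.congr_deriv ?_
    unfold tq2
    simp only [Function.comp]
    ring
  · exact Convex.norm_image_sub_le_of_norm_hasDerivWithin_le (s := Set.univ)
      (fun x _ => (d3 x).hasDerivWithinAt) (fun x _ => (hb x).2.2) convex_univ (Set.mem_univ u')
      (Set.mem_univ u)

theorem abs_tq_le (hκ : 0 ≤ κ) (hs : 0 ≤ s) (hS : s ≤ S) (μ u : ℝ) :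
    |tq κ s μ u| ≤ KK S κ := by
  have a1 := tq_one_le_KK hκ (hs.trans hS)
  have a2 := neg_le_chi κ (qq s μ u)
  have a3 := chi_le hκ (qq_nonpos hs μ u)
  unfold tq
  rw [abs_le]
  constructor <;> linarith

theorem nc_id : Nc id (fun _ => 1) (fun _ => 0) 1 :=
  ⟨le_rfl, hasDerivAt_id, fun u => hasDerivAt_const u 1, fun _ => by simp, fun _ => by simp,
    fun _ _ => by simp⟩

theorem tq_gap (hs : 0 ≤ s) (hS : s ≤ S) (h0 : 0 < l) (h1 : l ≤ 1) (κ u : ℝ) :
    1 - sgm κ (qq s 0 u) ≤ exp (-(l / (1 + S) * κ)) * exp (l * u ^ 2 / 2) ∧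
      u ^ 2 ≤ 2 / l * exp (l * u ^ 2 / 2) ∧ exp (l * u ^ 2 / 2) ^ 2 = exp (l * u ^ 2) := by
  have hS1 : 0 < 1 + S := by linarith
  refine ⟨(one_sub_sgm_le (l := l / (1 + S)) (by positivity)
    ((div_le_one hS1).2 (by linarith)) κ _).trans
    (mul_le_mul_of_nonneg_left (exp_le_exp.2 ?_) (exp_pos _).le), ?_, ?_⟩
  · have e : -(l / (1 + S) * qq s 0 u) = l * u ^ 2 / 2 * (s / (1 + S)) := by
      unfold qq
      ring
    rw [e]
    exact mul_le_of_le_one_right (by positivity) ((div_le_one hS1).2 (by linarith))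
  · have := Real.add_one_le_exp (l * u ^ 2 / 2)
    rw [div_mul_eq_mul_div, le_div_iff₀ h0]
    linarith
  · rw [← exp_nat_mul]
    congr 1
    push_cast
    ring

/-- comparison of the derivatives with those of the quadratic -/
theorem tq1_mul (hs : 0 ≤ s) (hS : s ≤ S) (h0 : 0 < l) (h1 : l ≤ 1) (κ u u' : ℝ) :
    |tq1 κ s 0 u * tq1 κ s 0 u' - s ^ 2 * (u * u')| ≤ 8 * (1 + S) ^ 2 / l ^ 2 *
      exp (-(l / (1 + S) * κ)) * (exp (l * u ^ 2) + exp (l * u' ^ 2)) := by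
  obtain ⟨a1, a2, a3⟩ := tq_gap hs hS h0 h1 κ u
  obtain ⟨b1, b2, b3⟩ := tq_gap hs hS h0 h1 κ u'
  obtain ⟨p0, p1⟩ := sgm_mem κ (qq s 0 u)
  obtain ⟨q0, q1⟩ := sgm_mem κ (qq s 0 u')
  rw [← a3, ← b3]
  unfold tq1
  have hA := exp_pos (l * u ^ 2 / 2)
  have hB := exp_pos (l * u' ^ 2 / 2)
  have hE := exp_pos (-(l / (1 + S) * κ))
  generalize exp (l * u ^ 2 / 2) = A at *
  generalize exp (l * u' ^ 2 / 2) = B at *
  generalize exp (-(l / (1 + S) * κ)) = E at *
  generalize sgm κ (qq s 0 u) = σ at *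
  generalize sgm κ (qq s 0 u') = σ' at *
  have e : -(σ * (s * (u - 0))) * -(σ' * (s * (u' - 0))) - s ^ 2 * (u * u') =
      -(s ^ 2 * ((u * u') * (1 - σ * σ'))) := by ring
  have c0 : 0 ≤ 1 - σ * σ' := sub_nonneg.2 (mul_le_one₀ p1.le q0.le q1.le)
  have c1 : 1 - σ * σ' ≤ E * (A + B) := by nlinarith
  have c2 : |u * u'| ≤ 1 / l * (A + B) := by
    have e2 : 2 / l = 2 * (1 / l) := by ring
    rw [e2] at a2 b2
    rw [abs_le]
    constructor <;> nlinarith [sq_nonneg (u + u'), sq_nonneg (u - u')]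
  have c3 : 1 / l ≤ 1 / l ^ 2 := one_div_le_one_div_of_le (by positivity) (by nlinarith)
  have c4 : (A + B) ^ 2 ≤ 8 * (A ^ 2 + B ^ 2) := by nlinarith [sq_nonneg (A - B)]
  rw [e, abs_neg, abs_mul, abs_mul, abs_of_nonneg c0, abs_of_nonneg (sq_nonneg s)]
  calc _ ≤ (1 + S) ^ 2 * (1 / l * (A + B) * (E * (A + B))) :=
        mul_le_mul (pow_le_pow_left₀ hs (by linarith) 2) (mul_le_mul c2 c1 c0 (by positivity))
          (by positivity) (by positivity)
    _ = (1 + S) ^ 2 * E * (1 / l * (A + B) ^ 2) := by ring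
    _ ≤ (1 + S) ^ 2 * E * (1 / l ^ 2 * (8 * (A ^ 2 + B ^ 2))) :=
        mul_le_mul_of_nonneg_left (mul_le_mul c3 c4 (by positivity) (by positivity)) (by positivity)
    _ = _ := by ring

theorem tq2_close (hs : 0 ≤ s) (hS : s ≤ S) (h0 : 0 < l) (h1 : l ≤ 1) (κ u : ℝ) :
    |tq2 κ s 0 u + s| ≤ 8 * (1 + S) ^ 2 / l * exp (-(l / (1 + S) * κ)) * exp (l * u ^ 2) := by
  obtain ⟨a1, a2, a3⟩ := tq_gap hs hS h0 h1 κ u
  obtain ⟨p0, p1⟩ := sgm_mem κ (qq s 0 u)
  rw [← a3]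
  unfold tq2
  have hA := Real.one_le_exp (x := l * u ^ 2 / 2) (by positivity)
  have hE := exp_pos (-(l / (1 + S) * κ))
  generalize exp (l * u ^ 2 / 2) = A at *
  generalize exp (-(l / (1 + S) * κ)) = E at *
  generalize sgm κ (qq s 0 u) = σ at *
  have hS0 : 0 ≤ S := hs.trans hS
  have e : 2 * σ * (1 - σ) * (s * (u - 0)) ^ 2 - s * σ + s =
      (1 - σ) * (2 * (σ * (s ^ 2 * u ^ 2)) + s) := by ring
  have c0 : 0 ≤ 1 - σ := by linarith
  have c1 : σ * (s ^ 2 * u ^ 2) ≤ (1 + S) ^ 2 * (2 / l * A) :=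
    (mul_le_of_le_one_left (by positivity) p1.le).trans
      (mul_le_mul (pow_le_pow_left₀ hs (by linarith) 2) a2 (by positivity) (by positivity))
  have c2 : s ≤ (1 + S) ^ 2 * (2 / l * A) := by
    have : 1 ≤ 2 / l := by
      rw [le_div_iff₀ h0]
      linarith
    exact le_trans (by nlinarith) (le_mul_of_one_le_right (by positivity)
      (one_le_mul_of_one_le_of_one_le this hA))
  have c3 : 0 ≤ (1 + S) ^ 2 * (2 / l * A) := by positivity
  rw [e, abs_of_nonneg (by positivity)]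
  calc _ ≤ E * A * (4 * ((1 + S) ^ 2 * (2 / l * A))) :=
        mul_le_mul a1 (by linarith) (by positivity) (by positivity)
    _ = _ := by ring

/-- polynomial against exponential: the choice of the truncation level and of the step -/
theorem choose_trunc (S c C ε : ℝ) (hS : 0 ≤ S) (hc : 0 < c) (hε : 0 < ε) :
    ∃ κ ≥ (0 : ℝ), ∃ lam > (0 : ℝ), KK S κ * lam ≤ 1 ∧ C * KK S κ ^ 4 * √lam ≤ ε ∧
      C * exp (-(c * κ)) ≤ ε * lam ^ 2 ∧ C * KK S κ ^ 2 * exp (-(c * κ)) ≤ ε ∧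
      C * lam ^ 2 ≤ ε := by
  obtain ⟨d, d0, d1, d2⟩ : ∃ d : ℝ, 0 < d ∧ d ≤ 1 ∧ |C| * d ≤ ε := by
    refine ⟨min 1 (ε / (|C| + 1)), by positivity, min_le_left _ _, ?_⟩
    have := (le_div_iff₀ (by positivity)).1 (min_le_right 1 (ε / (|C| + 1)))
    have h0 : 0 < min 1 (ε / (|C| + 1)) := by positivity
    linarith
  have T := (Real.tendsto_pow_mul_exp_neg_atTop_nhds_zero 32).const_mul
    (|C| * (50 * (1 + S) ^ 2) ^ 16 * exp c / c ^ 32)
  rw [mul_zero] at T
  obtain ⟨x, hx1, hx2⟩ := ((T.eventually (ge_mem_nhds (show 0 < ε * d ^ 4 by positivity))).and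
    (eventually_ge_atTop c)).exists
  have hκ : 0 ≤ x / c - 1 := sub_nonneg.2 ((one_le_div hc).2 hx2)
  have k1 : |C| * KK S (x / c - 1) ^ 16 * exp (-(c * (x / c - 1))) ≤ ε * d ^ 4 := by
    refine le_trans (le_of_eq ?_) hx1
    have e1 : -(c * (x / c - 1)) = c + -x := by field_simp; ring
    rw [e1, exp_add]
    unfold KK
    field_simp
    ring
  have k2 : 1 ≤ KK S (x / c - 1) := by linarith [tq_one_le_KK hκ hS]
  refine ⟨x / c - 1, hκ, ?_⟩
  have hE := exp_pos (-(c * (x / c - 1)))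
  generalize KK S (x / c - 1) = K at *
  generalize exp (-(c * (x / c - 1))) = E at *
  have hK : 0 < K := by linarith
  have hC := le_abs_self C
  have d3 : d ^ 2 ≤ d := by nlinarith
  have l1 : d ^ 2 / K ^ 8 ≤ d := (div_le_self (by positivity) (one_le_pow₀ k2)).trans d3
  refine ⟨d ^ 2 / K ^ 8, by positivity, ?_, ?_, ?_, ?_, ?_⟩
  · rw [← mul_div_assoc, div_le_one (by positivity)]
    exact (mul_le_of_le_one_right hK.le (d3.trans d1)).trans (le_self_pow₀ k2 (by norm_num))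
  · rw [show d ^ 2 / K ^ 8 = (d / K ^ 4) ^ 2 by ring, sqrt_sq (by positivity),
      show C * K ^ 4 * (d / K ^ 4) = C * d by field_simp]
    exact (mul_le_mul_of_nonneg_right hC d0.le).trans d2
  · rw [show ε * (d ^ 2 / K ^ 8) ^ 2 = ε * d ^ 4 / K ^ 16 by ring, le_div_iff₀ (by positivity)]
    have := mul_le_mul_of_nonneg_right hC (by positivity : 0 ≤ K ^ 16 * E)
    linarith
  · have a1 : C * K ^ 2 ≤ |C| * K ^ 16 :=
      mul_le_mul hC (pow_le_pow_right₀ k2 (by norm_num)) (by positivity) (abs_nonneg C)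
    exact ((mul_le_mul_of_nonneg_right a1 hE.le).trans k1).trans
      (mul_le_of_le_one_right hε.le (pow_le_one₀ d0.le d1))
  · exact (mul_le_mul hC ((pow_le_pow_left₀ (by positivity) l1 2).trans d3) (by positivity)
      (abs_nonneg C)).trans d2

end Vale.Agent.P166
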