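import Vale.Agent.P166.CalcA
import Vale.Agent.P166.Tq
import Vale.Agent.P166.ODL
import Vale.Agent.P157.Grad

/-! The Gaussian tree. -/

namespace Vale.Agent.P166

open MeasureTheory ProbabilityTheory Real Finset Matrix Filter Topology
open Vale.Agent.P157 (Sys St γ GS s0 YY mm pp sh DirD pull mrg Rg Sp νB xB)
open scoped ENNReal

variable {β : Type} [Fintype β] {k : ℕ}

/-- normalised quadratic tilt -/
noncomputable def treeW (A U σ z : ℝ) : ℝ :=
  √(1 + A * σ ^ 2) * exp (A * U ^ 2 / (2 * (1 + A * σ ^ 2)) - A * (U + σ * z) ^ 2 / 2)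

theorem tree_W_nonneg (A U σ z : ℝ) : 0 ≤ treeW A U σ z := by unfold treeW; positivity

theorem tree_W_meas (A U σ : ℝ) : Measurable (treeW A U σ) := by unfold treeW; fun_prop

theorem tree_W_int {A : ℝ} (hA : 0 ≤ A) (U σ : ℝ) :
    Integrable (treeW A U σ) (gaussianReal 0 1) := by
  refine Integrable.of_bound (tree_W_meas A U σ).aestronglyMeasurable
    (√(1 + A * σ ^ 2) * exp (A * U ^ 2 / (2 * (1 + A * σ ^ 2)))) (ae_of_all _ fun z => ?_)
  rw [norm_of_nonneg (tree_W_nonneg A U σ z), treeW]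
  gcongr
  have : 0 ≤ A * (U + σ * z) ^ 2 / 2 := by positivity
  linarith

theorem tree_1d {A : ℝ} (hA : 0 ≤ A) (U σ : ℝ) :
    (gaussianReal 0 1).withDensity (fun z => ENNReal.ofReal (treeW A U σ z)) =
      (gaussianReal 0 1).map fun z =>
        -(A * U * σ / (1 + A * σ ^ 2)) + (√(1 + A * σ ^ 2))⁻¹ * z := by
  have hD : 0 < 1 + A * σ ^ 2 := by positivity
  have hs : 0 < √(1 + A * σ ^ 2) := sqrt_pos.2 hD
  have e1 : (gaussianReal 0 1).map (fun z =>
      -(A * U * σ / (1 + A * σ ^ 2)) + (√(1 + A * σ ^ 2))⁻¹ * z) =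
      (((gaussianReal 0 1).map ((√(1 + A * σ ^ 2))⁻¹ * ·)).map
        (-(A * U * σ / (1 + A * σ ^ 2)) + ·)) := by
    rw [Measure.map_map (by fun_prop) (by fun_prop)]
    rfl
  rw [e1, gaussianReal_map_const_mul, gaussianReal_map_const_add,
    gaussianReal_of_var_ne_zero _ one_ne_zero, gaussianReal_of_var_ne_zero _ (by
      rw [mul_one, Ne, ← NNReal.coe_inj]
      simpa using hs.ne'), ← withDensity_mul _ (measurable_gaussianPDF _ _)
      (tree_W_meas A U σ).ennreal_ofReal]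
  congr 1
  funext z
  simp only [Pi.mul_apply, gaussianPDF]
  rw [← ENNReal.ofReal_mul (gaussianPDFReal_nonneg _ _ _)]
  congr 1
  simp only [gaussianPDFReal, treeW, NNReal.coe_one, mul_one, NNReal.coe_mk, inv_pow,
    sq_sqrt hD.le, mul_zero, zero_add, sub_zero]
  rw [sqrt_mul (by positivity) _⁻¹, sqrt_inv, mul_inv, inv_inv, mul_mul_mul_comm, ← exp_add]
  congr 2
  field_simp
  ring

theorem tree_pi {J : Type} [Fintype J] (μ : Measure ℝ) [IsProbabilityMeasure μ] (ρ : J → ℝ → ℝ)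
    (h0 : ∀ i z, 0 ≤ ρ i z) (hi : ∀ i, Integrable (ρ i) μ) :
    (Measure.pi fun _ : J => μ).withDensity (fun z => ENNReal.ofReal (∏ i, ρ i (z i))) =
      Measure.pi fun i => μ.withDensity fun z => ENNReal.ofReal (ρ i z) := by
  have := fun i => isFiniteMeasure_withDensity_ofReal (hi i).hasFiniteIntegral
  refine (Measure.pi_eq fun s hs => ?_).symm
  have h1 : ∀ i, μ.withDensity (fun z => ENNReal.ofReal (ρ i z)) (s i) =
      ENNReal.ofReal (∫ z, (s i).indicator (ρ i) z ∂μ) := fun i => by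
    rw [withDensity_apply _ (hs i), integral_indicator (hs i),
      ofReal_integral_eq_lintegral_ofReal (hi i).integrableOn (ae_of_all _ (h0 i))]
  simp only [h1]
  rw [← ENNReal.ofReal_prod_of_nonneg fun i _ =>
      integral_nonneg fun z => Set.indicator_nonneg (fun z _ => h0 i z) z,
    ← integral_fintype_prod_eq_prod (fun i z => (s i).indicator (ρ i) z),
    withDensity_apply _ (MeasurableSet.univ_pi hs), ← ofReal_integral_eq_lintegral_ofReal
      (Integrable.fintype_prod hi).integrableOn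
      (ae_of_all _ fun z => prod_nonneg fun i _ => h0 i _),
    ← integral_indicator (MeasurableSet.univ_pi hs)]
  congr 2
  funext z
  by_cases hz : z ∈ Set.univ.pi s
  · rw [Set.indicator_of_mem hz]
    exact prod_congr rfl fun i _ => (Set.indicator_of_mem (hz i trivial) _).symm
  · rw [Set.indicator_of_notMem hz]
    obtain ⟨i, hi⟩ : ∃ i, z i ∉ s i := by simpa using hz
    exact (prod_eq_zero (mem_univ i) (Set.indicator_of_notMem hi _)).symm

theorem tree_tilt {J : Type} [Fintype J] {A : J → ℝ} (hA : ∀ i, 0 ≤ A i) (U σ g : J → ℝ)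
    {f : ℝ → ℝ} (hf : Measurable f) :
    ∫ z, (∏ i, treeW (A i) (U i) (σ i) (z i)) * f (∑ i, g i * (U i + σ i * z i)) ∂γ J =
      ∫ w, f (∑ i, g i * U i / (1 + A i * σ i ^ 2) +
        √(∑ i, (g i * σ i) ^ 2 / (1 + A i * σ i ^ 2)) * w) ∂gaussianReal 0 1 := by
  have hD : ∀ i, 0 < 1 + A i * σ i ^ 2 := fun i => by have := hA i; positivity
  have hm : Measurable fun z : J → ℝ => ∏ i, treeW (A i) (U i) (σ i) (z i) :=
    Finset.measurable_prod _ fun i _ => (tree_W_meas _ _ _).comp (measurable_pi_apply i)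
  have e1 := integral_withDensity_eq_integral_toReal_smul (μ := γ J) hm.ennreal_ofReal
    (ae_of_all _ fun _ => ENNReal.ofReal_lt_top) fun z => f (∑ i, g i * (U i + σ i * z i))
  simp only [ENNReal.toReal_ofReal (prod_nonneg fun i _ => tree_W_nonneg _ _ _ _), smul_eq_mul]
    at e1
  rw [← e1, tree_pi _ _ (fun i => tree_W_nonneg _ _ _) fun i => tree_W_int (hA i) _ _]
  simp only [tree_1d (hA _)]
  rw [← Measure.pi_map_pi fun i => by fun_prop, integral_map (Measurable.aemeasurable (by fun_prop))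
    (Measurable.aestronglyMeasurable (by fun_prop))]
  have e2 := integral_map (μ := γ J)
    (φ := fun u => ∑ i, (g i * σ i * (√(1 + A i * σ i ^ 2))⁻¹) * u i)
    (Measurable.aemeasurable (by fun_prop))
    (f := fun w => f (∑ i, g i * U i / (1 + A i * σ i ^ 2) + w))
    (Measurable.aestronglyMeasurable (by fun_prop))
  have e3 := integral_map (μ := gaussianReal 0 1)
    (φ := fun w => √(∑ i, (g i * σ i) ^ 2 / (1 + A i * σ i ^ 2)) * w) (by fun_prop)
    (f := fun w => f (∑ i, g i * U i / (1 + A i * σ i ^ 2) + w))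
    (Measurable.aestronglyMeasurable (by fun_prop))
  rw [← e3, gaussianReal_map_const_mul]
  rw [P157.glin] at e2
  convert e2.symm using 2
  · funext z
    rw [← sum_add_distrib]
    congr 1
    refine sum_congr rfl fun i _ => ?_
    have := mul_inv_cancel₀ (hD i).ne'
    beta_reduce
    generalize (√(1 + A i * σ i ^ 2))⁻¹ = r
    simp only [div_eq_mul_inv]
    linear_combination (-(g i * U i)) * this
  · congr 1
    · simp
    · have h1 : 0 ≤ ∑ i, (g i * σ i) ^ 2 / (1 + A i * σ i ^ 2) :=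
        sum_nonneg fun i _ => div_nonneg (sq_nonneg _) (hD i).le
      rw [mul_one, ← NNReal.coe_inj, NNReal.coe_mk, sq_sqrt h1,
        Real.coe_toNNReal _ (sum_nonneg fun i _ => sq_nonneg _)]
      refine sum_congr rfl fun i _ => ?_
      rw [mul_pow _ _⁻¹, inv_pow, sq_sqrt (hD i).le, div_eq_mul_inv]

theorem tree_step {J : Type} [Fintype J] {ζ : ℝ} (hζ : 0 < ζ) {a : J → ℝ} (ha : ∀ i, 0 ≤ a i)
    (U σ g : J → ℝ) (c : ℝ) {Φ : ℝ → ℝ} (hΦ : Measurable Φ)
    (hI : Integrable (fun w => exp (ζ * Φ (∑ i, g i * U i / (1 + ζ * a i * σ i ^ 2) +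
      √(∑ i, (g i * σ i) ^ 2 / (1 + ζ * a i * σ i ^ 2)) * w))) (gaussianReal 0 1)) :
    ζ⁻¹ * log (∫ z, exp (ζ * (-(∑ i, a i * (U i + σ i * z i) ^ 2 / 2) + c +
      Φ (∑ i, g i * (U i + σ i * z i)))) ∂γ J) =
    -(∑ i, a i / (1 + ζ * a i * σ i ^ 2) * U i ^ 2 / 2) +
      (c - ζ⁻¹ / 2 * ∑ i, log (1 + ζ * a i * σ i ^ 2)) +
      ζ⁻¹ * log (∫ w, exp (ζ * Φ (∑ i, g i * U i / (1 + ζ * a i * σ i ^ 2) +
        √(∑ i, (g i * σ i) ^ 2 / (1 + ζ * a i * σ i ^ 2)) * w)) ∂gaussianReal 0 1) := by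
  have hA : ∀ i, 0 ≤ ζ * a i := fun i => mul_nonneg hζ.le (ha i)
  have hD : ∀ i, 0 < 1 + ζ * a i * σ i ^ 2 := fun i => by have := hA i; positivity
  have h := tree_tilt hA U σ g (f := fun x => exp (ζ * Φ x)) (by fun_prop)
  have e : ∀ z : J → ℝ, exp (ζ * (-(∑ i, a i * (U i + σ i * z i) ^ 2 / 2) + c +
      Φ (∑ i, g i * (U i + σ i * z i)))) =
      exp (ζ * (-(∑ i, a i / (1 + ζ * a i * σ i ^ 2) * U i ^ 2 / 2) +
        (c - ζ⁻¹ / 2 * ∑ i, log (1 + ζ * a i * σ i ^ 2)))) *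
      ((∏ i, treeW (ζ * a i) (U i) (σ i) (z i)) *
        exp (ζ * Φ (∑ i, g i * (U i + σ i * z i)))) := fun z => by
    have e1 : ∀ i, treeW (ζ * a i) (U i) (σ i) (z i) = exp (log (1 + ζ * a i * σ i ^ 2) / 2 +
        ζ * (a i / (1 + ζ * a i * σ i ^ 2) * U i ^ 2 / 2) -
          ζ * (a i * (U i + σ i * z i) ^ 2 / 2)) := fun i => by
      rw [treeW, ← log_sqrt (hD i).le, add_sub_assoc, exp_add, exp_log (sqrt_pos.2 (hD i))]
      congr 2
      have := (hD i).ne'
      field_simp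
    simp only [e1]
    rw [← exp_sum, ← exp_add, ← exp_add, sum_sub_distrib, sum_add_distrib, ← mul_sum, ← mul_sum,
      ← sum_div _ fun i => log _]
    congr 1
    generalize ∑ i, log (1 + ζ * a i * σ i ^ 2) = L
    generalize ∑ i, a i * (U i + σ i * z i) ^ 2 / 2 = P
    generalize ∑ i, a i / (1 + ζ * a i * σ i ^ 2) * U i ^ 2 / 2 = Q
    field_simp
    ring
  simp only [e]
  rw [integral_const_mul, h, log_mul (exp_pos _).ne' (integral_exp_pos hI).ne', log_exp, mul_add,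
    inv_mul_cancel_left₀ hζ.ne']

/-- running quadratic coefficients -/
noncomputable def treeA (k : ℕ) (s : β → ℝ) (v : ℕ → β → ℝ) (j : ℕ) (b : β) : ℝ :=
  s b / (1 + s b * thv k (fun j => v j b) j)

/-- running constant -/
noncomputable def treeC (k : ℕ) (s μ : β → ℝ) (v : ℕ → β → ℝ) (j : ℕ) : ℝ :=
  ∑ b, (-(1 / 2) * ∑ i ∈ Ico j k, (k : ℝ) / (i + 1) * (log (1 + s b * thv k (fun j => v j b) i) -
    log (1 + s b * thv k (fun j => v j b) (i + 1))) - s b * μ b ^ 2 / 2)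

theorem tree_lin_cosh (ρ : ℕ → ℝ) : (P157.RS k ρ).Lin fun x => log (cosh x) :=
  ⟨by fun_prop, 1, fun x => by
    rw [abs_of_nonneg (log_nonneg (one_le_cosh x)), one_mul, log_le_iff_le_exp (cosh_pos x),
      cosh_eq]
    have h1 := exp_le_exp.2 (show x ≤ 1 + |x| by linarith [le_abs_self x])
    have h2 := exp_le_exp.2 (show -x ≤ 1 + |x| by linarith [neg_abs_le x])
    exact (show _ ≤ exp (1 + |x|) by linarith)⟩

theorem tree_YI (hk : 0 < k) (ρ : ℕ → ℝ) :
    YI k ρ = (P157.RS k ρ).X k 0 (fun x => log (cosh x)) 0 := by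
  have h := (P157.id_homR (ν := νB) (k := k) ρ).X_eq (P157.rs_ok hk ρ) (tree_lin_cosh ρ)
    (s0 Unit Bool)
  have e : (GS k Unit νB).X 1 k ((Sp xB).Hv k fun j _ => ρ j) =
      fun s => log (cosh (P157.idR ρ k s)) := by
    funext s
    rw [P157.id_T hk, integral_fintype Integrable.of_finite, cosh_eq]
    congr 1
    simp only [P157.id_HSp, measureReal_def, P157.id_νB]
    simp [xB, P157.idF, P157.idR]
    ring
  rw [zero_add] at h
  rw [YI, Rg.Yv, YY, Sys.X_add, zero_add, e, h]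
  simp [P157.idR]

theorem tree_top (hk : 0 < k) (s μ : β → ℝ) (v : ℕ → β → ℝ) (t : ℕ → ℝ)
    (x : St (β ⊕ Unit) Bool) :
    (GS k (β ⊕ Unit) νB).X 1 k (HT k (fun b => qq (s b) (μ b)) v t) x =
      -(∑ b, s b * (∑ j ∈ range k, √(v j b) * x.2 j (.inl b)) ^ 2 / 2) -
        ∑ b, s b * μ b ^ 2 / 2 +
        log (cosh (∑ b, s b * μ b * (∑ j ∈ range k, √(v j b) * x.2 j (.inl b)) +
          ∑ j ∈ range k, √(t j) * x.2 j (.inr ()))) := by
  rw [P157.id_T hk, integral_fintype Integrable.of_finite]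
  simp only [measureReal_def, P157.id_νB, HT]
  generalize ∑ j ∈ range k, √(t j) * x.2 j (.inr ()) = T
  have e : ∀ ε : ℝ, ε ^ 2 = 1 → ∀ U : β → ℝ, ε * T + ∑ b, qq (s b) (μ b) (ε * U b) =
      (-(∑ b, s b * U b ^ 2 / 2) - ∑ b, s b * μ b ^ 2 / 2) +
        ε * (∑ b, s b * μ b * U b + T) := fun ε hε U => by
    have : ∀ b, qq (s b) (μ b) (ε * U b) =
        -(s b * U b ^ 2 / 2) - s b * μ b ^ 2 / 2 + ε * (s b * μ b * U b) := fun b => by
      rw [qq]
      linear_combination (-(s b / 2) * U b ^ 2) * hε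
    simp only [this, sum_add_distrib, sum_sub_distrib, sum_neg_distrib, ← mul_sum]
    ring
  rw [Fintype.sum_bool, e _ (by simp [xB]), e _ (by simp [xB]), ← log_exp (-(∑ b, _) - _),
    ← log_mul (exp_pos _).ne' (cosh_pos _).ne', cosh_eq, log_exp]
  congr 1
  generalize -(∑ b, s b * (∑ j ∈ range k, √(v j b) * x.2 j (.inl b)) ^ 2 / 2) -
    ∑ b, s b * μ b ^ 2 / 2 = P
  generalize ∑ b, s b * μ b * (∑ j ∈ range k, √(v j b) * x.2 j (.inl b)) + T = Q
  simp only [xB, exp_add]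
  simp
  ring

theorem tree_ind (hk : 0 < k) {s μ : β → ℝ} {v : ℕ → β → ℝ} {t : ℕ → ℝ} (hs : ∀ b, 0 ≤ s b)
    (hv : ∀ j < k, ∀ b, 0 ≤ v j b) (ht : ∀ j < k, 0 ≤ t j) (n : ℕ) : ∀ j, j + n = k →
    ∀ x : St (β ⊕ Unit) Bool,
    (GS k (β ⊕ Unit) νB).X (n + 1) j (HT k (fun b => qq (s b) (μ b)) v t) x =
      -(∑ b, treeA k s v j b * (∑ i ∈ range j, √(v i b) * x.2 i (.inl b)) ^ 2 / 2) +
        treeC k s μ v j +
        (P157.RS k fun j => t j + ∑ b, rhoT k (s b) (μ b) (fun j => v j b) j).X n j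
          (fun x => log (cosh x))
          (∑ b, treeA k s v j b * μ b * (∑ i ∈ range j, √(v i b) * x.2 i (.inl b)) +
            ∑ i ∈ range j, √(t i) * x.2 i (.inr ())) := by
  induction n with
  | zero =>
    rintro j rfl x
    rw [zero_add, add_zero] at *
    rw [tree_top hk]
    simp [treeA, treeC, thv_of_le, Sys.X, sub_eq_add_neg]
  | succ n ih =>
    intro j hj x
    have hjk : j < k := by omega
    set ρ : ℕ → ℝ := fun j => t j + ∑ b, rhoT k (s b) (μ b) (fun j => v j b) j with hρ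
    have hR := P157.rs_ok hk ρ
    have hΦ := Sys.lin_X hR (tree_lin_cosh ρ) n (j + 1)
    set Φ := (P157.RS k ρ).X n (j + 1) fun x => log (cosh x) with hΦd
    have hk' : (0 : ℝ) < k := by positivity
    have hζ : min 1 (((j : ℝ) + 1) / k) = ((j : ℝ) + 1) / k :=
      min_eq_right (div_le_one_of_le₀ (by exact_mod_cast hjk) hk'.le)
    set ζ : ℝ := ((j : ℝ) + 1) / k with hζd
    have hζ0 : 0 < ζ := by positivity
    have hth : ∀ b i, 0 < 1 + s b * thv k (fun j => v j b) i := fun b i => by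
      have := thv_nonneg (v := fun j => v j b) (fun j hj => hv j hj b) i
      have := hs b
      positivity
    have hA : ∀ b, 0 ≤ treeA k s v (j + 1) b := fun b => div_nonneg (hs b) (hth b _).le
    have hD : ∀ b, 1 + ζ * treeA k s v (j + 1) b * √(v j b) ^ 2 =
        (1 + s b * thv k (fun j => v j b) j) / (1 + s b * thv k (fun j => v j b) (j + 1)) :=
      fun b => by
        have := (hth b (j + 1)).ne'
        rw [sq_sqrt (hv j hjk b), treeA, thv_succ (v := fun j => v j b) hjk, ← hζd]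
        field_simp
        ring
    set U : β ⊕ Unit → ℝ := Sum.elim (fun b => ∑ i ∈ range j, √(v i b) * x.2 i (.inl b))
      fun _ => ∑ i ∈ range j, √(t i) * x.2 i (.inr ()) with hU
    set σ : β ⊕ Unit → ℝ := Sum.elim (fun b => √(v j b)) fun _ => √(t j) with hσ
    set a : β ⊕ Unit → ℝ := Sum.elim (treeA k s v (j + 1)) fun _ => 0 with ha
    set g : β ⊕ Unit → ℝ := Sum.elim (fun b => treeA k s v (j + 1) b * μ b) fun _ => 1 with hg
    have e1 : ∑ i, g i * U i / (1 + ζ * a i * σ i ^ 2) =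
        ∑ b, treeA k s v j b * μ b * (∑ i ∈ range j, √(v i b) * x.2 i (.inl b)) +
          ∑ i ∈ range j, √(t i) * x.2 i (.inr ()) := by
      simp only [Fintype.sum_sum_type, hU, hσ, ha, hg, Sum.elim_inl, Sum.elim_inr, hD,
        univ_unique, sum_singleton, mul_zero, zero_mul, add_zero, div_one, one_mul]
      congr 1
      refine sum_congr rfl fun b _ => ?_
      have := (hth b (j + 1)).ne'
      have := (hth b j).ne'
      simp only [treeA]
      field_simp
    have e2 : ∑ i, (g i * σ i) ^ 2 / (1 + ζ * a i * σ i ^ 2) = ρ j := by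
      simp only [Fintype.sum_sum_type, hσ, ha, hg, Sum.elim_inl, Sum.elim_inr, hD, hρ,
        univ_unique, sum_singleton, mul_zero, zero_mul, add_zero, div_one, one_mul,
        sq_sqrt (ht j hjk)]
      rw [add_comm]
      congr 1
      refine sum_congr rfl fun b _ => ?_
      have := (hth b (j + 1)).ne'
      have := (hth b j).ne'
      simp only [treeA, rhoT, mul_pow, sq_sqrt (hv j hjk b)]
      field_simp
    have e3 : ∑ i, a i / (1 + ζ * a i * σ i ^ 2) * U i ^ 2 / 2 =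
        ∑ b, treeA k s v j b * (∑ i ∈ range j, √(v i b) * x.2 i (.inl b)) ^ 2 / 2 := by
      simp only [Fintype.sum_sum_type, hU, hσ, ha, Sum.elim_inl, Sum.elim_inr, hD,
        univ_unique, sum_singleton, zero_div, zero_mul, add_zero]
      refine sum_congr rfl fun b _ => ?_
      have := (hth b (j + 1)).ne'
      have := (hth b j).ne'
      simp only [treeA]
      field_simp
    have e4 : treeC k s μ v (j + 1) - ζ⁻¹ / 2 * ∑ i, log (1 + ζ * a i * σ i ^ 2) =
        treeC k s μ v j := by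
      simp only [Fintype.sum_sum_type, hσ, ha, Sum.elim_inl, Sum.elim_inr, hD, treeC,
        univ_unique, sum_singleton, mul_zero, zero_mul, add_zero, log_one, mul_sum univ,
        ← sum_sub_distrib]
      refine sum_congr rfl fun b _ => ?_
      rw [log_div (hth b j).ne' (hth b (j + 1)).ne', sum_eq_sum_Ico_succ_bot hjk, hζd, inv_div]
      ring
    have h := tree_step hζ0 (a := a) (by rintro (b | b) <;> simp [ha, hA]) U σ g
      (treeC k s μ v (j + 1)) hΦ.1 (by
        rw [e1, e2]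
        exact Sys.integrable_exp_step hR hΦ j ζ _)
    rw [e1, e2, e3, e4] at h
    have e5 : (P157.RS k ρ).ζ j = ζ := hζ
    have e6 : (GS k (β ⊕ Unit) νB).ζ j = ζ := hζ
    rw [Sys.X, funext (ih (j + 1) (by omega)), Sys.X, Sys.T, Sys.T, ← hΦd, e5, e6]
    refine Eq.trans ?_ h
    congr 2
    rw [show (GS k (β ⊕ Unit) νB).μ = νB.prod (γ (β ⊕ Unit)) from rfl]
    have e7 : ∀ (V : ℕ → ℝ) (w : Bool × (β ⊕ Unit → ℝ)) (i : β ⊕ Unit),
        ∑ j' ∈ range (j + 1), √(V j') * ((GS k (β ⊕ Unit) νB).a j x w).2 j' i =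
          ∑ j' ∈ range j, √(V j') * x.2 j' i + √(V j) * w.2 i := fun V w i => by
      simp only [GS, if_pos hjk, P157.id_upd]
    simp only [e7]
    rw [← (show ∀ f : (β ⊕ Unit → ℝ) → ℝ, ∫ w, f w.2 ∂νB.prod (γ (β ⊕ Unit)) = ∫ z, f z ∂γ _ from
      fun f => by rw [integral_fun_snd, probReal_univ, one_smul])]
    simp [Fintype.sum_sum_type, hU, hσ, ha, hg]

/-- the exact value for quadratic weights -/
theorem tree_exact (hk : 0 < k) {s μ : β → ℝ} {v : ℕ → β → ℝ} {t : ℕ → ℝ} (hs : ∀ b, 0 ≤ s b)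
    (hv : ∀ j < k, ∀ b, 0 ≤ v j b) (ht : ∀ j < k, 0 ≤ t j) :
    YT k (fun b => qq (s b) (μ b)) v t = TV k s μ v t := by
  rw [YT, YY, tree_ind hk hs hv ht k 0 (zero_add k), TV, tree_YI hk]
  simp [treeC, psi, LS]

theorem lin_HT (hk : 0 < k) {F : β → ℝ → ℝ} (hF : ∀ b, Measurable (F b)) {K : ℝ}
    (hK : ∀ b u, |F b u| ≤ K) (v : ℕ → β → ℝ) (t : ℕ → ℝ) :
    (GS k (β ⊕ Unit) νB).Lin (HT k F v t) := by
  have hY := P157.gs_ok (I := β ⊕ Unit) (ν := νB) hk
  have hx : Measurable fun s : St (β ⊕ Unit) Bool => xB s.1 () :=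
    (Measurable.of_discrete (f := fun σ => xB σ ())).comp measurable_fst
  have h1 : (GS k (β ⊕ Unit) νB).Lin fun s => ∑ j ∈ range k, √(t j) * s.2 j (.inr ()) :=
    Sys.Lin.sum hY _ fun j hj => (P157.lin_coord hk (mem_range.1 hj) _).const_mul _
  refine Sys.Lin.add ⟨hx.mul h1.1, ?_⟩ (Sys.Lin.sum hY _ fun b _ =>
    Sys.Lin.of_bdd hY ((hF b).comp (hx.mul (by fun_prop))) K fun s => hK b _)
  obtain ⟨C, hC⟩ := h1.2
  refine ⟨C, fun s => ?_⟩
  rw [abs_mul, show |xB s.1 ()| = 1 by cases s.1 <;> simp [xB], one_mul]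
  exact hC s

end Vale.Agent.P166
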