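import Vale.Agent.P166.CavA
import Vale.Agent.P166.Tree

/-! The ridge Hamiltonian that interpolates between Gaussian directions and the tree. -/

namespace Vale.Agent.P166

open MeasureTheory ProbabilityTheory Real Finset Matrix Filter Topology
open Vale.Agent.P157 (Sys St γ GS s0 YY mm pp sh DirD pull mrg Rg Sp νB xB)
open scoped ENNReal

/-- auxiliary coordinates of the interpolation -/
abbrev CJ (ι β : Type) : Type := (β × ι) ⊕ (β ⊕ Unit)

variable {ι β : Type} [Fintype ι] [DecidableEq ι] [Fintype β] [DecidableEq β] {k : ℕ}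

/-- the ridge structure -/
noncomputable def cbR (B : Finset ι) (F F1 F2 : β → ℝ → ℝ) :
    Rg ((ι ⊕ ι) ⊕ CJ ι β) (Option β) (CF ι) where
  own := Sum.elim (fun _ => none) (Sum.elim (fun p => some p.1) (Sum.elim some fun _ => none))
  F a := a.elim id F
  F1 a := a.elim (fun _ => 1) F1
  F2 a := a.elim (fun _ => 0) F2
  e := Sum.elim (fun _ _ => 0)
    (Sum.elim (fun p c => es c * if p.2 ∈ B then xs c p.2 else 0) fun _ c => es c)

/-- the variances -/
noncomputable def cbW (ι : Type) (α : ℝ) (v : ℕ → β → ℝ) (t : ℕ → ℝ) (j : ℕ) :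
    (ι ⊕ ι) ⊕ CJ ι β → ℝ :=
  Sum.elim (fun _ => 0) (Sum.elim (fun _ => if j = 0 then α else 0) (Sum.elim (v j) fun _ => t j))

variable {B : Finset ι} {F F1 F2 : β → ℝ → ℝ}

omit [Fintype β] [DecidableEq β] in
theorem cb_bm (i : (ι ⊕ ι) ⊕ CJ ι β) : BM ((cbR B F F1 F2).e i) := by
  rcases i with i | p | b
  · exact BM.const 0
  · by_cases h : p.2 ∈ B
    · simpa [cbR, h] using bm_es.mul (bm_xs p.2)
    · simpa [cbR, h] using BM.const 0
  · exact bm_es

omit [DecidableEq β] in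
theorem cb_ok {K K1 : ℝ} (hF : ∀ b, Nc (F b) (F1 b) (F2 b) K) (hK : K ≤ K1) (h1 : 1 ≤ K1) :
    (cbR B F F1 F2).OK K1 where
  d1 := by
    rintro (_ | b) u
    · exact hasDerivAt_id u
    · exact (hF b).d1 u
  d2 := by
    rintro (_ | b) u
    · exact hasDerivAt_const u 1
    · exact (hF b).d2 u
  b1 := by
    rintro (_ | b) u
    · simpa [cbR] using h1
    · exact ((hF b).b1 u).trans hK
  b2 := by
    rintro (_ | b) u
    · simpa [cbR] using le_trans zero_le_one h1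
    · exact ((hF b).b2 u).trans hK
  me i := (cb_bm i).1
  be := by
    choose C hC using fun i => (cb_bm (B := B) (F := F) (F1 := F1) (F2 := F2) i).2
    refine ⟨∑ i, |C i|, fun i c => (hC i c).trans ((le_abs_self _).trans ?_)⟩
    exact Finset.single_le_sum (f := fun i => |C i|) (fun _ _ => abs_nonneg _) (Finset.mem_univ i)

theorem cb_U_none (lam : ℕ → (ι ⊕ ι) ⊕ CJ ι β → ℝ) (s : AT ι (CJ ι β)) :
    (cbR B F F1 F2).U k lam none s = es s.1 *
      ∑ j ∈ range k, lam j (.inr (.inr (.inr ()))) * s.2 j (.inr (.inr (.inr ()))) := by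
  unfold Rg.U
  rw [Finset.mul_sum]
  refine Finset.sum_congr rfl fun j _ => ?_
  rw [Finset.sum_filter]
  simp [cbR, Fintype.sum_sum_type]
  ring

theorem cb_U_some (lam : ℕ → (ι ⊕ ι) ⊕ CJ ι β → ℝ) (b : β) (s : AT ι (CJ ι β)) :
    (cbR B F F1 F2).U k lam (some b) s = es s.1 * ∑ j ∈ range k,
      (∑ i, lam j (.inr (.inl (b, i))) * (if i ∈ B then xs s.1 i else 0) *
        s.2 j (.inr (.inl (b, i))) +
        lam j (.inr (.inr (.inl b))) * s.2 j (.inr (.inr (.inl b)))) := by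
  unfold Rg.U
  rw [Finset.mul_sum]
  refine Finset.sum_congr rfl fun j _ => ?_
  rw [Finset.sum_filter, mul_add, Finset.mul_sum]
  simp only [cbR, Fintype.sum_sum_type, Fintype.sum_prod_type, Sum.elim_inl, Sum.elim_inr,
    reduceCtorEq, if_false, Finset.sum_const_zero, zero_add, add_zero, Option.some.injEq,
    Finset.sum_ite_eq', Finset.mem_univ, if_true]
  rw [Finset.sum_comm]
  simp only [Finset.sum_ite_eq', Finset.mem_univ, if_true]
  congr 1
  · exact Finset.sum_congr rfl fun i _ => by ring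
  · ring

theorem cb_Hv (w : ℕ → (ι ⊕ ι) ⊕ CJ ι β → ℝ) (s : AT ι (CJ ι β)) :
    (cbR B F F1 F2).Hv k w s = (cbR B F F1 F2).U k (fun j i => √(w j i)) none s +
      ∑ b, F b ((cbR B F F1 F2).U k (fun j i => √(w j i)) (some b) s) := by
  unfold Rg.Hv Rg.H
  rw [Fintype.sum_option]
  rfl

theorem cb_H (M : Mdl ι) {J : Type} [Fintype J] (s : AT ι J) : M.H k J s =
    (1 / 2) * ∑ i, M.c i * xs s.1 i ^ 2 + ∑ j ∈ range k, ∑ i : ι ⊕ ι,
      √(Sum.elim (M.r j) (M.u j) i) * Sum.elim (ss s.1) (xs s.1) i * s.2 j (.inl i) := by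
  simp [Mdl.H, fld, Fintype.sum_sum_type, fx, Mdl.w]

theorem cb_one (hk : 0 < k) (M : Mdl ι) (n : ℕ → β → ℝ) (t : ℕ → ℝ) :
    (fun s => M.H k (CJ ι β) s + (cbR B F F1 F2).Hv k (cbW ι (1 / B.card) n t) s) =
      HG k M B F n t := by
  funext s
  rw [cb_Hv, cb_U_none, HG, HC, cb_H, cb_H, add_assoc _ (HE k t _)]
  congr 2
  refine Finset.sum_congr rfl fun b _ => ?_
  rw [cb_U_some, UC, Finset.sum_add_distrib,
    Finset.sum_eq_single_of_mem 0 (Finset.mem_range.2 hk)]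
  · congr 3
    refine Finset.sum_congr rfl fun i _ => ?_
    simp only [cbW, gG, Sum.elim_inr, Sum.elim_inl, if_true, one_div, Real.sqrt_inv]
    split_ifs
    · ring
    · ring
  · intro j _ hj
    simp [cbW, hj]

theorem cb_zero (M : Mdl ι) (v : ℕ → β → ℝ) (t : ℕ → ℝ) :
    (fun s => M.H k (CJ ι β) s + (cbR B F F1 F2).Hv k (cbW ι 0 v t) s) = fun s =>
      M.H k (CJ ι β) s + HT k F v t (s.1.2.2, fun j a => s.2 j (.inr (.inr a))) := by
  funext s
  rw [cb_Hv, cb_U_none, HT]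
  congr 2
  refine Finset.sum_congr rfl fun b _ => ?_
  rw [cb_U_some]
  simp [cbW, es, xB]

omit [Fintype ι] [Fintype β] [DecidableEq ι] [DecidableEq β] in
theorem cb_sumW {P α : ℝ} {A : ℕ → ℝ} (hA : IsPath k P A) (n : ℕ → β → ℝ) (t : ℕ → ℝ) {l : ℕ}
    (hl : 0 < l) (i : (ι ⊕ ι) ⊕ CJ ι β) :
    ∑ j ∈ range l, (cbW ι α n t j i - cbW ι 0 (fun j b => inc A j + n j b) t j i) =
      Sum.elim (fun _ => 0) (Sum.elim (fun _ => α) (Sum.elim (fun _ => -A l) fun _ => 0)) i := by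
  rcases i with i | p | b | u
  · simp [cbW]
  · simp [cbW, hl]
  · simp [cbW, hA.sum_inc]
  · simp [cbW]

/-- the argument of the term `b` -/
noncomputable abbrev cbU (k : ℕ) (B : Finset ι) (F F1 F2 : β → ℝ → ℝ)
    (w : ℕ → (ι ⊕ ι) ⊕ CJ ι β → ℝ) (b : β) (s : AT ι (CJ ι β)) : ℝ :=
  (cbR B F F1 F2).U k (fun j i => √(w j i)) (some b) s

theorem cb_psi (w : ℕ → (ι ⊕ ι) ⊕ CJ ι β → ℝ) (a : ℝ) (s s' : AT ι (CJ ι β)) :
    ∑ i, Sum.elim (fun _ => 0) (Sum.elim (fun _ => 1 / (B.card : ℝ))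
      (Sum.elim (fun _ => -a) fun _ => 0)) i *
        ((cbR B F F1 F2).ψ k w i s * (cbR B F F1 F2).ψ k w i s') =
      ∑ b, es s.1 * es s'.1 * (F1 b (cbU k B F F1 F2 w b s) * F1 b (cbU k B F F1 F2 w b s')) *
        (ovx B s.1 s'.1 - a) := by
  simp only [Fintype.sum_sum_type, Fintype.sum_prod_type, Sum.elim_inl, Sum.elim_inr, zero_mul,
    Finset.sum_const_zero, zero_add, add_zero, ← Finset.sum_add_distrib]
  refine Finset.sum_congr rfl fun b _ => ?_
  rw [ovx, mul_sub, Finset.sum_div, Finset.mul_sum, ← Finset.sum_ite_mem_eq B, sub_eq_add_neg]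
  congr 1
  · refine Finset.sum_congr rfl fun i _ => ?_
    show 1 / (B.card : ℝ) * ((es s.1 * if i ∈ B then xs s.1 i else 0) *
      F1 b (cbU k B F F1 F2 w b s) * ((es s'.1 * if i ∈ B then xs s'.1 i else 0) *
      F1 b (cbU k B F F1 F2 w b s'))) = _
    split_ifs
    · ring
    · ring
  · show -a * (es s.1 * F1 b (cbU k B F F1 F2 w b s) *
      (es s'.1 * F1 b (cbU k B F F1 F2 w b s'))) = _
    ring

theorem cb_dg (w : ℕ → (ι ⊕ ι) ⊕ CJ ι β → ℝ) (a : ℝ) (s : AT ι (CJ ι β)) :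
    ∑ i, Sum.elim (fun _ => 0) (Sum.elim (fun _ => 1 / (B.card : ℝ))
      (Sum.elim (fun _ => -a) fun _ => 0)) i * (cbR B F F1 F2).dg k w i s =
      ∑ b, (F2 b (cbU k B F F1 F2 w b s) + F1 b (cbU k B F F1 F2 w b s) ^ 2) *
        (ovx B s.1 s.1 - a) := by
  simp only [Fintype.sum_sum_type, Fintype.sum_prod_type, Sum.elim_inl, Sum.elim_inr, zero_mul,
    Finset.sum_const_zero, zero_add, add_zero, ← Finset.sum_add_distrib]
  refine Finset.sum_congr rfl fun b _ => ?_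
  rw [ovx, mul_sub, Finset.sum_div, Finset.mul_sum, ← Finset.sum_ite_mem_eq B, sub_eq_add_neg]
  congr 1
  · refine Finset.sum_congr rfl fun i _ => ?_
    show 1 / (B.card : ℝ) * ((es s.1 * if i ∈ B then xs s.1 i else 0) ^ 2 *
      F2 b (cbU k B F F1 F2 w b s) + ((es s.1 * if i ∈ B then xs s.1 i else 0) *
      F1 b (cbU k B F F1 F2 w b s)) ^ 2) = _
    rw [mul_pow, mul_pow, mul_pow, es_sq]
    split_ifs
    · ring
    · ring
  · show -a * (es s.1 ^ 2 * F2 b (cbU k B F F1 F2 w b s) +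
      (es s.1 * F1 b (cbU k B F F1 F2 w b s)) ^ 2) = _
    rw [mul_pow, es_sq]
    ring

end Vale.Agent.P166
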