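import Vale.Agent.P166.CavA
import Vale.Agent.P166.Tree
import Vale.Agent.P166.CavBA

/-! Interpolation from Gaussian directions to the tree. -/

namespace Vale.Agent.P166

open MeasureTheory ProbabilityTheory Real Finset Matrix Filter Topology
open Vale.Agent.P157 (Sys St γ GS s0 YY mm pp sh DirD pull mrg Rg Sp νB xB)
open scoped ENNReal

section Aux

variable {ι β : Type} [Fintype ι] [DecidableEq ι] [Fintype β] [DecidableEq β] {k m : ℕ}
  {B : Finset ι} {F F1 F2 : β → ℝ → ℝ} {K K1 P : ℝ}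

omit [DecidableEq β] in
theorem cb_abs_sum (hm : Fintype.card β ≤ m) {f : β → ℝ} {c d : ℝ} (hc : 0 ≤ c)
    (hf : ∀ b, |f b| ≤ c) : |∑ b, f b * d| ≤ m * c * |d| := by
  rw [← Finset.sum_mul, abs_mul]
  refine mul_le_mul_of_nonneg_right ((Finset.abs_sum_le_sum_abs _ _).trans
    ((Finset.sum_le_card_nsmul _ _ c fun b _ => hf b).trans ?_)) (abs_nonneg _)
  rw [nsmul_eq_mul, Finset.card_univ]
  exact mul_le_mul_of_nonneg_right (Nat.cast_le.2 hm) hc

theorem cb_lin (hk : 0 < k) (hF : ∀ b, Nc (F b) (F1 b) (F2 b) K) (hK : K ≤ K1) (h1 : 1 ≤ K1)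
    (M : Mdl ι) (w : ℕ → (ι ⊕ ι) ⊕ CJ ι β → ℝ) : (AS k ι (CJ ι β)).Lin fun s =>
      M.H k (CJ ι β) s + (cbR B F F1 F2).Hv k w s :=
  (M.lin hk).add ((ds_lin_iff ((hO ι).prod (nC ι))).2 (Rg.lin_Hv (cb_ok hF hK h1) hk w))

theorem cb_GD (hk : 0 < k) (hm : Fintype.card β ≤ m) (hF : ∀ b, Nc (F b) (F1 b) (F2 b) K)
    (hK : K ≤ K1) (h1 : 1 ≤ K1) (hP0 : 0 ≤ P) (hP : (Fintype.card ι : ℝ) ≤ P * B.card)
    {A : ℕ → ℝ} (hA : IsPath k P A) (M : Mdl ι) (n : ℕ → β → ℝ) (t : ℕ → ℝ)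
    (w : ℕ → (ι ⊕ ι) ⊕ CJ ι β → ℝ) :
    |GD k (hO ι) (nC ι) (M.H k (CJ ι β)) (cbR B F F1 F2) w fun j i =>
      cbW ι (1 / B.card) n t j i - cbW ι 0 (fun j b => inc A j + n j b) t j i| ≤
      m * (K1 + K1 ^ 2) * serr k (hO ι) (nC ι)
        (fun s => M.H k (CJ ι β) s + (cbR B F F1 F2).Hv k w s) (ovx B) A := by
  have hL := cb_lin (B := B) hk hF hK h1 M w
  set H : AT ι (CJ ι β) → ℝ := fun s => M.H k (CJ ι β) s + (cbR B F F1 F2).Hv k w s with hH
  have h0 : 0 ≤ K1 := le_trans zero_le_one h1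
  have b1 : ∀ b u, |F1 b u| ≤ K1 := fun b u => ((hF b).b1 u).trans hK
  have b2 : ∀ b u, |F2 b u| ≤ K1 := fun b u => ((hF b).b2 u).trans hK
  have hes : ∀ c : CF ι, |es c| = 1 := fun c => by
    rw [← sq_eq_sq₀ (abs_nonneg _) zero_le_one, sq_abs, es_sq, one_pow]
  have hov : ∀ (c c' : CF ι) (a : ℝ), ‖|ovx B c c' - a|‖ ≤ P + |a| := fun c c' a => by
    rw [Real.norm_eq_abs, abs_abs]
    exact (abs_sub _ _).trans (add_le_add (abs_ovx_le hP hP0 c c') le_rfl)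
  have := mD_prob hk hL
  have a1 : |∫ s, ∑ i, (∑ j ∈ range k, (cbW ι (1 / B.card) n t j i -
      cbW ι 0 (fun j b => inc A j + n j b) t j i)) * (cbR B F F1 F2).dg k w i s
      ∂mD k (hO ι) (nC ι) H| ≤
      m * (K1 + K1 ^ 2) * ∫ s, |ovx B s.1 s.1 - A k| ∂mD k (hO ι) (nC ι) H := by
    rw [← integral_const_mul, ← Real.norm_eq_abs]
    refine norm_integral_le_of_norm_le (Integrable.const_mul (Integrable.of_bound ?_ (P + |A k|)
      (ae_of_all _ fun s => hov _ _ _)) _) (ae_of_all _ fun s => ?_)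
    · exact ((((bm_ovx B).1.comp (measurable_fst.prodMk measurable_fst)).sub_const
        _).abs).aestronglyMeasurable
    · simp only [cb_sumW hA n t hk]
      rw [cb_dg, Real.norm_eq_abs]
      refine cb_abs_sum hm (by positivity) fun b => (abs_add_le _ _).trans
        (add_le_add (b2 b _) ?_)
      rw [abs_pow]
      exact pow_le_pow_left₀ (abs_nonneg _) (b1 b _) 2
  have a2 : ∀ l ∈ Ioo 0 k, |∫ z, ∑ i, (∑ j ∈ range l, (cbW ι (1 / B.card) n t j i -
      cbW ι 0 (fun j b => inc A j + n j b) t j i)) *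
        ((cbR B F F1 F2).ψ k w i z.1 * (cbR B F F1 F2).ψ k w i z.2) ∂pD k (hO ι) (nC ι) H l| ≤
      m * (K1 + K1 ^ 2) * ∫ z, |ovx B z.1.1 z.2.1 - A l| ∂pD k (hO ι) (nC ι) H l := by
    intro l hl
    have := pD_prob hk hL l
    rw [← integral_const_mul, ← Real.norm_eq_abs]
    refine norm_integral_le_of_norm_le (Integrable.const_mul (Integrable.of_bound ?_ (P + |A l|)
      (ae_of_all _ fun s => hov _ _ _)) _) (ae_of_all _ fun z => ?_)
    · exact ((((bm_ovx B).1.comp (measurable_fst.fst.prodMk measurable_snd.fst)).sub_const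
        _).abs).aestronglyMeasurable
    · simp only [cb_sumW hA n t (Finset.mem_Ioo.1 hl).1]
      rw [cb_psi, Real.norm_eq_abs]
      refine cb_abs_sum hm (by positivity) fun b => ?_
      rw [abs_mul, abs_mul, abs_mul, hes, hes, one_mul, one_mul]
      refine (mul_le_mul (b1 b _) (b1 b _) (abs_nonneg _) h0).trans ?_
      nlinarith
  have a3 := (Finset.abs_sum_le_sum_abs _ _).trans (Finset.sum_le_sum a2)
  rw [← Finset.mul_sum] at a3
  have e1 : range k = insert 0 (Ioo 0 k) := by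
    ext l
    simp only [Finset.mem_range, Finset.mem_insert, Finset.mem_Ioo]
    omega
  have hk' : (0 : ℝ) < k := by exact_mod_cast hk
  have p1 : 0 ≤ ∫ s, |ovx B s.1 s.1 - A k| ∂mD k (hO ι) (nC ι) H :=
    integral_nonneg fun _ => abs_nonneg _
  have p2 : 0 ≤ ∑ l ∈ Ioo 0 k, ∫ z, |ovx B z.1.1 z.2.1 - A l| ∂pD k (hO ι) (nC ι) H l :=
    Finset.sum_nonneg fun _ _ => integral_nonneg fun _ => abs_nonneg _
  have a4 := mul_le_mul_of_nonneg_left a3 (show 0 ≤ 1 / (2 * (k : ℝ)) by positivity)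
  rw [← abs_of_nonneg (show 0 ≤ 1 / (2 * (k : ℝ)) by positivity), ← abs_mul,
    abs_of_nonneg (show 0 ≤ 1 / (2 * (k : ℝ)) by positivity)] at a4
  have e2 : 1 / (2 * (k : ℝ)) * (m * (K1 + K1 ^ 2) *
      ∑ l ∈ Ioo 0 k, ∫ z, |ovx B z.1.1 z.2.1 - A l| ∂pD k (hO ι) (nC ι) H l) =
      1 / 2 * (m * (K1 + K1 ^ 2) * (1 / k *
      ∑ l ∈ Ioo 0 k, ∫ z, |ovx B z.1.1 z.2.1 - A l| ∂pD k (hO ι) (nC ι) H l)) := by
    field_simp
  rw [e2] at a4
  have p3 : 0 ≤ m * (K1 + K1 ^ 2) * ∫ s, |ovx B s.1 s.1 - A k| ∂mD k (hO ι) (nC ι) H := by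
    positivity
  have p4 : 0 ≤ m * (K1 + K1 ^ 2) * (1 / k *
      ∑ l ∈ Ioo 0 k, ∫ z, |ovx B z.1.1 z.2.1 - A l| ∂pD k (hO ι) (nC ι) H l) := by positivity
  unfold GD serr
  rw [← hH]
  conv_lhs => enter [1, 2, 2]; rw [e1, Finset.sum_insert (by simp)]
  simp only [Finset.range_zero, Finset.sum_empty, zero_mul, Finset.sum_const_zero, integral_zero,
    zero_add]
  rw [abs_le] at a1 a4 ⊢
  constructor <;> linarith [a1.1, a1.2, a4.1, a4.2]

theorem cb_exp (hk : 0 < k) (hm : Fintype.card β ≤ m) (hb : ∀ b u, |F b u| ≤ K) (hK : K ≤ K1)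
    (h1 : 1 ≤ K1) (M : Mdl ι) {t : ℕ → ℝ} {T : ℝ} (ht : ∀ j < k, 0 ≤ t j)
    (hT : ∑ j ∈ range k, t j ≤ T) {w : ℕ → (ι ⊕ ι) ⊕ CJ ι β → ℝ}
    (hw : ∀ j, w j (.inr (.inr (.inr ()))) = t j) :
    ∫ s, exp (4 * |M.H k (CJ ι β) s + (cbR B F F1 F2).Hv k w s - M.H k (CJ ι β) s|)
      ∂mA k (M.H k (CJ ι β)) ≤ 2 * exp (8 * T + 4 * (m * K1)) := by
  have hL := M.lin (J := CJ ι β) hk
  have := mD_prob hk hL
  have he : ∀ i : (ι ⊕ ι) ⊕ CJ ι β, BM (Sum.elim (fun _ _ => 0) (Sum.elim (fun _ _ => 0)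
      (Sum.elim (fun _ _ => 0) fun _ c => es c)) i : CF ι → ℝ) := by
    rintro (i | p | b | u)
    · exact BM.const 0
    · exact BM.const 0
    · exact BM.const 0
    · exact bm_es
  have key := exp_fld_le (p := fun i => i.isRight = true) hk hL (M.free (by
      rintro j' _ (i' | i') hp
      · simp at hp
      · rfl)) he (w := fun j _ => t j) (fun j hj _ => ht j hj) (by
      rintro j _ (i | i) hp
      · exact Or.inr fun _ => rfl
      · simp at hp) (BM.const (4 * (m * K1))) 4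
  refine le_trans (integral_mono_of_nonneg (ae_of_all _ fun _ => (exp_pos _).le) ?_
    (ae_of_all _ fun s => exp_le_exp.2 ?_)) (key.trans ?_)
  · exact integrable_mD hk hL ((((lin_fld hk he _).abs.const_mul 4).add
      (Sys.Lin.const (ds_ok hk) _)).ex_exp (ds_ok hk))
  · rw [add_sub_cancel_left, cb_Hv, cb_U_none, ← mul_add]
    refine mul_le_mul_of_nonneg_left ((abs_add_le _ _).trans (add_le_add (le_of_eq ?_) ?_))
      (by norm_num)
    · congr 1
      simp only [fld, Fintype.sum_sum_type, Sum.elim_inl, Sum.elim_inr, mul_zero, zero_mul,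
        Finset.sum_const_zero, zero_add, Finset.univ_unique, Finset.sum_singleton, hw,
        Finset.mul_sum]
      exact Finset.sum_congr rfl fun j _ => by ring
    · have := cb_abs_sum (d := 1) hm (le_trans zero_le_one h1) fun b => (hb b
        ((cbR B F F1 F2).U k (fun j i => √(w j i)) (some b) s)).trans hK
      simpa using this
  · refine mul_le_mul_of_nonneg_left ?_ (by norm_num)
    have e1 : ∀ c : CF ι, fvar k (Sum.elim (fun _ _ => 0) (Sum.elim (fun _ _ => 0)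
        (Sum.elim (fun _ _ => 0) fun _ c => es c)) : (ι ⊕ ι) ⊕ CJ ι β → CF ι → ℝ)
        (fun j _ => t j) c = ∑ j ∈ range k, t j := by
      intro c
      simp [fvar, Fintype.sum_sum_type, es_sq]
    simp only [e1, integral_const, probReal_univ, one_smul]
    exact exp_le_exp.2 (by linarith)

end Aux

theorem cavB (K P T ε : ℝ) (m : ℕ) (hε : 0 < ε) : ∃ δ > (0 : ℝ), ∀ {ι β : Type} [Fintype ι]
    [DecidableEq ι] [Fintype β] [DecidableEq β] {k : ℕ} (M : Mdl ι) (B : Finset ι)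
    (F F1 F2 : β → ℝ → ℝ) (n : ℕ → β → ℝ) (t A : ℕ → ℝ), 0 < k → Fintype.card β ≤ m →
    B.Nonempty → (Fintype.card ι : ℝ) ≤ P * B.card → (∀ b, Nc (F b) (F1 b) (F2 b) K) →
    (∀ b u, |F b u| ≤ K) → (∀ j < k, ∀ b, 0 ≤ n j b) → (∀ j < k, 0 ≤ t j) →
    ∑ j ∈ range k, t j ≤ T → IsPath k P A → M.serr k (ovx B) A ≤ δ →
    |YG k M B F n t - YM k M - YT k F (fun j b => inc A j + n j b) t| ≤ ε := by
  have h1 : 1 ≤ max K 1 := le_max_right _ _
  have hK : K ≤ max K 1 := le_max_left _ _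
  have hc : 0 ≤ m * (max K 1 + max K 1 ^ 2) := by positivity
  obtain ⟨δ, hδ, hdl⟩ := serr_dl P (2 * exp (8 * T + 4 * (m * max K 1)))
    (ε / (m * (max K 1 + max K 1 ^ 2) + 1)) (by positivity)
  refine ⟨δ, hδ, ?_⟩
  intro ι β _ _ _ _ k M B F F1 F2 n t A hk hm hB hP hF hb hn ht hT hA hs
  have hP0 : 0 ≤ P := (hA.nonneg k).trans hA.2.2
  have hmF : ∀ b, Measurable (F b) := fun b =>
    (continuous_iff_continuousAt.2 fun u => ((hF b).d1 u).continuousAt).measurable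
  obtain ⟨τ, -, hτ⟩ := GD_mvt (νD := hO ι) (ν := nC ι) (p := fun i => i.isRight = true)
    (cb_ok (B := B) hF hK h1) hk (M.lin (J := CJ ι β) hk) (M.free (by
      rintro j' _ (i' | i') hp
      · simp at hp
      · rfl)) (w0 := cbW ι 0 (fun j b => inc A j + n j b) t) (w1 := cbW ι (1 / B.card) n t) (by
      rintro j hj (i | p | b | u)
      · exact le_rfl
      · simp [cbW]
      · exact add_nonneg (hA.inc_nonneg j) (hn j hj b)
      · exact ht j hj) (by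
      rintro j hj (i | p | b | u)
      · exact le_rfl
      · simp only [cbW, Sum.elim_inr, Sum.elim_inl]
        split_ifs <;> positivity
      · exact hn j hj b
      · exact ht j hj) (by
      rintro j _ (i | i) hp
      · exact absurd rfl hp
      · rfl)
  rw [cb_one hk, cb_zero] at hτ
  have e0 := YM_add_aux hk M (J := CJ ι β) (e := Sum.inr) Sum.inr_injective
    (lin_HT hk hmF hb (fun j b => inc A j + n j b) t)
  have e1 := (YG_eq (M := M) (n := n) (t := t) (B := B) hk hmF hb).2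
  rw [e1, sub_sub, YT, ← e0, YA, YA, hτ]
  refine (cb_GD hk hm hF hK h1 hP0 hP hA M n t _).trans ?_
  have hs' := hdl hk (M.lin (J := CJ ι β) hk) (cb_lin (B := B) hk hF hK h1 M _) (bm_ovx B).1
    (abs_ovx_le hP hP0) hA (cb_exp (F1 := F1) (F2 := F2) hk hm hb hK h1 M ht hT
      (w := fun j i => cbW ι 0 (fun j b => inc A j + n j b) t j i + τ *
        (cbW ι (1 / B.card) n t j i - cbW ι 0 (fun j b => inc A j + n j b) t j i))
      (fun j => by simp [cbW])) (by rw [serr_amb M hk (bm_ovx B).1]; exact hs)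
  refine (mul_le_mul_of_nonneg_left hs' hc).trans ?_
  rw [← mul_div_assoc, div_le_iff₀ (by positivity)]
  nlinarith

theorem cav (K P T ε : ℝ) (m : ℕ) (hP : 0 < P) (hε : 0 < ε) : ∃ δ > (0 : ℝ), ∃ N0 : ℕ,
    ∀ {ι β : Type} [Fintype ι] [DecidableEq ι] [Fintype β] [DecidableEq β] {k : ℕ} (M : Mdl ι)
    (B : Finset ι) (F F1 F2 : β → ℝ → ℝ) (g : β → ι → ℝ) (n : ℕ → β → ℝ) (t A : ℕ → ℝ), 0 < k →
    Fintype.card β ≤ m → N0 ≤ B.card → (Fintype.card ι : ℝ) ≤ P * B.card → M.Iso B →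
    (∀ b, Nc (F b) (F1 b) (F2 b) K) → (∀ b u, |F b u| ≤ K) → Frame B g →
    (∀ j < k, ∀ b, 0 ≤ n j b) → (∀ j < k, 0 ≤ t j) → ∑ j ∈ range k, t j ≤ T → IsPath k P A →
    M.serr k (ovx B) A ≤ δ →
    |YC k M F g n t - YM k M - YT k F (fun j b => inc A j + n j b) t| ≤ ε := by
  obtain ⟨N0, hA⟩ := cavA K P (ε / 2) m hP (by positivity)
  obtain ⟨δ, hδ, hB⟩ := cavB K P T (ε / 2) m (by positivity)
  refine ⟨δ, hδ, N0 + 1, ?_⟩
  intro ι β _ _ _ _ k M B F F1 F2 g n t A hk hm hN hPB hI hF hb hg hn ht hT hA' hs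
  have a1 := hA M B F F1 F2 g n t hk hm (by omega) hPB hI hF hb hg
  have a2 := hB M B F F1 F2 n t A hk hm (Finset.card_pos.1 (by omega)) hPB hF hb hn ht hT hA' hs
  rw [abs_le] at a1 a2 ⊢
  constructor <;> linarith [a1.1, a1.2, a2.1, a2.2]

end Vale.Agent.P166
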