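import Vale.Agent.P166.ConcA

/-! Projections onto spans of Gaussian vectors. -/

namespace Vale.Agent.P166

open MeasureTheory ProbabilityTheory Real Function Module
open scoped RealInnerProductSpace

noncomputable section

variable {E : Type*} [NormedAddCommGroup E] [InnerProductSpace ℝ E] [FiniteDimensional ℝ E]
variable {ι : Type*}

/-- span of the vectors with index in `S` -/
def sp (G : ι → E) (S : Finset ι) : Submodule ℝ E := Submodule.span ℝ (G '' (S : Set ι))

/-- orthogonal projection onto the span of the vectors with index in `S` -/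
def pj (G : ι → E) (S : Finset ι) (x : E) : E := (sp G S).starProjection x

lemma proj_sup (K : Submodule ℝ E) (g x : E) :
    (K ⊔ Submodule.span ℝ {g}).starProjection x = K.starProjection x +
      (⟪g - K.starProjection g, x⟫ / ‖g - K.starProjection g‖ ^ 2) • (g - K.starProjection g) := by
  set w := g - K.starProjection g with hw
  have hwK : w ∈ Kᗮ := K.sub_starProjection_mem_orthogonal g
  have hwm : w ∈ K ⊔ Submodule.span ℝ {g} :=
    Submodule.sub_mem _ (Submodule.mem_sup_right (Submodule.mem_span_singleton_self g))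
      (Submodule.mem_sup_left (K.starProjection_apply_mem g))
  apply Submodule.eq_starProjection_of_mem_of_inner_eq_zero
  · exact Submodule.add_mem _ (Submodule.mem_sup_left (K.starProjection_apply_mem x))
      (Submodule.smul_mem _ _ hwm)
  · have h1 : ∀ y ∈ K, ⟪x - (K.starProjection x + (⟪w, x⟫ / ‖w‖ ^ 2) • w), y⟫ = 0 := by
      intro y hy
      rw [← sub_sub, inner_sub_left, K.starProjection_inner_eq_zero x y hy, inner_smul_left,
        (K.mem_orthogonal' w).1 hwK y hy]
      simp
    have h2 : ⟪x - (K.starProjection x + (⟪w, x⟫ / ‖w‖ ^ 2) • w), w⟫ = 0 := by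
      rw [inner_sub_left, inner_add_left, inner_smul_left,
        (K.mem_orthogonal w).1 hwK _ (K.starProjection_apply_mem x), real_inner_self_eq_norm_sq,
        real_inner_comm]
      by_cases h0 : w = 0
      · simp [h0]
      · have : ‖w‖ ^ 2 ≠ 0 := pow_ne_zero _ (norm_ne_zero_iff.2 h0)
        simp only [conj_trivial]
        field_simp
        ring
    intro y hy
    obtain ⟨a, ha, z, hz, rfl⟩ := Submodule.mem_sup.1 hy
    obtain ⟨c, rfl⟩ := Submodule.mem_span_singleton.1 hz
    have e : g = w + K.starProjection g := by simp [hw]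
    rw [inner_add_right, h1 a ha, inner_smul_right]
    have : ⟪x - (K.starProjection x + (⟪w, x⟫ / ‖w‖ ^ 2) • w), g⟫ = 0 := by
      have h3 : ∀ z : E, ⟪z, g⟫ = ⟪z, w⟫ + ⟪z, K.starProjection g⟫ := by
        intro z; rw [← inner_add_right, ← e]
      rw [h3, h2, h1 _ (K.starProjection_apply_mem g), add_zero]
    rw [this]; simp

lemma norm_proj_sup (K : Submodule ℝ E) (g x : E) :
    ‖(K ⊔ Submodule.span ℝ {g}).starProjection x‖ ^ 2 = ‖K.starProjection x‖ ^ 2 +
      ⟪g - K.starProjection g, x⟫ ^ 2 / ‖g - K.starProjection g‖ ^ 2 := by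
  rw [proj_sup]
  set w := g - K.starProjection g with hw
  have hwK : w ∈ Kᗮ := K.sub_starProjection_mem_orthogonal g
  rw [norm_add_sq_real, inner_smul_right,
    (K.mem_orthogonal w).1 hwK _ (K.starProjection_apply_mem x), norm_smul, mul_pow,
    Real.norm_eq_abs, sq_abs]
  by_cases h0 : w = 0
  · simp [h0]
  · have : ‖w‖ ^ 2 ≠ 0 := pow_ne_zero _ (norm_ne_zero_iff.2 h0)
    field_simp
    ring

omit [FiniteDimensional ℝ E] in
lemma sp_insert [DecidableEq ι] (G : ι → E) (i : ι) (S : Finset ι) :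
    sp G (insert i S) = sp G S ⊔ Submodule.span ℝ {G i} := by
  unfold sp
  rw [Finset.coe_insert, Set.image_insert_eq, Submodule.span_insert, sup_comm]

lemma pj_insert [DecidableEq ι] (G : ι → E) (i : ι) (S : Finset ι) (x : E) :
    pj G (insert i S) x = pj G S x +
      (⟪G i - pj G S (G i), x⟫ / ‖G i - pj G S (G i)‖ ^ 2) • (G i - pj G S (G i)) := by
  unfold pj
  rw [← proj_sup]
  congr 2
  exact sp_insert G i S

lemma norm_pj_insert [DecidableEq ι] (G : ι → E) (i : ι) (S : Finset ι) (x : E) :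
    ‖pj G (insert i S) x‖ ^ 2 = ‖pj G S x‖ ^ 2 +
      ⟪G i - pj G S (G i), x⟫ ^ 2 / ‖G i - pj G S (G i)‖ ^ 2 := by
  unfold pj
  rw [← norm_proj_sup]
  congr 4
  exact sp_insert G i S

lemma norm_pj_le (G : ι → E) (S : Finset ι) (x : E) : ‖pj G S x‖ ≤ ‖x‖ :=
  (sp G S).norm_starProjection_apply_le x

omit [FiniteDimensional ℝ E] in
lemma sp_congr {G G' : ι → E} {S : Finset ι} (h : ∀ i ∈ S, G i = G' i) : sp G S = sp G' S := by
  unfold sp
  rw [Set.image_congr (s := (S : Set ι)) h]

lemma pj_congr {G G' : ι → E} {S : Finset ι} (h : ∀ i ∈ S, G i = G' i) (x : E) :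
    pj G S x = pj G' S x := by
  unfold pj
  congr 2
  exact sp_congr h

lemma pj_map (L : E ≃ₗᵢ[ℝ] E) (G : ι → E) (S : Finset ι) (x : E) :
    pj (fun i => L (G i)) S (L x) = L (pj G S x) := by
  have h : sp (fun i => L (G i)) S = (sp G S).map (L.toLinearEquiv : E →ₗ[ℝ] E) := by
    unfold sp
    rw [Submodule.map_span, Set.image_image]
    rfl
  have h2 := Submodule.starProjection_map_apply L (sp G S) (L x)
  rw [L.symm_apply_apply] at h2
  unfold pj
  rw [← h2]
  congr 2

omit [FiniteDimensional ℝ E] in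
lemma finrank_sp_le (G : ι → E) (S : Finset ι) : finrank ℝ (sp G S) ≤ S.card := by
  classical
  unfold sp
  rw [← Finset.coe_image]
  exact (finrank_span_finset_le_card (S.image G)).trans Finset.card_image_le

variable [MeasurableSpace E] [BorelSpace E]

lemma measurable_pj [DecidableEq ι] (S : Finset ι) :
    Measurable fun p : (ι → E) × E => pj p.1 S p.2 := by
  induction S using Finset.induction_on with
  | empty =>
    have : ∀ p : (ι → E) × E, pj p.1 ∅ p.2 = 0 := by
      intro p
      have h : sp p.1 ∅ = ⊥ := by simp [sp]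
      have h2 : pj p.1 ∅ p.2 ∈ sp p.1 ∅ := (sp p.1 ∅).starProjection_apply_mem p.2
      rw [h] at h2
      exact h2
    simp [this]
  | insert i S _ ih =>
    simp_rw [pj_insert]
    have h1 : Measurable fun p : (ι → E) × E => p.1 i := (measurable_pi_apply i).comp measurable_fst
    have h2 : Measurable fun p : (ι → E) × E => pj p.1 S (p.1 i) :=
      ih.comp (measurable_fst.prodMk h1)
    have h3 : Measurable fun p : (ι → E) × E => p.1 i - pj p.1 S (p.1 i) := h1.sub h2
    exact ih.add (((h3.inner measurable_snd).div (h3.norm.pow_const 2)).smul h3)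

lemma map_proj_gauss (W : Submodule ℝ E) :
    (stdGaussian E).map W.orthogonalProjectionOnto = stdGaussian W := by
  apply Measure.ext_of_charFun
  ext t
  rw [charFun_stdGaussian, charFun_apply, integral_map (by fun_prop) (by fun_prop)]
  have := charFun_stdGaussian (t : E)
  rw [charFun_apply] at this
  simp_rw [Submodule.inner_orthogonalProjectionOnto_eq_of_mem_right]
  rw [this]
  simp

lemma int_gauss_sq {l : ℝ} (h : l < 1 / 2) :
    ∫ y, exp (l * y ^ 2) ∂gaussianReal 0 1 = √(1 / (1 - 2 * l)) := by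
  have e : ∫ y, exp (l * y ^ 2) ∂gaussianReal 0 1 = (√(2 * π))⁻¹ * √(π / (1 / 2 - l)) := by
    rw [integral_gaussianReal_eq_integral_smul one_ne_zero, ← integral_gaussian,
      ← integral_const_mul]
    refine integral_congr_ae (Filter.Eventually.of_forall fun y => ?_)
    simp only [gaussianPDFReal, NNReal.coe_one, mul_one, smul_eq_mul, sub_zero, mul_assoc,
      ← exp_add]
    congr 2
    ring
  have h2 : 0 < 1 / 2 - l := by linarith
  have h3 := pi_pos
  rw [e, ← div_eq_inv_mul, ← sqrt_div (by positivity)]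
  congr 1
  have : 1 - 2 * l ≠ 0 := by linarith
  field_simp

lemma integrable_gauss_sq {l : ℝ} (h : l < 1 / 2) :
    Integrable (fun y => exp (l * y ^ 2)) (gaussianReal 0 1) := by
  apply Integrable.of_integral_ne_zero
  rw [int_gauss_sq h]
  have : 0 < 1 - 2 * l := by linarith
  positivity

lemma int_gauss_norm :
    ∫ w, exp (-(1 / 2) * ‖w‖ ^ 2) ∂stdGaussian E ≤ exp (-(1 / 4) * finrank ℝ E) := by
  rw [stdGaussian, integral_map (Measurable.aemeasurable (by fun_prop))
    (Measurable.aestronglyMeasurable (by fun_prop))]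
  have e : ∀ x : Fin (finrank ℝ E) → ℝ,
      exp (-(1 / 2) * ‖∑ i, x i • stdOrthonormalBasis ℝ E i‖ ^ 2) =
        ∏ i, exp (-(1 / 2) * x i ^ 2) := by
    intro x
    rw [← exp_sum, ← Finset.mul_sum]
    congr 2
    have := (stdOrthonormalBasis ℝ E).sum_repr_symm (WithLp.toLp 2 x)
    simp only at this
    rw [this, LinearIsometryEquiv.norm_map, EuclideanSpace.real_norm_sq_eq]
  simp_rw [e]
  rw [integral_fintype_prod_eq_prod (f := fun _ y => exp (-(1 / 2) * y ^ 2)),
    int_gauss_sq (by norm_num), Finset.prod_const, Finset.card_univ, Fintype.card_fin,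
    mul_comm (-(1 / 4) : ℝ), exp_nat_mul]
  gcongr
  rw [sqrt_le_left (exp_pos _).le, ← exp_nat_mul]
  have := add_one_le_exp (((2 : ℕ) : ℝ) * (-(1 / 4)))
  norm_num at this ⊢
  linarith

lemma map_inner_gauss (e : E) (he : ‖e‖ = 1) :
    (stdGaussian E).map (fun w => ⟪e, w⟫) = gaussianReal 0 1 := by
  have h := IsGaussian.map_eq_gaussianReal (μ := stdGaussian E) (innerSL ℝ e)
  rw [integral_strongDual_stdGaussian, variance_dual_stdGaussian, innerSL_apply_norm, he] at h
  simpa using h

lemma gauss_inner_sq (x : E) {l : ℝ} (h : l * ‖x‖ ^ 2 ≤ 1 / 4) :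
    Integrable (fun w => exp (l * ⟪w, x⟫ ^ 2)) (stdGaussian E) ∧
      ∫ w, exp (l * ⟪w, x⟫ ^ 2) ∂stdGaussian E ≤ 2 := by
  by_cases h0 : x = 0
  · simp [h0]
  · have hn : 0 < ‖x‖ := norm_pos_iff.2 h0
    set e := ‖x‖⁻¹ • x with he
    have he1 : ‖e‖ = 1 := by rw [he, norm_smul, norm_inv, norm_norm]; field_simp
    have e1 : ∀ w, l * ⟪w, x⟫ ^ 2 = (l * ‖x‖ ^ 2) * ⟪e, w⟫ ^ 2 := by
      intro w
      rw [he, inner_smul_left, real_inner_comm]
      simp only [conj_trivial]
      field_simp
    simp_rw [e1]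
    have hm : Measurable fun w : E => ⟪e, w⟫ := by fun_prop
    have hlt : l * ‖x‖ ^ 2 < 1 / 2 := by linarith
    have hi := integrable_gauss_sq hlt
    have hv := int_gauss_sq hlt
    rw [← map_inner_gauss e he1] at hi hv
    rw [integrable_map_measure (by fun_prop) hm.aemeasurable] at hi
    rw [integral_map hm.aemeasurable (by fun_prop)] at hv
    refine ⟨hi, ?_⟩
    rw [hv, sqrt_le_left (by norm_num), div_le_iff₀ (by linarith)]
    linarith

lemma gauss_ratio (x : E) {s N : ℝ} (hs : 0 ≤ s) (hx : ‖x‖ ^ 2 ≤ N)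
    (h : 16 * s * N ≤ finrank ℝ E) :
    ∫ w, exp (s * (⟪w, x⟫ ^ 2 / ‖w‖ ^ 2)) ∂stdGaussian E ≤ 3 := by
  set m : ℝ := (finrank ℝ E : ℝ) with hm
  have hN : 0 ≤ N := (sq_nonneg _).trans hx
  have hcs : ∀ w : E, ⟪w, x⟫ ^ 2 / ‖w‖ ^ 2 ≤ N := by
    intro w
    by_cases h0 : w = 0
    · simp [h0, hN]
    · have : 0 < ‖w‖ ^ 2 := pow_pos (norm_pos_iff.2 h0) 2
      rw [div_le_iff₀ this]
      have h1 := abs_real_inner_le_norm w x
      have h2 : ⟪w, x⟫ ^ 2 ≤ (‖w‖ * ‖x‖) ^ 2 := by
        rw [← sq_abs]; gcongr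
      nlinarith
  rcases (Nat.cast_nonneg (α := ℝ) (finrank ℝ E)).eq_or_lt with hm0 | hm0
  · have hsN : s * N ≤ 0 := by linarith
    calc ∫ w, exp (s * (⟪w, x⟫ ^ 2 / ‖w‖ ^ 2)) ∂stdGaussian E ≤ ∫ _w, (1 : ℝ) ∂stdGaussian E := by
          apply integral_mono_of_nonneg (Filter.Eventually.of_forall fun w => (exp_pos _).le)
            (integrable_const _)
          refine Filter.Eventually.of_forall fun w => ?_
          simp only
          rw [exp_le_one_iff]
          exact (mul_le_mul_of_nonneg_left (hcs w) hs).trans hsN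
      _ ≤ 3 := by simp
  · rw [← hm] at hm0
    obtain ⟨hi1, hv1⟩ := gauss_inner_sq x (l := 4 * s / m) (by
      rw [div_mul_eq_mul_div, div_le_iff₀ hm0]
      nlinarith [mul_le_mul_of_nonneg_left hx hs])
    have hi2 : Integrable (fun w : E => exp (-(1 / 2) * ‖w‖ ^ 2)) (stdGaussian E) :=
      integrable_of_bdd _ (by fun_prop) (B := 1) fun w => by
        rw [abs_of_pos (exp_pos _), exp_le_one_iff]
        nlinarith [sq_nonneg ‖w‖]
    have hpt : ∀ w : E, exp (s * (⟪w, x⟫ ^ 2 / ‖w‖ ^ 2)) ≤
        exp (4 * s / m * ⟪w, x⟫ ^ 2) + exp (m / 4) * exp (-(1 / 2) * ‖w‖ ^ 2) := by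
      intro w
      rcases le_or_gt (m / 4) (‖w‖ ^ 2) with hw | hw
      · refine le_trans (exp_le_exp.2 ?_) (le_add_of_nonneg_right (by positivity))
        have : ⟪w, x⟫ ^ 2 / ‖w‖ ^ 2 ≤ ⟪w, x⟫ ^ 2 / (m / 4) := by gcongr
        calc s * (⟪w, x⟫ ^ 2 / ‖w‖ ^ 2) ≤ s * (⟪w, x⟫ ^ 2 / (m / 4)) := by gcongr
          _ = _ := by field_simp
      · refine le_trans ?_ (le_add_of_nonneg_left (exp_pos _).le)
        rw [← exp_add]
        apply exp_le_exp.2
        have := mul_le_mul_of_nonneg_left (hcs w) hs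
        linarith
    calc ∫ w, exp (s * (⟪w, x⟫ ^ 2 / ‖w‖ ^ 2)) ∂stdGaussian E
        ≤ ∫ w, (exp (4 * s / m * ⟪w, x⟫ ^ 2) + exp (m / 4) * exp (-(1 / 2) * ‖w‖ ^ 2))
            ∂stdGaussian E :=
          integral_mono_of_nonneg (Filter.Eventually.of_forall fun w => (exp_pos _).le)
            (hi1.add (hi2.const_mul _)) (Filter.Eventually.of_forall hpt)
      _ = ∫ w, exp (4 * s / m * ⟪w, x⟫ ^ 2) ∂stdGaussian E +
            exp (m / 4) * ∫ w, exp (-(1 / 2) * ‖w‖ ^ 2) ∂stdGaussian E := by
          rw [integral_add hi1 (hi2.const_mul _), integral_const_mul]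
      _ ≤ 2 + exp (m / 4) * exp (-(1 / 4) * m) := by
          gcongr
          exact int_gauss_norm
      _ = 3 := by rw [← exp_add]; ring_nf; simp; norm_num

lemma gauss_ratio_proj (K : Submodule ℝ E) (x : E) {s N : ℝ} (hs : 0 ≤ s) (hx : ‖x‖ ^ 2 ≤ N)
    (h : 16 * s * N + finrank ℝ K ≤ finrank ℝ E) :
    ∫ g, exp (s * (⟪g - K.starProjection g, x⟫ ^ 2 / ‖g - K.starProjection g‖ ^ 2))
      ∂stdGaussian E ≤ 3 := by
  have h1 := gauss_ratio (E := Kᗮ) (Kᗮ.orthogonalProjectionOnto x) (s := s) (N := N) hs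
    (le_trans (by gcongr; exact Kᗮ.norm_orthogonalProjectionOnto_apply_le x) hx) (by
      have : (finrank ℝ K : ℝ) + finrank ℝ Kᗮ = finrank ℝ E := by
        exact_mod_cast K.finrank_add_finrank_orthogonal
      linarith)
  rw [← map_proj_gauss Kᗮ, integral_map (by fun_prop) (Measurable.aestronglyMeasurable
    (by fun_prop))] at h1
  refine le_of_eq_of_le ?_ h1
  congr 1
  funext g
  rw [Submodule.inner_orthogonalProjectionOnto_eq_of_mem_left, ← Submodule.starProjection_apply,
    Submodule.coe_norm, ← Submodule.starProjection_apply,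
    Submodule.starProjection_orthogonal_val]

lemma gauss_subspace (K : Submodule ℝ E) (hK : finrank ℝ K < finrank ℝ E) :
    stdGaussian E (K : Set E) = 0 := by
  have h1 : Kᗮ ≠ ⊥ := by
    intro h
    have := K.finrank_add_finrank_orthogonal
    rw [h, finrank_bot] at this
    omega
  obtain ⟨x, hx, h0⟩ := Submodule.exists_mem_ne_zero_of_ne_bot h1
  have hn : 0 < ‖x‖ := norm_pos_iff.2 h0
  set e := ‖x‖⁻¹ • x with he
  have he1 : ‖e‖ = 1 := by rw [he, norm_smul, norm_inv, norm_norm]; field_simp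
  have hm : Measurable fun w : E => ⟪e, w⟫ := by fun_prop
  have h2 : stdGaussian E ((fun w : E => ⟪e, w⟫) ⁻¹' {0}) = 0 := by
    rw [← Measure.map_apply hm (measurableSet_singleton 0), map_inner_gauss e he1]
    have := nullSingletonClass_gaussianReal (μ := 0) (v := 1) one_ne_zero
    exact measure_singleton 0
  refine measure_mono_null (fun w hw => ?_) h2
  simp only [Set.mem_preimage, Set.mem_singleton_iff]
  exact (K.mem_orthogonal' e).1 (Submodule.smul_mem _ _ hx) w hw

lemma ae_linearIndependent [Fintype ι] [DecidableEq ι] (h : Fintype.card ι ≤ finrank ℝ E) :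
    ∀ᵐ G ∂(Measure.pi fun _ : ι => stdGaussian E), LinearIndependent ℝ G := by
  simp_rw [linearIndependent_iff_notMem_span]
  rw [ae_all_iff]
  intro i
  have hs : ∀ G : ι → E, G i ∈ Submodule.span ℝ (G '' (Set.univ \ {i})) ↔
      pj G (Finset.univ.erase i) (G i) = G i := by
    intro G
    unfold pj
    rw [Submodule.starProjection_eq_self_iff]
    unfold sp
    simp
  have hm : MeasurableSet {G : ι → E | pj G (Finset.univ.erase i) (G i) = G i} := by
    have h1 : Measurable fun G : ι → E => (G, G i) := measurable_id.prodMk (measurable_pi_apply i)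
    have h2 := (measurable_pj (E := E) (Finset.univ.erase i)).comp h1
    exact measurableSet_eq_fun h2 (measurable_pi_apply i)
  simp_rw [hs]
  rw [ae_iff]
  simp only [not_not]
  have hp := measurePreserving_upd (stdGaussian E) i
  rw [← hp.measure_preimage hm.nullMeasurableSet, Measure.measure_prod_null (hp.measurable hm)]
  refine Filter.Eventually.of_forall fun G => ?_
  have hK := gauss_subspace (sp G (Finset.univ.erase i)) (by
    have h1 := finrank_sp_le G (Finset.univ.erase i)
    rw [Finset.card_erase_of_mem (Finset.mem_univ i), Finset.card_univ] at h1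
    have : 0 < Fintype.card ι := Fintype.card_pos_iff.2 ⟨i⟩
    omega)
  refine measure_mono_null (fun y hy => ?_) hK
  simp only [Set.mem_preimage, Set.mem_ofPred_eq, update_self] at hy
  rw [pj_congr (G' := G) (fun j hj => update_of_ne (Finset.ne_of_mem_erase hj) _ _)] at hy
  exact Submodule.starProjection_eq_self_iff.1 hy

end

end Vale.Agent.P166
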