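import Vale.Agent.P166.Defs

/-! Diagonalisation of the cavity weight. -/

namespace Vale.Agent.P166

open MeasureTheory ProbabilityTheory Real Finset Matrix Filter Topology
open Vale.Agent.P157 (Sys St γ GS s0 YY mm pp sh DirD pull mrg Rg Sp νB xB)
open scoped ENNReal

variable {α : Type} [Fintype α] [DecidableEq α]

omit [DecidableEq α] in
theorem Wq_nonpos {e : α → ℝ} (he : ∀ a, 0 ≤ e a) (ϖ : α → ℝ) (a' : α) (o : α → ℝ) (ε : ℝ) :
    Wq ϖ e a' o ε ≤ 0 := by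
  have h1 : 0 ≤ ∑ a, e a * (o a + (ε - ∑ b, ϖ b * o b) * ϖ a) ^ 2 :=
    Finset.sum_nonneg fun a _ => mul_nonneg (he a) (sq_nonneg _)
  have h2 := mul_nonneg (he a') (sq_nonneg (∑ b, ϖ b * o b))
  unfold Wq
  linarith

omit [DecidableEq α] in
/-- the reflection exchanging the new axis and `ϖ` preserves the norm -/
theorem sum_sq_refl {ϖ : α → ℝ} (hϖ : ∑ a, ϖ a ^ 2 = 1) (o : α → ℝ) (ε : ℝ) :
    ∑ a, (o a + (ε - ∑ b, ϖ b * o b) * ϖ a) ^ 2 + (∑ b, ϖ b * o b) ^ 2 =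
      ∑ a, o a ^ 2 + ε ^ 2 := by
  obtain ⟨c, hc⟩ : ∃ c, c = ∑ b, ϖ b * o b := ⟨_, rfl⟩
  rw [← hc]
  have e1 : ∑ a, (o a + (ε - c) * ϖ a) ^ 2 =
      ∑ a, o a ^ 2 + 2 * (ε - c) * ∑ a, ϖ a * o a + (ε - c) ^ 2 * ∑ a, ϖ a ^ 2 := by
    rw [Finset.mul_sum, Finset.mul_sum, ← Finset.sum_add_distrib, ← Finset.sum_add_distrib]
    exact Finset.sum_congr rfl fun a _ => by ring
  rw [e1, hϖ, ← hc]
  ring

omit [DecidableEq α] in
theorem abs_Wq_le {e ϖ : α → ℝ} {C : ℝ} (he : ∀ a, 0 ≤ e a ∧ e a ≤ C) (hϖ : ∑ a, ϖ a ^ 2 = 1)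
    (a' : α) (o : α → ℝ) {ε : ℝ} (hε : ε ^ 2 = 1) :
    |Wq ϖ e a' o ε| ≤ C / 2 * (1 + ∑ a, o a ^ 2) := by
  rw [abs_of_nonpos (Wq_nonpos (fun a => (he a).1) ϖ a' o ε)]
  have h0 := sum_sq_refl hϖ o ε
  have h1 : ∑ a, e a * (o a + (ε - ∑ b, ϖ b * o b) * ϖ a) ^ 2 ≤
      C * ∑ a, (o a + (ε - ∑ b, ϖ b * o b) * ϖ a) ^ 2 := by
    rw [Finset.mul_sum]
    exact Finset.sum_le_sum fun a _ => mul_le_mul_of_nonneg_right (he a).2 (sq_nonneg _)
  have h2 := mul_le_mul_of_nonneg_right (he a').2 (sq_nonneg (∑ b, ϖ b * o b))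
  have h3 := congrArg (C * ·) h0
  simp only [hε] at h3
  unfold Wq
  linarith

theorem la_sq_sub {δ x C : ℝ} (hδ : 0 < δ) (h0 : 0 ≤ x) (h1 : x ≤ C) (y y' : ℝ) :
    |x * y ^ 2 - x * y' ^ 2| ≤ C * ((y - y') ^ 2 / (2 * δ) + δ * (y ^ 2 + y' ^ 2)) := by
  rw [← mul_sub, abs_mul, abs_of_nonneg h0]
  refine mul_le_mul h1 ?_ (abs_nonneg _) (h0.trans h1)
  have e : (y - y') ^ 2 / (2 * δ) = δ / 2 * ((y - y') / δ) ^ 2 := by field_simp
  have e2 : y ^ 2 - y' ^ 2 = δ * ((y - y') / δ * (y + y')) := by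
    field_simp
    ring
  rw [e, e2]
  generalize (y - y') / δ = r
  have a1 := mul_nonneg hδ.le (sq_nonneg (r - (y + y')))
  have a2 := mul_nonneg hδ.le (sq_nonneg (r + (y + y')))
  have a3 := mul_nonneg hδ.le (sq_nonneg (y - y'))
  rw [abs_le]
  constructor <;> linarith

omit [DecidableEq α] in
theorem Wq_lip {e ϖ ϖ' : α → ℝ} {C δ : ℝ} (he : ∀ a, 0 ≤ e a ∧ e a ≤ C) (hϖ : ∑ a, ϖ a ^ 2 = 1)
    (hϖ' : ∑ a, ϖ' a ^ 2 = 1) (hδ : 0 ≤ δ) (h : ∑ a, (ϖ a - ϖ' a) ^ 2 ≤ δ ^ 2) (a' : α) (o : α → ℝ)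
    {ε : ℝ} (hε : ε ^ 2 = 1) :
    |Wq ϖ e a' o ε - Wq ϖ' e a' o ε| ≤ 10 * C * δ * (1 + ∑ a, o a ^ 2) := by
  rcases hδ.eq_or_lt with rfl | hδ
  · have : ϖ = ϖ' := funext fun a => by
      have := (Finset.single_le_sum (f := fun a => (ϖ a - ϖ' a) ^ 2) (fun _ _ => sq_nonneg _)
        (mem_univ a)).trans h
      nlinarith
    simp [this]
  have hC : 0 ≤ C := (he a').1.trans (he a').2
  have n1 := sum_sq_refl hϖ o ε
  have n2 := sum_sq_refl hϖ' o ε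
  have hN : 0 ≤ ∑ a, o a ^ 2 := Finset.sum_nonneg fun _ _ => sq_nonneg _
  have c1 : (∑ b, ϖ b * o b - ∑ b, ϖ' b * o b) ^ 2 ≤ δ ^ 2 * ∑ a, o a ^ 2 := by
    rw [← Finset.sum_sub_distrib]
    simp only [← sub_mul]
    exact (Finset.sum_mul_sq_le_sq_mul_sq _ _ _).trans (mul_le_mul_of_nonneg_right h hN)
  have c2 : (∑ b, ϖ b * o b) ^ 2 ≤ ∑ a, o a ^ 2 := by
    have := Finset.sum_mul_sq_le_sq_mul_sq univ ϖ o
    rwa [hϖ, one_mul] at this
  unfold Wq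
  generalize ∑ b, ϖ b * o b = c at *
  generalize ∑ b, ϖ' b * o b = c' at *
  generalize ∑ a, o a ^ 2 = N at *
  have c3 : ∑ a, ((o a + (ε - c) * ϖ a) - (o a + (ε - c') * ϖ' a)) ^ 2 ≤
      2 * (ε - c) ^ 2 * ∑ a, (ϖ a - ϖ' a) ^ 2 + 2 * (c - c') ^ 2 * ∑ a, ϖ' a ^ 2 := by
    rw [Finset.mul_sum, Finset.mul_sum, ← Finset.sum_add_distrib]
    exact Finset.sum_le_sum fun a _ => by
      nlinarith [sq_nonneg ((ε - c) * (ϖ a - ϖ' a) + (c - c') * ϖ' a)]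
  have c4 : (ε - c) ^ 2 * ∑ a, (ϖ a - ϖ' a) ^ 2 ≤ (2 + 2 * N) * δ ^ 2 :=
    mul_le_mul (by nlinarith [sq_nonneg (ε + c)]) h (Finset.sum_nonneg fun _ _ => sq_nonneg _)
      (by linarith)
  rw [hϖ'] at c3
  have c5 : |∑ a, e a * (o a + (ε - c) * ϖ a) ^ 2 - ∑ a, e a * (o a + (ε - c') * ϖ' a) ^ 2| ≤
      C * ((∑ a, ((o a + (ε - c) * ϖ a) - (o a + (ε - c') * ϖ' a)) ^ 2) / (2 * δ) +
        δ * (∑ a, (o a + (ε - c) * ϖ a) ^ 2 + ∑ a, (o a + (ε - c') * ϖ' a) ^ 2)) := by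
    rw [← Finset.sum_sub_distrib, ← Finset.sum_add_distrib, Finset.sum_div, Finset.mul_sum,
      ← Finset.sum_add_distrib, Finset.mul_sum]
    exact (Finset.abs_sum_le_sum_abs _ _).trans
      (Finset.sum_le_sum fun a _ => la_sq_sub hδ (he a).1 (he a).2 _ _)
  have c6 := la_sq_sub hδ (he a').1 (he a').2 c c'
  generalize ∑ a, ((o a + (ε - c) * ϖ a) - (o a + (ε - c') * ϖ' a)) ^ 2 = A at *
  generalize ∑ a, e a * (o a + (ε - c) * ϖ a) ^ 2 = B at *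
  generalize ∑ a, e a * (o a + (ε - c') * ϖ' a) ^ 2 = B' at *
  generalize ∑ a, (o a + (ε - c) * ϖ a) ^ 2 = Y at *
  generalize ∑ a, (o a + (ε - c') * ϖ' a) ^ 2 = Y' at *
  have c7 : A / (2 * δ) + (c - c') ^ 2 / (2 * δ) ≤ 4 * δ * (1 + N) := by
    rw [← add_div, div_le_iff₀ (by positivity)]
    nlinarith [sq_nonneg δ, mul_nonneg (sq_nonneg δ) hN]
  have c8 := mul_le_mul_of_nonneg_left c7 hC
  have c9 : C * δ * (Y + Y' + (c ^ 2 + c' ^ 2)) = C * δ * (2 * (1 + N)) := by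
    congr 1
    linarith
  have c10 : 0 ≤ C * δ * (1 + N) := by positivity
  have d1 := abs_le.1 c5
  have d2 := abs_le.1 c6
  rw [abs_le]
  constructor <;> linarith [d1.1, d1.2, d2.1, d2.2]

/-- the quadratic part of the cavity weight -/
noncomputable def laQ (ϖ e : α → ℝ) (e' : ℝ) : Matrix α α ℝ := Matrix.of fun a b =>
  (if a = b then e a else 0) - ϖ a * ϖ b * (e a + e b) + (∑ c, e c * ϖ c ^ 2 + e') * (ϖ a * ϖ b)

theorem la_mulVec (ϖ e : α → ℝ) (e' : ℝ) (o : α → ℝ) (a : α) :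
    (laQ ϖ e e' *ᵥ o) a = e a * o a - ϖ a * ∑ b, e b * ϖ b * o b - e a * ϖ a * ∑ b, ϖ b * o b +
      (∑ c, e c * ϖ c ^ 2 + e') * ϖ a * ∑ b, ϖ b * o b := by
  have e1 : e a * o a = ∑ b, (if a = b then e a else 0) * o b := by simp
  unfold laQ
  generalize ∑ c, e c * ϖ c ^ 2 + e' = q
  rw [e1, Finset.mul_sum, Finset.mul_sum, Finset.mul_sum, ← Finset.sum_sub_distrib,
    ← Finset.sum_sub_distrib, ← Finset.sum_add_distrib]
  exact Finset.sum_congr rfl fun b _ => by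
    simp only [Matrix.of_apply]
    ring

theorem la_symm (ϖ e : α → ℝ) (e' : ℝ) : (laQ ϖ e e').IsHermitian := by
  ext a b
  simp only [laQ, conjTranspose_apply, Matrix.of_apply, star_trivial]
  by_cases h : a = b
  · rw [h]
  · rw [if_neg h, if_neg (Ne.symm h)]
    ring

theorem la_quad (ϖ e : α → ℝ) (a' : α) (o : α → ℝ) (ε : ℝ) :
    -2 * Wq ϖ e a' o ε = o ⬝ᵥ laQ ϖ e (e a') *ᵥ o +
      2 * ε * ((fun a => e a * ϖ a - (∑ c, e c * ϖ c ^ 2) * ϖ a) ⬝ᵥ o) +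
      ε ^ 2 * ∑ c, e c * ϖ c ^ 2 := by
  unfold Wq
  simp only [dotProduct, la_mulVec]
  obtain ⟨c, hc⟩ : ∃ c, c = ∑ b, ϖ b * o b := ⟨_, rfl⟩
  obtain ⟨g, hg⟩ : ∃ g, g = ∑ b, e b * ϖ b * o b := ⟨_, rfl⟩
  obtain ⟨q, hq⟩ : ∃ q, q = ∑ b, e b * ϖ b ^ 2 := ⟨_, rfl⟩
  rw [← hc, ← hg, ← hq]
  have e1 : ∑ a, e a * (o a + (ε - c) * ϖ a) ^ 2 = ∑ a, e a * o a ^ 2 +
      2 * (ε - c) * ∑ b, e b * ϖ b * o b + (ε - c) ^ 2 * ∑ b, e b * ϖ b ^ 2 := by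
    rw [Finset.mul_sum, Finset.mul_sum, ← Finset.sum_add_distrib, ← Finset.sum_add_distrib]
    exact Finset.sum_congr rfl fun a _ => by ring
  have e2 : ∑ a, o a * (e a * o a - ϖ a * g - e a * ϖ a * c + (q + e a') * ϖ a * c) =
      ∑ a, e a * o a ^ 2 + (-g + (q + e a') * c) * ∑ b, ϖ b * o b -
        c * ∑ b, e b * ϖ b * o b := by
    rw [Finset.mul_sum, Finset.mul_sum, ← Finset.sum_add_distrib, ← Finset.sum_sub_distrib]
    exact Finset.sum_congr rfl fun a _ => by ring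
  have e3 : ∑ a, (e a * ϖ a - q * ϖ a) * o a = ∑ b, e b * ϖ b * o b - q * ∑ b, ϖ b * o b := by
    rw [Finset.mul_sum, ← Finset.sum_sub_distrib]
    exact Finset.sum_congr rfl fun a _ => by ring
  rw [e1, e2, e3, ← hc, ← hg, ← hq]
  ring

theorem la_diag {Q : Matrix α α ℝ} (hQ : Q.IsHermitian) : ∃ (R : Matrix α α ℝ) (s : α → ℝ),
    R * Rᵀ = 1 ∧ Rᵀ * R = 1 ∧ Q = Rᵀ * diagonal s * R := by
  have h := hQ.spectral_theorem
  have h1 := hQ.eigenvectorUnitary.2.1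
  have h2 := hQ.eigenvectorUnitary.2.2
  rw [Unitary.conjStarAlgAut_apply] at h
  simp only [star_eq_conjTranspose, conjTranspose_eq_transpose_of_trivial] at h h1 h2
  exact ⟨(hQ.eigenvectorUnitary : Matrix α α ℝ)ᵀ, hQ.eigenvalues, h1, h2, h⟩

theorem la_det1 (u v : α → ℝ) : det (1 + vecMulVec u v) = 1 + v ⬝ᵥ u := by
  rw [vecMulVec_eq Unit, det_one_add_replicateCol_mul_replicateRow]

theorem la_det {ϖ e : α → ℝ} (h1 : ∑ a, ϖ a ^ 2 = 1) (e' x : ℝ) (hd : ∀ a, 1 + e a * x ≠ 0) :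
    det (1 + x • laQ ϖ e e') =
      (1 + e' * x) * (∏ a, (1 + e a * x)) * ∑ a, ϖ a ^ 2 / (1 + e a * x) := by
  obtain ⟨q, hq⟩ : ∃ q, q = ∑ b, e b * ϖ b ^ 2 := ⟨_, rfl⟩
  have hN : ϖ ᵥ* (1 + x • laQ ϖ e 0) = ϖ := by
    have s1 : (laQ ϖ e 0)ᵀ = laQ ϖ e 0 := by
      rw [← conjTranspose_eq_transpose_of_trivial]
      exact la_symm ϖ e 0
    rw [vecMul_add, vecMul_one, vecMul_smul, ← s1, vecMul_transpose]
    funext a
    have e1 : ∑ b, e b * ϖ b * ϖ b = q := by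
      rw [hq]
      exact Finset.sum_congr rfl fun a _ => by ring
    have e2 : ∑ b, ϖ b * ϖ b = 1 := by simpa only [sq] using h1
    rw [Pi.add_apply, Pi.smul_apply, la_mulVec, e1, e2, ← hq, smul_eq_mul]
    ring
  have m1 : 1 + x • laQ ϖ e e' =
      (1 + vecMulVec (fun a => e' * x * ϖ a) ϖ) * (1 + x • laQ ϖ e 0) := by
    rw [add_mul, one_mul, vecMulVec_mul, hN]
    ext a b
    simp only [laQ, Matrix.add_apply, Matrix.smul_apply, Matrix.of_apply, vecMulVec_apply,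
      smul_eq_mul]
    ring
  have m2 : (1 + vecMulVec (fun a => x * (e a - q) * ϖ a) ϖ) * (1 + x • laQ ϖ e 0) =
      (1 + vecMulVec ϖ fun a => ϖ a / (1 + e a * x) - ϖ a) * diagonal fun a => 1 + e a * x := by
    rw [add_mul, one_mul, vecMulVec_mul, hN]
    ext a b
    have c4 : ϖ b / (1 + e b * x) * (1 + e b * x) = ϖ b := div_mul_cancel₀ _ (hd b)
    simp only [laQ, Matrix.add_apply, Matrix.smul_apply, Matrix.of_apply, vecMulVec_apply,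
      smul_eq_mul, mul_diagonal, one_apply, ← hq]
    split_ifs with h
    · subst h
      linear_combination -ϖ a * c4
    · linear_combination -ϖ a * c4
  have d1 : ϖ ⬝ᵥ (fun a => e' * x * ϖ a) = e' * x := by
    have : ϖ ⬝ᵥ (fun a => e' * x * ϖ a) = e' * x * ∑ a, ϖ a ^ 2 := by
      rw [Finset.mul_sum]
      exact Finset.sum_congr rfl fun a _ => by ring
    rw [this, h1, mul_one]
  have d2 : ϖ ⬝ᵥ (fun a => x * (e a - q) * ϖ a) = 0 := by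
    have : ϖ ⬝ᵥ (fun a => x * (e a - q) * ϖ a) =
        x * ∑ a, e a * ϖ a ^ 2 - x * q * ∑ a, ϖ a ^ 2 := by
      rw [Finset.mul_sum, Finset.mul_sum, ← Finset.sum_sub_distrib]
      exact Finset.sum_congr rfl fun a _ => by ring
    rw [this, h1, ← hq]
    ring
  have d3 : (fun a => ϖ a / (1 + e a * x) - ϖ a) ⬝ᵥ ϖ =
      ∑ a, ϖ a ^ 2 / (1 + e a * x) - ∑ a, ϖ a ^ 2 := by
    rw [← Finset.sum_sub_distrib]
    exact Finset.sum_congr rfl fun a _ => by ring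
  have m3 := congrArg det m2
  rw [det_mul, det_mul, la_det1, la_det1, d2, d3, h1, det_diagonal, add_zero, one_mul] at m3
  rw [m1, det_mul, la_det1, d1, m3]
  ring

theorem la_solve {ϖ e p : α → ℝ} (hp : ∀ a, p a = ϖ a ^ 2) (h1 : ∑ a, ϖ a ^ 2 = 1) (e' x : ℝ)
    (hd : ∀ a, 1 + e a * x ≠ 0) (hτ : tauF p e x ≠ 0) : ∃ z : α → ℝ,
      z + x • laQ ϖ e e' *ᵥ z = x • (fun a => e a * ϖ a - (∑ c, e c * ϖ c ^ 2) * ϖ a) ∧
      (fun a => e a * ϖ a - (∑ c, e c * ϖ c ^ 2) * ϖ a) ⬝ᵥ z =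
        kapF p e x + ∑ c, e c * ϖ c ^ 2 := by
  obtain ⟨q, hq⟩ : ∃ q, q = ∑ b, e b * ϖ b ^ 2 := ⟨_, rfl⟩
  have c1 : ∑ b, ϖ b * (ϖ b - ϖ b / (1 + e b * x) / tauF p e x) = 0 := by
    have : ∑ b, ϖ b * (ϖ b - ϖ b / (1 + e b * x) / tauF p e x) =
        ∑ b, ϖ b ^ 2 - (∑ b, p b / (1 + e b * x)) / tauF p e x := by
      rw [Finset.sum_div, ← Finset.sum_sub_distrib]
      exact Finset.sum_congr rfl fun a _ => by rw [hp]; ring
    rw [this, h1]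
    exact sub_eq_zero.2 (div_self hτ).symm
  have c2 : ∑ b, e b * ϖ b * (ϖ b - ϖ b / (1 + e b * x) / tauF p e x) = kapF p e x + q := by
    unfold kapF
    rw [hq, neg_div, Finset.sum_div, ← Finset.sum_neg_distrib, ← Finset.sum_add_distrib]
    exact Finset.sum_congr rfl fun a _ => by rw [hp]; ring
  have c3 : x * kapF p e x = 1 - 1 / tauF p e x := by
    have : x * ∑ a, p a * e a / (1 + e a * x) = ∑ a, ϖ a ^ 2 - tauF p e x := by
      unfold tauF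
      rw [Finset.mul_sum, ← Finset.sum_sub_distrib]
      exact Finset.sum_congr rfl fun a _ => by
        have c4 : p a / (1 + e a * x) * (1 + e a * x) = p a := div_mul_cancel₀ _ (hd a)
        rw [← hp]
        linear_combination c4
    unfold kapF
    rw [← mul_div_assoc, mul_neg, this, h1]
    field_simp
    ring
  refine ⟨fun b => ϖ b - ϖ b / (1 + e b * x) / tauF p e x, funext fun a => ?_, ?_⟩
  · simp only [Pi.add_apply, Pi.smul_apply, la_mulVec, smul_eq_mul]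
    rw [c1, c2, ← hq]
    have c4 : ϖ a / (1 + e a * x) * (1 + e a * x) = ϖ a := div_mul_cancel₀ _ (hd a)
    generalize ϖ a / (1 + e a * x) = r at c4
    linear_combination -(1 / tauF p e x) * c4 - ϖ a * c3 - x * ϖ a * q
  · rw [← hq, ← c2, ← sub_zero (∑ b, e b * ϖ b * _), ← mul_zero q, ← c1, Finset.mul_sum,
      ← Finset.sum_sub_distrib]
    exact Finset.sum_congr rfl fun a _ => by ring

theorem newrep_la {p e : α → ℝ} (hp : ∀ a, 0 ≤ p a) (h1 : ∑ a, p a = 1) (he : ∀ a, 0 ≤ e a)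
    (a' : α) : ∃ (R : O α) (s μ : α → ℝ) (w0 : ℝ), (∀ b, 0 ≤ s b) ∧
    (∀ (o : α → ℝ) (ε : ℝ), ε ^ 2 = 1 → Wq (fun a => √(p a)) e a' o ε =
      w0 + ∑ b, qq (s b) (μ b) (ε * ((R : Matrix α α ℝ) *ᵥ o) b)) ∧
    (∀ x, 0 ≤ x → ∑ b, log (1 + s b * x) =
      log (1 + e a' * x) + ∑ a, log (1 + e a * x) + log (tauF p e x)) ∧
    (∀ x, 0 ≤ x → ∑ b, (s b * μ b) ^ 2 * x / (1 + s b * x) = kapF p e x - kapF p e 0) ∧
    w0 - ∑ b, s b * μ b ^ 2 / 2 = kapF p e 0 / 2 := by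
  obtain ⟨ϖ, hϖ⟩ : ∃ ϖ : α → ℝ, ϖ = fun a => √(p a) := ⟨_, rfl⟩
  have hp2 : ∀ a, p a = ϖ a ^ 2 := fun a => by rw [hϖ, Real.sq_sqrt (hp a)]
  have h2 : ∑ a, ϖ a ^ 2 = 1 := by simpa only [hp2] using h1
  rw [← hϖ]
  obtain ⟨R, s, hR1, hR2, hQ⟩ := la_diag (la_symm ϖ e (e a'))
  have hquad := la_quad ϖ e a'
  have hsol := la_solve (e := e) hp2 h2 (e a')
  have hdet := la_det (e := e) h2 (e a')
  obtain ⟨q, hq⟩ : ∃ q, q = ∑ b, e b * ϖ b ^ 2 := ⟨_, rfl⟩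
  rw [← hq] at hquad hsol
  obtain ⟨h, hh⟩ : ∃ h : α → ℝ, h = fun a => e a * ϖ a - q * ϖ a := ⟨_, rfl⟩
  rw [← hh] at hquad hsol
  have k0 : kapF p e 0 = -q := by
    simp only [kapF, tauF, mul_zero, add_zero, div_one, hq, hp2, mul_comm, h2]
  have iso : ∀ u v : α → ℝ, u ⬝ᵥ v = (R *ᵥ u) ⬝ᵥ (R *ᵥ v) := fun u v => by
    rw [dotProduct_mulVec, vecMul_mulVec, hR2, vecMul_one]
  have act : ∀ o : α → ℝ, R *ᵥ (laQ ϖ e (e a') *ᵥ o) = fun b => s b * (R *ᵥ o) b := fun o => by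
    rw [hQ, mulVec_mulVec, ← mul_assoc, ← mul_assoc, hR1, one_mul, ← mulVec_mulVec]
    exact funext fun b => mulVec_diagonal _ _ b
  have form : ∀ (o : α → ℝ) (ε : ℝ), -2 * Wq ϖ e a' o ε =
      ∑ b, (s b * (R *ᵥ o) b ^ 2 + 2 * ε * ((R *ᵥ h) b * (R *ᵥ o) b)) + ε ^ 2 * q := fun o ε => by
    rw [hquad, iso o, iso h, act, Finset.sum_add_distrib, ← Finset.mul_sum]
    congr 2
    exact Finset.sum_congr rfl fun b _ => by ring
  have pos : ∀ (b : α) (t ε : ℝ), 0 ≤ s b * t ^ 2 + 2 * ε * ((R *ᵥ h) b * t) + ε ^ 2 * q := by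
    intro b t ε
    have a1 := form (Rᵀ *ᵥ Pi.single b t) ε
    have a2 := Wq_nonpos he ϖ a' (Rᵀ *ᵥ Pi.single b t) ε
    rw [mulVec_mulVec, hR1, one_mulVec, Finset.sum_eq_single b (fun c _ hc => by simp [hc])
      (by simp), Pi.single_eq_same] at a1
    linarith
  have hs : ∀ b, 0 ≤ s b := fun b => by simpa using pos b 1 0
  have hμ : ∀ b, s b * (-(R *ᵥ h) b / s b) = -(R *ᵥ h) b := fun b => by
    by_cases z : s b = 0
    · by_contra hc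
      have a0 : (R *ᵥ h) b ≠ 0 := fun a => hc (by rw [a, z]; simp)
      have a1 := pos b (-(q + 1) / (2 * (R *ᵥ h) b)) 1
      have a2 : 2 * 1 * ((R *ᵥ h) b * (-(q + 1) / (2 * (R *ᵥ h) b))) = -(q + 1) := by field_simp
      rw [z, a2] at a1
      linarith
    · field_simp
  have hd : ∀ x : ℝ, 0 ≤ x → ∀ a, 0 < 1 + e a * x := fun x hx a => by
    have := mul_nonneg (he a) hx
    linarith
  have hd' : ∀ x : ℝ, 0 ≤ x → ∀ a, 0 < 1 + s a * x := fun x hx a => by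
    have := mul_nonneg (hs a) hx
    linarith
  have hτ : ∀ x : ℝ, 0 ≤ x → 0 < tauF p e x := fun x hx => by
    obtain ⟨a, _, ha⟩ := Finset.exists_ne_zero_of_sum_ne_zero (h1.trans_ne one_ne_zero)
    exact Finset.sum_pos' (fun a _ => div_nonneg (hp a) (hd x hx a).le)
      ⟨a, mem_univ a, div_pos (lt_of_le_of_ne (hp a) ha.symm) (hd x hx a)⟩
  refine ⟨⟨R, (mem_orthogonalGroup_iff _ _).2 hR1⟩, s, fun b => -(R *ᵥ h) b / s b,
    -q / 2 + ∑ b, s b * (-(R *ᵥ h) b / s b) ^ 2 / 2, hs, fun o ε hε => ?_, fun x hx => ?_,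
    fun x hx => ?_, by rw [k0]; ring⟩
  · have a1 := form o ε
    have a2 : ∑ b, s b * (-(R *ᵥ h) b / s b) ^ 2 / 2 +
        ∑ b, qq (s b) (-(R *ᵥ h) b / s b) (ε * (R *ᵥ o) b) = -(1 / 2) *
        ∑ b, (s b * (R *ᵥ o) b ^ 2 + 2 * ε * ((R *ᵥ h) b * (R *ᵥ o) b)) := by
      rw [Finset.mul_sum, ← Finset.sum_add_distrib]
      refine Finset.sum_congr rfl fun b _ => ?_
      unfold qq
      linear_combination ε * (R *ᵥ o) b * hμ b - s b / 2 * (R *ᵥ o) b ^ 2 * hε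
    rw [hε] at a1
    simp only
    linarith
  · have a1 := hdet x fun a => (hd x hx a).ne'
    have a2 : 1 + x • laQ ϖ e (e a') = Rᵀ * diagonal (fun b => 1 + s b * x) * R := by
      have : diagonal (fun b => 1 + s b * x) = 1 + x • diagonal s := by
        ext a b
        by_cases hab : a = b
        · simp [hab, mul_comm]
        · simp [hab]
      rw [this, mul_add, add_mul, mul_one, hR2, Matrix.mul_smul, Matrix.smul_mul, ← hQ]
    have a3 : det Rᵀ * det R = 1 := by rw [← det_mul, hR2, det_one]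
    have a4 : ∑ a, ϖ a ^ 2 / (1 + e a * x) = tauF p e x := by simp only [tauF, hp2]
    rw [a2, det_mul, det_mul, mul_right_comm, a3, one_mul, det_diagonal, a4] at a1
    rw [← Real.log_prod fun b _ => (hd' x hx b).ne', a1, Real.log_mul (mul_pos (hd x hx a')
      (Finset.prod_pos fun a _ => hd x hx a)).ne' (hτ x hx).ne', Real.log_mul (hd x hx a').ne'
      (Finset.prod_pos fun a _ => hd x hx a).ne', Real.log_prod fun b _ => (hd x hx b).ne']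
  · obtain ⟨z, z1, z2⟩ := hsol x (fun a => (hd x hx a).ne') (hτ x hx).ne'
    have a1 := congrArg (R *ᵥ ·) z1
    simp only [mulVec_add, mulVec_smul, act] at a1
    rw [k0, sub_neg_eq_add, ← z2, iso]
    refine Finset.sum_congr rfl fun b _ => ?_
    have a2 := congrFun a1 b
    simp only [Pi.add_apply, Pi.smul_apply, smul_eq_mul] at a2
    rw [hμ, div_eq_iff (hd' x hx b).ne']
    linear_combination -(R *ᵥ h) b * a2

end Vale.Agent.P166
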