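import Vale.Agent.P166.CalcC
import Vale.Agent.P157.Conc3

/-! The single spin functional and the self consistency inequality. -/

namespace Vale.Agent.P166

open MeasureTheory ProbabilityTheory Real Finset Matrix Filter Topology
open Vale.Agent.P157 (Sys St γ GS s0 YY mm pp sh DirD pull mrg Rg Sp νB xB)
open scoped ENNReal

variable {k : ℕ} {ρ ρ' : ℕ → ℝ}

theorem sc_casc (k : ℕ) (r : ℕ → ℝ) (Φ : ℝ → ℝ) (n j : ℕ) :
    casc k r Φ n j = P157.casc k r Φ n j := by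
  induction n generalizing j with
  | zero => rfl
  | succ n ih =>
    rw [casc, P157.casc, ih]
    rfl

theorem XI_eq (k : ℕ) (r : ℕ → ℝ) : XI k r = P157.XI k r := by
  rw [XI, P157.XI, sc_casc]
theorem YI_congr (h : ∀ j < k, ρ j = ρ' j) : YI k ρ = YI k ρ' :=
  congrArg (YY k νB) (P157.Rg.Hv_congr fun j hj _ => h j hj)
theorem sc_YI_eq (hk : 0 < k) (h : ∀ j < k, 0 ≤ ρ j) :
    YI k ρ = XI k (cum ρ) + (∑ j ∈ range k, ρ j) / 2 := by
  rw [YI, P157.Yv_Sp_eq P157.spin_B hk h, P157.XN_B hk, XI_eq, Fintype.card_unit, Nat.cast_one,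
    one_mul]
  rfl
theorem YI_zero (hk : 0 < k) : YI k 0 = 0 := by
  have hk' : (k : ℝ) ≠ 0 := Nat.cast_ne_zero.2 hk.ne'
  have e0 : cum 0 = 0 := funext fun l => by simp [cum]
  have e : ∀ (Φ : ℝ → ℝ) (n j : ℕ), casc k 0 Φ n j = Φ := fun Φ n => by
    induction n with
    | zero => exact fun _ => rfl
    | succ n ih =>
      intro j
      have hz : ((j : ℝ) + 1) / k ≠ 0 := by positivity
      funext x
      rw [casc, ih, stp]
      simp only [Pi.zero_apply, sub_self, sqrt_zero, zero_mul, add_zero, integral_const,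
        probReal_univ, smul_eq_mul, one_mul, log_exp]
      rw [inv_mul_cancel_left₀ hz]
  rw [sc_YI_eq (ρ := 0) hk fun _ _ => le_rfl, e0, XI, e]
  simp
theorem YI_eq (hk : 0 < k) (h : ∀ j < k, 0 ≤ ρ j) :
    YI k ρ = XI k (cum ρ) + (∑ j ∈ range k, ρ j) / 2 := sc_YI_eq hk h
theorem YI_lip (hk : 0 < k) (h : ∀ j < k, 0 ≤ ρ j) (h' : ∀ j < k, 0 ≤ ρ' j) :
    |YI k ρ' - YI k ρ| ≤ 2 * ∑ j ∈ range k, |ρ' j - ρ j| := by
  have := P157.spin_B.prob
  have h1 := P157.Rg.Yv_lip (ν := νB) (P157.sp_ok P157.spin_B le_rfl) le_rfl hk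
    (w0 := fun j _ => ρ j) (w1 := fun j _ => ρ' j) (fun j hj _ => h j hj) (fun j hj _ => h' j hj)
    (B := ∑ j ∈ range k, |ρ' j - ρ j|) fun σ => by
      cases σ <;> simp [Sp, xB]
  rwa [one_pow, mul_one] at h1
theorem YI_sub_tail (hk : 0 < k) (h : ∀ j < k, 0 ≤ ρ j) {q : ℕ → ℝ} (hq : q k = 1) :
    YI k ρ - (1 / 2) * ∑ j ∈ range k, ρ j * tail k q j = XI k (cum ρ) + pairing k q (cum ρ) := by
  rw [YI_eq hk h, sum_tail, hq]
  ring

theorem sc_pairing (p : ℕ → ℝ) {r : ℕ → ℝ} (h0 : r 0 = 0) :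
    pairing k (P157.pathQ k p) r = P157.pairing k p r := by
  refine congrArg _ (sum_congr rfl fun l hl => ?_)
  rw [P157.pathQ]
  split_ifs with h1 h2
  · rw [h1, h0, mul_zero, mul_zero]
  · rfl
  · exact absurd (mem_range.1 hl) h2

theorem sc_EF (e1 : ℝ) (he : 0 < e1) : ∃ τ > (0 : ℝ), ∀ t, 0 < t → t ≤ τ →
    ∀ (k : ℕ) (ρ : ℕ → ℝ), 0 < k → (∀ j, 0 ≤ ρ j) → ∀ j < k,
      |YI k (fun i => ρ i + one j t i) - YI k ρ -
        t / 2 * tail k (P157.pathQ k (P157.pS k νB xB (cum ρ))) j| ≤ e1 * t := by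
  obtain ⟨τ, hτ, H⟩ := P157.XN_EF e1 he
  refine ⟨τ, hτ, fun t ht htτ k ρ hk hρ j hj => ?_⟩
  have hk' : (k : ℝ) ≠ 0 := Nat.cast_ne_zero.2 hk.ne'
  have h1 : ∀ i, 0 ≤ one j 1 i := fun i => by
    rw [one]
    split_ifs
    · exact zero_le_one
    · exact le_rfl
  have h2 : ∀ i, one j t i = t * one j 1 i := fun i => by
    rw [one, one]
    split_ifs
    · exact (mul_one t).symm
    · exact (mul_zero t).symm
  have h3 : ∀ l, cum (one j 1) l = if j < l then 1 else 0 := fun l => by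
    simp only [cum, one, sum_ite_eq', mem_range]
  have h4 : cum (one j 1) (k - 1) ≤ 1 := by
    rw [h3]
    split_ifs
    · exact le_rfl
    · exact zero_le_one
  have h5 := H Unit Bool k hk νB xB P157.spin_B (cum ρ) (cum (one j 1)) (admR_cum hρ)
    (admR_cum h1) t ht.le (by
      rw [Fintype.card_unit, Nat.cast_one, one_mul]
      exact (mul_le_of_le_one_right ht.le h4).trans htτ)
  have h6 : cum (fun i => ρ i + one j t i) = fun l => cum ρ l + t * cum (one j 1) l := by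
    funext l
    simp only [cum, sum_add_distrib, h2, mul_sum]
  have hq := P157.admQ_pS P157.spin_B hk (cum ρ)
  have h7 := sum_tail (k := k) (q := P157.pathQ k (P157.pS k νB xB (cum ρ))) (one j 1)
  have h8 : ∀ f : ℕ → ℝ, ∑ i ∈ range k, one j 1 i * f i = f j := fun f => by
    simp only [one, ite_mul, one_mul, zero_mul, sum_ite_eq', mem_range, hj, if_true]
  have h9 : ∑ i ∈ range k, one j 1 i = 1 := by
    simp only [one, sum_ite_eq', mem_range, hj, if_true]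
  rw [h8, h9, hq.2.2, sc_pairing _ (admR_cum h1).1] at h7
  rw [P157.XN_B hk, P157.XN_B hk, ← XI_eq, ← XI_eq] at h5
  rw [YI_eq hk fun i _ => add_nonneg (hρ i) (h2 i ▸ mul_nonneg ht.le (h1 i)),
    YI_eq hk fun i _ => hρ i, h6, sum_add_distrib, sum_congr rfl fun i _ => h2 i, ← mul_sum, h9]
  refine le_trans (le_of_eq (congrArg _ ?_)) (h5.trans (mul_le_of_le_one_right (by positivity) h4))
  linear_combination (-t) * h7

theorem sc {α : Type} [Fintype α] (Λ : Atoms α) (P T ε : ℝ) (hε : 0 < ε) : ∃ t0 > (0 : ℝ),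
    ∃ δ > (0 : ℝ), ∀ t, 0 < t → t ≤ t0 → ∀ (k : ℕ) (ρ q : ℕ → ℝ) (v : ℝ), 0 < k → (∀ j, 0 ≤ ρ j) →
    ∑ j ∈ range k, ρ j ≤ T → IsPath k P q →
    (∀ j < k, |YI k (fun i => ρ i + one j t i) - YI k ρ - t / 2 * tail k q j| ≤ δ * t) →
    (v : EReal) ≤ parisi Λ.μ 0 1 k →
    v - ε ≤ EE Λ.μ 0 1 k q + YI k ρ - (1 / 2) * ∑ j ∈ range k, ρ j * tail k q j := by
  obtain ⟨C, hC, hE⟩ := EE_lip Λ
  have hP : 0 ≤ C * (1 + max P 1) := mul_nonneg hC (by positivity)
  obtain ⟨δ, hδ, hδε⟩ : ∃ δ > (0 : ℝ), δ * (12 * (C * (1 + max P 1) + |T|) + 2) = ε :=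
    ⟨ε / (12 * (C * (1 + max P 1) + |T|) + 2), by positivity, div_mul_cancel₀ _ (by positivity)⟩
  obtain ⟨τ, hτ, H⟩ := sc_EF δ hδ
  refine ⟨min τ 1, lt_min hτ one_pos, δ, hδ, fun t ht htτ k ρ q v hk hρ hT hq hY hv => ?_⟩
  have hk' : (0 : ℝ) < k := Nat.cast_pos.2 hk
  have hg : 0 < δ * t / k := by positivity
  have hρ' : ∀ j, 0 ≤ ρ j + δ * t / k := fun j => add_nonneg (hρ j) hg.le
  have hone : ∀ j i, 0 ≤ one j t i := fun j i => by
    rw [one]
    split_ifs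
    · exact ht.le
    · exact le_rfl
  have hlip : ∀ w : ℕ → ℝ, (∀ i, 0 ≤ w i) →
      |YI k (fun i => w i + δ * t / k) - YI k w| ≤ 2 * (δ * t) := fun w hw => by
    refine (YI_lip hk (fun i _ => hw i) fun i _ => add_nonneg (hw i) hg.le).trans_eq ?_
    simp only [add_sub_cancel_left, abs_of_pos hg, sum_const, card_range, nsmul_eq_mul]
    field_simp
  obtain ⟨r, hr⟩ : ∃ r, r = cum fun j => ρ j + δ * t / k := ⟨_, rfl⟩
  have hrA : AdmR r := hr ▸ admR_cum hρ'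
  have hrS : P157.Strict k r := fun j _ => by
    rw [hr, cum, cum, sum_range_succ]
    exact lt_add_of_pos_right _ (add_pos_of_nonneg_of_pos (hρ j) hg)
  obtain ⟨p, hp⟩ : ∃ p, p = P157.pathQ k (P157.pS k νB xB r) := ⟨_, rfl⟩
  have hpA : AdmQ k p := hp ▸ P157.admQ_pS P157.spin_B hk r
  have htl : ∀ j < k, |tail k p j - tail k q j| ≤ 12 * δ := fun j hj => by
    have h1 := H t ht (htτ.trans (min_le_left _ _)) k _ hk hρ' j hj
    rw [← hr, ← hp] at h1
    have h2 := hY j hj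
    have h3 := hlip ρ hρ
    have h4 := hlip (fun i => ρ i + one j t i) fun i => add_nonneg (hρ i) (hone j i)
    have h5 : (fun i => ρ i + δ * t / k + one j t i) = fun i => ρ i + one j t i + δ * t / k :=
      funext fun i => add_right_comm _ _ _
    rw [h5] at h1
    refine le_of_mul_le_mul_left ?_ ht
    rw [← abs_of_pos ht, ← abs_mul, abs_of_pos ht]
    rw [abs_le] at h1 h2 h3 h4 ⊢
    constructor <;> linarith [h1.1, h1.2, h2.1, h2.2, h3.1, h3.2, h4.1, h4.2]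
  have hv1 : v ≤ EE Λ.μ 0 1 k p + XI k r + pairing k p r := by
    refine EReal.coe_le_coe_iff.1 (hv.trans ((iInf_le _ ⟨p, hpA⟩).trans (iSup_le fun r' => ?_)))
    have h1 := P157.conc P157.spin_B P157.rotInv_B hk hrA hrS r'.2
    rw [P157.XN_B hk, P157.XN_B hk, ← XI_eq, ← XI_eq, ← sc_pairing _ r'.2.1, ← sc_pairing _ hrA.1,
      ← hp] at h1
    exact EReal.coe_le_coe_iff.2 (by linarith)
  have h1 := YI_sub_tail hk (fun j _ => hρ' j) hpA.2.2
  rw [← hr] at h1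
  have h2 := (abs_le.1 (hE k (max P 1) (12 * δ) p q hk (hpA.isPath.mono (le_max_right _ _))
    (hq.mono (le_max_left _ _)) htl)).2
  have h3 := (abs_le.1 (hlip ρ hρ)).2
  have h4 : ∑ j ∈ range k, ρ j * tail k q j ≤
      ∑ j ∈ range k, (ρ j + δ * t / k) * tail k p j + 12 * δ * |T| := by
    have h5 : ∀ j ∈ range k,
        ρ j * tail k q j ≤ (ρ j + δ * t / k) * tail k p j + 12 * δ * ρ j := fun j hj => by
      have h6 := (abs_le.1 (htl j (mem_range.1 hj))).1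
      have h7 := mul_nonneg hg.le (hpA.isPath.tail_mem j).1
      have h8 := mul_le_mul_of_nonneg_left h6 (hρ j)
      linarith
    refine (sum_le_sum h5).trans ?_
    rw [sum_add_distrib, ← mul_sum]
    exact add_le_add_right (mul_le_mul_of_nonneg_left (hT.trans (le_abs_self T)) (by positivity)) _
  have h5 : δ * t ≤ δ := mul_le_of_le_one_right hδ.le (htτ.trans (min_le_right _ _))
  have h6 : 0 ≤ δ * |T| := by positivity
  linarith

end Vale.Agent.P166
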