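import Vale.Agent.P166.Tree
import Vale.Agent.P166.LA
import Vale.Agent.P166.SC
import Vale.Agent.P166.ConcB
import Vale.Agent.P157.Rest

/-! The truncated Gaussian tree; the tree values of the old and of the new system. -/

namespace Vale.Agent.P166

open MeasureTheory ProbabilityTheory Real Finset Matrix Filter Topology
open Vale.Agent.P157 (Sys St γ GS s0 YY mm pp sh DirD pull mrg Rg Sp νB xB)
open scoped ENNReal

theorem t2_pt {κ s μ S l u q : ℝ} (hs : 0 ≤ s) (hS : s ≤ S) (hμ : |μ| ≤ S) (h0 : 0 < l)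
    (h1 : l ≤ 1) (hq : qq s μ u ≤ q) : (tq κ s μ u - q) * exp (tq κ s μ u + κ) ≤
      4 / l * exp (l * S ^ 3) * exp (-(l * κ)) * exp (l * S * u ^ 2) := by
  refine (mul_le_mul_of_nonneg_right (sub_le_sub_left hq _) (exp_pos _).le).trans
    ((chi_tail h0 h1 κ _).trans ?_)
  rw [mul_right_comm (4 / l) (exp (l * S ^ 3)), mul_assoc _ (exp _) (exp (l * S * _)), ← exp_add]
  refine mul_le_mul_of_nonneg_left (exp_le_exp.2 ?_) (by positivity)
  have a1 := neg_qq_le hs μ u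
  have a2 : s * μ ^ 2 ≤ S * S ^ 2 := mul_le_mul hS
    (by rw [← sq_abs]; exact pow_le_pow_left₀ (abs_nonneg _) hμ 2) (sq_nonneg _) (hs.trans hS)
  have a3 := mul_le_mul_of_nonneg_right hS (sq_nonneg u)
  nlinarith

theorem t2_gauss {J : Type} [Fintype J] (c : J → ℝ) {a : ℝ} (h : a * ∑ j, c j ^ 2 ≤ 1 / 4) :
    Integrable (fun u => exp (a * (∑ j, c j * u j) ^ 2)) (γ J) ∧
      ∫ u, exp (a * (∑ j, c j * u j) ^ 2) ∂γ J ≤ 2 := by
  have h0 : 0 ≤ ∑ j, c j ^ 2 := sum_nonneg fun _ _ => sq_nonneg _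
  have m1 : MeasurePreserving (fun u : J → ℝ => ∑ j, c j * u j) (γ J) _ :=
    ⟨by fun_prop, P157.glin c⟩
  have m2 : MeasurePreserving (fun x => √(∑ j, c j ^ 2) * x) (gaussianReal 0 1)
      (gaussianReal 0 (∑ j, c j ^ 2).toNNReal) := by
    refine ⟨by fun_prop, ?_⟩
    rw [gaussianReal_map_const_mul, mul_zero, mul_one]
    congr 1
    rw [← NNReal.coe_inj, NNReal.coe_mk, sq_sqrt h0, Real.coe_toNNReal _ h0]
  have mF : Measurable fun x : ℝ => exp (a * x ^ 2) := by fun_prop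
  have e : (fun x => exp (a * (√(∑ j, c j ^ 2) * x) ^ 2)) =
      fun x => exp ((a * ∑ j, c j ^ 2) * x ^ 2) := by
    funext x
    rw [mul_pow, sq_sqrt h0, mul_assoc]
  have hl : a * ∑ j, c j ^ 2 < 1 / 2 := by linarith
  constructor
  · refine (m1.integrable_comp mF.aestronglyMeasurable).2
      ((m2.integrable_comp mF.aestronglyMeasurable).1 ?_)
    exact (integrable_gauss_sq hl).congr (ae_of_all _ (congrFun e.symm))
  · rw [Sys.mo_int m1 mF, ← Sys.mo_int m2 mF, e, int_gauss_sq hl, sqrt_le_left zero_le_two,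
      div_le_iff₀ (by linarith)]
    linarith

theorem tree (S : ℝ) (hS : 0 ≤ S) : ∃ c > (0 : ℝ), ∃ C ≥ (0 : ℝ), ∀ {β : Type} [Fintype β] {k : ℕ}
    (s μ : β → ℝ) (v : ℕ → β → ℝ) (t : ℕ → ℝ) (κ : ℝ), 0 < k → 0 ≤ κ →
    (∀ b, 0 ≤ s b ∧ s b ≤ S ∧ |μ b| ≤ S) → (∀ j < k, ∀ b, 0 ≤ v j b) →
    (∀ b, ∑ j ∈ range k, v j b ≤ S) → (∀ j < k, 0 ≤ t j) →
    |YT k (fun b => tq κ (s b) (μ b)) v t - TV k s μ v t| ≤
      C * Fintype.card β * exp (-(c * κ)) := by
  obtain ⟨l, h0, hl⟩ : ∃ l : ℝ, 0 < l ∧ l * (4 * (1 + S) ^ 2) = 1 :=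
    ⟨1 / (4 * (1 + S) ^ 2), by positivity, by field_simp⟩
  have h1 : l ≤ 1 := by nlinarith [mul_nonneg h0.le hS, mul_nonneg h0.le (sq_nonneg S)]
  refine ⟨l, h0, 4 / l * exp (l * S ^ 3) * 2, by positivity, ?_⟩
  intro β _ k s μ v t κ hk hκ hs hv hV ht
  classical
  have hY := P157.gs_ok (I := β ⊕ Unit) (ν := νB) hk
  have hH : (GS k (β ⊕ Unit) νB).Lin fun x =>
      xB x.1 () * ∑ j ∈ range k, √(t j) * x.2 j (.inr ()) := by
    have := lin_HT hk (F := fun (_ : β) _ => 0)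
      (fun _ => measurable_const) (K := 0) (fun _ _ => abs_zero.le) v t
    unfold HT at this
    simpa only [sum_const_zero, add_zero] using this
  have hq : ∀ κ, 0 ≤ κ → ∀ b, (GS k (β ⊕ Unit) νB).Lin fun x =>
      tq κ (s b) (μ b) (xB x.1 () * ∑ j ∈ range k, √(v j b) * x.2 j (.inl b)) := fun κ hκ b =>
    Sys.Lin.of_bdd hY ((continuous_tq _ _ _).measurable.comp
      (((Measurable.of_discrete (f := fun σ => xB σ ())).comp measurable_fst).mul (by fun_prop)))
      _ fun x => abs_tq_le hκ (hs b).1 (hs b).2.1 _ _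
  have hlim := X_lim (H := HT k (fun b => qq (s b) (μ b)) v t) hY
    (hH.add (Sys.Lin.const hY (∑ _b : β, 1)))
    (Ht := fun m => HT k (fun b => tq m (s b) (μ b)) v t)
    (fun m => hH.add (Sys.Lin.sum hY _ fun b _ => hq m m.cast_nonneg b))
    (fun m x => add_le_add le_rfl (sum_le_sum fun b _ =>
      chi_le m.cast_nonneg (qq_nonpos (hs b).1 _ _)))
    (fun x => tendsto_const_nhds.add (tendsto_finsetSum _ fun b _ => chi_tendsto _))
    (k + 1) 0 (s0 _ _)
  rw [← tree_exact hk (fun b => (hs b).1) hv ht]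
  refine le_of_tendsto (hlim.const_sub _).abs ?_
  filter_upwards [tendsto_natCast_atTop_atTop.eventually_ge_atTop κ] with m hm
  have h := trunc hY P157.gs_mono hH (hq m m.cast_nonneg) (hq κ hκ) (fun b x => chi_anti hm _)
    (fun b x => neg_le_chi κ _) (k + 1) 0 (s0 _ _)
    (a := 4 / l * exp (l * S ^ 3) * exp (-(l * κ)) * 2) fun b T => ?_
  · exact (abs_of_nonneg (sub_nonneg.2 h.1)).trans_le (h.2.trans_eq (by ring))
  refine P157.integral_rest_le hk (fun i => i = .inl b) (hH.add (Sys.Lin.sum hY _ fun b' _ => ?_))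
    (fun x u => ?_) ((((hq κ hκ b).sub (hq m m.cast_nonneg b)).ex hY).mul hY
      (((hq κ hκ b).add (Sys.Lin.const hY κ)).ex_exp hY)) fun x => ?_
  · split_ifs
    exacts [hq κ hκ b', hq m m.cast_nonneg b']
  · refine congrArg₂ (· + ·) (by simp [mrg]) (sum_congr rfl fun b' hb' => ?_)
    simp [mrg, ne_of_mem_erase hb']
  · have hx : xB x.1 () ^ 2 = 1 := by cases x.1 <;> simp [xB]
    have g1 := t2_gauss (fun j : Fin k => √(v j b)) (a := l * S) (by
      rw [sum_congr rfl fun (j : Fin k) _ => sq_sqrt (hv j j.2 b), ← sum_range fun j => v j b]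
      have := mul_le_mul_of_nonneg_left (hV b) (mul_nonneg h0.le hS)
      nlinarith [mul_nonneg h0.le hS])
    have mp := P157.measurePreserving_coord
      (e := fun j : Fin k => (j, (Sum.inl b : β ⊕ Unit))) fun _ _ h => (Prod.mk.inj h).1
    have mF : Measurable fun u : Fin k → ℝ => exp (l * S * (∑ j : Fin k, √(v j b) * u j) ^ 2) := by
      fun_prop
    rw [← Sys.mo_int mp mF] at g1
    refine le_trans (integral_mono_of_nonneg (ae_of_all _ fun u => mul_nonneg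
      (sub_nonneg.2 (chi_anti hm _)) (exp_pos _).le)
      (((mp.integrable_comp mF.aestronglyMeasurable).2 g1.1).const_mul _)
      (ae_of_all _ fun u => (t2_pt (hs b).1 (hs b).2.1 (hs b).2.2 h0 h1 (le_chi _ _)).trans_eq ?_))
      ((integral_const_mul _ _).trans_le (mul_le_mul_of_nonneg_left g1.2 (by positivity)))
    rw [mul_pow, sum_range]
    simp [mrg, hx]

theorem TV_old {β : Type} [Fintype β] {k : ℕ} (hk : 0 < k) (s : β → ℝ) (v : ℕ → β → ℝ) :
    TV k s 0 v 0 = ∑ b, psi k (s b) fun j => v j b := by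
  rw [TV, YI_congr (ρ' := 0) fun j _ => by simp [rhoT], YI_zero hk]
  simp

theorem TV_new {α : Type} [Fintype α] {p e s μ : α → ℝ} {w0 : ℝ} {a' : α} (hs : ∀ b, 0 ≤ s b)
    (h1 : ∀ x, 0 ≤ x → ∑ b, log (1 + s b * x) =
      log (1 + e a' * x) + ∑ a, log (1 + e a * x) + log (tauF p e x))
    (h2 : ∀ x, 0 ≤ x → ∑ b, (s b * μ b) ^ 2 * x / (1 + s b * x) = kapF p e x - kapF p e 0)
    (h3 : w0 - ∑ b, s b * μ b ^ 2 / 2 = kapF p e 0 / 2) {k : ℕ} {P : ℝ} {A : ℕ → ℝ}
    (hA : IsPath k P A) (t : ℕ → ℝ) :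
    w0 + TV k s μ (fun j _ => inc A j) t - ∑ a, psi k (e a) (inc A) =
      CE k p e a' A + YI k fun j => rhoA k p e A j + t j := by
  have hθ := fun j => (hA.th_mem j).1
  rw [TV, YI_congr (ρ' := fun j => rhoA k p e A j + t j) fun j hj => ?_, sum_sub_distrib, CE]
  · have e1 : LS k (fun j => ∑ b, log (1 + s b * th k A j)) = LS k (fun j =>
        (log (1 + e a' * th k A j) + log (tauF p e (th k A j))) +
          ∑ a, log (1 + e a * th k A j)) :=
      congrArg _ (funext fun j => by rw [h1 _ (hθ j), add_right_comm])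
    rw [LS_add, LS_sum, LS_sum] at e1
    simp only [psi, ← th_eq_thv, ← mul_sum]
    linarith
  · simp only [rhoT_eq (fun j _ => hA.inc_nonneg j) (hs _) _ hj, ← th_eq_thv, ← mul_sum,
      sum_sub_distrib, h2 _ (hθ _), rhoA]
    ring

end Vale.Agent.P166
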