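import Vale.Agent.P166.CavB
import Vale.Agent.P166.Tree2

/-! The cavity formula for quadratic weights. -/

namespace Vale.Agent.P166

open MeasureTheory ProbabilityTheory Real Finset Matrix Filter Topology
open Vale.Agent.P157 (Sys St γ GS s0 YY mm pp sh DirD pull mrg Rg Sp νB xB)
open scoped ENNReal

/-- removal of the truncation in the finite system -/
theorem trunc_act (S P : ℝ) (hS : 0 ≤ S) (hP : 0 < P) : ∃ c > (0 : ℝ), ∃ C ≥ (0 : ℝ),
    ∀ {ι β : Type} [Fintype ι] [DecidableEq ι] [Fintype β] [DecidableEq β] {k : ℕ} (M : Mdl ι)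
    (B : Finset ι) (s μ : β → ℝ) (g : β → ι → ℝ) (t : ℕ → ℝ) (κ : ℝ), 0 < k → 0 ≤ κ →
    2 * Fintype.card β ≤ B.card → (Fintype.card ι : ℝ) ≤ P * B.card → M.Iso B →
    (∀ b, 0 ≤ s b ∧ s b ≤ S ∧ |μ b| ≤ S) → Frame B g →
    |YC k M (fun b => tq κ (s b) (μ b)) g 0 t - YC k M (fun b => qq (s b) (μ b)) g 0 t| ≤
      C * Fintype.card β * exp (-(c * κ)) := by
  obtain ⟨l, h0, hl⟩ : ∃ l : ℝ, 0 < l ∧ l * ((1 + S) * (1 + 32 * P)) = 1 :=
    ⟨1 / ((1 + S) * (1 + 32 * P)), by positivity, by field_simp⟩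
  have a1 := mul_nonneg h0.le hS
  have a2 := mul_nonneg h0.le hP.le
  have a3 := mul_nonneg a1 hP.le
  refine ⟨l, h0, 4 / l * exp (l * S ^ 3) * 3, by positivity, ?_⟩
  intro ι β _ _ _ _ k M B s μ g t κ hk hκ hB hι hM hs hg
  have hY : (AS k ι (β ⊕ Unit)).OK := ds_ok hk
  obtain ⟨o, ho⟩ := Function.Embedding.exists_of_card_le_finset (α := β) (s := B) (by omega)
  have ho' : ∀ b, o b ∈ B := fun b => ho ⟨b, rfl⟩
  obtain ⟨R, hR, hR'⟩ := frame_eq hg (frame_single o.injective ho')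
  rw [← YC_rot hk hM hR (lin_HC0 hk fun b => continuous_tq _ _ _),
    ← YC_rot hk hM hR (lin_HC0 hk fun b => continuous_qq _ _), funext hR']
  have hb : ∀ b {F : ℝ → ℝ}, Continuous F → (AS k ι (β ⊕ Unit)).Lin fun x =>
      F (UC k (fun b => Pi.single (o b) (1 : ℝ)) 0 b x) := fun b F hF => by
    simp only [UC_zero]
    exact ((bm_es.mul (bm_dot _)).comp hF).lin hk
  have h := trunc hY ds_mono (cava_lin_base (M := M) (t := t) hk)
    (fun b => hb b (continuous_qq (s b) (μ b))) (fun b => hb b (continuous_tq κ (s b) (μ b)))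
    (fun b x => le_chi κ _) (fun b x => neg_le_chi κ _) (k + 1) 0 (s0 _ _)
    (a := 4 / l * exp (l * S ^ 3) * exp (-(l * κ)) * 3) fun b T => ?_
  · exact (abs_of_nonneg (sub_nonneg.2 h.1)).trans_le (h.2.trans_eq (by ring))
  have hL : (AS k ι (β ⊕ Unit)).Lin fun x => M.H k (β ⊕ Unit) x + HE k t x +
      ∑ b' ∈ univ.erase b, if b' ∈ T then
        tq κ (s b') (μ b') (UC k (fun b => Pi.single (o b) (1 : ℝ)) 0 b' x)
        else qq (s b') (μ b') (UC k (fun b => Pi.single (o b) (1 : ℝ)) 0 b' x) :=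
    (cava_lin_base hk).add (Sys.Lin.sum hY _ fun b' _ => by
      split_ifs
      exacts [hb b' (continuous_tq _ _ _), hb b' (continuous_qq _ _)])
  have hc : B.card ≤ 2 * (B \ (univ.erase b).image o).card := by
    have c1 := le_card_sdiff ((univ.erase b).image o) B
    have c2 : ((univ.erase b).image o).card ≤ Fintype.card β :=
      card_image_le.trans (card_le_univ _)
    omega
  have e := em hk hL (B := B \ (univ.erase b).image o) (fun R hR x => ?_) (P := 2 * P)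
    (θ := 32 * P * (l * S)) (by positivity) (hι.trans ?_) (by positivity) (by nlinarith)
    (u := Pi.single (o b) 1) (ha_single (mem_sdiff.2 ⟨ho' b, by simp⟩)) (by simp)
  · rw [show 32 * P * (l * S) / (16 * (2 * P)) = l * S by field_simp; ring] at e
    refine le_trans (integral_mono_of_nonneg (ae_of_all _ fun x => mul_nonneg
      (sub_nonneg.2 (le_chi _ _)) (exp_pos _).le) ((integrable_mD hk hL (((bm_dot _).comp
        (F := fun y => exp (l * S * y ^ 2)) (by fun_prop)).ex hk)).const_mul _)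
      (ae_of_all _ fun x => (t2_pt (hs b).1 (hs b).2.1 (hs b).2.2 h0 (by nlinarith)
        le_rfl).trans_eq ?_)) ((integral_const_mul _ _).trans_le
          (mul_le_mul_of_nonneg_left (e.trans (by nlinarith)) (by positivity)))
    rw [UC_zero, mul_pow, es_sq, one_mul]
  · refine congrArg₂ (· + ·) (rotB_base (hM.mono sdiff_subset) R hR x)
      (sum_congr rfl fun b' hb' => ?_)
    have e1 : UC k (fun b => Pi.single (o b) (1 : ℝ)) 0 b' (rotA R x) =
        UC k (fun b => Pi.single (o b) (1 : ℝ)) 0 b' x := by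
      rw [UC_zero, UC_zero, xs_rotA, single_dotProduct, single_dotProduct,
        hR.mulVec_of_notMem _ fun h => (mem_sdiff.1 h).2 (mem_image_of_mem o hb')]
      rfl
    rw [e1]
  · have c1 : (B.card : ℝ) ≤ 2 * (B \ (univ.erase b).image o).card := by exact_mod_cast hc
    nlinarith

theorem cavQ (S P T ε : ℝ) (m : ℕ) (hS : 0 ≤ S) (hP : 0 < P) (hε : 0 < ε) : ∃ δ > (0 : ℝ),
    ∃ N0 : ℕ, ∀ {ι β : Type} [Fintype ι] [DecidableEq ι] [Fintype β] [DecidableEq β] {k : ℕ}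
    (M : Mdl ι) (B : Finset ι) (s μ : β → ℝ) (g : β → ι → ℝ) (t A : ℕ → ℝ), 0 < k →
    Fintype.card β ≤ m → N0 ≤ B.card → (Fintype.card ι : ℝ) ≤ P * B.card → M.Iso B →
    (∀ b, 0 ≤ s b ∧ s b ≤ S ∧ |μ b| ≤ S) → Frame B g → (∀ j < k, 0 ≤ t j) →
    ∑ j ∈ range k, t j ≤ T → IsPath k P A → M.serr k (ovx B) A ≤ δ →
    |YC k M (fun b => qq (s b) (μ b)) g 0 t - YM k M - TV k s μ (fun j _ => inc A j) t| ≤ ε := by
  obtain ⟨c1, hc1, C1, hC1, h1⟩ := trunc_act S P hS hP
  obtain ⟨c2, hc2, C2, hC2, h2⟩ := tree (S + P) (by positivity)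
  have lim : ∀ c C : ℝ, 0 < c → ∀ᶠ κ in atTop, C * exp (-(c * κ)) ≤ ε / 3 := fun c C hc => by
    have h := (tendsto_exp_neg_atTop_nhds_zero.comp (tendsto_id.const_mul_atTop hc)).const_mul C
    rw [mul_zero] at h
    exact h.eventually_le_const (by positivity)
  obtain ⟨κ, k1, k2, k3⟩ := ((eventually_ge_atTop 0).and
    ((lim c1 (C1 * m) hc1).and (lim c2 (C2 * m) hc2))).exists
  obtain ⟨δ, hδ, N0, h3⟩ := cav (KK S κ) P T (ε / 3) m hP (by positivity)
  refine ⟨δ, hδ, N0 + 2 * m, ?_⟩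
  intro ι β _ _ _ _ k M B s μ g t A hk hm hN hι hM hs hg ht hT hA hE
  have hm' : (Fintype.card β : ℝ) ≤ m := Nat.cast_le.2 hm
  have a1 := abs_le.1 ((h1 M B s μ g t κ hk k1 (by omega) hι hM hs hg).trans
    (le_trans (by gcongr) k2))
  have a2 := abs_le.1 ((h2 s μ (fun j _ => inc A j) t κ hk k1
    (fun b => ⟨(hs b).1, by linarith [(hs b).2.1], by linarith [(hs b).2.2]⟩)
    (fun j _ _ => hA.inc_nonneg j) (fun _ => by linarith [hA.sum_inc k, hA.2.2]) ht).trans
    (le_trans (by gcongr) k3))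
  have a3 := abs_le.1 (h3 M B (fun b => tq κ (s b) (μ b)) _ _ g 0 t A hk hm (by omega) hι hM
    (fun b => nc_tq k1 (hs b).1 (hs b).2.1 _) (fun b => abs_tq_le k1 (hs b).1 (hs b).2.1 _) hg
    (fun _ _ _ => le_rfl) ht hT hA hE)
  simp only [Pi.zero_apply, add_zero] at a3
  rw [abs_le]
  constructor <;> linarith [a1.1, a1.2, a2.1, a2.2, a3.1, a3.2]

end Vale.Agent.P166
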