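import Mathlib

/-! Exponential concentration for functions of independent variables with a leave one out bound. -/

namespace Vale.Agent.P166

open MeasureTheory Real Function

noncomputable section

lemma exp_le_quad (u : ℝ) : exp u ≤ 1 + u + u ^ 2 * exp |u| := by
  have h := Complex.norm_exp_sub_sum_le_norm_mul_exp (u : ℂ) 2
  have h2 : Complex.exp u - ∑ m ∈ Finset.range 2, (u : ℂ) ^ m / (m.factorial : ℂ) =
      ((exp u - (1 + u) : ℝ) : ℂ) := by
    simp [Finset.sum_range_succ]
  rw [h2, Complex.norm_real, Complex.norm_real, Real.norm_eq_abs, Real.norm_eq_abs, sq_abs] at h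
  have := le_abs_self (exp u - (1 + u))
  linarith

lemma integrable_of_bdd {Ω : Type*} [MeasurableSpace Ω] (μ : Measure Ω) [IsFiniteMeasure μ]
    {f : Ω → ℝ} (hf : Measurable f) {B : ℝ} (hB : ∀ w, |f w| ≤ B) : Integrable f μ :=
  Integrable.of_bound hf.aestronglyMeasurable B (Filter.Eventually.of_forall hB)

lemma abs_exp_le {a B c : ℝ} (h : |a| ≤ B) : |exp (c * a)| ≤ exp (|c| * B) := by
  rw [abs_of_pos (exp_pos _)]
  apply exp_le_exp.2
  calc c * a ≤ |c * a| := le_abs_self _
    _ = |c| * |a| := abs_mul _ _
    _ ≤ |c| * B := by gcongr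

lemma abs_integral_le_bdd {Ω : Type*} [MeasurableSpace Ω] (μ : Measure Ω) [IsProbabilityMeasure μ]
    {f : Ω → ℝ} {B : ℝ} (hB : ∀ w, |f w| ≤ B) : |∫ w, f w ∂μ| ≤ B := by
  have := norm_integral_le_of_norm_le_const (μ := μ) (f := f) (C := B)
    (Filter.Eventually.of_forall hB)
  simpa using this

/-- the constant of the concentration bound -/
def cC (s K : ℝ) : ℝ := 32 * K * exp K / s ^ 2

lemma exp_center_le {Ω : Type*} [MeasurableSpace Ω] (μ : Measure Ω) [IsProbabilityMeasure μ]
    {X : Ω → ℝ} (hX : Measurable X) {B : ℝ} (hB : ∀ w, |X w| ≤ B) {s K : ℝ} (hs : 0 < s)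
    (hK : ∫ w, exp (s * |X w|) ∂μ ≤ K) {t : ℝ} (ht : |t| ≤ s / 4) :
    ∫ w, exp (t * (X w - ∫ w', X w' ∂μ)) ∂μ ≤ exp (cC s K * t ^ 2) := by
  set m := ∫ w', X w' ∂μ with hm
  have hiX : Integrable X μ := integrable_of_bdd μ hX hB
  have hB' : ∀ w, |(|X w|)| ≤ B := fun w => by rw [abs_abs]; exact hB w
  have hie : Integrable (fun w => exp (s * |X w|)) μ :=
    integrable_of_bdd μ (by fun_prop) (fun w => abs_exp_le (hB' w))
  have hsm : s * |m| ≤ K := by
    calc s * |m| ≤ s * ∫ w, |X w| ∂μ := by
          gcongr; exact abs_integral_le_integral_abs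
      _ = ∫ w, s * |X w| ∂μ := (integral_const_mul _ _).symm
      _ ≤ ∫ w, exp (s * |X w|) ∂μ := by
          apply integral_mono (hiX.abs.const_mul s) hie
          intro w
          have := add_one_le_exp (s * |X w|)
          simp only
          linarith
      _ ≤ K := hK
  have hpt : ∀ w, exp (t * (X w - m)) ≤
      1 + t * (X w - m) + t ^ 2 * (32 * exp K / s ^ 2) * exp (s * |X w|) := by
    intro w
    refine (exp_le_quad _).trans ?_
    set y := |X w - m| with hy
    have hy0 : 0 ≤ y := abs_nonneg _
    have h1 : (t * (X w - m)) ^ 2 = t ^ 2 * y ^ 2 := by rw [hy, sq_abs]; ring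
    have h2 : |t * (X w - m)| ≤ s / 4 * y := by rw [abs_mul]; gcongr
    have h3 : y ^ 2 ≤ 32 / s ^ 2 * exp (s / 4 * y) := by
      have := Real.pow_div_factorial_le_exp (s / 4 * y) (by positivity) 2
      have e : y ^ 2 = 32 / s ^ 2 * ((s / 4 * y) ^ 2 / ((2 : ℕ).factorial : ℝ)) := by
        simp [Nat.factorial]; field_simp; ring
      rw [e]; gcongr
    have h4 : y ≤ |X w| + |m| := abs_sub _ _
    have h5 : exp (s / 4 * y) * exp (s / 4 * y) ≤ exp K * exp (s * |X w|) := by
      rw [← exp_add, ← exp_add]
      apply exp_le_exp.2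
      have := abs_nonneg (X w)
      have := abs_nonneg m
      nlinarith
    have h6 : y ^ 2 * exp |t * (X w - m)| ≤ (32 * exp K / s ^ 2) * exp (s * |X w|) := by
      calc y ^ 2 * exp |t * (X w - m)| ≤ (32 / s ^ 2 * exp (s / 4 * y)) * exp (s / 4 * y) := by
            gcongr
        _ = 32 / s ^ 2 * (exp (s / 4 * y) * exp (s / 4 * y)) := by ring
        _ ≤ 32 / s ^ 2 * (exp K * exp (s * |X w|)) := by gcongr
        _ = _ := by ring
    rw [h1]
    have : t ^ 2 * y ^ 2 * exp |t * (X w - m)| ≤
        t ^ 2 * (32 * exp K / s ^ 2) * exp (s * |X w|) := by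
      rw [mul_assoc, mul_assoc]; gcongr
    linarith
  have hb2 : ∀ w, |X w - m| ≤ B + |m| := fun w => (abs_sub _ _).trans (by linarith [hB w])
  have hi1 : Integrable (fun w => exp (t * (X w - m))) μ :=
    integrable_of_bdd μ (by fun_prop) (fun w => abs_exp_le (hb2 w))
  have hi2 : Integrable (fun w => t * (X w - m)) μ := (hiX.sub (integrable_const m)).const_mul t
  calc ∫ w, exp (t * (X w - m)) ∂μ
      ≤ ∫ w, (1 + t * (X w - m) + t ^ 2 * (32 * exp K / s ^ 2) * exp (s * |X w|)) ∂μ :=
        integral_mono hi1 (((integrable_const 1).add hi2).add (hie.const_mul _)) hpt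
    _ = 1 + t ^ 2 * (32 * exp K / s ^ 2) * ∫ w, exp (s * |X w|) ∂μ := by
        have hi3 : Integrable (fun w => 1 + t * (X w - m)) μ := (integrable_const 1).add hi2
        rw [integral_add hi3 (hie.const_mul _),
          integral_add (integrable_const 1) hi2, integral_const_mul, integral_const_mul,
          integral_sub hiX (integrable_const m)]
        simp [hm]
    _ ≤ 1 + t ^ 2 * (32 * exp K / s ^ 2) * K := by gcongr
    _ ≤ exp (cC s K * t ^ 2) := by
        have := add_one_le_exp (cC s K * t ^ 2)
        have e : t ^ 2 * (32 * exp K / s ^ 2) * K = cC s K * t ^ 2 := by unfold cC; ring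
        linarith

variable {ι Ω : Type*} [Fintype ι] [DecidableEq ι] [MeasurableSpace Ω]

lemma measurePreserving_upd (μ : Measure Ω) [IsProbabilityMeasure μ] (i : ι) :
    MeasurePreserving (fun p : (ι → Ω) × Ω => update p.1 i p.2)
      ((Measure.pi fun _ : ι => μ).prod μ) (Measure.pi fun _ : ι => μ) := by
  refine ⟨measurable_update', ?_⟩
  symm
  apply Measure.pi_eq
  intro s hs
  rw [Measure.map_apply measurable_update' (MeasurableSet.univ_pi hs)]
  have : (fun p : (ι → Ω) × Ω => update p.1 i p.2) ⁻¹' Set.univ.pi s =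
      (Set.univ.pi (update s i Set.univ)) ×ˢ s i := by
    ext ⟨x, y⟩
    simp only [Set.mem_preimage, Set.mem_pi, Set.mem_univ, true_imp_iff, Set.mem_prod]
    constructor
    · intro h
      refine ⟨fun j => ?_, by simpa using h i⟩
      by_cases hj : j = i
      · subst hj; simp
      · have := h j
        simpa [update_of_ne hj] using this
    · rintro ⟨h1, h2⟩ j
      by_cases hj : j = i
      · subst hj; simpa using h2
      · have := h1 j
        simpa [update_of_ne hj] using this
  rw [this, Measure.prod_prod, Measure.pi_pi, ← Finset.mul_prod_erase Finset.univ _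
    (Finset.mem_univ i), ← Finset.mul_prod_erase Finset.univ (fun j => μ (s j))
    (Finset.mem_univ i)]
  simp only [update_self, measure_univ, one_mul]
  rw [mul_comm]
  congr 1
  refine Finset.prod_congr rfl fun j hj => ?_
  rw [update_of_ne (Finset.ne_of_mem_erase hj)]

lemma integral_upd (μ : Measure Ω) [IsProbabilityMeasure μ] (i : ι) {F : (ι → Ω) → ℝ}
    (hF : Measurable F) {B : ℝ} (hB : ∀ x, |F x| ≤ B) :
    ∫ x, F x ∂(Measure.pi fun _ : ι => μ) =
      ∫ x, ∫ y, F (update x i y) ∂μ ∂(Measure.pi fun _ : ι => μ) := by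
  have h := measurePreserving_upd μ i
  have hm : Measurable fun p : (ι → Ω) × Ω => F (update p.1 i p.2) := hF.comp measurable_update'
  rw [← integral_prod _ (integrable_of_bdd _ hm fun p => hB _)]
  conv_lhs => rw [← h.map_eq]
  rw [integral_map h.measurable.aemeasurable hF.aestronglyMeasurable]

omit [Fintype ι] in
lemma measurable_avg (μ : Measure Ω) [IsProbabilityMeasure μ] (i : ι) {F : (ι → Ω) → ℝ}
    (hF : Measurable F) : Measurable fun x => ∫ y, F (update x i y) ∂μ := by
  have hm : StronglyMeasurable fun p : (ι → Ω) × Ω => F (update p.1 i p.2) :=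
    (hF.comp measurable_update').stronglyMeasurable
  exact (hm.integral_prod_right' (ν := μ)).measurable

/-- leave one out hypothesis at the coordinate `i` -/
def LOO (μ : Measure Ω) (s K : ℝ) (f : (ι → Ω) → ℝ) (i : ι) : Prop :=
  ∃ g : (ι → Ω) → ℝ, Measurable g ∧ (∃ B, ∀ x, |g x| ≤ B) ∧ (∀ x y, g (update x i y) = g x) ∧
    ∀ x, ∫ y, exp (s * |f (update x i y) - g x|) ∂μ ≤ K

lemma exp_abs_integral_le (μ : Measure Ω) [IsProbabilityMeasure μ] {h : Ω → ℝ}
    (hh : Measurable h) {B : ℝ} (hB : ∀ y, |h y| ≤ B) {s : ℝ} (hs : 0 ≤ s) :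
    exp (s * |∫ y, h y ∂μ|) ≤ ∫ y, exp (s * |h y|) ∂μ := by
  have hB' : ∀ w, |(|h w|)| ≤ B := fun w => by rw [abs_abs]; exact hB w
  have hi : Integrable (fun y => s * |h y|) μ := (integrable_of_bdd μ hh hB).abs.const_mul s
  have hie : Integrable (fun w => exp (s * |h w|)) μ :=
    integrable_of_bdd μ (by fun_prop) (fun w => abs_exp_le (hB' w))
  calc exp (s * |∫ y, h y ∂μ|) ≤ exp (∫ y, s * |h y| ∂μ) := by
        rw [integral_const_mul]
        gcongr
        exact abs_integral_le_integral_abs
    _ ≤ _ := convexOn_exp.map_integral_le continuous_exp.continuousOn isClosed_univ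
        (Filter.Eventually.of_forall fun _ => trivial) hi hie

omit [Fintype ι] in
lemma LOO.avg (μ : Measure Ω) [IsProbabilityMeasure μ] {s K : ℝ} (hs : 0 ≤ s)
    {f : (ι → Ω) → ℝ} (hf : Measurable f) {B : ℝ} (hB : ∀ x, |f x| ≤ B) {i j : ι} (hij : j ≠ i)
    (h : LOO μ s K f j) : LOO μ s K (fun x => ∫ y, f (update x i y) ∂μ) j := by
  obtain ⟨g, hg, ⟨B', hB'⟩, hinv, hK⟩ := h
  refine ⟨fun x => ∫ y, g (update x i y) ∂μ, measurable_avg μ i hg,
    ⟨B', fun x => abs_integral_le_bdd μ fun y => hB' _⟩, fun x z => ?_, fun x => ?_⟩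
  · simp only
    congr 1
    funext y
    rw [update_comm hij, hinv]
  · have hm1 : ∀ z, Measurable fun y => f (update (update x j z) i y) := fun z =>
      hf.comp (measurable_update _)
    have hm2 : Measurable fun y => g (update x i y) := hg.comp (measurable_update _)
    have hbd : ∀ z y, |f (update (update x j z) i y) - g (update x i y)| ≤ B + B' := fun z y =>
      (abs_sub _ _).trans (add_le_add (hB _) (hB' _))
    have hjoint : Measurable fun p : Ω × Ω =>
        exp (s * |f (update (update x j p.1) i p.2) - g (update x i p.2)|) := by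
      have a1 : Measurable fun p : Ω × Ω => f (update (update x j p.1) i p.2) :=
        hf.comp (measurable_update'.comp
          (((measurable_update x).comp measurable_fst).prodMk measurable_snd))
      have a2 : Measurable fun p : Ω × Ω => g (update x i p.2) := hm2.comp measurable_snd
      fun_prop
    have hint : Integrable (fun p : Ω × Ω =>
        exp (s * |f (update (update x j p.1) i p.2) - g (update x i p.2)|)) (μ.prod μ) :=
      integrable_of_bdd _ hjoint fun p => abs_exp_le (B := B + B') (by
        rw [abs_abs]; exact hbd _ _)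
    calc ∫ z, exp (s * |(∫ y, f (update (update x j z) i y) ∂μ) - ∫ y, g (update x i y) ∂μ|) ∂μ
        ≤ ∫ z, ∫ y, exp (s * |f (update (update x j z) i y) - g (update x i y)|) ∂μ ∂μ := by
          apply integral_mono_of_nonneg (Filter.Eventually.of_forall fun z => (exp_pos _).le)
            hint.integral_prod_left
          refine Filter.Eventually.of_forall fun z => ?_
          simp only
          rw [← integral_sub (integrable_of_bdd μ (hm1 z) fun y => hB _)
            (integrable_of_bdd μ hm2 fun y => hB' _)]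
          exact exp_abs_integral_le μ ((hm1 z).sub hm2) (hbd z) hs
      _ = ∫ y, ∫ z, exp (s * |f (update (update x j z) i y) - g (update x i y)|) ∂μ ∂μ :=
          integral_integral_swap hint
      _ ≤ ∫ _y, K ∂μ := by
          apply integral_mono hint.integral_prod_right (integrable_const K)
          intro y
          simp only
          have := hK (update x i y)
          simpa only [update_comm hij] using this
      _ = K := by simp

theorem conc_pi (μ : Measure Ω) [IsProbabilityMeasure μ] {s K : ℝ} (hs : 0 < s) {t : ℝ}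
    (ht : |t| ≤ s / 4) (S : Finset ι) :
    ∀ f : (ι → Ω) → ℝ, Measurable f → (∃ B, ∀ x, |f x| ≤ B) → DependsOn f (S : Set ι) →
      (∀ i ∈ S, LOO μ s K f i) →
      ∫ x, exp (t * (f x - ∫ x', f x' ∂(Measure.pi fun _ : ι => μ))) ∂(Measure.pi fun _ : ι => μ)
        ≤ exp (cC s K * t ^ 2 * S.card) := by
  induction S using Finset.induction_on with
  | empty =>
    intro f hf _ hd _
    have : ∀ x, f x - ∫ x', f x' ∂(Measure.pi fun _ : ι => μ) = 0 := by
      intro x
      have : ∀ x', f x' = f x := fun x' => hd (by simp)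
      simp [this]
    simp [this]
  | insert i S hi ih =>
    rintro f hf ⟨B, hB⟩ hd hL
    set g : (ι → Ω) → ℝ := fun x => ∫ y, f (update x i y) ∂μ with hg
    have hgm : Measurable g := measurable_avg μ i hf
    have hgB : ∀ x, |g x| ≤ B := fun x => abs_integral_le_bdd μ fun y => hB _
    have hgd : DependsOn g (S : Set ι) := by
      intro x x' h
      simp only [hg]
      congr 1
      funext y
      apply hd
      intro j hj
      by_cases hji : j = i
      · subst hji; simp
      · rw [update_of_ne hji, update_of_ne hji]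
        apply h
        simpa [hji] using hj
    have hgL : ∀ j ∈ S, LOO μ s K g j := fun j hj =>
      LOO.avg μ hs.le hf hB (fun e => hi (e ▸ hj)) (hL j (Finset.mem_insert_of_mem hj))
    have h1 := ih g hgm ⟨B, hgB⟩ hgd hgL
    have hE : ∫ x', f x' ∂(Measure.pi fun _ : ι => μ) = ∫ x', g x' ∂(Measure.pi fun _ : ι => μ) :=
      integral_upd μ i hf hB
    set m := ∫ x', g x' ∂(Measure.pi fun _ : ι => μ) with hm
    rw [hE, integral_upd μ i (F := fun x => exp (t * (f x - m))) (by fun_prop)
      (B := exp (|t| * (B + |m|)))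
      (fun x => abs_exp_le ((abs_sub _ _).trans (by linarith [hB x])))]
    obtain ⟨h, hh, ⟨B', hB'⟩, hinv, hK⟩ := hL i (Finset.mem_insert_self _ _)
    have hstep : ∀ x, ∫ y, exp (t * (f (update x i y) - m)) ∂μ ≤
        exp (cC s K * t ^ 2) * exp (t * (g x - m)) := by
      intro x
      have hm1 : Measurable fun y => f (update x i y) := hf.comp (measurable_update _)
      have hc := exp_center_le μ (X := fun y => f (update x i y) - h x) (by fun_prop)
        (B := B + B') (fun y => (abs_sub _ _).trans (add_le_add (hB _) (hB' _))) hs (hK x) ht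
      have e1 : ∫ y, (f (update x i y) - h x) ∂μ = g x - h x := by
        rw [integral_sub (integrable_of_bdd μ hm1 fun y => hB _) (integrable_const _)]
        simp [hg]
      rw [e1] at hc
      have e2 : ∀ y, exp (t * (f (update x i y) - m)) =
          exp (t * (f (update x i y) - h x - (g x - h x))) * exp (t * (g x - m)) := by
        intro y; rw [← exp_add]; congr 1; ring
      simp_rw [e2]
      rw [integral_mul_const]
      gcongr
    have hi2 : Integrable (fun x => exp (t * (g x - m))) (Measure.pi fun _ : ι => μ) :=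
      integrable_of_bdd _ (by fun_prop)
        (fun x => abs_exp_le (B := B + |m|) ((abs_sub _ _).trans (by linarith [hgB x])))
    calc ∫ x, ∫ y, exp (t * (f (update x i y) - m)) ∂μ ∂(Measure.pi fun _ : ι => μ)
        ≤ ∫ x, exp (cC s K * t ^ 2) * exp (t * (g x - m)) ∂(Measure.pi fun _ : ι => μ) := by
          apply integral_mono_of_nonneg
            (Filter.Eventually.of_forall fun x => integral_nonneg fun y => (exp_pos _).le)
            (hi2.const_mul _) (Filter.Eventually.of_forall hstep)
      _ = exp (cC s K * t ^ 2) * ∫ x, exp (t * (g x - m)) ∂(Measure.pi fun _ : ι => μ) :=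
          integral_const_mul _ _
      _ ≤ exp (cC s K * t ^ 2) * exp (cC s K * t ^ 2 * S.card) := by gcongr
      _ = exp (cC s K * t ^ 2 * (insert i S).card) := by
          rw [← exp_add, Finset.card_insert_of_notMem hi]; congr 1; push_cast; ring

end

end Vale.Agent.P166
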