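import Vale.Agent.P166.ConcB

/-! Exponential concentration of the log partition function under an invariant rotation. -/

namespace Vale.Agent.P166

open MeasureTheory ProbabilityTheory Real Function Module
open scoped RealInnerProductSpace

noncomputable section

section Gibbs

variable {Cf : Type*} [MeasurableSpace Cf] (ν : Measure Cf) [IsProbabilityMeasure ν]

lemma integrable_exp_bdd {u : Cf → ℝ} (hu : Measurable u) {B : ℝ} (hB : ∀ σ, |u σ| ≤ B) :
    Integrable (fun σ => exp (u σ)) ν :=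
  integrable_of_bdd ν (by fun_prop) (B := exp B) fun σ => by
    rw [abs_of_pos (exp_pos _)]
    exact exp_le_exp.2 ((le_abs_self _).trans (hB σ))

lemma int_exp_pos {u : Cf → ℝ} (hu : Measurable u) {B : ℝ} (hB : ∀ σ, |u σ| ≤ B) :
    0 < ∫ σ, exp (u σ) ∂ν := integral_exp_pos (integrable_exp_bdd ν hu hB)

lemma log_int_mono {u v : Cf → ℝ} (hu : Measurable u) (hv : Measurable v) {B B' : ℝ}
    (hB : ∀ σ, |u σ| ≤ B) (hB' : ∀ σ, |v σ| ≤ B') (h : ∀ σ, u σ ≤ v σ) :
    log (∫ σ, exp (u σ) ∂ν) ≤ log (∫ σ, exp (v σ) ∂ν) :=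
  log_le_log (int_exp_pos ν hu hB) (integral_mono (integrable_exp_bdd ν hu hB)
    (integrable_exp_bdd ν hv hB') fun σ => exp_le_exp.2 (h σ))

lemma log_int_add {u : Cf → ℝ} (hu : Measurable u) {B : ℝ} (hB : ∀ σ, |u σ| ≤ B) (c : ℝ) :
    log (∫ σ, exp (c + u σ) ∂ν) = c + log (∫ σ, exp (u σ) ∂ν) := by
  simp_rw [exp_add]
  rw [integral_const_mul, log_mul (exp_pos _).ne' (int_exp_pos ν hu hB).ne', log_exp]

lemma abs_log_int_le {u : Cf → ℝ} (hu : Measurable u) {B : ℝ} (hB : ∀ σ, |u σ| ≤ B) :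
    |log (∫ σ, exp (u σ) ∂ν)| ≤ B := by
  have h1 := log_int_mono ν hu (measurable_const (a := B)) hB (fun _ => le_refl |B|)
    fun σ => (le_abs_self _).trans (hB σ)
  have h2 := log_int_mono ν (measurable_const (a := -B)) hu (fun _ => le_refl |-B|) hB
    fun σ => (abs_le.1 (hB σ)).1
  simp only [integral_const, probReal_univ, smul_eq_mul, one_mul, log_exp] at h1 h2
  exact abs_le.2 ⟨h2, h1⟩

lemma log_sub_le_tilted {u H : Cf → ℝ} (hu : Measurable u) (hH : Measurable H) {B B' : ℝ}
    (hB : ∀ σ, |u σ| ≤ B) (hB' : ∀ σ, |H σ| ≤ B') :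
    log (∫ σ, exp (u σ) ∂ν) - log (∫ σ, exp (u σ - H σ) ∂ν) ≤ ∫ σ, H σ ∂ν.tilted u := by
  have := isProbabilityMeasure_tilted (integrable_exp_bdd ν hu hB)
  have hn : ∀ σ, |-H σ| ≤ B' := fun σ => by rw [abs_neg]; exact hB' σ
  have h1 : exp (∫ σ, -H σ ∂ν.tilted u) ≤ ∫ σ, exp (-H σ) ∂ν.tilted u :=
    convexOn_exp.map_integral_le continuous_exp.continuousOn isClosed_univ
      (Filter.Eventually.of_forall fun _ => trivial) (integrable_of_bdd _ hH.neg hn)
      (integrable_exp_bdd _ hH.neg hn)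
  rw [integral_exp_tilted u fun σ => -H σ, integral_neg] at h1
  have h2 := log_le_log (exp_pos _) h1
  have hp : 0 < ∫ σ, exp (u σ - H σ) ∂ν := int_exp_pos ν (hu.sub hH) (B := B + B')
    fun σ => (abs_sub _ _).trans (add_le_add (hB σ) (hB' σ))
  simp only [Pi.add_apply, ← sub_eq_add_neg] at h2
  rw [log_exp, log_div hp.ne' (int_exp_pos ν hu hB).ne'] at h2
  linarith

lemma exp_log_sub_le {u H : Cf → ℝ} (hu : Measurable u) (hH : Measurable H) {B B' : ℝ}
    (hB : ∀ σ, |u σ| ≤ B) (hB' : ∀ σ, |H σ| ≤ B') (h0 : ∀ σ, 0 ≤ H σ) {s : ℝ} (hs : 0 ≤ s) :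
    exp (s * |log (∫ σ, exp (u σ - H σ) ∂ν) - log (∫ σ, exp (u σ) ∂ν)|) ≤
      ∫ σ, exp (s * H σ) ∂ν.tilted u := by
  have := isProbabilityMeasure_tilted (integrable_exp_bdd ν hu hB)
  have h1 := log_int_mono ν (hu.sub hH) hu (B := B + B')
    (fun σ => (abs_sub _ _).trans (add_le_add (hB σ) (hB' σ))) hB fun σ => by
      simp only [Pi.sub_apply]; linarith [h0 σ]
  simp only [Pi.sub_apply] at h1
  have h2 := log_sub_le_tilted ν hu hH hB hB'
  have h3 := exp_abs_integral_le (ν.tilted u) hH hB' hs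
  simp_rw [abs_of_nonneg (h0 _)] at h3
  refine le_trans (exp_le_exp.2 ?_) h3
  rw [abs_sub_comm, abs_of_nonneg (by linarith)]
  gcongr
  exact h2.trans (le_abs_self _)

end Gibbs

lemma exp_wsum_le {κ : Type*} [Fintype κ] {w z : κ → ℝ} (hw : ∀ j, 0 ≤ w j) (h1 : ∑ j, w j ≤ 1) :
    exp (∑ j, w j * z j) ≤ 1 + ∑ j, w j * exp (z j) := by
  have h := convexOn_exp.map_add_sum_le (t := Finset.univ) (w := w) (p := z) (v := 1 - ∑ j, w j)
    (q := 0) (fun j _ => hw j) (by ring) (fun _ _ => trivial) (by linarith) trivial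
  simp only [smul_eq_mul, mul_zero, zero_add, exp_zero, mul_one] at h
  have : 0 ≤ ∑ j, w j := Finset.sum_nonneg fun j _ => hw j
  linarith

variable {E : Type*} [NormedAddCommGroup E] [InnerProductSpace ℝ E] [FiniteDimensional ℝ E]
  [MeasurableSpace E] [BorelSpace E]
variable {Cf : Type*} [MeasurableSpace Cf] {ι κ : Type*} [Fintype ι] [DecidableEq ι] [Fintype κ]

/-- energy built from nested projections -/
def enP (a : κ → ℝ) (S : κ → Finset ι) (G : ι → E) (y : E) : ℝ :=
  -∑ j, a j * ‖pj G (S j) y‖ ^ 2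

omit [Fintype ι] in
lemma measurable_enP (a : κ → ℝ) (S : κ → Finset ι) :
    Measurable fun p : (ι → E) × E => enP a S p.1 p.2 := by
  unfold enP
  refine (Finset.measurable_sum _ fun j _ => ?_).neg
  exact ((measurable_pj (S j)).norm.pow_const 2).const_mul _

omit [MeasurableSpace E] [BorelSpace E] [Fintype ι] [DecidableEq ι] in
lemma abs_enP_le {a : κ → ℝ} (ha : ∀ j, 0 ≤ a j) {M N : ℝ} (hM : ∑ j, a j ≤ M) (S : κ → Finset ι)
    (G : ι → E) {y : E} (hy : ‖y‖ ^ 2 ≤ N) : |enP a S G y| ≤ M * N := by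
  unfold enP
  rw [abs_neg, abs_of_nonneg (Finset.sum_nonneg fun j _ => mul_nonneg (ha j) (sq_nonneg _))]
  calc ∑ j, a j * ‖pj G (S j) y‖ ^ 2 ≤ ∑ j, a j * N := by
        refine Finset.sum_le_sum fun j _ => mul_le_mul_of_nonneg_left ?_ (ha j)
        exact le_trans (by gcongr; exact norm_pj_le _ _ _) hy
    _ = (∑ j, a j) * N := (Finset.sum_mul _ _ _).symm
    _ ≤ M * N := by gcongr; exact (sq_nonneg _).trans hy

/-- log partition function as a function of the Gaussian vectors -/
def fP (ν : Measure Cf) (x : Cf → E) (a : κ → ℝ) (S : κ → Finset ι) (G : ι → E) : ℝ :=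
  log (∫ σ, exp (enP a S G (x σ)) ∂ν)

omit [Fintype ι] in
lemma measurable_fP' {T : Type*} [MeasurableSpace T] (ν : Measure Cf) [SFinite ν]
    {x : T → Cf → E} (hx : Measurable fun p : T × Cf => x p.1 p.2) (a : κ → ℝ) (S : κ → Finset ι)
    {G : T → ι → E} (hG : Measurable G) : Measurable fun τ => fP ν (x τ) a S (G τ) := by
  have h1 : Measurable fun p : T × Cf => (G p.1, x p.1 p.2) := (hG.comp measurable_fst).prodMk hx
  have h2 := ((measurable_enP (E := E) a S).comp h1).exp
  exact (h2.stronglyMeasurable.integral_prod_right' (ν := ν)).measurable.log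

omit [Fintype ι] in
lemma measurable_fP (ν : Measure Cf) [SFinite ν] {x : Cf → E} (hx : Measurable x) (a : κ → ℝ)
    (S : κ → Finset ι) : Measurable (fP ν x a S) :=
  measurable_fP' ν (x := fun _ => x) (hx.comp measurable_snd) a S measurable_id

omit [Fintype ι] in
lemma measurable_enP_x {x : Cf → E} (hx : Measurable x) (a : κ → ℝ) (S : κ → Finset ι)
    (G : ι → E) : Measurable fun σ => enP a S G (x σ) := by
  have h1 : Measurable fun σ : Cf => (G, x σ) := measurable_const.prodMk hx
  have h2 := (measurable_enP (E := E) a S).comp h1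
  exact h2

omit [Fintype ι] in
lemma abs_fP_le (ν : Measure Cf) [IsProbabilityMeasure ν] {x : Cf → E} (hx : Measurable x)
    {a : κ → ℝ} (ha : ∀ j, 0 ≤ a j) {M N : ℝ} (hM : ∑ j, a j ≤ M) (hN : ∀ σ, ‖x σ‖ ^ 2 ≤ N)
    (S : κ → Finset ι) (G : ι → E) : |fP ν x a S G| ≤ M * N :=
  abs_log_int_le ν (measurable_enP_x hx a S G) fun σ => abs_enP_le ha hM S G (hN σ)

omit [Fintype ι] in
lemma LOO_fP (ν : Measure Cf) [IsProbabilityMeasure ν] {x : Cf → E} (hx : Measurable x)
    {a : κ → ℝ} (ha : ∀ j, 0 ≤ a j) {M N s : ℝ} (hM0 : 0 < M) (hM : ∑ j, a j ≤ M)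
    (hN : ∀ σ, ‖x σ‖ ^ 2 ≤ N) (hs : 0 ≤ s) (S : κ → Finset ι)
    (hS : ∀ j, a j ≠ 0 → 16 * (s * M) * N + (S j).card ≤ finrank ℝ E) (i : ι) :
    LOO (stdGaussian E) s 4 (fP ν x a S) i := by
  set S' : κ → Finset ι := fun j => (S j).erase i with hS'
  have hinv : ∀ (G : ι → E) y j z, pj (update G i y) (S' j) z = pj G (S' j) z := fun G y j z =>
    pj_congr (fun l hl => update_of_ne (Finset.ne_of_mem_erase hl) _ _) z
  refine ⟨fP ν x a S', measurable_fP ν hx a S', ⟨_, abs_fP_le ν hx ha hM hN S'⟩,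
    fun G y => ?_, fun G => ?_⟩
  · simp only [fP, enP, hinv]
  set Y : κ → E → E → ℝ := fun j y z =>
    if i ∈ S j then ⟪y - pj G (S' j) y, z⟫ ^ 2 / ‖y - pj G (S' j) y‖ ^ 2 else 0 with hY
  have hsplit : ∀ j y z, ‖pj (update G i y) (S j) z‖ ^ 2 = ‖pj G (S' j) z‖ ^ 2 + Y j y z := by
    intro j y z
    by_cases h : i ∈ S j
    · have e : S j = insert i (S' j) := (Finset.insert_erase h).symm
      rw [e, norm_pj_insert, hinv, hinv, update_self]
      simp only [hY, if_pos h]
    · have e : S j = S' j := (Finset.erase_eq_of_notMem h).symm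
      rw [e, hinv]
      simp only [hY, if_neg h, add_zero]
  have hY0 : ∀ j y z, 0 ≤ Y j y z := by
    intro j y z
    simp only [hY]
    split_ifs <;> positivity
  have hYN : ∀ j y σ, Y j y (x σ) ≤ N := by
    intro j y σ
    have h1 := hsplit j y (x σ)
    have h2 : ‖pj (update G i y) (S j) (x σ)‖ ^ 2 ≤ ‖x σ‖ ^ 2 := by
      gcongr; exact norm_pj_le _ _ _
    nlinarith [hN σ, sq_nonneg ‖pj G (S' j) (x σ)‖]
  have hYm : ∀ j, Measurable fun p : E × Cf => Y j p.1 (x p.2) := by
    intro j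
    simp only [hY]
    split_ifs
    · have h1 : Measurable fun p : E × Cf => (G, p.1) := measurable_const.prodMk measurable_fst
      have h2 := (measurable_pj (E := E) (S' j)).comp h1
      have h3 : Measurable fun p : E × Cf => p.1 - pj G (S' j) p.1 := measurable_fst.sub h2
      exact ((h3.inner (hx.comp measurable_snd)).pow_const 2).div (h3.norm.pow_const 2)
    · exact measurable_const
  have hYg : ∀ j σ, a j ≠ 0 → ∫ y, exp (s * M * Y j y (x σ)) ∂stdGaussian E ≤ 3 := by
    intro j σ hj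
    simp only [hY]
    split_ifs
    · refine gauss_ratio_proj (sp G (S' j)) (x σ) (by positivity) (hN σ) ?_
      have h1 : (finrank ℝ (sp G (S' j)) : ℝ) ≤ (S j).card := by
        exact_mod_cast (finrank_sp_le G (S' j)).trans Finset.card_erase_le
      linarith [hS j hj]
    · simp
  set H : E → Cf → ℝ := fun y σ => ∑ j, a j * Y j y (x σ) with hH
  have hHm : Measurable fun p : E × Cf => H p.1 p.2 :=
    Finset.measurable_sum _ fun j _ => (hYm j).const_mul _
  have hH0 : ∀ y σ, 0 ≤ H y σ := fun y σ =>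
    Finset.sum_nonneg fun j _ => mul_nonneg (ha j) (hY0 _ _ _)
  have hHB : ∀ y σ, |H y σ| ≤ M * N := by
    intro y σ
    rw [abs_of_nonneg (hH0 y σ)]
    calc ∑ j, a j * Y j y (x σ) ≤ ∑ j, a j * N :=
          Finset.sum_le_sum fun j _ => mul_le_mul_of_nonneg_left (hYN j y σ) (ha j)
      _ = (∑ j, a j) * N := (Finset.sum_mul _ _ _).symm
      _ ≤ M * N := by gcongr; exact (sq_nonneg _).trans (hN σ)
  set u : Cf → ℝ := fun σ => enP a S' G (x σ) with hu
  have hum : Measurable u := measurable_enP_x hx a S' G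
  have huB : ∀ σ, |u σ| ≤ M * N := fun σ => abs_enP_le ha hM S' G (hN σ)
  have hen : ∀ y σ, enP a S (update G i y) (x σ) = u σ - H y σ := by
    intro y σ
    simp only [hu, hH, enP, hsplit, mul_add, Finset.sum_add_distrib]
    ring
  have := isProbabilityMeasure_tilted (integrable_exp_bdd ν hum huB)
  have hint : Integrable (fun p : E × Cf => exp (s * H p.1 p.2))
      ((stdGaussian E).prod (ν.tilted u)) :=
    integrable_of_bdd _ (by fun_prop) fun p => abs_exp_le (hHB p.1 p.2)
  calc ∫ y, exp (s * |fP ν x a S (update G i y) - fP ν x a S' G|) ∂stdGaussian E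
      ≤ ∫ y, ∫ σ, exp (s * H y σ) ∂ν.tilted u ∂stdGaussian E := by
        apply integral_mono_of_nonneg (Filter.Eventually.of_forall fun z => (exp_pos _).le)
          hint.integral_prod_left
        refine Filter.Eventually.of_forall fun y => ?_
        simp only [fP, hen]
        exact exp_log_sub_le ν hum (hHm.comp (measurable_const.prodMk measurable_id)) huB
          (hHB y) (hH0 y) hs
    _ = ∫ σ, ∫ y, exp (s * H y σ) ∂stdGaussian E ∂ν.tilted u := integral_integral_swap hint
    _ ≤ ∫ _σ, (4 : ℝ) ∂ν.tilted u := by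
        apply integral_mono hint.integral_prod_right (integrable_const _)
        intro σ
        have hw : ∀ j, 0 ≤ a j / M := fun j => div_nonneg (ha j) hM0.le
        have hw1 : ∑ j, a j / M ≤ 1 := by rw [← Finset.sum_div, div_le_one hM0]; exact hM
        have hi : ∀ j, Integrable (fun y => exp (s * M * Y j y (x σ))) (stdGaussian E) := by
          intro j
          have h1 : Measurable fun y => Y j y (x σ) :=
            (hYm j).comp (measurable_id.prodMk measurable_const)
          exact integrable_of_bdd _ (by fun_prop) fun y => abs_exp_le (B := N) (by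
            rw [abs_of_nonneg (hY0 _ _ _)]; exact hYN j y σ)
        have hi2 : Integrable (fun y => ∑ j, a j / M * exp (s * M * Y j y (x σ)))
            (stdGaussian E) := integrable_finsetSum _ fun j _ => (hi j).const_mul _
        calc ∫ y, exp (s * H y σ) ∂stdGaussian E
            ≤ ∫ y, (1 + ∑ j, a j / M * exp (s * M * Y j y (x σ))) ∂stdGaussian E := by
              apply integral_mono_of_nonneg (Filter.Eventually.of_forall fun z => (exp_pos _).le)
                ((integrable_const 1).add hi2)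
              refine Filter.Eventually.of_forall fun y => ?_
              refine le_of_eq_of_le ?_ (exp_wsum_le hw hw1)
              simp only [hH, Finset.mul_sum]
              congr 1
              refine Finset.sum_congr rfl fun j _ => ?_
              field_simp
          _ = 1 + ∑ j, a j / M * ∫ y, exp (s * M * Y j y (x σ)) ∂stdGaussian E := by
              rw [integral_add (integrable_const 1) hi2,
                integral_finsetSum _ fun j _ => (hi j).const_mul _]
              simp [integral_const_mul]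
          _ ≤ 1 + ∑ j, a j / M * 3 := by
              gcongr 1 + ?_
              refine Finset.sum_le_sum fun j _ => ?_
              by_cases hj : a j = 0
              · simp [hj]
              · exact mul_le_mul_of_nonneg_left (hYg j σ hj) (hw j)
          _ ≤ 4 := by rw [← Finset.sum_mul]; linarith
    _ = 4 := by simp

theorem conc_fP (ν : Measure Cf) [IsProbabilityMeasure ν] {x : Cf → E} (hx : Measurable x)
    {a : κ → ℝ} (ha : ∀ j, 0 ≤ a j) {M N s : ℝ} (hM0 : 0 < M) (hM : ∑ j, a j ≤ M)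
    (hN : ∀ σ, ‖x σ‖ ^ 2 ≤ N) (hs : 0 < s) (S : κ → Finset ι)
    (hS : ∀ j, a j ≠ 0 → 16 * (s * M) * N + (S j).card ≤ finrank ℝ E) {t : ℝ} (ht : |t| ≤ s / 4) :
    ∫ G, exp (t * (fP ν x a S G - ∫ G', fP ν x a S G' ∂(Measure.pi fun _ : ι => stdGaussian E)))
      ∂(Measure.pi fun _ : ι => stdGaussian E) ≤ exp (cC s 4 * t ^ 2 * Fintype.card ι) :=
  conc_pi (stdGaussian E) hs ht Finset.univ _ (measurable_fP ν hx a S)
    ⟨_, abs_fP_le ν hx ha hM hN S⟩ (fun G G' h => by
      have : G = G' := funext fun i => h i (by simp)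
      rw [this]) fun i _ => LOO_fP ν hx ha hM0 hM hN hs.le S hS i

end

end Vale.Agent.P166
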