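import Vale.Agent.P166.ConcC

/-! Transfer of the concentration bound to an invariant random rotation. -/

namespace Vale.Agent.P166

open MeasureTheory ProbabilityTheory Real Function Module
open scoped RealInnerProductSpace

noncomputable section

variable {E : Type*} [NormedAddCommGroup E] [InnerProductSpace ℝ E] [FiniteDimensional ℝ E]

lemma norm_pj_orthonormal {ι : Type*} [DecidableEq ι] {b : ι → E} (hb : Orthonormal ℝ b)
    (S : Finset ι) (y : E) : ‖pj b S y‖ ^ 2 = ∑ l ∈ S, ⟪b l, y⟫ ^ 2 := by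
  induction S using Finset.induction_on with
  | empty =>
    have h : sp b ∅ = ⊥ := by simp [sp]
    have h2 : pj b ∅ y ∈ sp b ∅ := (sp b ∅).starProjection_apply_mem y
    rw [h] at h2
    have h3 : pj b ∅ y = 0 := h2
    simp [h3]
  | insert i S hi ih =>
    have h0 : pj b S (b i) = 0 := by
      unfold pj
      rw [Submodule.starProjection_apply_eq_zero_iff, Submodule.mem_orthogonal]
      intro u hu
      refine Submodule.span_induction (p := fun u _ => ⟪u, b i⟫ = 0) ?_ (by simp) ?_ ?_ hu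
      · rintro _ ⟨l, hl, rfl⟩
        exact hb.2 fun e => hi (e ▸ hl)
      · intro u v _ _ h1 h2
        rw [inner_add_left, h1, h2, add_zero]
      · intro c u _ h1
        rw [inner_smul_left, h1, mul_zero]
    rw [norm_pj_insert, ih, Finset.sum_insert hi, h0, sub_zero, hb.1 i]
    ring

lemma exists_flag_basis {n : ℕ} (hn : finrank ℝ E = n) {G : Fin n → E}
    (hG : LinearIndependent ℝ G) :
    ∃ b : OrthonormalBasis (Fin n) ℝ E, ∀ j, sp G (Finset.Iic j) = sp b (Finset.Iic j) := by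
  have h : finrank ℝ E = Fintype.card (Fin n) := by simpa using hn
  refine ⟨InnerProductSpace.gramSchmidtOrthonormalBasis h G, fun j => ?_⟩
  have e : ⇑(InnerProductSpace.gramSchmidtOrthonormalBasis h G) =
      InnerProductSpace.gramSchmidtNormed ℝ G := by
    funext i
    apply InnerProductSpace.gramSchmidtOrthonormalBasis_apply
    intro h0
    have := InnerProductSpace.gramSchmidtNormed_unit_length i hG
    rw [h0, norm_zero] at this
    exact zero_ne_one this
  unfold sp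
  rw [e, InnerProductSpace.span_gramSchmidtNormed, Finset.coe_Iic,
    InnerProductSpace.span_gramSchmidt_Iic]

lemma enP_flag {n : ℕ} (a c : Fin n → ℝ) (hc : ∀ l, c l = ∑ j ∈ Finset.Ici l, a j)
    {G : Fin n → E} (b : OrthonormalBasis (Fin n) ℝ E)
    (h : ∀ j, sp G (Finset.Iic j) = sp b (Finset.Iic j)) (y : E) :
    enP a Finset.Iic G y = -∑ l, c l * ⟪b l, y⟫ ^ 2 := by
  have h1 : ∀ j, pj G (Finset.Iic j) y = pj b (Finset.Iic j) y := by
    intro j
    unfold pj
    congr 2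
    exact h j
  unfold enP
  simp_rw [h1, norm_pj_orthonormal b.orthonormal, hc, Finset.mul_sum, Finset.sum_mul]
  congr 1
  exact Finset.sum_comm' fun j l => by simp

variable [MeasurableSpace E] [BorelSpace E] {Cf 𝒢 : Type*} [MeasurableSpace Cf] [MeasurableSpace 𝒢]

/-- an invariant random rotation -/
structure RotLaw (ρ : Measure 𝒢) (R : 𝒢 → E ≃ₗᵢ[ℝ] E) : Prop where
  prob : IsProbabilityMeasure ρ
  meas : Measurable fun p : 𝒢 × E => R p.1 p.2
  inv : ∀ L : E ≃ₗᵢ[ℝ] E, ∃ T : 𝒢 → 𝒢, MeasurePreserving T ρ ρ ∧ ∀ g y, R (T g) y = L (R g y)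

/-- log partition function of the rotated quadratic form -/
def fR {ι : Type*} [Fintype ι] (ν : Measure Cf) (x : Cf → E) (b : OrthonormalBasis ι ℝ E)
    (c : ι → ℝ) (L : E ≃ₗᵢ[ℝ] E) : ℝ :=
  log (∫ σ, exp (∑ i, c i * ⟪b i, L (x σ)⟫ ^ 2) ∂ν)

omit [FiniteDimensional ℝ E] in
lemma measurable_fR [SecondCountableTopology E] {ι : Type*} [Fintype ι] (ν : Measure Cf)
    [SFinite ν] {x : Cf → E}
    (hx : Measurable x) (b : OrthonormalBasis ι ℝ E) (c : ι → ℝ) {R : 𝒢 → E ≃ₗᵢ[ℝ] E}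
    (hR : Measurable fun p : 𝒢 × E => R p.1 p.2) : Measurable fun g => fR ν x b c (R g) := by
  have h1 : Measurable fun p : 𝒢 × Cf => (p.1, x p.2) :=
    measurable_fst.prodMk (hx.comp measurable_snd)
  have h2 := hR.comp h1
  have h3 : Measurable fun p : 𝒢 × Cf => exp (∑ i, c i * ⟪b i, R p.1 (x p.2)⟫ ^ 2) :=
    (Finset.measurable_sum _ fun i _ =>
      ((measurable_const.inner h2).pow_const 2).const_mul _).exp
  exact (h3.stronglyMeasurable.integral_prod_right' (ν := ν)).measurable.log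

lemma law_transfer {n : ℕ} (hn : finrank ℝ E = n) (ν : Measure Cf) [IsProbabilityMeasure ν]
    {x : Cf → E} (hx : Measurable x) (a c : Fin n → ℝ) (hc : ∀ l, c l = ∑ j ∈ Finset.Ici l, a j)
    (b0 : OrthonormalBasis (Fin n) ℝ E) {ρ : Measure 𝒢} {R : 𝒢 → E ≃ₗᵢ[ℝ] E} (hR : RotLaw ρ R)
    {φ : ℝ → ℝ} (hφ : Measurable φ) {B : ℝ} (hB : ∀ u, |φ u| ≤ B) :
    ∫ g, φ (fR ν x b0 (fun i => -c i) (R g)) ∂ρ =
      ∫ G, φ (fP ν x a Finset.Iic G) ∂(Measure.pi fun _ : Fin n => stdGaussian E) := by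
  have := hR.prob
  set P := Measure.pi fun _ : Fin n => stdGaussian E with hP
  have hxm : Measurable fun p : (𝒢 × (Fin n → E)) × Cf => R p.1.1 (x p.2) := by
    have h1 : Measurable fun p : (𝒢 × (Fin n → E)) × Cf => (p.1.1, x p.2) :=
      (measurable_fst.comp measurable_fst).prodMk (hx.comp measurable_snd)
    have h2 := hR.meas.comp h1
    exact h2
  have hj : Measurable fun p : 𝒢 × (Fin n → E) =>
      φ (fP ν (fun σ => R p.1 (x σ)) a Finset.Iic p.2) :=
    hφ.comp (measurable_fP' ν (x := fun p : 𝒢 × (Fin n → E) => fun σ => R p.1 (x σ)) hxm a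
      Finset.Iic measurable_snd)
  have hint := integrable_of_bdd (ρ.prod P) hj fun p => hB _
  have h1 : ∀ g, ∫ G, φ (fP ν (fun σ => R g (x σ)) a Finset.Iic G) ∂P =
      ∫ G, φ (fP ν x a Finset.Iic G) ∂P := by
    intro g
    have hmp : MeasurePreserving (fun (G : Fin n → E) i => R g (G i)) P P :=
      measurePreserving_pi _ _ fun _ => ⟨(R g).continuous.measurable, stdGaussian_map (R g)⟩
    have hm : Measurable fun G => φ (fP ν (fun σ => R g (x σ)) a Finset.Iic G) :=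
      hφ.comp (measurable_fP ν ((R g).continuous.measurable.comp hx) a Finset.Iic)
    conv_lhs => rw [← hmp.map_eq]
    rw [integral_map hmp.measurable.aemeasurable hm.aestronglyMeasurable]
    simp only [fP, enP, pj_map, LinearIsometryEquiv.norm_map]
  have hF : Measurable fun g => φ (fR ν x b0 (fun i => -c i) (R g)) :=
    hφ.comp (measurable_fR ν hx b0 (fun i => -c i) hR.meas)
  have h2 : ∀ᵐ G ∂P, ∫ g, φ (fP ν (fun σ => R g (x σ)) a Finset.Iic G) ∂ρ =
      ∫ g, φ (fR ν x b0 (fun i => -c i) (R g)) ∂ρ := by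
    filter_upwards [ae_linearIndependent (E := E) (ι := Fin n) (by simp [hn])] with G hG
    obtain ⟨b, hb⟩ := exists_flag_basis hn hG
    obtain ⟨T, hT, hTR⟩ := hR.inv (b.equiv b0 (Equiv.refl _))
    conv_rhs => rw [← hT.map_eq]
    rw [integral_map hT.measurable.aemeasurable hF.aestronglyMeasurable]
    congr 1
    funext g
    simp only [fP, fR, enP_flag a c hc b hb, hTR]
    congr 3
    funext σ
    rw [← Finset.sum_neg_distrib]
    congr 1
    refine Finset.sum_congr rfl fun l _ => ?_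
    have := (b.equiv b0 (Equiv.refl _)).inner_map_map (b l) (R g (x σ))
    rw [OrthonormalBasis.equiv_apply_basis, Equiv.refl_apply] at this
    rw [this]; ring
  calc ∫ g, φ (fR ν x b0 (fun i => -c i) (R g)) ∂ρ
      = ∫ G, ∫ g, φ (fP ν (fun σ => R g (x σ)) a Finset.Iic G) ∂ρ ∂P := by
        rw [integral_congr_ae h2]; simp
    _ = ∫ g, ∫ G, φ (fP ν (fun σ => R g (x σ)) a Finset.Iic G) ∂P ∂ρ :=
        (integral_integral_swap hint).symm
    _ = _ := by simp [h1]

omit [FiniteDimensional ℝ E] [MeasurableSpace E] [BorelSpace E] in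
lemma abs_quad_le {ι : Type*} [Fintype ι] (b : OrthonormalBasis ι ℝ E) {c : ι → ℝ} {M N : ℝ}
    (hc : ∀ i, |c i| ≤ M) {y : E} (hy : ‖y‖ ^ 2 ≤ N) (hM : 0 ≤ M) :
    |∑ i, c i * ⟪b i, y⟫ ^ 2| ≤ M * N := by
  calc |∑ i, c i * ⟪b i, y⟫ ^ 2| ≤ ∑ i, |c i * ⟪b i, y⟫ ^ 2| := Finset.abs_sum_le_sum_abs _ _
    _ ≤ ∑ i, M * ⟪b i, y⟫ ^ 2 := by
        refine Finset.sum_le_sum fun i _ => ?_
        rw [abs_mul, abs_of_nonneg (sq_nonneg ⟪b i, y⟫)]
        gcongr
        exact hc i
    _ = M * ‖y‖ ^ 2 := by rw [← Finset.mul_sum, b.sum_sq_inner_right]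
    _ ≤ M * N := by gcongr

omit [FiniteDimensional ℝ E] in
lemma measurable_quad [SecondCountableTopology E] {ι : Type*} [Fintype ι] {x : Cf → E}
    (hx : Measurable x) (b : OrthonormalBasis ι ℝ E) (c : ι → ℝ) (L : E ≃ₗᵢ[ℝ] E) :
    Measurable fun σ => ∑ i, c i * ⟪b i, L (x σ)⟫ ^ 2 :=
  Finset.measurable_sum _ fun _ _ =>
    ((measurable_const.inner (L.continuous.measurable.comp hx)).pow_const 2).const_mul _

lemma abs_fR_le {ι : Type*} [Fintype ι] (ν : Measure Cf) [IsProbabilityMeasure ν] {x : Cf → E}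
    (hx : Measurable x) (b : OrthonormalBasis ι ℝ E) {c : ι → ℝ} {M N : ℝ} (hc : ∀ i, |c i| ≤ M)
    (hN : ∀ σ, ‖x σ‖ ^ 2 ≤ N) (hM : 0 ≤ M) (L : E ≃ₗᵢ[ℝ] E) : |fR ν x b c L| ≤ M * N :=
  abs_log_int_le ν (measurable_quad hx b c L) fun σ =>
    abs_quad_le b hc (by rw [L.norm_map]; exact hN σ) hM

lemma clip_eq {u B : ℝ} (h : |u| ≤ B) : max (-B) (min B u) = u := by
  obtain ⟨h1, h2⟩ := abs_le.1 h
  rw [min_eq_right h2, max_eq_right h1]

lemma abs_clip_le {u B : ℝ} (h : 0 ≤ B) : |max (-B) (min B u)| ≤ B :=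
  abs_le.2 ⟨le_max_left _ _, max_le (by linarith) (min_le_left _ _)⟩

lemma conc_fin {n : ℕ} (hn : finrank ℝ E = n) (ν : Measure Cf) [IsProbabilityMeasure ν]
    {x : Cf → E} (hx : Measurable x) (a c : Fin n → ℝ) (hc : ∀ l, c l = ∑ j ∈ Finset.Ici l, a j)
    (ha : ∀ j, 0 ≤ a j) {M N s : ℝ} (hM0 : 0 < M) (hM : ∑ j, a j ≤ M)
    (hN0 : 0 ≤ N) (hN : ∀ σ, ‖x σ‖ ^ 2 ≤ N) (hs : 0 < s)
    (hS : ∀ j : Fin n, a j ≠ 0 → 16 * (s * M) * N + ((j : ℝ) + 1) ≤ n)
    (b0 : OrthonormalBasis (Fin n) ℝ E) {ρ : Measure 𝒢} {R : 𝒢 → E ≃ₗᵢ[ℝ] E} (hR : RotLaw ρ R)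
    {t : ℝ} (ht : |t| ≤ s / 4) :
    ∫ g, exp (t * (fR ν x b0 (fun i => -c i) (R g) -
      ∫ g', fR ν x b0 (fun i => -c i) (R g') ∂ρ)) ∂ρ ≤ exp (cC s 4 * t ^ 2 * n) := by
  have h1 := conc_fP (ι := Fin n) ν hx ha hM0 hM hN hs Finset.Iic (fun j hj => by
    rw [Fin.card_Iic, hn]; push_cast; exact hS j hj) ht
  rw [Fintype.card_fin] at h1
  have hcM : ∀ i, |-c i| ≤ M := by
    intro i
    rw [abs_neg, hc, abs_of_nonneg (Finset.sum_nonneg fun j _ => ha j)]
    exact (Finset.sum_le_sum_of_subset_of_nonneg (Finset.subset_univ _) fun j _ _ => ha j).trans hM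
  have hb1 := abs_fR_le ν hx b0 hcM hN hM0.le
  have hb2 := abs_fP_le ν hx ha hM hN (Finset.Iic (α := Fin n))
  have hMN : 0 ≤ M * N := by positivity
  have e1 := law_transfer hn ν hx a c hc b0 hR (φ := fun u => max (-(M * N)) (min (M * N) u))
    (by fun_prop) fun u => abs_clip_le hMN
  simp only [clip_eq (hb1 _), clip_eq (hb2 _)] at e1
  rw [e1]
  set m := ∫ G, fP ν x a Finset.Iic G ∂(Measure.pi fun _ : Fin n => stdGaussian E)
  have e2 := law_transfer hn ν hx a c hc b0 hR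
    (φ := fun u => exp (t * (max (-(M * N)) (min (M * N) u) - m))) (by fun_prop)
    fun u => abs_exp_le (B := M * N + |m|)
      ((abs_sub _ _).trans (add_le_add (abs_clip_le hMN) le_rfl))
  simp only [clip_eq (hb1 _), clip_eq (hb2 _)] at e2
  rw [e2]
  exact h1

lemma exists_layers {n : ℕ} {c : Fin n → ℝ} (hc : Antitone c) {M : ℝ} (hM : 0 ≤ M)
    (h0 : ∀ i, 0 ≤ c i) (h1 : ∀ i, c i ≤ M) :
    ∃ a : Fin n → ℝ, (∀ l, c l = ∑ j ∈ Finset.Ici l, a j) ∧ (∀ j, 0 ≤ a j) ∧ ∑ j, a j ≤ M ∧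
      ∀ j, a j ≠ 0 → c j ≠ 0 := by
  set d : ℕ → ℝ := fun j => if h : j < n then c ⟨j, h⟩ else 0 with hd
  have hd0 : ∀ j, 0 ≤ d j := fun j => by simp only [hd]; split_ifs; exacts [h0 _, le_rfl]
  have hdn : d n = 0 := by simp [hd]
  have hdc : ∀ j : Fin n, d j = c j := fun j => by simp [hd]
  have hanti : ∀ j, d (j + 1) ≤ d j := by
    intro j
    by_cases h : j + 1 < n
    · have h' : j < n := by omega
      simp only [hd, dif_pos h, dif_pos h']
      exact hc (by simp [Fin.le_def])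
    · have : d (j + 1) = 0 := by simp only [hd, dif_neg h]
      rw [this]; exact hd0 j
  have hsum : ∀ l : ℕ, l ≤ n →
      ∑ j : Fin n, (if l ≤ (j : ℕ) then d j - d (j + 1) else 0) = d l := by
    intro l hl
    rw [Fin.sum_univ_eq_sum_range (fun j => if l ≤ j then d j - d (j + 1) else 0) n,
      ← Finset.sum_filter]
    have : (Finset.range n).filter (fun j => l ≤ j) = Finset.Ico l n := by
      ext j; simp [and_comm]
    rw [this, Finset.sum_Ico_eq_sum_range]
    have h3 := Finset.sum_range_sub' (fun j => d (l + j)) (n - l)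
    simp only [add_zero, Nat.add_sub_cancel' hl, hdn, sub_zero] at h3
    rw [← h3]
    rfl
  refine ⟨fun j => d j - d (j + 1), fun l => ?_, fun j => sub_nonneg.2 (hanti j), ?_, ?_⟩
  · rw [← hdc, ← hsum l l.2.le, ← Finset.sum_filter]
    congr 1
    ext j; simp
  · have := hsum 0 (Nat.zero_le _)
    simp only [zero_le, if_true] at this
    rw [this]
    simp only [hd]
    split_ifs
    exacts [h1 _, hM]
  · intro j hj h
    apply hj
    have h2 := hanti j
    have h3 := hd0 (j + 1)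
    rw [hdc, h] at h2
    simp only [hdc, h]
    linarith

/-- Concentration for a quadratic form with coefficients in `[κ - M, κ]` and a top block of
at least `16 s M N` coordinates. -/
theorem conc_rot {ι : Type*} [Fintype ι] (ν : Measure Cf) [IsProbabilityMeasure ν]
    {x : Cf → E} (hx : Measurable x) {N : ℝ} (hN : ∀ σ, ‖x σ‖ ^ 2 = N)
    (b0 : OrthonormalBasis ι ℝ E) {ρ : Measure 𝒢} {R : 𝒢 → E ≃ₗᵢ[ℝ] E} (hR : RotLaw ρ R)
    (c : ι → ℝ) {κ M s : ℝ} (hM0 : 0 < M) (hs : 0 < s) (hc1 : ∀ i, c i ≤ κ)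
    (hc2 : ∀ i, κ - M ≤ c i) (T : Finset ι) (hT : ∀ i ∈ T, c i = κ)
    (hTc : 16 * (s * M) * N ≤ T.card) {t : ℝ} (ht : |t| ≤ s / 4) :
    ∫ g, exp (t * (fR ν x b0 c (R g) - ∫ g', fR ν x b0 c (R g') ∂ρ)) ∂ρ ≤
      exp (cC s 4 * t ^ 2 * Fintype.card ι) := by
  classical
  have := hR.prob
  have hne : Nonempty Cf := nonempty_of_isProbabilityMeasure ν
  have hN0 : 0 ≤ N := by rw [← hN (Classical.arbitrary Cf)]; positivity
  set n := Fintype.card ι with hn
  have hfr : finrank ℝ E = n := Module.finrank_eq_card_basis b0.toBasis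
  set e0 : Fin n ≃ ι := (Fintype.equivFin ι).symm
  set e : Fin n ≃ ι := (Tuple.sort (c ∘ e0)).trans e0 with he
  have hmono : Monotone (c ∘ e) := Tuple.monotone_sort (c ∘ e0)
  set c' : Fin n → ℝ := fun l => κ - c (e l) with hc'
  obtain ⟨a, ha1, ha2, ha3, ha4⟩ := exists_layers (c := c') (M := M)
    (fun l l' h => sub_le_sub_left (hmono h) κ) hM0.le (fun l => sub_nonneg.2 (hc1 _))
    fun l => by simp only [hc']; linarith [hc2 (e l)]
  have h1 := conc_fin hfr ν hx a c' ha1 ha2 hM0 ha3 hN0 (fun σ => (hN σ).le) hs (fun j hj => by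
    have hsub : (Finset.Iic j).map e.toEmbedding ⊆ Tᶜ := by
      intro i hi
      obtain ⟨l, hl, rfl⟩ := Finset.mem_map.1 hi
      rw [Finset.mem_compl]
      intro hiT
      have h2 : c (e l) ≤ c (e j) := hmono (Finset.mem_Iic.1 hl)
      have h3 : c (e l) = κ := hT _ hiT
      apply ha4 j hj
      simp only [hc']
      linarith [hc1 (e j)]
    have h2 := Finset.card_le_card hsub
    rw [Finset.card_map, Fin.card_Iic, Finset.card_compl] at h2
    have h3 := Finset.card_le_univ T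
    have h4 : ((j : ℝ) + 1) + T.card ≤ n := by
      have : (j : ℕ) + 1 + T.card ≤ n := by omega
      exact_mod_cast this
    linarith) (b0.reindex e.symm) hR ht
  have hM' : ∀ l, |-c' l| ≤ M := fun l => by
    simp only [hc']
    rw [abs_le]; constructor <;> linarith [hc1 (e l), hc2 (e l)]
  have e1 : ∀ L : E ≃ₗᵢ[ℝ] E, fR ν x b0 c L =
      κ * N + fR ν x (b0.reindex e.symm) (fun l => -c' l) L := by
    intro L
    unfold fR
    rw [← log_int_add ν (measurable_quad hx _ _ L) (B := M * N) fun σ =>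
      abs_quad_le _ hM' (by rw [L.norm_map]; exact (hN σ).le) hM0.le]
    congr 3
    funext σ
    congr 1
    rw [← hN σ, ← L.norm_map, ← b0.sum_sq_inner_right, ← e.sum_comp, ← e.sum_comp,
      Finset.mul_sum, ← Finset.sum_add_distrib]
    refine Finset.sum_congr rfl fun l _ => ?_
    simp only [hc', OrthonormalBasis.reindex_apply, Equiv.symm_symm]
    ring
  simp_rw [e1]
  rw [integral_add (integrable_const _) (integrable_of_bdd _
    (measurable_fR ν hx _ _ hR.meas) fun g => abs_fR_le ν hx _ hM' (fun σ => (hN σ).le) hM0.le _)]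
  simpa using h1

end

end Vale.Agent.P166
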