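import Vale.Agent.P166.DSB
import Vale.Agent.P157.GI

/-! Gaussian interpolation in the presence of disorder. -/

namespace Vale.Agent.P166

open MeasureTheory ProbabilityTheory Real Finset Matrix Filter Topology
open Vale.Agent.P157 (Sys St γ GS s0 YY mm pp sh DirD pull mrg Rg Sp νB xB)
open scoped ENNReal

variable {I D Cf : Type} [Fintype I] [MeasurableSpace D] [MeasurableSpace Cf] {k : ℕ}
  {νD : Measure D} {ν : Measure Cf} [IsProbabilityMeasure νD] [IsProbabilityMeasure ν]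
  [Nonempty D] [Nonempty Cf] [StandardBorelSpace D] {A : Type} [Fintype A] [DecidableEq A]
  {R : Rg I A (D × Cf)} {K : ℝ} {H0 : St I (D × Cf) → ℝ} {p : I → Prop} [DecidablePred p]

omit [Nonempty D] [Nonempty Cf] [StandardBorelSpace D] in
theorem dgi_lin (hR : R.OK K) (hk : 0 < k) (h0 : (DS k I νD ν).Lin H0) (w : ℕ → I → ℝ) :
    (DS k I νD ν).Lin fun s => H0 s + R.Hv k w s :=
  h0.add (Rg.lin_Hv (ν := νD.prod ν) hR hk w)

omit [StandardBorelSpace D] in
theorem dgi_eq (hR : R.OK K) (hk : 0 < k) (h0 : (DS k I νD ν).Lin H0) (w w' : ℕ → I → ℝ) :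
    GD k νD ν H0 R w w' = ∑ j ∈ range k, ∑ i, w' j i / 2 *
      ((∫ s, R.dg k w i s ∂mD k νD ν fun s => H0 s + R.Hv k w s) - (1 / (k : ℝ)) * ∑ l ∈ Ioo j k,
        ∫ z, R.ψ k w i z.1 * R.ψ k w i z.2 ∂pD k νD ν (fun s => H0 s + R.Hv k w s) l) := by
  have hY : (DS k I νD ν).OK := ds_ok hk
  have hH := dgi_lin hR hk h0 w
  have hψ : ∀ i, (DS k I νD ν).Ex (R.ψ k w i) := Rg.ex_ψ (ν := νD.prod ν) hR hk w
  have hdg : ∀ i, (DS k I νD ν).Ex (R.dg k w i) := Rg.ex_dg (ν := νD.prod ν) hR hk w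
  unfold GD
  generalize (fun s => H0 s + R.Hv k w s) = H at hH
  rw [integral_finsetSum _ fun i _ => (integrable_mD hk hH (hdg i)).const_mul _]
  have e : ∀ l, ∫ z, ∑ i, (∑ j ∈ range l, w' j i) * (R.ψ k w i z.1 * R.ψ k w i z.2)
      ∂pD k νD ν H l = ∑ j ∈ range l, ∑ i, w' j i *
        ∫ z, R.ψ k w i z.1 * R.ψ k w i z.2 ∂pD k νD ν H l := by
    intro l
    rw [integral_finsetSum _ fun i _ => (integrable_pD hk hH
      (((hψ i).fst hY).mul hY ((hψ i).snd hY)) l).const_mul _, sum_comm]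
    exact sum_congr rfl fun i _ => by rw [integral_const_mul, sum_mul]
  simp only [e, integral_const_mul]
  rw [← P157.gi_swap]
  simp only [mul_sub, sum_sub_distrib]
  congr 1
  · rw [sum_comm, mul_sum]
    refine sum_congr rfl fun i _ => ?_
    rw [sum_mul, mul_sum]
    exact sum_congr rfl fun j _ => by ring
  · rw [mul_sum]
    refine sum_congr rfl fun j _ => ?_
    rw [sum_comm, mul_sum]
    refine sum_congr rfl fun i _ => ?_
    rw [← mul_sum]
    ring

theorem dgi_ibp (hR : R.OK K) (hk : 0 < k) (h0 : (DS k I νD ν).Lin H0) (hp : Free k p H0)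
    (w : ℕ → I → ℝ) {j : ℕ} (hj : j < k) {i : I} (hi : p i) :
    ∫ s, s.2 j i * R.ψ k w i s ∂mD k νD ν (fun s => H0 s + R.Hv k w s) = √(w j i) *
      ((∫ s, R.dg k w i s ∂mD k νD ν fun s => H0 s + R.Hv k w s) - (1 / (k : ℝ)) * ∑ l ∈ Ioo j k,
        ∫ z, R.ψ k w i z.1 * R.ψ k w i z.2 ∂pD k νD ν (fun s => H0 s + R.Hv k w s) l) := by
  classical
  have hY : (DS k I νD ν).OK := ds_ok hk
  have hH := dgi_lin hR hk h0 w
  have hψ : (DS k I νD ν).Ex (R.ψ k w i) := Rg.ex_ψ (ν := νD.prod ν) hR hk w i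
  have hdg : (DS k I νD ν).Ex (R.dg k w i) := Rg.ex_dg (ν := νD.prod ν) hR hk w i
  have dH : DirD j i (fun s => H0 s + R.Hv k w s) fun s => √(w j i) * R.ψ k w i s :=
    ((hp.dirD hj hi).add (Rg.dirD_H hR _ hj i)).congr (fun _ => rfl) fun _ => (zero_add _).symm
  have dψ : DirD j i (R.ψ k w i) fun s => √(w j i) * (R.dg k w i s - R.ψ k w i s ^ 2) := by
    have h1 := (DirD.config (j := j) (i := i) (R.e i)).mul
      ((Rg.dirD_U (R := R) (fun j i => √(w j i)) hj i (R.own i)).comp (hR.d2 (R.own i)))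
    refine h1.congr (fun _ => rfl) fun s => ?_
    simp only [Rg.dg, if_true]
    ring
  generalize (fun s => H0 s + R.Hv k w s) = H at hH dH
  rw [ibpD hk hj hH (hψ.const_mul hY _) dH hψ ((hdg.sub hY (hψ.sq hY)).const_mul hY _) dψ,
    integral_const_mul, integral_sub (integrable_mD hk hH hdg) (integrable_mD hk hH (hψ.sq hY))]
  have e1 : ∀ s, R.ψ k w i s * (√(w j i) * R.ψ k w i s) = √(w j i) * R.ψ k w i s ^ 2 :=
    fun s => by ring
  have e2 : ∀ z : St I (D × Cf) × St I (D × Cf), R.ψ k w i z.1 * (√(w j i) * R.ψ k w i z.2) =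
      √(w j i) * (R.ψ k w i z.1 * R.ψ k w i z.2) := fun z => by ring
  simp only [e1, e2, integral_const_mul]
  rw [← mul_sum]
  ring

theorem GD_deriv (hR : R.OK K) (hk : 0 < k) (h0 : (DS k I νD ν).Lin H0) (hp : Free k p H0)
    {u : D × Cf → ℝ} (hu : BM u) {w w' : ℕ → I → ℝ}
    (hw : ∀ j < k, ∀ i, w' j i ≠ 0 → 0 < w j i ∧ p i) :
    HasDerivAt (fun t => YD k νD ν fun s =>
      H0 s + t * u s.1 + R.Hv k (fun j i => w j i + t * w' j i) s)
      ((∫ s, u s.1 ∂mD k νD ν fun s => H0 s + R.Hv k w s) + GD k νD ν H0 R w w') 0 := by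
  have hY : (DS k I νD ν).OK := ds_ok hk
  have hH := dgi_lin hR hk h0 w
  have hev : ∀ᶠ t in 𝓝 (0 : ℝ), |t| < 1 ∧ ∀ j ∈ range k, ∀ i,
      HasDerivAt (fun t => √(w j i + t * w' j i)) (w' j i / (2 * √(w j i + t * w' j i))) t ∧
      |√(w j i + t * w' j i)| ≤ |√(w j i)| + |w' j i / (2 * √(w j i))| + 1 ∧
      |w' j i / (2 * √(w j i + t * w' j i))| ≤ |√(w j i)| + |w' j i / (2 * √(w j i))| + 1 :=
    (continuous_abs.continuousAt.eventually (gt_mem_nhds (by simp))).and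
      ((eventually_all_finset _).2 fun j hj => eventually_all.2 fun i =>
        P157.gi_path fun h => (hw j (mem_range.1 hj) i h).1)
  obtain ⟨U, hU, hUo, hU0⟩ := eventually_nhds_iff.1 hev
  have hb : ∀ j < k, ∀ i, |√(w j i)| + |w' j i / (2 * √(w j i))| + 1 ≤
      ∑ j ∈ range k, ∑ i, |(|√(w j i)| + |w' j i / (2 * √(w j i))| + 1)| := fun j hj i =>
    (le_abs_self _).trans
      (Rg.le_sum_abs (fun j i => |√(w j i)| + |w' j i / (2 * √(w j i))| + 1) hj i)
  have hF := Rg.lfam_H (ν := νD.prod ν) hR hk (U := U) (lam := fun t j i => √(w j i + t * w' j i))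
    (lam' := fun t j i => w' j i / (2 * √(w j i + t * w' j i)))
    (fun t ht j hj i => ((hU t ht).2 j (mem_range.2 hj) i).1)
    (fun t ht j hj i => ⟨((hU t ht).2 j (mem_range.2 hj) i).2.1.trans (hb j hj i),
      ((hU t ht).2 j (mem_range.2 hj) i).2.2.trans (hb j hj i)⟩)
  obtain ⟨C0, hC0⟩ := h0.2
  obtain ⟨C1, hC1⟩ := (hu.lin (I := I) (νD := νD) (ν := ν) hk).2
  obtain ⟨C2, hC2⟩ := hF.lin
  have hl : ∀ t ∈ U, ∀ s, |H0 s + t * u s.1| ≤ (C0 + C1) * (1 + (DS k I νD ν).ν s) := by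
    intro t ht s
    refine (abs_add_le _ _).trans ?_
    rw [abs_mul, add_mul]
    exact add_le_add (hC0 s) ((mul_le_of_le_one_left (abs_nonneg _) (hU t ht).1.le).trans (hC1 s))
  have hA : (DS k I νD ν).Fam U (fun t s => H0 s + t * u s.1) fun _ s => u s.1 :=
    Sys.Fam.mk' hY (fun t _ => h0.1.add ((hu.1.comp measurable_fst).const_mul t))
      (fun _ _ => hu.1.comp measurable_fst)
      (fun t _ s => by simpa using ((hasDerivAt_id t).mul_const (u s.1)).const_add (H0 s))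
      (Sys.UB.of_lin hY hl) (Sys.UB.of_lin hY fun _ _ => hC1)
  have hG : (DS k I νD ν).LFam U _ _ := ⟨hA.add hY ⟨hF.meas, hF.meas', hF.der, hF.bd⟩,
    C0 + C1 + C2, fun t ht s => (abs_add_le _ _).trans (by
      rw [add_mul]
      exact add_le_add (hl t ht s) (hC2 t ht s))⟩
  have hD := (Sys.X_fam hY hUo hG (k + 1) 0).der 0 hU0 (s0 I (D × Cf))
  refine hD.congr_deriv (Eq.symm ?_)
  simp only [zero_mul, add_zero]
  show _ = ∫ s, (u s.1 + ∑ a, R.F1 a (R.U k (fun j i => √(w j i)) a s) *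
    R.U k (fun j i => w' j i / (2 * √(w j i))) a s) ∂mD k νD ν fun s => H0 s + R.Hv k w s
  simp only [Rg.sum_F1_U]
  have hi : ∀ j ∈ range k, ∀ i, Integrable (fun s : St I (D × Cf) => w' j i / (2 * √(w j i)) *
      (s.2 j i * R.ψ k w i s)) (mD k νD ν fun s => H0 s + R.Hv k w s) := fun j hj i =>
    (integrable_mD hk hH (((lin_coordD hk (mem_range.1 hj) i).ex hY).mul hY
      (Rg.ex_ψ (ν := νD.prod ν) hR hk w i))).const_mul _
  rw [integral_add (integrable_mD hk hH (hu.ex hk))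
    (integrable_finsetSum _ fun j hj => integrable_finsetSum _ fun i _ => hi j hj i),
    integral_finsetSum _ fun j hj => integrable_finsetSum _ fun i _ => hi j hj i, dgi_eq hR hk h0]
  refine congrArg _ (sum_congr rfl fun j hj => ?_)
  rw [integral_finsetSum _ fun i _ => hi j hj i]
  refine sum_congr rfl fun i _ => ?_
  by_cases h1 : w' j i = 0
  · simp [h1]
  · obtain ⟨h2, h3⟩ := hw j (mem_range.1 hj) i h1
    have := Real.sqrt_pos.2 h2
    rw [integral_const_mul, dgi_ibp hR hk h0 hp w (mem_range.1 hj) h3, ← mul_assoc]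
    congr 1
    field_simp

omit [StandardBorelSpace D] in
theorem dgi_cont (hR : R.OK K) (hk : 0 < k) (h0 : (DS k I νD ν).Lin H0) {τ : Type*}
    {F : Filter τ} {wt : τ → ℕ → I → ℝ} {w : ℕ → I → ℝ}
    (h : ∀ j < k, ∀ i, Tendsto (fun t => wt t j i) F (𝓝 (w j i))) :
    Tendsto (fun t => YD k νD ν fun s => H0 s + R.Hv k (wt t) s) F
      (𝓝 (YD k νD ν fun s => H0 s + R.Hv k w s)) := by
  have hY : (DS k I νD ν).OK := ds_ok hk
  obtain ⟨Ce, hC, he⟩ := hR.be'
  have hω : Tendsto (fun t => (∑ _a : A, K * Ce) *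
      ∑ j ∈ range k, ∑ i, |√(wt t j i) - √(w j i)|) F (𝓝 0) := by
    have h1 : Tendsto (fun t => ∑ j ∈ range k, ∑ i, |√(wt t j i) - √(w j i)|) F
        (𝓝 (∑ j ∈ range k, ∑ i, |√(w j i) - √(w j i)|)) :=
      tendsto_finsetSum _ fun j hj => tendsto_finsetSum _ fun i _ =>
        ((h j (mem_range.1 hj) i).sqrt.sub_const _).abs
    simpa using h1.const_mul (∑ _a : A, K * Ce)
  refine Sys.X_tendsto hY ds_mono.2 (dgi_lin hR hk h0 w) hω
    (Eventually.of_forall fun t => ⟨(dgi_lin hR hk h0 _).1, fun s => ?_⟩) (k + 1) 0 _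
  have hS : 0 ≤ ∑ j ∈ range k, ∑ i, |√(wt t j i) - √(w j i)| :=
    sum_nonneg fun _ _ => sum_nonneg fun _ _ => abs_nonneg _
  have hν := hY.ν_nonneg s
  rw [add_sub_add_left_eq_sub]
  unfold Rg.Hv Rg.H
  rw [← sum_sub_distrib, sum_mul, sum_mul]
  refine (abs_sum_le_sum_abs _ _).trans (sum_le_sum fun a _ => (hR.lipF a _ _).trans ?_)
  have hK : 0 ≤ K := (abs_nonneg _).trans (hR.b1 a 0)
  rw [Rg.U_sub]
  have h1 : _ ≤ _ * (DS k I νD ν).ν s := Rg.abs_U_le (ν := νD.prod ν) hC he hS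
    (fun j hj i => Rg.le_sum_abs (fun j i => √(wt t j i) - √(w j i)) hj i) a s
  have h2 := mul_le_mul_of_nonneg_left h1 hK
  have h3 := mul_nonneg (mul_nonneg hK hC) hS
  nlinarith

theorem GD_mvt (hR : R.OK K) (hk : 0 < k) (h0 : (DS k I νD ν).Lin H0) (hp : Free k p H0)
    {w0 w1 : ℕ → I → ℝ} (hw0 : ∀ j < k, ∀ i, 0 ≤ w0 j i) (hw1 : ∀ j < k, ∀ i, 0 ≤ w1 j i)
    (hw : ∀ j < k, ∀ i, w0 j i ≠ w1 j i → p i) : ∃ t ∈ Set.Ioo (0 : ℝ) 1,
    YD k νD ν (fun s => H0 s + R.Hv k w1 s) - YD k νD ν (fun s => H0 s + R.Hv k w0 s) =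
      GD k νD ν H0 R (fun j i => w0 j i + t * (w1 j i - w0 j i)) fun j i => w1 j i - w0 j i := by
  have hc : Continuous fun t : ℝ =>
      YD k νD ν fun s => H0 s + R.Hv k (fun j i => w0 j i + t * (w1 j i - w0 j i)) s :=
    continuous_iff_continuousAt.2 fun t => dgi_cont hR hk h0 fun j _ i =>
      (by fun_prop : Continuous fun t : ℝ => w0 j i + t * (w1 j i - w0 j i)).continuousAt
  have hd : ∀ t ∈ Set.Ioo (0 : ℝ) 1, HasDerivAt (fun t : ℝ =>
      YD k νD ν fun s => H0 s + R.Hv k (fun j i => w0 j i + t * (w1 j i - w0 j i)) s)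
      (GD k νD ν H0 R (fun j i => w0 j i + t * (w1 j i - w0 j i)) fun j i => w1 j i - w0 j i)
        t := by
    intro t ht
    have h2 := GD_deriv hR hk h0 hp (BM.const 0) (w := fun j i => w0 j i + t * (w1 j i - w0 j i))
      (w' := fun j i => w1 j i - w0 j i) fun j hj i hne => by
        refine ⟨?_, hw j hj i (sub_ne_zero.1 hne).symm⟩
        have a0 := hw0 j hj i
        have a1 := hw1 j hj i
        rcases lt_or_gt_of_ne (sub_ne_zero.1 hne) with h | h
        · nlinarith [mul_nonneg ht.1.le a1, mul_pos (sub_pos.2 ht.2) (lt_of_le_of_lt a1 h)]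
        · nlinarith [mul_pos ht.1 (sub_pos.2 h)]
    simp only [mul_zero, add_zero, integral_zero, zero_add] at h2
    rw [← sub_self t] at h2
    refine (h2.comp_sub_const t t).congr_of_eventuallyEq (Eventually.of_forall fun u => ?_)
    have e : (fun j i => w0 j i + u * (w1 j i - w0 j i)) =
        fun j i => w0 j i + t * (w1 j i - w0 j i) + (u - t) * (w1 j i - w0 j i) := by
      funext j i
      ring
    simp only [e]
  obtain ⟨t, ht, e⟩ := exists_hasDerivAt_eq_slope _ _ (zero_lt_one' ℝ) hc.continuousOn hd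
  refine ⟨t, ht, ?_⟩
  rw [e]
  simp

omit [IsProbabilityMeasure νD] [IsProbabilityMeasure ν] [Nonempty D] [Nonempty Cf]
  [StandardBorelSpace D] in
theorem Sp_Hv (x : D × Cf → I → ℝ) (w : ℕ → I → ℝ) :
    (Sp x).Hv k w = fld k (fun i c => x c i) w := by
  funext s
  simp [Rg.Hv, Rg.H, Rg.U, Sp, fld]

omit [IsProbabilityMeasure νD] [IsProbabilityMeasure ν] [Nonempty D] [Nonempty Cf]
  [StandardBorelSpace D] in
theorem Sp_ok {x : D × Cf → I → ℝ} (hx : ∀ i, BM fun c => x c i) : (Sp x).OK 1 := by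
  choose B hB using fun i => (hx i).2
  exact ⟨fun _ u => hasDerivAt_id u, fun _ u => hasDerivAt_const u _, fun _ _ => abs_one.le,
    fun _ _ => abs_zero.trans_le zero_le_one, fun i => (hx i).1, ∑ i, |B i|, fun i σ =>
      (hB i σ).trans ((le_abs_self _).trans (single_le_sum (f := fun i => |B i|)
        (fun _ _ => abs_nonneg _) (mem_univ i)))⟩

/-- derivative in the variances of linear fields -/
theorem fld_deriv (hk : 0 < k) (h0 : (DS k I νD ν).Lin H0) (hp : Free k p H0)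
    {u : D × Cf → ℝ} (hu : BM u) {e : I → D × Cf → ℝ} (he : ∀ i, BM (e i)) {w w' : ℕ → I → ℝ}
    (hw : ∀ j < k, ∀ i, w' j i ≠ 0 → 0 < w j i ∧ p i) :
    HasDerivAt (fun t => YD k νD ν fun s =>
      H0 s + t * u s.1 + fld k e (fun j i => w j i + t * w' j i) s)
      ((∫ s, u s.1 ∂mD k νD ν fun s => H0 s + fld k e w s) + (1 / 2) * ∑ j ∈ range k, ∑ i,
        w' j i * tl k νD ν (fun s => H0 s + fld k e w s) j fun c c' => e i c * e i c') 0 := by
  have hR := Sp_ok (x := fun c i => e i c) he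
  have h := GD_deriv hR hk h0 hp hu hw
  rw [dgi_eq hR hk h0] at h
  simp only [Sp_Hv] at h
  refine h.congr_deriv (congrArg _ ?_)
  rw [mul_sum]
  refine sum_congr rfl fun j _ => ?_
  rw [mul_sum]
  refine sum_congr rfl fun i _ => ?_
  simp only [tl, Rg.dg, Rg.ψ, Sp, mul_one, mul_zero, zero_add, sq]
  ring

end Vale.Agent.P166
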