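import Vale.Agent.P166.Defs
import Vale.Agent.P157.GSB
import Vale.Agent.P157.DL

/-! Systems with disorder: basic properties and changes of variables. -/

namespace Vale.Agent.P166

open MeasureTheory ProbabilityTheory Real Finset Matrix Filter Topology
open Vale.Agent.P157 (Sys St γ GS s0 YY mm pp sh DirD pull mrg Rg Sp νB xB)
open scoped ENNReal

theorem BM.const {C : Type} [MeasurableSpace C] (c : ℝ) : BM fun _ : C => c :=
  ⟨measurable_const, |c|, fun _ => le_rfl⟩

theorem BM.add {C : Type} [MeasurableSpace C] {f g : C → ℝ} (hf : BM f) (hg : BM g) :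
    BM fun c => f c + g c := by
  obtain ⟨A, hA⟩ := hf.2
  obtain ⟨B, hB⟩ := hg.2
  exact ⟨hf.1.add hg.1, A + B, fun c => (abs_add_le _ _).trans (add_le_add (hA c) (hB c))⟩

theorem BM.sub {C : Type} [MeasurableSpace C] {f g : C → ℝ} (hf : BM f) (hg : BM g) :
    BM fun c => f c - g c := by
  obtain ⟨A, hA⟩ := hf.2
  obtain ⟨B, hB⟩ := hg.2
  exact ⟨hf.1.sub hg.1, A + B, fun c => (abs_sub _ _).trans (add_le_add (hA c) (hB c))⟩

theorem BM.mul {C : Type} [MeasurableSpace C] {f g : C → ℝ} (hf : BM f) (hg : BM g) :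
    BM fun c => f c * g c := by
  obtain ⟨A, hA⟩ := hf.2
  obtain ⟨B, hB⟩ := hg.2
  refine ⟨hf.1.mul hg.1, A * B, fun c => ?_⟩
  rw [abs_mul]
  exact mul_le_mul (hA c) (hB c) (abs_nonneg _) ((abs_nonneg _).trans (hA c))

theorem BM.sum {C α : Type} [MeasurableSpace C] (A : Finset α) {f : α → C → ℝ}
    (hf : ∀ a ∈ A, BM (f a)) : BM fun c => ∑ a ∈ A, f a c := by
  classical
  induction A using Finset.induction_on with
  | empty => simpa using BM.const (C := C) 0
  | insert a A ha ih =>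
    simp only [sum_insert ha]
    exact (hf a (mem_insert_self _ _)).add (ih fun b hb => hf b (mem_insert_of_mem hb))

theorem BM.comp {C : Type} [MeasurableSpace C] {f : C → ℝ} (hf : BM f) {F : ℝ → ℝ}
    (hF : Continuous F) : BM fun c => F (f c) := by
  obtain ⟨A, hA⟩ := hf.2
  obtain ⟨B, hB⟩ := (isCompact_Icc (a := -A) (b := A)).exists_bound_of_continuousOn hF.continuousOn
  exact ⟨hF.measurable.comp hf.1, B, fun c => hB _ (abs_le.1 (hA c))⟩

theorem BM.comp_right {C C' : Type} [MeasurableSpace C] [MeasurableSpace C'] {f : C → ℝ}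
    (hf : BM f) {φ : C' → C} (hφ : Measurable φ) : BM fun c => f (φ c) := by
  obtain ⟨A, hA⟩ := hf.2
  exact ⟨hf.1.comp hφ, A, fun c => hA _⟩

/-- the pair law does not see the moves of its own levels -/
theorem dsa_inv_pr {S Ω : Type*} [MeasurableSpace S] [MeasurableSpace Ω] {Y : Sys S Ω}
    {H : S → ℝ} (hY : Y.OK) (hH : Y.Lin H) (hO : Y.Ow) (l n j : ℕ) :
    Y.Inv (l + n) j (Y.pr l n j H) := by
  intro i h1 h2 s w
  have hX := Sys.lin_X hY hH n (j + l)
  rcases lt_or_ge i (j + l) with hi | hi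
  · unfold Sys.pr
    rw [Sys.inv_m hY hX hO l j i h1 hi s w]
  have mφ : Measurable (fun s => Y.a i s w) :=
    (hY.meas_a i).comp (measurable_id.prodMk measurable_const)
  have hh : Sys.Hom Y Y (fun _ s => Y.a i s w) (fun _ => id) l j := by
    refine ⟨fun _ => mφ, fun _ _ _ => MeasurePreserving.id _, fun _ _ _ => rfl,
      fun i' _ hi' s w' => hO.2 i i' s w w' (by omega), 1 + Y.n i w, fun _ _ _ s => ?_⟩
    have a1 := hY.ν_a i s w
    have a2 := mul_nonneg (hY.n_nonneg i w) (hY.ν_nonneg s)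
    linarith
  have h3 := hh.m_map hY hY hX s
  have h4 : ∀ s, Y.X n (j + l) H (Y.a i s w) = Y.X n (j + l) H s := fun s =>
    Sys.inv_X hO _ _ i hi (by omega) s w
  simp only [h4] at h3
  unfold Sys.pr
  rw [← h3, ← Sys.mo_map_bind (Sys.measurable_mm hY hH _ _) (Sys.measurable_mm hY hH _ _) mφ
    measurable_id (fun a => ?_), Measure.map_id]
  rw [Measure.map_id, Sys.inv_m hY hH hO _ _ i hi (by omega) a w]

variable {I D Cf : Type} [Fintype I] [MeasurableSpace D] [MeasurableSpace Cf] {k : ℕ}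
  {νD : Measure D} {ν : Measure Cf} [IsProbabilityMeasure νD] [IsProbabilityMeasure ν]
  {H H' g h : St I (D × Cf) → ℝ}

theorem ds_ok (hk : 0 < k) : (DS k I νD ν).OK := by
  have hg := P157.gs_ok (I := I) (ν := νD.prod ν) hk
  refine ⟨hg.prob, fun j => ?_, hg.ζ_pos, hg.meas_ν, hg.ν_nonneg, hg.meas_n, hg.n_nonneg,
    fun j s w => ?_, hg.int_n⟩
  · simp only [DS]
    split_ifs
    · exact (measurable_snd.fst.fst.prodMk measurable_fst.fst.snd).prodMk
        (measurable_update'.comp (measurable_fst.snd.prodMk measurable_snd.snd))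
    · exact (measurable_fst.fst.fst.prodMk measurable_fst.fst.snd).prodMk
        (measurable_update'.comp (measurable_fst.snd.prodMk measurable_snd.snd))
    · exact (measurable_fst.fst.fst.prodMk measurable_snd.fst.snd).prodMk measurable_fst.snd
    · exact measurable_fst
  · refine le_trans (le_of_eq ?_) (hg.ν_a j s w)
    simp only [DS, GS]
    split_ifs <;> rfl

omit [IsProbabilityMeasure νD] [IsProbabilityMeasure ν] in
theorem ds_mono : (DS k I νD ν).Mono := P157.gs_mono (I := I) (k := k) (ν := νD.prod ν)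

omit [IsProbabilityMeasure νD] [IsProbabilityMeasure ν] in
theorem ds_ow : (DS k I νD ν).Ow := by
  constructor
  · intro j s w w'
    simp only [DS]
    split_ifs <;> simp
  · intro j j' s w w' hne
    simp only [DS]
    split_ifs <;> first | rfl | omega | rw [Function.update_comm hne]

omit [IsProbabilityMeasure νD] [IsProbabilityMeasure ν] in
theorem ds_lin_iff (ν' : Measure (D × Cf)) : (DS k I νD ν).Lin H ↔ (GS k I ν').Lin H := Iff.rfl
omit [IsProbabilityMeasure νD] [IsProbabilityMeasure ν] in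
theorem ds_ex_iff (ν' : Measure (D × Cf)) : (DS k I νD ν).Ex H ↔ (GS k I ν').Ex H := Iff.rfl
theorem BM.lin (hk : 0 < k) {u : D × Cf → ℝ} (hu : BM u) :
    (DS k I νD ν).Lin fun s => u s.1 := by
  obtain ⟨B, hB⟩ := hu.2
  exact Sys.Lin.of_bdd (ds_ok hk) (hu.1.comp measurable_fst) B fun _ => hB _

theorem BM.ex (hk : 0 < k) {u : D × Cf → ℝ} (hu : BM u) : (DS k I νD ν).Ex fun s => u s.1 :=
  (hu.lin hk).ex (ds_ok hk)

theorem lin_coordD (hk : 0 < k) {j : ℕ} (hj : j < k) (i : I) :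
    (DS k I νD ν).Lin fun s => s.2 j i :=
  (ds_lin_iff (νD.prod ν)).2 (P157.lin_coord hk hj i)

theorem BM.mul_lin (hk : 0 < k) {u : D × Cf → ℝ} (hu : BM u) (hH : (DS k I νD ν).Lin H) :
    (DS k I νD ν).Lin fun s => u s.1 * H s := by
  obtain ⟨B, hB⟩ := hu.2
  obtain ⟨C, -, hC⟩ := hH.bd (ds_ok hk)
  refine ⟨(hu.1.comp measurable_fst).mul hH.1, B * C, fun s => ?_⟩
  rw [abs_mul, mul_assoc]
  exact mul_le_mul (hB _) (hC s) (abs_nonneg _) ((abs_nonneg _).trans (hB s.1))

theorem lin_comp (hk : 0 < k) (hH : (DS k I νD ν).Lin H) {F : ℝ → ℝ} (hF : Measurable F) {C : ℝ}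
    (hC : ∀ u, |F u| ≤ C * (1 + |u|)) : (DS k I νD ν).Lin fun s => F (H s) := by
  obtain ⟨B, h0, hB⟩ := hH.bd (ds_ok hk)
  have hC0 : 0 ≤ C := by simpa using (abs_nonneg _).trans (hC 0)
  refine ⟨hF.comp hH.1, C * (1 + B), fun s => (hC _).trans ?_⟩
  rw [mul_assoc]
  refine mul_le_mul_of_nonneg_left ?_ hC0
  have a1 := hB s
  have a2 := (ds_ok (I := I) (νD := νD) (ν := ν) hk).ν_nonneg s
  linarith

theorem lin_fld (hk : 0 < k) {e : I → D × Cf → ℝ} (he : ∀ i, BM (e i)) (w : ℕ → I → ℝ) :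
    (DS k I νD ν).Lin (fld k e w) :=
  Sys.Lin.sum (ds_ok hk) _ fun _ hj => Sys.Lin.sum (ds_ok hk) _ fun i _ =>
    ((BM.const _).mul (he i)).mul_lin hk (lin_coordD hk (mem_range.1 hj) i)

omit [IsProbabilityMeasure νD] [IsProbabilityMeasure ν] in
theorem bm_fvar {e : I → D × Cf → ℝ} (he : ∀ i, BM (e i)) (w : ℕ → I → ℝ) :
    BM (fvar k e w) :=
  BM.sum _ fun _ _ => BM.sum _ fun i _ => (BM.const _).mul ((he i).comp (continuous_pow 2))

section Free

variable {C : Type} {p : I → Prop} [DecidablePred p] {F G : St I C → ℝ}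

omit [Fintype I] in
theorem Free.cfg (u : C → ℝ) : Free k p fun s : St I C => u s.1 := fun _ _ => rfl

omit [Fintype I] in
theorem Free.coord {i : I} (hi : ¬p i) (j : ℕ) : Free k p fun s : St I C => s.2 j i :=
  fun _ _ => dif_neg fun h => hi h.2

omit [Fintype I] in
theorem Free.comp₂ (hF : Free k p F) (hG : Free k p G) (φ : ℝ → ℝ → ℝ) :
    Free k p fun s => φ (F s) (G s) := fun s u => by
  show φ (F (mrg k p s u)) (G (mrg k p s u)) = _
  rw [hF s u, hG s u]

omit [Fintype I] in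
theorem Free.sum {α : Type} (A : Finset α) {F : α → St I C → ℝ} (hF : ∀ a ∈ A, Free k p (F a)) :
    Free k p fun s => ∑ a ∈ A, F a s := fun s u => sum_congr rfl fun a ha => hF a ha s u

omit [Fintype I] in
theorem dsa_free (hF : Free k p F) {s s' : St I C} (h1 : s'.1 = s.1)
    (h2 : ∀ j i, ¬(j < k ∧ p i) → s'.2 j i = s.2 j i) : F s' = F s := by
  rw [← hF s fun a => s'.2 a.1 a.2]
  congr 1
  refine Prod.ext h1 ?_
  funext j i
  simp only [mrg]
  split_ifs with h
  · rfl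
  · exact h2 j i h

omit [Fintype I] in
theorem Free.mono (hF : Free k p F) {p' : I → Prop} [DecidablePred p'] (h : ∀ i, p' i → p i) :
    Free k p' F := fun _ _ => dsa_free hF rfl fun _ i hi => dif_neg fun h' => hi ⟨h'.1, h i h'.2⟩

theorem free_fld {e : I → C → ℝ} {w : ℕ → I → ℝ}
    (h : ∀ j < k, ∀ i, p i → w j i = 0 ∨ ∀ c, e i c = 0) : Free k p (fld k e w) := by
  intro s u
  refine sum_congr rfl fun j hj => sum_congr rfl fun i _ => ?_
  by_cases hi : p i
  · rcases h j (mem_range.1 hj) i hi with h0 | h0 <;> simp [h0]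
  · exact congrArg _ (Free.coord hi j s u)

omit [Fintype I] in
theorem Free.dirD [DecidableEq I] (hF : Free k p F) {j : ℕ} (hj : j < k) {i : I} (hi : p i) :
    DirD j i F fun _ => 0 := by
  intro s
  have e : ∀ t, F (sh j i t s) = F s := fun t => dsa_free hF rfl fun j' i' h => by
    have : ¬(j' = j ∧ i' = i) := fun h' => h (by rw [h'.1, h'.2]; exact ⟨hj, hi⟩)
    simp [sh, this]
  simp only [e]
  exact hasDerivAt_const _ _

end Free

variable [Nonempty D] [Nonempty Cf]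

theorem mD_prob (hk : 0 < k) (hH : (DS k I νD ν).Lin H) : IsProbabilityMeasure (mD k νD ν H) :=
  Sys.m_prob (ds_ok hk) hH _ _ _

theorem pD_prob (hk : 0 < k) (hH : (DS k I νD ν).Lin H) (l : ℕ) :
    IsProbabilityMeasure (pD k νD ν H l) := Sys.pr_prob (ds_ok hk) hH _ _ _ _

theorem integrable_mD (hk : 0 < k) (hH : (DS k I νD ν).Lin H) (hg : (DS k I νD ν).Ex g) :
    Integrable g (mD k νD ν H) := hg.integrable_m (ds_ok hk) hH _ _ _

theorem integrable_pD (hk : 0 < k) (hH : (DS k I νD ν).Lin H)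
    {G : St I (D × Cf) × St I (D × Cf) → ℝ} (hG : (DS k I νD ν).Ex2 G) (l : ℕ) :
    Integrable G (pD k νD ν H l) := hG.integrable_pr (ds_ok hk) hH _ _ _ _

theorem pD_map_fst (hk : 0 < k) (hH : (DS k I νD ν).Lin H) {l : ℕ} (hl : l ≤ k + 1) :
    (pD k νD ν H l).map Prod.fst = mD k νD ν H := by
  unfold pD mD
  rw [Sys.pr_map_fst (ds_ok hk) hH, Nat.add_sub_cancel' hl]

theorem pD_map_snd (hk : 0 < k) (hH : (DS k I νD ν).Lin H) {l : ℕ} (hl : l ≤ k + 1) :
    (pD k νD ν H l).map Prod.snd = mD k νD ν H := by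
  unfold pD mD
  rw [Sys.pr_map_snd (ds_ok hk) hH, Nat.add_sub_cancel' hl]

theorem pD_top (hk : 0 < k) (hH : (DS k I νD ν).Lin H) :
    pD k νD ν H (k + 1) = (mD k νD ν H).map fun s => (s, s) := by
  have _ := hk
  have _ := hH
  unfold pD mD Sys.pr
  rw [Nat.sub_self]
  simp only [Sys.X, Sys.m, Measure.dirac_prod_dirac]
  exact Measure.bind_dirac_eq_map _ (measurable_id.prodMk measurable_id)

theorem pD_mono (hk : 0 < k) (hH : (DS k I νD ν).Lin H) (hg : (DS k I νD ν).Ex g) {l l' : ℕ}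
    (hl : l ≤ l') (hl' : l' ≤ k + 1) :
    ∫ p, g p.1 * g p.2 ∂pD k νD ν H l ≤ ∫ p, g p.1 * g p.2 ∂pD k νD ν H l' := by
  induction l', hl using Nat.le_induction with
  | base => exact le_rfl
  | succ n _ ih =>
    refine (ih (by omega)).trans ?_
    unfold pD
    rw [show k + 1 - n = k + 1 - (n + 1) + 1 by omega]
    exact Sys.pr_mono (ds_ok hk) hH hg _ _ _ _

theorem pD_nonneg (hk : 0 < k) (hH : (DS k I νD ν).Lin H) (hg : (DS k I νD ν).Ex g) (l : ℕ) :
    0 ≤ ∫ p, g p.1 * g p.2 ∂pD k νD ν H l := Sys.pr_nonneg (ds_ok hk) hH hg _ _ _ _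

theorem pD_le_sq (hk : 0 < k) (hH : (DS k I νD ν).Lin H) (hg : (DS k I νD ν).Ex g) {l : ℕ}
    (hl : l ≤ k + 1) : ∫ p, g p.1 * g p.2 ∂pD k νD ν H l ≤ ∫ s, g s ^ 2 ∂mD k νD ν H := by
  refine (pD_mono hk hH hg hl le_rfl).trans (le_of_eq ?_)
  rw [pD_top hk hH, integral_map (measurable_id'.prodMk measurable_id').aemeasurable
    (f := fun p => g p.1 * g p.2)
    ((hg.1.comp measurable_fst).mul (hg.1.comp measurable_snd)).aestronglyMeasurable]
  simp only [pow_two]

/-- replicas that share level `0` share the disorder -/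
theorem pD_ae_dis (hk : 0 < k) (hH : (DS k I νD ν).Lin H) {l : ℕ} (h1 : 1 ≤ l) (hl : l ≤ k + 1)
    {u : D → ℝ} (hu : Measurable u) : ∀ᵐ z ∂pD k νD ν H l, u z.1.1.1 = u z.2.1.1 := by
  have _ := hl
  have hY : (DS k I νD ν).OK := ds_ok hk
  have mg : Measurable fun s : St I (D × Cf) => u s.1.1 := hu.comp measurable_fst.fst
  have hi : (DS k I νD ν).Inv (k + 1 - l) (0 + l) fun s => u s.1.1 := by
    intro i a _ s w
    simp only [DS]
    split_ifs <;> first | rfl | omega
  refine Measure.ae_comp_of_ae_ae (κ := ⟨_, Sys.measurable_mm hY hH (k + 1 - l) (0 + l)⟩)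
    (measurableSet_eq_fun (mg.comp measurable_fst) (mg.comp measurable_snd))
    (Eventually.of_forall fun s => ?_)
  have := Sys.m_prob hY hH (k + 1 - l) (0 + l) s
  have h := hi.ae hY hH mg s
  filter_upwards [Measure.quasiMeasurePreserving_fst.ae h,
    Measure.quasiMeasurePreserving_snd.ae h] with z a b
  rw [a, b]

theorem YD_mono (hk : 0 < k) (hH : (DS k I νD ν).Lin H) (hH' : (DS k I νD ν).Lin H')
    (h : ∀ s, H s ≤ H' s) : YD k νD ν H ≤ YD k νD ν H' :=
  Sys.X_mono (ds_ok hk) hH hH' h _ _ _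

theorem YD_add_const (hk : 0 < k) (hH : (DS k I νD ν).Lin H) (c : ℝ) :
    YD k νD ν (fun s => H s + c) = YD k νD ν H + c :=
  congrFun (Sys.X_add_const (ds_ok hk) hH c _ _) _

theorem mD_add_const (hk : 0 < k) (hH : (DS k I νD ν).Lin H) (c : ℝ) :
    mD k νD ν (fun s => H s + c) = mD k νD ν H :=
  congrFun (Sys.m_add_const (ds_ok hk) hH c _ _) _

theorem le_YD_sub (hk : 0 < k) (hH : (DS k I νD ν).Lin H) (hH' : (DS k I νD ν).Lin H') :
    ∫ s, (H' s - H s) ∂mD k νD ν H ≤ YD k νD ν H' - YD k νD ν H :=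
  Sys.le_X_sub (ds_ok hk) hH hH' _ _ _

theorem YD_sub_le (hk : 0 < k) (hH : (DS k I νD ν).Lin H) (hH' : (DS k I νD ν).Lin H') :
    YD k νD ν H' - YD k νD ν H ≤ log (∫ s, exp (H' s - H s) ∂mD k νD ν H) :=
  Sys.X_sub_le (ds_ok hk) ds_mono.2 hH hH' _ _ _

theorem abs_YD_sub_le (hk : 0 < k) (hH : (DS k I νD ν).Lin H) (hH' : (DS k I νD ν).Lin H') {C : ℝ}
    (h : ∀ s, |H' s - H s| ≤ C) : |YD k νD ν H' - YD k νD ν H| ≤ C :=
  Sys.dl_abs_le (ds_ok hk) hH hH' h _ _ _

theorem abs_YD_sub_le_exp (hk : 0 < k) (hH : (DS k I νD ν).Lin H) (hH' : (DS k I νD ν).Lin H')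
    {ε : ℝ} (h : ∫ s, exp (4 * |H' s - H s|) ∂mD k νD ν H ≤ 1 + ε) :
    |YD k νD ν H' - YD k νD ν H| ≤ ε := by
  have a1 := Sys.dl_exp_le (ds_ok hk) ds_mono hH hH' (k + 1) 0 (s0 I (D × Cf))
  have a2 := add_one_le_exp (4 * |YD k νD ν H' - YD k νD ν H|)
  have a3 := a2.trans (a1.trans h)
  have a4 := abs_nonneg (YD k νD ν H' - YD k νD ν H)
  linarith

section Hom

variable {I' D' Cf' : Type} [Fintype I'] [MeasurableSpace D'] [MeasurableSpace Cf']
  {νD' : Measure D'} {ν' : Measure Cf'} [IsProbabilityMeasure νD'] [IsProbabilityMeasure ν']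
  {F : D' × (I' → ℝ) → D} {G : Cf' → Cf} {L : (I' → ℝ) → I → ℝ}

omit [Nonempty D] [Nonempty Cf] in
theorem DHom.meas (hh : DHom νD' ν' νD ν F G L) : Measurable (dmap F G L) := by
  have mF : Measurable F := hh.mF.measurable.fst
  have mG := hh.mG.measurable
  have : Nonempty D' := nonempty_of_isProbabilityMeasure νD'
  have mL : Measurable L :=
    hh.mF.measurable.snd.comp (measurable_prodMk_left (x := Classical.arbitrary D'))
  unfold dmap
  fun_prop

omit [Nonempty D] [Nonempty Cf] in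
theorem DHom.hom (hh : DHom νD' ν' νD ν F G L) (hk : 0 < k) (n j : ℕ) :
    Sys.Hom (DS k I' νD' ν') (DS k I νD ν) (fun _ => dmap F G L)
      (fun _ w => ((F (w.1.1, w.2), G w.1.2), L w.2)) n j := by
  obtain ⟨C, hC⟩ := hh.bd
  refine ⟨fun _ => hh.meas, fun _ _ _ => ?_, fun _ _ _ => rfl, fun i _ _ s w => ?_, |C|,
    fun _ _ _ s => ?_⟩
  · have h1 := (measurePreserving_prodAssoc νD' (γ I') ν').symm.comp
      (((MeasurePreserving.id νD').prod Measure.measurePreserving_swap).comp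
        (measurePreserving_prodAssoc νD' ν' (γ I')))
    have h2 := (measurePreserving_prodAssoc νD ν (γ I)).symm.comp
      (((MeasurePreserving.id νD).prod Measure.measurePreserving_swap).comp
        (measurePreserving_prodAssoc νD (γ I) ν))
    exact h2.comp ((hh.mF.prod hh.mG).comp h1)
  · have e : (fun j => L (Function.update s.2 i w.2 j)) =
        Function.update (fun j => L (s.2 j)) i (L w.2) := by
      funext j'
      by_cases h : j' = i
      · subst h; simp
      · simp [Function.update_of_ne h]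
    simp only [DS, dmap]
    split_ifs with h1 h2 h3
    · subst h2
      simp only [e, Function.update_self]
    · simp only [e, Function.update_of_ne (Ne.symm h2)]
    · rfl
    · rfl
  · have a1 : ∑ j ∈ range k, ∑ i, |L (s.2 j) i| ≤ ∑ j ∈ range k, |C| * ∑ i, |s.2 j i| :=
      sum_le_sum fun j _ => (hC _).trans
        (mul_le_mul_of_nonneg_right (le_abs_self C) (by positivity))
    rw [← mul_sum] at a1
    have a2 := abs_nonneg C
    have _ := hk
    simp only [DS, dmap]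
    linarith

omit [Nonempty D] [Nonempty Cf] in
theorem DHom.lin (hh : DHom νD' ν' νD ν F G L) (hk : 0 < k) (hH : (DS k I νD ν).Lin H) :
    (DS k I' νD' ν').Lin fun s => H (dmap F G L s) :=
  (hh.hom hk 0 0).lin (ds_ok hk) (ds_ok hk) le_rfl le_rfl hH

omit [Nonempty D] [Nonempty Cf] in
theorem DHom.ex (hh : DHom νD' ν' νD ν F G L) (hk : 0 < k) (hg : (DS k I νD ν).Ex g) :
    (DS k I' νD' ν').Ex fun s => g (dmap F G L s) :=
  (hh.hom hk 0 0).ex (ds_ok hk) le_rfl le_rfl hg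

omit [Nonempty D] [Nonempty Cf] in
/-- independent maps of the disorder and of the fields -/
theorem DHom.of_prod {F0 : D' → D} (hF : MeasurePreserving F0 νD' νD)
    (hG : MeasurePreserving G ν' ν) (hL : MeasurePreserving L (γ I') (γ I)) (h0 : L 0 = 0)
    (hb : ∃ C, ∀ z, ∑ i, |L z i| ≤ C * ∑ i, |z i|) :
    DHom νD' ν' νD ν (fun z => F0 z.1) G L :=
  ⟨hF.prod hL, hG, h0, hb⟩

omit [Nonempty D] [Nonempty Cf] in
/-- selection of coordinates -/
theorem DHom.of_inj {F0 : D' → D} (hF : MeasurePreserving F0 νD' νD)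
    (hG : MeasurePreserving G ν' ν) {e : I → I'} (he : Function.Injective e) :
    DHom νD' ν' νD ν (fun z => F0 z.1) G fun z i => z (e i) := by
  classical
  refine DHom.of_prod hF hG (P157.measurePreserving_coord he) rfl ⟨1, fun z => ?_⟩
  rw [one_mul, ← sum_image (s := univ) (g := e) (f := fun i => |z i|) (fun _ _ _ _ h => he h)]
  exact sum_le_sum_of_subset_of_nonneg (subset_univ _) (fun _ _ _ => abs_nonneg _)

variable [Nonempty D'] [Nonempty Cf']

theorem DHom.start (hh : DHom νD' ν' νD ν F G L) (hk : 0 < k) {β : Type*}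
    {Φ : St I (D × Cf) → β} (hΦ : (DS k I νD ν).Inv (k + 1) 0 Φ) :
    Φ (dmap F G L (s0 I' (D' × Cf'))) = Φ (s0 I (D × Cf)) := by
  have h1 := hΦ 0 le_rfl (by omega) (s0 I (D × Cf)) ((dmap F G L (s0 I' (D' × Cf'))).1, 0)
  have h2 := hΦ k (by omega) (by omega) ((DS k I νD ν).a 0 (s0 I (D × Cf))
    ((dmap F G L (s0 I' (D' × Cf'))).1, 0)) ((dmap F G L (s0 I' (D' × Cf'))).1, 0)
  refine Eq.trans ?_ (h2.trans h1)
  congr 1
  simp only [DS, hk, lt_irrefl, if_true, if_false]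
  refine Prod.ext rfl ?_
  funext j
  simp [dmap, s0, hh.L0]

theorem DHom.YD_eq (hh : DHom νD' ν' νD ν F G L) (hk : 0 < k) (hH : (DS k I νD ν).Lin H) :
    YD k νD' ν' (fun s => H (dmap F G L s)) = YD k νD ν H :=
  ((hh.hom hk (k + 1) 0).X_eq (ds_ok hk) hH _).trans (hh.start hk (Sys.inv_X ds_ow (k + 1) 0))

theorem DHom.mD_map (hh : DHom νD' ν' νD ν F G L) (hk : 0 < k) (hH : (DS k I νD ν).Lin H) :
    (mD k νD' ν' fun s => H (dmap F G L s)).map (dmap F G L) = mD k νD ν H :=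
  ((hh.hom hk (k + 1) 0).m_map (ds_ok hk) (ds_ok hk) hH _).trans
    (hh.start hk (Sys.inv_m (ds_ok hk) hH ds_ow (k + 1) 0))

theorem DHom.pD_map (hh : DHom νD' ν' νD ν F G L) (hk : 0 < k) (hH : (DS k I νD ν).Lin H) {l : ℕ}
    (hl : l ≤ k) : (pD k νD' ν' (fun s => H (dmap F G L s)) l).map
      (Prod.map (dmap F G L) (dmap F G L)) = pD k νD ν H l := by
  have hi := dsa_inv_pr (ds_ok hk) hH ds_ow l (k + 1 - l) 0
  rw [show l + (k + 1 - l) = k + 1 by omega] at hi
  exact ((hh.hom hk (l + (k + 1 - l)) 0).pr_map (ds_ok hk) (ds_ok hk) hH _).trans (hh.start hk hi)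

theorem DHom.int_m (hh : DHom νD' ν' νD ν F G L) (hk : 0 < k) (hH : (DS k I νD ν).Lin H)
    (hg : Measurable g) :
    ∫ s, g (dmap F G L s) ∂mD k νD' ν' (fun s => H (dmap F G L s)) = ∫ s, g s ∂mD k νD ν H := by
  rw [← hh.mD_map hk hH, integral_map hh.meas.aemeasurable hg.aestronglyMeasurable]

theorem DHom.int_p (hh : DHom νD' ν' νD ν F G L) (hk : 0 < k) (hH : (DS k I νD ν).Lin H) {l : ℕ}
    (hl : l ≤ k) {u : St I (D × Cf) × St I (D × Cf) → ℝ} (hu : Measurable u) :
    ∫ z, u (dmap F G L z.1, dmap F G L z.2) ∂pD k νD' ν' (fun s => H (dmap F G L s)) l =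
      ∫ z, u z ∂pD k νD ν H l := by
  rw [← hh.pD_map hk hH hl, integral_map (hh.meas.prodMap hh.meas).aemeasurable
    hu.aestronglyMeasurable]
  rfl

theorem DHom.tl_eq {F0 : D' → D} (hh : DHom νD' ν' νD ν (fun z => F0 z.1) G L) (hk : 0 < k)
    (hH : (DS k I νD ν).Lin H) {u : D × Cf → D × Cf → ℝ} (hu : Measurable (Function.uncurry u))
    (j : ℕ) : tl k νD' ν' (fun s => H (dmap (fun z => F0 z.1) G L s)) j
      (fun c c' => u (F0 c.1, G c.2) (F0 c'.1, G c'.2)) = tl k νD ν H j u := by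
  unfold tl
  rw [← hh.int_m hk hH (g := fun s => u s.1 s.1) (hu.comp (measurable_fst.prodMk measurable_fst))]
  congr 2
  refine sum_congr rfl fun l hl => ?_
  exact hh.int_p hk hH (mem_Ioo.1 hl).2.le (u := fun z => u z.1.1 z.2.1)
    (hu.comp (measurable_fst.fst.prodMk measurable_snd.fst))

theorem DHom.serr_eq {F0 : D' → D} (hh : DHom νD' ν' νD ν (fun z => F0 z.1) G L) (hk : 0 < k)
    (hH : (DS k I νD ν).Lin H) {u : D × Cf → D × Cf → ℝ} (hu : Measurable (Function.uncurry u))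
    (A : ℕ → ℝ) : serr k νD' ν' (fun s => H (dmap (fun z => F0 z.1) G L s))
      (fun c c' => u (F0 c.1, G c.2) (F0 c'.1, G c'.2)) A = serr k νD ν H u A := by
  unfold serr
  rw [← hh.int_m hk hH (g := fun s => |u s.1 s.1 - A k|) (continuous_abs.measurable.comp
    ((hu.comp (measurable_fst.prodMk measurable_fst)).sub_const _))]
  congr 2
  refine sum_congr rfl fun l hl => ?_
  exact hh.int_p hk hH (mem_Ioo.1 hl).2.le (u := fun z => |u z.1.1 z.2.1 - A l|)
    (continuous_abs.measurable.comp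
      ((hu.comp (measurable_fst.fst.prodMk measurable_snd.fst)).sub_const _))

end Hom

end Vale.Agent.P166
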