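import Vale.Agent.P166.DSA
import Vale.Agent.P157.Rest
import Vale.Agent.P157.SyncA

/-! The disorder as a function of one Gaussian coordinate: transfer of the Gaussian calculus. -/

namespace Vale.Agent.P166

open MeasureTheory ProbabilityTheory Real Finset Matrix Filter Topology
open Vale.Agent.P157 (Sys St γ GS s0 YY mm pp sh DirD pull mrg Rg Sp νB xB)
open scoped ENNReal

open Vale.Agent.P157 (Kr)

theorem dsb_cdf (μ : Measure ℝ) [IsProbabilityMeasure μ] [NullSingletonClass μ] {t : ℝ} (h1 : t ≤ 1) :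
    μ {x | cdf μ x ≤ t} = ENNReal.ofReal t := by
  have hm := monotone_cdf μ
  rcases Set.eq_empty_or_nonempty {x | cdf μ x ≤ t} with h | h
  · rw [h, measure_empty, eq_comm, ENNReal.ofReal_eq_zero]
    exact ge_of_tendsto' (tendsto_cdf_atBot μ) fun x =>
      (not_le.1 fun hx => Set.eq_empty_iff_forall_notMem.1 h x hx).le
  by_cases hb : BddAbove {x | cdf μ x ≤ t}
  · have hl := isLUB_csSup h hb
    generalize sSup {x | cdf μ x ≤ t} = a at hl
    have a1 : Set.Iio a ⊆ {x | cdf μ x ≤ t} := fun x hx => by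
      obtain ⟨y, hy, hxy, -⟩ := hl.exists_between hx
      exact (hm hxy.le).trans hy
    have a2 : t ≤ cdf μ a := ge_of_tendsto
      (((cdf μ).right_continuous a).mono Set.Ioi_subset_Ici_self).tendsto
      (eventually_nhdsWithin_of_forall fun x hx => (not_le.1 fun hx' => (hl.1 hx').not_gt hx).le)
    have a3 : Function.leftLim (cdf μ) a ≤ t :=
      le_of_tendsto (hm.tendsto_leftLim a) (eventually_nhdsWithin_of_forall a1)
    have a4 := (cdf μ).measure_singleton a
    rw [measure_cdf, measure_singleton, eq_comm, ENNReal.ofReal_eq_zero] at a4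
    rw [← le_antisymm (by linarith) a2, ofReal_cdf]
    rw [le_antisymm (by linarith : cdf μ a ≤ t) a2]
    exact le_antisymm (measure_mono hl.1)
      ((measure_congr Iio_ae_eq_Iic).symm.trans_le (measure_mono a1))
  · have a1 : ∀ x, cdf μ x ≤ t := fun x => by
      obtain ⟨y, hy, hxy⟩ := not_bddAbove_iff.1 hb x
      exact (hm hxy.le).trans hy
    rw [Set.eq_univ_of_forall (s := {x | cdf μ x ≤ t}) a1, measure_univ,
      le_antisymm h1 (le_of_tendsto' (tendsto_cdf_atTop μ) a1), ENNReal.ofReal_one]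

theorem exists_gauss_map {D : Type} [MeasurableSpace D] [StandardBorelSpace D] [Nonempty D]
    (νD : Measure D) [IsProbabilityMeasure νD] :
    ∃ Φ : ℝ → D, MeasurePreserving Φ (gaussianReal 0 1) νD := by
  obtain ⟨f, hf, hf'⟩ := νD.exists_measurable_map_eq
  have := nullSingletonClass_gaussianReal (μ := 0) (one_ne_zero (α := NNReal))
  have hm : Measurable fun x => (⟨cdf (gaussianReal 0 1) x, cdf_nonneg _ x, cdf_le_one _ x⟩ :
    unitInterval) := (monotone_cdf _).measurable.subtype_mk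
  refine ⟨_, (MeasurePreserving.mk hf hf').comp ⟨hm, Measure.ext_of_Iic _ _ fun t => ?_⟩⟩
  rw [Measure.map_apply hm measurableSet_Iic, unitInterval.volume_Iic]
  exact dsb_cdf _ t.2.2

/-- the disorder is read off the extra coordinate at level `0` -/
def br {I D Cf : Type} (Φ : ℝ → D) (s : St (Option I) Cf) : St I (D × Cf) :=
  ((Φ (s.2 0 none), s.1), fun j i => s.2 j (some i))

variable {I D Cf : Type} [Fintype I] [MeasurableSpace D] [MeasurableSpace Cf] {k : ℕ}
  {νD : Measure D} {ν : Measure Cf} [IsProbabilityMeasure νD] [IsProbabilityMeasure ν]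
  {H H' g g' : St I (D × Cf) → ℝ} [Nonempty D] [Nonempty Cf]

section Br

variable {Φ : ℝ → D}

omit [Fintype I] [Nonempty D] [Nonempty Cf] in
theorem dsb_meas (hΦ : Measurable Φ) : Measurable (br Φ : St (Option I) Cf → St I (D × Cf)) := by
  unfold br
  fun_prop

omit [Nonempty D] [Nonempty Cf] [IsProbabilityMeasure νD] [IsProbabilityMeasure ν] in
theorem dsb_ν (s : St (Option I) Cf) : (DS k I νD ν).ν (br Φ s) ≤ (GS k (Option I) ν).ν s := by
  simp only [DS, GS, br]
  refine sum_le_sum fun j _ => ?_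
  rw [Fintype.sum_option]
  exact le_add_of_nonneg_left (abs_nonneg _)

omit [Nonempty D] [Nonempty Cf] in
theorem dsb_hom (hk : 0 < k) (hΦ : MeasurePreserving Φ (gaussianReal 0 1) νD) (n j : ℕ) :
    Sys.Hom (GS k (Option I) ν) (DS k I νD ν) (fun _ => br Φ)
      (fun _ w => ((Φ (w.2 none), w.1), fun i => w.2 (some i))) n j := by
  refine ⟨fun _ => dsb_meas hΦ.measurable, fun _ _ _ => ?_, fun _ _ _ => rfl,
    fun i _ _ s w => ?_, 1, fun _ _ _ s => by linarith [dsb_ν (k := k) (νD := νD) (ν := ν) (Φ := Φ) s]⟩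
  · have h0 : MeasurePreserving (fun v : Option I → ℝ => (v none, fun i => v (some i)))
        (γ (Option I)) ((gaussianReal 0 1).prod (γ I)) := by
      have h : MeasurePreserving (MeasurableEquiv.piOptionEquivProd fun _ : Option I => ℝ).symm
          ((γ I).prod (gaussianReal 0 1)) (γ (Option I)) :=
        ⟨MeasurableEquiv.measurable _,
          Measure.pi_map_piOptionEquivProd fun _ : Option I => gaussianReal 0 1⟩
      exact Measure.measurePreserving_swap.comp h.symm
    have h1 := (MeasurePreserving.id ν).prod ((hΦ.prod (MeasurePreserving.id (γ I))).comp h0)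
    exact (Measure.measurePreserving_swap.prod (MeasurePreserving.id (γ I))).comp
      ((measurePreserving_prodAssoc ν νD (γ I)).symm.comp h1)
  · have e : (fun j' i' => Function.update s.2 i w.2 j' (some i')) =
        Function.update (fun j' i' => s.2 j' (some i')) i fun i' => w.2 (some i') := by
      funext j'
      by_cases h : j' = i
      · subst h; simp
      · simp [Function.update_of_ne h]
    simp only [GS, DS, br]
    split_ifs with h1 h2 h3
    · subst h2
      simp only [e, Function.update_self]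
    · simp only [e, Function.update_of_ne (Ne.symm h2)]
    · rfl
    · rfl

omit [IsProbabilityMeasure νD] [IsProbabilityMeasure ν] in
theorem dsb_start (hk : 0 < k) {β : Type*} {F : St I (D × Cf) → β}
    (hF : (DS k I νD ν).Inv (k + 1) 0 F) (c : D × Cf) : F (c, 0) = F (s0 I (D × Cf)) := by
  have h1 := hF 0 le_rfl (by omega) (s0 I (D × Cf)) (c, 0)
  have h2 := hF k (by omega) (by omega) ((DS k I νD ν).a 0 (s0 I (D × Cf)) (c, 0)) (c, 0)
  refine Eq.trans ?_ (h2.trans h1)
  congr 1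
  simp only [DS, hk, lt_irrefl, if_true, if_false]
  refine Prod.ext rfl ?_
  funext j
  simp [s0]

omit [Nonempty D] [Nonempty Cf] in
theorem lin_br (hk : 0 < k) (hΦ : Measurable Φ) (hH : (DS k I νD ν).Lin H) :
    (GS k (Option I) ν).Lin fun s => H (br Φ s) := by
  obtain ⟨C, h0, hC⟩ := hH.bd (ds_ok hk)
  exact ⟨hH.1.comp (dsb_meas hΦ), C, fun s => (hC _).trans
    (mul_le_mul_of_nonneg_left (add_le_add le_rfl (dsb_ν s)) h0)⟩
omit [Nonempty D] [Nonempty Cf] in
theorem ex_br (hk : 0 < k) (hΦ : Measurable Φ) (hg : (DS k I νD ν).Ex g) :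
    (GS k (Option I) ν).Ex fun s => g (br Φ s) := by
  obtain ⟨C, h0, hC⟩ := hg.bd (ds_ok hk)
  exact ⟨hg.1.comp (dsb_meas hΦ), C, fun s => (hC _).trans
    (mul_le_mul_of_nonneg_left (exp_le_exp.2 (mul_le_mul_of_nonneg_left (dsb_ν s) h0)) h0)⟩
theorem YY_br (hk : 0 < k) (hΦ : MeasurePreserving Φ (gaussianReal 0 1) νD)
    (hH : (DS k I νD ν).Lin H) : YY k ν (fun s => H (br Φ s)) = YD k νD ν H :=
  ((dsb_hom hk hΦ (k + 1) 0).X_eq (ds_ok hk) hH _).trans
    (dsb_start hk (Sys.inv_X ds_ow (k + 1) 0) _)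
theorem mm_br (hk : 0 < k) (hΦ : MeasurePreserving Φ (gaussianReal 0 1) νD)
    (hH : (DS k I νD ν).Lin H) : (mm k ν fun s => H (br Φ s)).map (br Φ) = mD k νD ν H :=
  ((dsb_hom hk hΦ (k + 1) 0).m_map (P157.gs_ok hk) (ds_ok hk) hH _).trans
    (dsb_start hk (Sys.inv_m (ds_ok hk) hH ds_ow (k + 1) 0) _)
theorem pp_br (hk : 0 < k) (hΦ : MeasurePreserving Φ (gaussianReal 0 1) νD)
    (hH : (DS k I νD ν).Lin H) {l : ℕ} (hl : l ≤ k) :
    (pp k ν (fun s => H (br Φ s)) l).map (Prod.map (br Φ) (br Φ)) = pD k νD ν H l := by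
  have hi := dsa_inv_pr (ds_ok hk) hH ds_ow l (k + 1 - l) 0
  rw [show l + (k + 1 - l) = k + 1 by omega] at hi
  exact ((dsb_hom hk hΦ (l + (k + 1 - l)) 0).pr_map (P157.gs_ok hk) (ds_ok hk) hH _).trans
    (dsb_start hk hi _)

theorem dsb_int_m (hk : 0 < k) (hΦ : MeasurePreserving Φ (gaussianReal 0 1) νD)
    (hH : (DS k I νD ν).Lin H) (hg : Measurable g) :
    ∫ s, g s ∂mD k νD ν H = ∫ s, g (br Φ s) ∂mm k ν fun s => H (br Φ s) := by
  rw [← mm_br hk hΦ hH, integral_map (dsb_meas hΦ.measurable).aemeasurable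
    hg.aestronglyMeasurable]

theorem dsb_int_p (hk : 0 < k) (hΦ : MeasurePreserving Φ (gaussianReal 0 1) νD)
    (hH : (DS k I νD ν).Lin H) {l : ℕ} (hl : l ≤ k) {u : St I (D × Cf) × St I (D × Cf) → ℝ}
    (hu : Measurable u) : ∫ z, u z ∂pD k νD ν H l =
      ∫ z, u (br Φ z.1, br Φ z.2) ∂pp k ν (fun s => H (br Φ s)) l := by
  rw [← pp_br hk hΦ hH hl, integral_map
    ((dsb_meas hΦ.measurable).prodMap (dsb_meas hΦ.measurable)).aemeasurable
    hu.aestronglyMeasurable]
  rfl

omit [Fintype I] [MeasurableSpace D] [MeasurableSpace Cf] [Nonempty D] [Nonempty Cf] in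
theorem dsb_dirD [DecidableEq I] {j : ℕ} {i : I} (dg : DirD j i g g') :
    DirD j (some i) (fun s => g (br Φ s)) fun s => g' (br Φ s) := by
  intro s
  have e : ∀ t, br Φ (sh j (some i) t s) = sh j i t (br Φ s) := fun t => by
    simp [br, sh]
  simp only [e]
  exact dg _

omit [Fintype I] [MeasurableSpace D] [MeasurableSpace Cf] [Nonempty D] [Nonempty Cf] in
theorem dsb_mrg (p : I → Prop) [DecidablePred p] [DecidablePred fun o : Option I => o.elim False p]
    (s : St (Option I) Cf) (u : Fin k × Option I → ℝ) :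
    br Φ (mrg k (fun o => o.elim False p) s u) = mrg k p (br Φ s) fun q => u (q.1, some q.2) := by
  simp only [br, mrg, Option.elim_none, and_false, dite_false]
  congr!
  exact dif_neg fun h => h.2

end Br

variable [StandardBorelSpace D]

theorem ibpD [DecidableEq I] (hk : 0 < k) {j : ℕ} {i : I} (hj : j < k) (hH : (DS k I νD ν).Lin H)
    (hH' : (DS k I νD ν).Ex H') (dH : DirD j i H H') (hg : (DS k I νD ν).Ex g)
    (hg' : (DS k I νD ν).Ex g') (dg : DirD j i g g') :
    ∫ s, s.2 j i * g s ∂mD k νD ν H = (∫ s, g' s ∂mD k νD ν H) + (∫ s, g s * H' s ∂mD k νD ν H) -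
      (1 / (k : ℝ)) * ∑ l ∈ Ioo j k, ∫ p, g p.1 * H' p.2 ∂pD k νD ν H l := by
  obtain ⟨Φ, hΦ⟩ := exists_gauss_map νD
  have hm := hΦ.measurable
  rw [dsb_int_m hk hΦ hH (g := fun s => s.2 j i * g s) ((lin_coordD (νD := νD) (ν := ν) hk hj i).1.mul hg.1),
    dsb_int_m hk hΦ hH hg'.1, dsb_int_m hk hΦ hH (g := fun s => g s * H' s) (hg.1.mul hH'.1),
    sum_congr rfl fun l hl => dsb_int_p hk hΦ hH (mem_Ioo.1 hl).2.le
      (u := fun p => g p.1 * H' p.2) ((hg.1.comp measurable_fst).mul (hH'.1.comp measurable_snd))]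
  exact P157.ibp hk hj (lin_br hk hm hH) (ex_br hk hm hH') (dsb_dirD dH) (ex_br hk hm hg)
    (ex_br hk hm hg') (dsb_dirD dg)

theorem restD (hk : 0 < k) {p : I → Prop} [DecidablePred p] (hH : (DS k I νD ν).Lin H)
    (hp : Free k p H) :
    ((mD k νD ν H).prod (γ (Fin k × I))).map (fun z => mrg k p z.1 z.2) = mD k νD ν H := by
  classical
  obtain ⟨Φ, hΦ⟩ := exists_gauss_map νD
  have hm := dsb_meas (I := I) (Cf := Cf) hΦ.measurable
  have hL := lin_br hk hΦ.measurable hH
  have := P157.mm_prob hk hL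
  have h1 := P157.rest hk (fun o : Option I => o.elim False p) hL fun s u => by
    rw [dsb_mrg, hp]
  have h2 := P157.measurePreserving_coord (e := fun q : Fin k × I => (q.1, some q.2))
    fun a b h => Prod.ext (Prod.mk.inj h).1 (Option.some.inj (Prod.mk.inj h).2)
  rw [← mm_br hk hΦ hH]
  conv_rhs => rw [← h1]
  rw [← h2.map_eq, Measure.map_prod_map _ _ hm h2.measurable,
    Measure.map_map (P157.measurable_mrg p) (hm.prodMap h2.measurable),
    Measure.map_map hm (P157.measurable_mrg _)]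
  exact congrArg (Measure.map · _) (funext fun z => (dsb_mrg p z.1 z.2).symm)

theorem integral_restD (hk : 0 < k) {p : I → Prop} [DecidablePred p] (hH : (DS k I νD ν).Lin H)
    (hp : Free k p H) (hg : (DS k I νD ν).Ex g) :
    ∫ s, g s ∂mD k νD ν H = ∫ s, ∫ u, g (mrg k p s u) ∂γ (Fin k × I) ∂mD k νD ν H := by
  have := mD_prob hk hH
  have h1 := integrable_mD hk hH hg
  rw [← restD hk hH hp] at h1
  have h2 : Integrable (fun z : St I (D × Cf) × (Fin k × I → ℝ) => g (mrg k p z.1 z.2))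
      ((mD k νD ν H).prod (γ (Fin k × I))) :=
    (integrable_map_measure hg.1.aestronglyMeasurable
      (P157.measurable_mrg p).aemeasurable).1 h1
  conv_lhs => rw [← restD hk hH hp]
  rw [integral_map (P157.measurable_mrg p).aemeasurable hg.1.aestronglyMeasurable,
    integral_prod _ h2]

omit [StandardBorelSpace D] [MeasurableSpace D] [MeasurableSpace Cf] [Nonempty D] [Nonempty Cf] in
theorem dsb_fld {p : I → Prop} [DecidablePred p] {e : I → D × Cf → ℝ} {w : ℕ → I → ℝ}
    (hw : ∀ j < k, ∀ i, ¬p i → w j i = 0 ∨ ∀ c, e i c = 0) (s : St I (D × Cf))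
    (u : Fin k × I → ℝ) :
    fld k e w (mrg k p s u) = ∑ q : Fin k × I, √(w q.1 q.2) * e q.2 s.1 * u q := by
  rw [Fintype.sum_prod_type, fld, sum_range]
  refine sum_congr rfl fun j _ => sum_congr rfl fun i _ => ?_
  by_cases h : p i
  · simp [mrg, h]
  · rcases hw j j.2 i h with h1 | h1 <;> simp [h1]

omit [StandardBorelSpace D] [MeasurableSpace D] [MeasurableSpace Cf] [Nonempty D] [Nonempty Cf] in
theorem dsb_fvar {e : I → D × Cf → ℝ} {w : ℕ → I → ℝ} (hw0 : ∀ j < k, ∀ i, 0 ≤ w j i)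
    (c : D × Cf) : ∑ q : Fin k × I, (√(w q.1 q.2) * e q.2 c) ^ 2 = fvar k e w c := by
  rw [Fintype.sum_prod_type, fvar, sum_range]
  exact sum_congr rfl fun j _ => sum_congr rfl fun i _ => by
    rw [mul_pow, sq_sqrt (hw0 j j.2 i)]

omit [StandardBorelSpace D] [MeasurableSpace D] [MeasurableSpace Cf] [Nonempty D] [Nonempty Cf] in
theorem dsb_fvar_nonneg {e : I → D × Cf → ℝ} {w : ℕ → I → ℝ} (hw0 : ∀ j < k, ∀ i, 0 ≤ w j i)
    (c : D × Cf) : 0 ≤ fvar k e w c := by
  rw [← dsb_fvar hw0]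
  positivity

/-- the conditional law of a field on unused coordinates -/
theorem integral_fld (hk : 0 < k) {p : I → Prop} [DecidablePred p] (hH : (DS k I νD ν).Lin H)
    (hp : Free k p H) {e : I → D × Cf → ℝ} (he : ∀ i, BM (e i)) {w : ℕ → I → ℝ}
    (hw0 : ∀ j < k, ∀ i, 0 ≤ w j i) (hw : ∀ j < k, ∀ i, ¬p i → w j i = 0 ∨ ∀ c, e i c = 0)
    {φ : D × Cf → ℝ → ℝ} (hφ : Measurable (Function.uncurry φ)) {C : ℝ}
    (hC : ∀ c x, |φ c x| ≤ C * exp (C * |x|)) :
    ∫ s, φ s.1 (fld k e w s) ∂mD k νD ν H =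
      ∫ s, ∫ x, φ s.1 x ∂gaussianReal 0 (fvar k e w s.1).toNNReal ∂mD k νD ν H := by
  have hY : (DS k I νD ν).OK := ds_ok hk
  have hf := lin_fld (νD := νD) (ν := ν) hk he w
  have hx : (DS k I νD ν).Ex fun s => φ s.1 (fld k e w s) :=
    Sys.Ex.of_le (hφ.comp (measurable_fst.prodMk hf.1))
      (((hf.abs.const_mul C).ex_exp hY).const_mul hY C) fun s => (hC _ _).trans (le_abs_self _)
  rw [integral_restD hk hH hp hx]
  refine integral_congr_ae (ae_of_all _ fun s => ?_)
  simp only [dsb_fld hw]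
  rw [← dsb_fvar hw0, ← P157.glin, integral_map (f := φ s.1)
    (Measurable.aemeasurable (by fun_prop))
    (hφ.comp measurable_prodMk_left).aestronglyMeasurable]
  rfl

theorem YD_le_fld (hk : 0 < k) {p : I → Prop} [DecidablePred p] (hH : (DS k I νD ν).Lin H)
    (hp : Free k p H) {e : I → D × Cf → ℝ} (he : ∀ i, BM (e i)) {w : ℕ → I → ℝ}
    (hw0 : ∀ j < k, ∀ i, 0 ≤ w j i) (hw : ∀ j < k, ∀ i, ¬p i → w j i = 0 ∨ ∀ c, e i c = 0) :
    YD k νD ν H ≤ YD k νD ν fun s => H s + fld k e w s := by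
  have h1 := le_YD_sub hk hH (hH.add (lin_fld hk he w))
  have h2 := integral_fld hk hH hp he hw0 hw (φ := fun _ x => x) measurable_snd (C := 1)
    fun _ x => by
      rw [one_mul, one_mul]
      linarith [add_one_le_exp |x|]
  simp only [add_sub_cancel_left, h2, integral_id_gaussianReal, integral_zero] at h1
  linarith

theorem YD_fld_le (hk : 0 < k) {p : I → Prop} [DecidablePred p] (hH : (DS k I νD ν).Lin H)
    (hp : Free k p H) {e : I → D × Cf → ℝ} (he : ∀ i, BM (e i)) {w : ℕ → I → ℝ}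
    (hw0 : ∀ j < k, ∀ i, 0 ≤ w j i) (hw : ∀ j < k, ∀ i, ¬p i → w j i = 0 ∨ ∀ c, e i c = 0) :
    YD k νD ν (fun s => H s + fld k e w s) ≤ YD k νD ν fun s => H s + fvar k e w s.1 / 2 := by
  have hb := (bm_fvar (k := k) he w).comp (F := fun x => x / 2) (by fun_prop)
  have hL := hH.add (hb.lin hk)
  have := mD_prob hk hL
  have h1 := YD_sub_le hk hL (hH.add (lin_fld hk he w))
  have h2 := integral_fld hk hL (hp.comp₂ (Free.cfg fun c => fvar k e w c / 2) (· + ·)) he hw0 hw
    (φ := fun c x => exp (x - fvar k e w c / 2))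
    (measurable_snd.sub (hb.1.comp measurable_fst)).exp (C := 1) fun c x => by
      rw [one_mul, one_mul, abs_of_pos (exp_pos _), exp_le_exp]
      linarith [le_abs_self x, dsb_fvar_nonneg (e := e) hw0 c]
  have h3 : ∀ c, ∫ x, exp (x - fvar k e w c / 2) ∂gaussianReal 0 (fvar k e w c).toNNReal = 1 := by
    intro c
    have h4 := congrFun (mgf_id_gaussianReal (μ := 0) (v := (fvar k e w c).toNNReal)) 1
    simp only [mgf, one_mul, id, mul_one, zero_add, one_pow,
      Real.coe_toNNReal _ (dsb_fvar_nonneg (e := e) hw0 c)] at h4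
    simp only [exp_sub]
    rw [integral_div, h4, div_self (exp_pos _).ne']
  simp only [add_sub_add_left_eq_sub, h2, h3, integral_const, probReal_univ, one_smul,
    log_one] at h1
  linarith

theorem exp_fld_le (hk : 0 < k) {p : I → Prop} [DecidablePred p] (hH : (DS k I νD ν).Lin H)
    (hp : Free k p H) {e : I → D × Cf → ℝ} (he : ∀ i, BM (e i)) {w : ℕ → I → ℝ}
    (hw0 : ∀ j < k, ∀ i, 0 ≤ w j i) (hw : ∀ j < k, ∀ i, ¬p i → w j i = 0 ∨ ∀ c, e i c = 0)
    {Q : D × Cf → ℝ} (hQ : BM Q) (c : ℝ) :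
    ∫ s, exp (c * |fld k e w s| + Q s.1) ∂mD k νD ν H ≤
      2 * ∫ s, exp (c ^ 2 * fvar k e w s.1 / 2 + Q s.1) ∂mD k νD ν H := by
  obtain ⟨B, hB⟩ := hQ.2
  have hb := ((((bm_fvar (k := k) he w).comp (F := fun x => c ^ 2 * x / 2) (by fun_prop)).add
    hQ).comp continuous_exp).ex (νD := νD) (ν := ν) (I := I) hk
  rw [integral_fld hk hH hp he hw0 hw (φ := fun d x => exp (c * |x| + Q d))
    (((continuous_abs.measurable.comp measurable_snd).const_mul c).add
      (hQ.1.comp measurable_fst)).exp (C := exp B + |c|) fun d x => ?_, ← integral_const_mul]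
  · refine integral_mono_of_nonneg (ae_of_all _ fun s => integral_nonneg fun x => (exp_pos _).le)
      ((integrable_mD hk hH hb).const_mul 2) (ae_of_all _ fun s => ?_)
    have h1 := P157.integral_exp_abs_gauss (fvar k e w s.1).toNNReal c
    rw [Real.coe_toNNReal _ (dsb_fvar_nonneg (e := e) hw0 _)] at h1
    simp only [exp_add]
    rw [integral_mul_const, ← mul_assoc]
    exact mul_le_mul_of_nonneg_right h1 (exp_pos _).le
  · rw [abs_of_pos (exp_pos _), exp_add, mul_comm]
    refine mul_le_mul ((exp_le_exp.2 ((le_abs_self _).trans (hB d))).trans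
      (le_add_of_nonneg_right (abs_nonneg c))) (exp_le_exp.2 (mul_le_mul_of_nonneg_right
        ((le_abs_self c).trans (le_add_of_nonneg_left (exp_pos _).le)) (abs_nonneg _)))
      (exp_pos _).le (by positivity)

theorem syncD [DecidableEq I] {X : Type} [Fintype X] (hk : 0 < k) (hH : (DS k I νD ν).Lin H)
    (c : X → I) (ψ : X → D × Cf → ℝ) (y : ℕ → ℝ) {N K ε β : ℝ} (hN : 0 < N) (hK : 0 ≤ K)
    (hε : 0 < ε) (hβ : 0 ≤ β) (hy : ∀ j < k, ε ≤ y j) (mψ : ∀ d, Measurable (ψ d))
    (dH : ∀ j < k, ∀ d, DirD j (c d) H fun s => y j * ψ d s.1) (b1 : ∀ s, ∑ d, ψ d s ^ 2 ≤ K * N)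
    (hv : ∀ j < k, (∫ s, (∑ d, s.2 j (c d) * ψ d s.1) ^ 2 ∂mD k νD ν H) -
      (∫ s, ∑ d, s.2 j (c d) * ψ d s.1 ∂mD k νD ν H) ^ 2 ≤ β ^ 2) :
    (1 / (k : ℝ)) * ∑ l ∈ range k, ∫ p, (Kr N (fun d s => ψ d s.1) p -
      ∫ p, Kr N (fun d s => ψ d s.1) p ∂pD k νD ν H l) ^ 2 ∂pD k νD ν H l ≤
        7 * K ^ 2 / k + 5 * k * (K / N + 2 * β * K / (ε * N)) := by
  obtain ⟨Φ, hΦ⟩ := exists_gauss_map νD
  have hm := dsb_meas (I := I) (Cf := Cf) hΦ.measurable
  have mK : Measurable (Kr N (fun d (s : St I (D × Cf)) => ψ d s.1)) := by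
    unfold Kr
    fun_prop
  have h := P157.syncA hk (lin_br hk hΦ.measurable hH) (fun d => some (c d))
    (fun d s => ψ d (br Φ s).1) (fun _ _ _ => 0) y hN hK hε hβ hy
    (fun d => (mψ d).comp hm.fst) (fun _ _ => Sys.Ex.const (P157.gs_ok hk) 0)
    (fun j hj d => dsb_dirD (dH j hj d))
    (fun j _ d d' => (dsb_dirD (Φ := Φ) (P157.DirD.config (j := j) (i := c d) (ψ d'))).congr
      (fun _ => rfl) fun _ => mul_zero _) (fun s => b1 _)
    (fun s s' => by simpa using mul_nonneg hK hN.le) fun j hj => by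
      have m1 : Measurable fun s : St I (D × Cf) => ∑ d, s.2 j (c d) * ψ d s.1 := by fun_prop
      have h1 := hv j hj
      rw [dsb_int_m hk hΦ hH m1, dsb_int_m hk hΦ hH (m1.pow_const 2)] at h1
      exact h1
  refine le_trans (le_of_eq (congrArg _ (sum_congr rfl fun l hl => ?_))) h
  have hl' := (mem_range.1 hl).le
  rw [dsb_int_p hk hΦ hH hl' ((mK.sub_const _).pow_const 2), dsb_int_p hk hΦ hH hl' mK]
  rfl

end Vale.Agent.P166
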