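import Vale.Agent.P166.DSB

/-! Mixtures over a part of the disorder, factorisation. -/

namespace Vale.Agent.P166

open MeasureTheory ProbabilityTheory Real Finset Matrix Filter Topology
open Vale.Agent.P157 (Sys St γ GS s0 YY mm pp sh DirD pull mrg Rg Sp νB xB)
open scoped ENNReal

variable {I D Cf : Type} [Fintype I] [MeasurableSpace D] [MeasurableSpace Cf] {k : ℕ}
  {νD : Measure D} {ν : Measure Cf} [IsProbabilityMeasure νD] [IsProbabilityMeasure ν]
  [Nonempty D] [Nonempty Cf]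

omit [IsProbabilityMeasure νD] [IsProbabilityMeasure ν] [Nonempty D] [Nonempty Cf] in
theorem dsc_ζ0 (hk : 0 < k) : (DS k I νD ν).ζ 0 = (k : ℝ)⁻¹ := by
  simp only [DS, Nat.cast_zero, zero_add, one_div]
  exact min_eq_right (inv_le_one_of_one_le₀ (by exact_mod_cast hk))

omit [IsProbabilityMeasure νD] [IsProbabilityMeasure ν] [Nonempty D] [Nonempty Cf] in
theorem dsc_ζk (hk : 0 < k) : (DS k I νD ν).ζ k = 1 := by
  refine min_eq_left ?_
  rw [one_le_div (by exact_mod_cast hk)]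
  linarith

omit [Nonempty D] [Nonempty Cf] in
theorem dsc_perm {D1 : Type} [MeasurableSpace D1] (ν1 : Measure D1) [IsProbabilityMeasure ν1] :
    MeasurePreserving (fun w : ((D1 × D) × Cf) × (I → ℝ) => (w.1.1.1, ((w.1.1.2, w.1.2), w.2)))
      (((ν1.prod νD).prod ν).prod (γ I)) (ν1.prod ((νD.prod ν).prod (γ I))) :=
  (measurePreserving_prodAssoc ν1 (νD.prod ν) (γ I)).comp
    ((measurePreserving_prodAssoc ν1 νD ν).prod (MeasurePreserving.id (γ I)))

omit [Nonempty D] [Nonempty Cf] in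
theorem dsc_emb (hk : 0 < k) {D1 : Type} [MeasurableSpace D1] (ν1 : Measure D1)
    [IsProbabilityMeasure ν1] {H : St I ((D1 × D) × Cf) → ℝ} (hH : (DS k I (ν1.prod νD) ν).Lin H)
    (d : D1) : (DS k I νD ν).X k 1 (fun s => H (((d, s.1.1), s.1.2), s.2)) =
      fun s => (DS k I (ν1.prod νD) ν).X k 1 H (((d, s.1.1), s.1.2), s.2) := by
  let Z : Sys (St I (D × Cf)) (((D1 × D) × Cf) × (I → ℝ)) :=
    ⟨(DS k I (ν1.prod νD) ν).μ, fun i s w => (DS k I νD ν).a i s ((w.1.1.2, w.1.2), w.2),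
      (DS k I νD ν).ζ, (DS k I νD ν).ν, (DS k I (ν1.prod νD) ν).n⟩
  have h1 : Sys.Hom Z (DS k I νD ν) (fun _ s => s) (fun _ w => ((w.1.1.2, w.1.2), w.2)) k 1 :=
    ⟨fun _ => measurable_id, fun _ _ _ => measurePreserving_snd.comp (dsc_perm ν1),
      fun _ _ _ => rfl, fun _ _ _ _ _ => rfl, 1, fun _ _ _ s => by
        rw [one_mul]
        exact le_add_of_nonneg_left zero_le_one⟩
  have h2 : Sys.Hom Z (DS k I (ν1.prod νD) ν) (fun _ s => (((d, s.1.1), s.1.2), s.2))
      (fun _ w => w) k 1 :=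
    ⟨fun _ => by fun_prop, fun _ _ _ => MeasurePreserving.id _, fun _ _ _ => rfl,
      fun i hi _ s w => by
        simp only [Z, DS, show i ≠ 0 by omega, if_false]
        split_ifs <;> rfl, 1, fun _ _ _ s => by
        rw [one_mul]
        exact le_add_of_nonneg_left zero_le_one⟩
  exact (h1.X_eq' (ds_ok hk) rfl ⟨hH.1.comp (h2.mφ 0), hH.2.imp fun C hC s => hC _⟩).symm.trans
    (h2.X_eq' (ds_ok hk) rfl hH)

/-- conditioning on a part of the disorder -/
theorem mix (hk : 0 < k) {D1 : Type} [MeasurableSpace D1] [Nonempty D1] (ν1 : Measure D1)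
    [IsProbabilityMeasure ν1] {H : St I ((D1 × D) × Cf) → ℝ} (hH : (DS k I (ν1.prod νD) ν).Lin H) :
    (Measurable fun d : D1 => YD k νD ν fun s => H (((d, s.1.1), s.1.2), s.2)) ∧
    YD k (ν1.prod νD) ν H =
      k * log (∫ d, exp ((YD k νD ν fun s => H (((d, s.1.1), s.1.2), s.2)) / k) ∂ν1) := by
  have hY : (DS k I (ν1.prod νD) ν).OK := ds_ok hk
  have hX := Sys.lin_X hY hH k 1
  obtain ⟨c, hc⟩ : ∃ c, c = Classical.arbitrary ((D1 × D) × Cf) := ⟨_, rfl⟩
  obtain ⟨G, hG⟩ : ∃ G : D1 × ((D × Cf) × (I → ℝ)) → ℝ, G = fun z => exp ((k : ℝ)⁻¹ *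
    (DS k I (ν1.prod νD) ν).X k 1 H (((z.1, z.2.1.1), c.2), Function.update 0 0 z.2.2)) := ⟨_, rfl⟩
  have mG : Measurable G := by
    rw [hG]
    refine ((hX.1.comp (Measurable.prodMk (by fun_prop) ?_)).const_mul _).exp
    exact measurable_update'.comp (measurable_const.prodMk measurable_snd.snd)
  have h1 : ∀ d, (YD k νD ν fun s => H (((d, s.1.1), s.1.2), s.2)) =
      k * log (∫ w, G (d, w) ∂(νD.prod ν).prod (γ I)) := by
    intro d
    refine (dsb_start hk (Sys.inv_X ds_ow (k + 1) 0) (c.1.2, c.2)).symm.trans ?_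
    rw [Sys.X, dsc_emb hk ν1 hH, Sys.T, dsc_ζ0 hk, inv_inv, hG]
    simp only [DS, hk, if_true]
  have h2 := Sys.integrable_exp_step hY hX 0 (k : ℝ)⁻¹ (c, 0)
  have h3 : (fun w => exp ((k : ℝ)⁻¹ * (DS k I (ν1.prod νD) ν).X k 1 H
      ((DS k I (ν1.prod νD) ν).a 0 (c, 0) w))) = fun w => G (w.1.1.1, ((w.1.1.2, w.1.2), w.2)) := by
    rw [hG]
    simp only [DS, hk, if_true]
  rw [h3] at h2
  have h4 : Integrable G _ := ((dsc_perm ν1).integrable_comp mG.aestronglyMeasurable).1 h2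
  simp only [h1]
  refine ⟨(mG.stronglyMeasurable.integral_prod_right'.measurable.log).const_mul _, ?_⟩
  have hk' : (k : ℝ) ≠ 0 := by positivity
  unfold YD s0
  rw [Sys.X, Sys.T, dsc_ζ0 hk, inv_inv, ← hc, h3]
  congr 2
  refine (Sys.mo_int (dsc_perm ν1) mG).trans ((integral_prod _ h4).trans
    (integral_congr_ae (h4.prod_right_ae.mono fun d hd => ?_)))
  simp only [mul_div_cancel_left₀ _ hk']
  rw [exp_log]
  rw [hG] at hd ⊢
  exact integral_exp_pos hd

theorem YD_cfg (hk : 0 < k) {h : D × Cf → ℝ} (hh : BM h) :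
    YD k νD ν (fun s : St I (D × Cf) => h s.1) =
      k * log (∫ d, exp (log (∫ σ, exp (h (d, σ)) ∂ν) / k) ∂νD) := by
  have hY : (DS k I νD ν).OK := ds_ok hk
  have mL : Measurable fun d => log (∫ σ, exp (h (d, σ)) ∂ν) :=
    hh.1.exp.stronglyMeasurable.integral_prod_right'.measurable.log
  have h1 : (DS k I νD ν).X 1 (0 + k) (fun s => h s.1) =
      fun s => log (∫ σ, exp (h (s.1.1, σ)) ∂ν) := by
    funext s
    rw [zero_add, Sys.X, Sys.X, Sys.T, dsc_ζk hk, inv_one, one_mul]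
    simp only [DS, lt_irrefl, if_false, if_true, one_mul]
    exact congrArg log (Sys.mo_int (measurePreserving_snd.comp measurePreserving_fst)
      (F := fun σ => exp (h (s.1.1, σ))) (hh.1.comp measurable_prodMk_left).exp)
  unfold YD
  rw [Sys.X_add, h1]
  obtain ⟨m, rfl⟩ := Nat.exists_eq_succ_of_ne_zero hk.ne'
  rw [Sys.X, Sys.X_of_inv hY fun i a b s w => by
    simp only [DS, show i < m.succ by omega, show i ≠ 0 by omega, if_true, if_false],
    Sys.T, dsc_ζ0 hk, inv_inv]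
  simp only [DS, hk, if_true, div_eq_inv_mul]
  exact congrArg (fun x => _ * log x) (Sys.mo_int (measurePreserving_fst.comp measurePreserving_fst)
    (F := fun d => exp (_ * log (∫ σ, exp (h (d, σ)) ∂ν))) (mL.const_mul _).exp)

theorem YD_forget (hk : 0 < k) {H : St I Cf → ℝ} (hH : (GS k I ν).Lin H) :
    YD k νD ν (fun s => H (s.1.2, s.2)) = YY k ν H := by
  have hh : Sys.Hom (DS k I νD ν) (GS k I ν) (fun _ s => (s.1.2, s.2)) (fun _ w => (w.1.2, w.2))
      (k + 1) 0 :=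
    ⟨fun _ => by fun_prop, fun _ _ _ => measurePreserving_snd.prod (MeasurePreserving.id _),
      fun _ _ _ => rfl, fun i _ _ s w => by
        simp only [GS, DS]
        split_ifs <;> rfl, 1, fun _ _ _ s => by
        rw [one_mul]
        exact le_add_of_nonneg_left zero_le_one⟩
  exact (hh.X_eq (P157.gs_ok hk) hH _).trans (P157.X_pull_s0 Prod.snd id)

omit [IsProbabilityMeasure νD] [IsProbabilityMeasure ν] [Nonempty D] [Nonempty Cf] [Fintype I] in
theorem dsc_upd {I' : Type} (e : I → I') (i : ℕ) (u : ℕ → I' → ℝ) (v : I' → ℝ) :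
    (fun j i' => Function.update u i v j (e i')) =
      Function.update (fun j i' => u j (e i')) i fun i' => v (e i') := by
  funext j
  by_cases h : j = i
  · subst h; simp
  · simp [Function.update_of_ne h]

theorem YD_add2 (hk : 0 < k) {I' I2 Cf' Cf2 : Type} [Fintype I'] [Fintype I2] [MeasurableSpace Cf']
    [MeasurableSpace Cf2] [Nonempty Cf'] [Nonempty Cf2] {ν' : Measure Cf'} {ν2 : Measure Cf2}
    [IsProbabilityMeasure ν'] [IsProbabilityMeasure ν2] {φ : Cf' → Cf} {φ2 : Cf' → Cf2}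
    {e : I → I'} {e2 : I2 → I'} (hφ : MeasurePreserving (fun σ => (φ σ, φ2 σ)) ν' (ν.prod ν2))
    (he : Function.Injective (Sum.elim e e2)) {H : St I (D × Cf) → ℝ} {H2 : St I2 Cf2 → ℝ}
    (hH : (DS k I νD ν).Lin H) (hH2 : (GS k I2 ν2).Lin H2) :
    YD k νD ν' (fun s => H (pull (Prod.map id φ) e s) + H2 (pull (fun c => φ2 c.2) e2 s)) =
      YD k νD ν H + YY k ν2 H2 := by
  have h0 := (measurePreserving_sumPiEquivProdPi
    (fun _ : I ⊕ I2 => gaussianReal 0 1)).comp (P157.measurePreserving_coord he)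
  have h1 := (P157.gsb_shuffle (νD.prod ν) ν2 (γ I) (γ I2)).comp
    (((measurePreserving_prodAssoc νD ν ν2).symm.comp
      ((MeasurePreserving.id νD).prod hφ)).prod h0)
  have h2 := Sys.X_add2 (Y := DS k I' νD ν') (Y1 := DS k I νD ν) (Y2 := GS k I2 ν2) (ds_ok hk)
    (P157.gs_ok hk) (ds_ok hk) (pull (Prod.map id φ) e) (pull (fun c => φ2 c.2) e2)
    (fun w => ((w.1.1, φ w.1.2), fun i => w.2 (e i)))
    (fun w => (φ2 w.1.2, fun i => w.2 (e2 i))) h1 (fun _ => rfl) (fun _ => rfl)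
    (fun i s w => by
      simp only [DS, pull]
      split_ifs <;> first | rfl | exact Prod.ext rfl (dsc_upd e i _ _))
    (fun i s w => by
      simp only [DS, GS, pull]
      split_ifs <;> first | rfl | simp only [dsc_upd]) hH hH2 (k + 1) 0 (s0 I' (D × Cf'))
  rw [P157.X_pull_s0] at h2
  exact h2.trans (congrArg (· + _) (dsb_start hk (Sys.inv_X ds_ow (k + 1) 0) _))

end Vale.Agent.P166
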