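import Vale.Agent.P166.DSA
import Vale.Agent.P166.ODL
import Vale.Agent.P166.CalcA

/-! Responses and synchronisation errors under a change of Hamiltonian. -/

namespace Vale.Agent.P166

open MeasureTheory ProbabilityTheory Real Finset Matrix Filter Topology
open Vale.Agent.P157 (Sys St γ GS s0 YY mm pp sh DirD pull mrg Rg Sp νB xB)
open scoped ENNReal

variable {I D Cf : Type} [Fintype I] [MeasurableSpace D] [MeasurableSpace Cf] {k : ℕ}
  {νD : Measure D} {ν : Measure Cf} [IsProbabilityMeasure νD] [IsProbabilityMeasure ν]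
  [Nonempty D] [Nonempty Cf] {H H0 H1 : St I (D × Cf) → ℝ} {G G' : D × Cf → D × Cf → ℝ} {j : ℕ}
  {P : ℝ} {A : ℕ → ℝ}

theorem dsd_avg_le (hk : 0 < k) {x : ℕ → ℝ} {c : ℝ} (hc : 0 ≤ c) (h : ∀ l ∈ Ioo j k, x l ≤ c) :
    (1 / (k : ℝ)) * ∑ l ∈ Ioo j k, x l ≤ c := by
  have hk0 : (0 : ℝ) < k := Nat.cast_pos.2 hk
  have a1 := sum_le_card_nsmul _ _ _ h
  have a2 : ((Ioo j k).card : ℝ) ≤ k := by
    rw [Nat.card_Ioo]
    exact Nat.cast_le.2 (by omega)
  rw [nsmul_eq_mul] at a1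
  rw [one_div, inv_mul_le_iff₀ hk0]
  exact a1.trans (mul_le_mul_of_nonneg_right a2 hc)

theorem dsd_avg_abs (hk : 0 < k) {x y : ℕ → ℝ} {c : ℝ} (hc : 0 ≤ c)
    (h : ∀ l ∈ Ioo j k, |x l - y l| ≤ c) :
    |(1 / (k : ℝ)) * ∑ l ∈ Ioo j k, x l - (1 / (k : ℝ)) * ∑ l ∈ Ioo j k, y l| ≤ c := by
  rw [← mul_sub, ← sum_sub_distrib, abs_mul, abs_of_nonneg (by positivity)]
  exact (mul_le_mul_of_nonneg_left (abs_sum_le_sum_abs _ _) (by positivity)).trans
    (dsd_avg_le hk hc h)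

theorem dsd_tri {a b a' b' c d : ℝ} (h1 : |a - a'| ≤ c) (h2 : |b - b'| ≤ d) :
    |a - b - (a' - b')| ≤ c + d := by
  have h1 := abs_le.1 h1
  have h2 := abs_le.1 h2
  rw [abs_le]
  constructor <;> linarith [h1.1, h1.2, h2.1, h2.2]

theorem dsd_norm {α : Type} [MeasurableSpace α] [Nonempty α] {μ0 μ1 : Measure α} {c : ℝ}
    (h : ∀ g : α → ℝ, Measurable g → (∀ x, |g x| ≤ 1) → |(∫ x, g x ∂μ1) - ∫ x, g x ∂μ0| ≤ c)
    {g : α → ℝ} (hg : Measurable g) (hb : ∀ x, |g x| ≤ P) :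
    |(∫ x, g x ∂μ1) - ∫ x, g x ∂μ0| ≤ P * c := by
  have hP : 0 ≤ P := (abs_nonneg _).trans (hb (Classical.arbitrary α))
  rcases hP.eq_or_lt with h0 | h0
  · have : g = fun _ => 0 := funext fun x => abs_nonpos_iff.1 (h0 ▸ hb x)
    simp [this, ← h0]
  · have a1 := h (fun x => g x / P) (hg.div_const P) fun x => by
      rw [abs_div, abs_of_pos h0, div_le_one h0]
      exact hb x
    rwa [integral_div, integral_div, ← sub_div, abs_div, abs_of_pos h0, div_le_iff₀' h0] at a1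

omit [Fintype I] [Nonempty D] [Nonempty Cf] in
theorem dsd_m1 (hG : Measurable (Function.uncurry G)) :
    Measurable fun s : St I (D × Cf) => G s.1 s.1 :=
  hG.comp (measurable_fst.prodMk measurable_fst)

omit [Fintype I] [Nonempty D] [Nonempty Cf] in
theorem dsd_m2 (hG : Measurable (Function.uncurry G)) :
    Measurable fun z : St I (D × Cf) × St I (D × Cf) => G z.1.1 z.2.1 :=
  hG.comp (measurable_fst.fst.prodMk measurable_snd.fst)

theorem dsd_i1 (hk : 0 < k) (hH : (DS k I νD ν).Lin H) (hG : BM (Function.uncurry G)) :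
    Integrable (fun s => G s.1 s.1) (mD k νD ν H) := by
  obtain ⟨B, hB⟩ := hG.2
  exact integrable_mD hk hH (Sys.Ex.of_bdd (ds_ok hk) (dsd_m1 hG.1) B fun s => hB (s.1, s.1))

theorem dsd_i2 (hk : 0 < k) (hH : (DS k I νD ν).Lin H) (hG : BM (Function.uncurry G)) (l : ℕ) :
    Integrable (fun z => G z.1.1 z.2.1) (pD k νD ν H l) := by
  obtain ⟨B, hB⟩ := hG.2
  exact integrable_pD hk hH
    (Sys.Ex2.of_bdd (ds_ok hk) (dsd_m2 hG.1) B fun z => hB (z.1.1, z.2.1)) l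

theorem dsd_pD_add (hk : 0 < k) (hH : (DS k I νD ν).Lin H) {g : St I (D × Cf) → ℝ}
    (hg : (DS k I νD ν).Ex g) {l : ℕ} (hl : l ≤ k + 1) :
    ∫ z, g z.1 + g z.2 ∂pD k νD ν H l = 2 * ∫ s, g s ∂mD k νD ν H := by
  have := odl_pr_add (ds_ok hk) hH hg l (k + 1 - l) 0 (s0 I (D × Cf))
  rwa [Nat.add_sub_cancel' hl] at this

omit [Nonempty D] [Nonempty Cf] in
theorem dsd_bm_abs (hG : BM (Function.uncurry G)) (c : ℝ) :
    BM (Function.uncurry fun x y => |G x y - c|) :=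
  (hG.sub (BM.const c)).comp continuous_abs

omit [Nonempty D] [Nonempty Cf] in
theorem dsd_bm_add {u : D × Cf → ℝ} (hu : BM u) : BM (Function.uncurry fun x y => u x + u y) :=
  (hu.comp_right measurable_fst).add (hu.comp_right measurable_snd)

omit [IsProbabilityMeasure νD] [IsProbabilityMeasure ν] in
theorem dsd_u_nonneg {u : D × Cf → ℝ} (h : ∀ x y, |G x y - G' x y| ≤ u x + u y) :
    0 ≤ ∫ s, u s.1 ∂mD k νD ν H :=
  integral_nonneg fun s => by
    have := (abs_nonneg _).trans (h s.1 s.1)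
    simp only [Pi.zero_apply]
    linarith

omit [IsProbabilityMeasure νD] [IsProbabilityMeasure ν] in
theorem tl_last (hk : 0 < k) : tl k νD ν H (k - 1) G = ∫ s, G s.1 s.1 ∂mD k νD ν H := by
  have : Ioo (k - 1) k = ∅ := by
    ext l
    simp only [mem_Ioo, notMem_empty, iff_false]
    omega
  rw [tl, this, sum_empty, mul_zero, sub_zero]

omit [IsProbabilityMeasure νD] [IsProbabilityMeasure ν] in
theorem tl_eq_tail (hk : 0 < k) : tl k νD ν H j G = tail k (ovP k νD ν H G) j := by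
  rw [tl, tail, ovP, if_neg hk.ne', if_neg (lt_irrefl k)]
  congr 2
  refine sum_congr rfl fun l hl => ?_
  have := mem_Ioo.1 hl
  rw [ovP, if_neg (by omega), if_pos this.2]

omit [IsProbabilityMeasure νD] [IsProbabilityMeasure ν] in
theorem tl_const_mul (c : ℝ) : tl k νD ν H j (fun x y => c * G x y) = c * tl k νD ν H j G := by
  simp only [tl, integral_const_mul, ← mul_sum]
  ring

theorem tl_add (hk : 0 < k) (hH : (DS k I νD ν).Lin H) (hG : BM (Function.uncurry G))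
    (hG' : BM (Function.uncurry G')) :
    tl k νD ν H j (fun x y => G x y + G' x y) = tl k νD ν H j G + tl k νD ν H j G' := by
  simp only [tl, integral_add (dsd_i1 hk hH hG) (dsd_i1 hk hH hG'),
    integral_add (dsd_i2 hk hH hG _) (dsd_i2 hk hH hG' _), sum_add_distrib]
  ring

theorem tl_sum (hk : 0 < k) (hH : (DS k I νD ν).Lin H) {α : Type} (T : Finset α)
    {G : α → D × Cf → D × Cf → ℝ} (hG : ∀ a ∈ T, BM (Function.uncurry (G a))) :
    tl k νD ν H j (fun x y => ∑ a ∈ T, G a x y) = ∑ a ∈ T, tl k νD ν H j (G a) := by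
  simp only [tl, integral_finsetSum T fun a ha => dsd_i1 hk hH (hG a ha),
    fun l => integral_finsetSum T fun a ha => dsd_i2 hk hH (hG a ha) l, sum_sub_distrib, ← mul_sum]
  rw [sum_comm]

theorem abs_tl_sub_le (hk : 0 < k) (hH : (DS k I νD ν).Lin H) (hG : BM (Function.uncurry G))
    (hG' : BM (Function.uncurry G')) {u : D × Cf → ℝ} (hu : BM u)
    (h : ∀ x y, |G x y - G' x y| ≤ u x + u y) :
    |tl k νD ν H j G - tl k νD ν H j G'| ≤ 4 * ∫ s, u s.1 ∂mD k νD ν H := by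
  have u0 := dsd_u_nonneg (k := k) (νD := νD) (ν := ν) (H := H) h
  rw [show ∀ x : ℝ, 4 * x = 2 * x + 2 * x from fun x => by ring]
  refine dsd_tri ?_ (dsd_avg_abs hk (by linarith) fun l hl => ?_)
  · rw [← integral_sub (dsd_i1 hk hH hG) (dsd_i1 hk hH hG'), ← integral_const_mul]
    refine abs_integral_le_integral_abs.trans (integral_mono
      ((dsd_i1 hk hH hG).sub (dsd_i1 hk hH hG')).abs
      ((integrable_mD hk hH (hu.ex hk)).const_mul 2) fun s => ?_)
    simpa only [two_mul] using h s.1 s.1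
  · rw [← integral_sub (dsd_i2 hk hH hG l) (dsd_i2 hk hH hG' l),
      ← dsd_pD_add hk hH (hu.ex hk) (l := l) (by have := (mem_Ioo.1 hl).2; omega)]
    exact abs_integral_le_integral_abs.trans (integral_mono
      ((dsd_i2 hk hH hG l).sub (dsd_i2 hk hH hG' l)).abs
      (dsd_i2 hk hH (dsd_bm_add hu) l) fun z => h z.1.1 z.2.1)

theorem tl_sq_mem (hk : 0 < k) (hH : (DS k I νD ν).Lin H) {u : D × Cf → ℝ} (hu : BM u) :
    0 ≤ tl k νD ν H j (fun x y => u x * u y) ∧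
      tl k νD ν H j (fun x y => u x * u y) ≤ ∫ s, u s.1 ^ 2 ∂mD k νD ν H := by
  have a1 := dsd_avg_le hk (j := j) (integral_nonneg fun s => sq_nonneg _) fun l hl =>
    pD_le_sq hk hH (hu.ex hk) (l := l) (by have := (mem_Ioo.1 hl).2; omega)
  have a2 : 0 ≤ (1 / (k : ℝ)) * ∑ l ∈ Ioo j k, ∫ z, u z.1.1 * u z.2.1 ∂pD k νD ν H l :=
    mul_nonneg (by positivity) (sum_nonneg fun l _ => pD_nonneg hk hH (hu.ex hk) l)
  simp only [tl, ← pow_two]
  constructor <;> linarith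

theorem abs_tl_sub_tail (hk : 0 < k) (hH : (DS k I νD ν).Lin H) (hG : BM (Function.uncurry G)) :
    |tl k νD ν H j G - tail k A j| ≤ serr k νD ν H G A := by
  have := mD_prob hk hH
  refine dsd_tri ?_ ?_
  · refine le_trans (le_of_eq ?_) abs_integral_le_integral_abs
    rw [integral_sub (dsd_i1 hk hH hG) (integrable_const _)]
    simp
  · rw [← mul_sub, ← sum_sub_distrib, abs_mul, abs_of_nonneg (by positivity)]
    refine mul_le_mul_of_nonneg_left ((abs_sum_le_sum_abs _ _).trans ((sum_le_sum fun l _ => ?_).trans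
      (sum_le_sum_of_subset_of_nonneg (Ioo_subset_Ioo_left (Nat.zero_le j))
        fun l _ _ => integral_nonneg fun _ => abs_nonneg _))) (by positivity)
    have := pD_prob hk hH l
    refine le_trans (le_of_eq ?_) abs_integral_le_integral_abs
    rw [integral_sub (dsd_i2 hk hH hG l) (integrable_const _)]
    simp

theorem isPath_ovP (hk : 0 < k) (hH : (DS k I νD ν).Lin H) {X : Type} (T : Finset X)
    {ψ : X → D × Cf → ℝ} (hψ : ∀ d, BM (ψ d)) {N : ℝ} (hN : 0 ≤ N) (hP : 0 ≤ P)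
    (hb : ∀ c, ∑ d ∈ T, ψ d c ^ 2 ≤ P * N) :
    IsPath k P (ovP k νD ν H fun x y => (∑ d ∈ T, ψ d x * ψ d y) / N) := by
  have := mD_prob hk hH
  have hex := fun d => (hψ d).ex (I := I) (νD := νD) (ν := ν) hk
  have hY := ds_ok (I := I) (νD := νD) (ν := ν) hk
  have e1 : ∫ s, (∑ d ∈ T, ψ d s.1 * ψ d s.1) / N ∂mD k νD ν H =
      (∑ d ∈ T, ∫ s, ψ d s.1 ^ 2 ∂mD k νD ν H) / N := by
    rw [integral_div, ← integral_finsetSum T fun d _ => integrable_mD hk hH ((hex d).sq hY)]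
    simp only [pow_two]
  have e2 : ∀ l, ∫ z, (∑ d ∈ T, ψ d z.1.1 * ψ d z.2.1) / N ∂pD k νD ν H l =
      (∑ d ∈ T, ∫ z, ψ d z.1.1 * ψ d z.2.1 ∂pD k νD ν H l) / N := fun l => by
    rw [integral_div, integral_finsetSum T fun d _ =>
      integrable_pD hk hH (((hex d).fst hY).mul hY ((hex d).snd hY)) l]
  refine ⟨if_pos rfl, monotone_nat_of_le_succ fun l => ?_, ?_⟩
  · simp only [ovP, e1, e2, Nat.succ_ne_zero, if_false]
    split_ifs with h1 h2 h3 h4 h5
    · exact div_nonneg (sum_nonneg fun d _ => pD_nonneg hk hH (hex d) _) hN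
    · exact div_nonneg (sum_nonneg fun d _ => integral_nonneg fun _ => sq_nonneg _) hN
    · exact div_le_div_of_nonneg_right
        (sum_le_sum fun d _ => pD_mono hk hH (hex d) (Nat.le_succ l) (by omega)) hN
    · exact div_le_div_of_nonneg_right (sum_le_sum fun d _ => pD_le_sq hk hH (hex d) (by omega)) hN
    · omega
    · exact le_rfl
  · rw [ovP, if_neg hk.ne', if_neg (lt_irrefl k)]
    refine le_trans (integral_mono (g := fun _ => P) ?_ (integrable_const P) fun s => ?_) (by simp)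
    · exact (integrable_finsetSum T fun d _ =>
        integrable_mD hk hH ((hex d).mul hY (hex d))).div_const N
    · simp only [← pow_two]
      exact div_le_of_le_mul₀ hN hP (hb s.1)

omit [IsProbabilityMeasure νD] [IsProbabilityMeasure ν] in
theorem serr_nonneg : 0 ≤ serr k νD ν H G A := add_nonneg (integral_nonneg fun _ => abs_nonneg _)
    (mul_nonneg (by positivity) (sum_nonneg fun _ _ => integral_nonneg fun _ => abs_nonneg _))

theorem serr_le_add (hk : 0 < k) (hH : (DS k I νD ν).Lin H) (hG : BM (Function.uncurry G))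
    (hG' : BM (Function.uncurry G')) {u : D × Cf → ℝ} (hu : BM u)
    (h : ∀ x y, |G x y - G' x y| ≤ u x + u y) :
    serr k νD ν H G A ≤ serr k νD ν H G' A + 4 * ∫ s, u s.1 ∂mD k νD ν H := by
  have u0 := dsd_u_nonneg (k := k) (νD := νD) (ν := ν) (H := H) h
  have hh : ∀ c x y, |(|G x y - c|) - (|G' x y - c|)| ≤ u x + u y := fun c x y =>
    (abs_abs_sub_abs_le _ _).trans (by rw [sub_sub_sub_cancel_right]; exact h x y)
  have a2 : |(∫ s, |G s.1 s.1 - A k| ∂mD k νD ν H) - ∫ s, |G' s.1 s.1 - A k| ∂mD k νD ν H| ≤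
      2 * ∫ s, u s.1 ∂mD k νD ν H := by
    have i1 := dsd_i1 hk hH (dsd_bm_abs hG (A k))
    have i2 := dsd_i1 hk hH (dsd_bm_abs hG' (A k))
    rw [← integral_sub i1 i2, ← integral_const_mul]
    refine abs_integral_le_integral_abs.trans (integral_mono (i1.sub i2).abs
      ((integrable_mD hk hH (hu.ex hk)).const_mul 2) fun s => ?_)
    simpa only [two_mul] using hh (A k) s.1 s.1
  have a3 := dsd_avg_abs hk (j := 0) (c := 2 * ∫ s, u s.1 ∂mD k νD ν H)
    (x := fun l => ∫ z, |G z.1.1 z.2.1 - A l| ∂pD k νD ν H l)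
    (y := fun l => ∫ z, |G' z.1.1 z.2.1 - A l| ∂pD k νD ν H l) (by linarith) fun l hl => by
      have i1 := dsd_i2 hk hH (dsd_bm_abs hG (A l)) l
      have i2 := dsd_i2 hk hH (dsd_bm_abs hG' (A l)) l
      rw [← integral_sub i1 i2,
        ← dsd_pD_add hk hH (hu.ex hk) (l := l) (by have := (mem_Ioo.1 hl).2; omega)]
      exact abs_integral_le_integral_abs.trans (integral_mono (i1.sub i2).abs
        (dsd_i2 hk hH (dsd_bm_add hu) l) fun z => hh (A l) z.1.1 z.2.1)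
  have a4 := (abs_le.1 a2).2
  have a5 := (abs_le.1 a3).2
  simp only [serr]
  linarith


theorem int_close (hk : 0 < k) (h0 : (DS k I νD ν).Lin H0) (h1 : (DS k I νD ν).Lin H1)
    {g : St I (D × Cf) → ℝ} (hg : Measurable g) (hb : ∀ s, |g s| ≤ P) {a : ℝ}
    (ha : ∫ s, exp (4 * |H1 s - H0 s|) ∂mD k νD ν H0 ≤ a) :
    |(∫ s, g s ∂mD k νD ν H1) - ∫ s, g s ∂mD k νD ν H0| ≤ P * √(a - 1) := dsd_norm (fun _ hg hb => (Sys.dl_close (ds_ok hk) ds_mono h0 h1 hg hb (k + 1) 0 _).trans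
    (sqrt_le_sqrt (sub_le_sub_right ha 1))) hg hb

theorem pD_close (hk : 0 < k) (h0 : (DS k I νD ν).Lin H0) (h1 : (DS k I νD ν).Lin H1)
    {F : St I (D × Cf) × St I (D × Cf) → ℝ} (hF : Measurable F) (hb : ∀ z, |F z| ≤ P) {a : ℝ}
    (ha : ∫ s, exp (4 * |H1 s - H0 s|) ∂mD k νD ν H0 ≤ a) {l : ℕ} (hl : l ≤ k + 1) :
    |(∫ z, F z ∂pD k νD ν H1 l) - ∫ z, F z ∂pD k νD ν H0 l| ≤ P * (6 * a * √(a - 1)) :=
  dsd_norm (fun _ hg hb => Sys.CLpr (ds_ok hk) ds_mono h0 h1 hg hb l (k + 1 - l) 0 _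
    (by rwa [Nat.add_sub_cancel' hl])) hF hb

theorem dsd_one_le (hk : 0 < k) (h0 : (DS k I νD ν).Lin H0) (h1 : (DS k I νD ν).Lin H1) :
    1 ≤ ∫ s, exp (4 * |H1 s - H0 s|) ∂mD k νD ν H0 :=
  Sys.dl_W_ge (ds_ok hk) h0 h1 (k + 1) 0 _

theorem tl_close (hk : 0 < k) (h0 : (DS k I νD ν).Lin H0) (h1 : (DS k I νD ν).Lin H1)
    (hG : Measurable (Function.uncurry G)) (hb : ∀ x y, |G x y| ≤ P) {a : ℝ}
    (ha : ∫ s, exp (4 * |H1 s - H0 s|) ∂mD k νD ν H0 ≤ a) :
    |tl k νD ν H1 j G - tl k νD ν H0 j G| ≤ 7 * P * a * √(a - 1) := by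
  have a0 := (dsd_one_le hk h0 h1).trans ha
  have hP : 0 ≤ P := (abs_nonneg _).trans (hb (Classical.arbitrary _) (Classical.arbitrary _))
  refine (dsd_tri (int_close hk h0 h1 (dsd_m1 hG) (fun s => hb _ _) ha)
    (dsd_avg_abs hk (by positivity) fun l hl => pD_close hk h0 h1 (dsd_m2 hG) (fun s => hb _ _) ha
      (by have := (mem_Ioo.1 hl).2; omega))).trans ?_
  have a1 := mul_nonneg (mul_nonneg hP (sub_nonneg.2 a0)) (sqrt_nonneg (a - 1))
  linarith

theorem int_tv (hk : 0 < k) (h0 : (DS k I νD ν).Lin H0) (h1 : (DS k I νD ν).Lin H1)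
    (hle : ∀ s, H1 s ≤ H0 s) {g : St I (D × Cf) → ℝ} (hg : Measurable g) (hb : ∀ s, |g s| ≤ P) :
    |(∫ s, g s ∂mD k νD ν H1) - ∫ s, g s ∂mD k νD ν H0| ≤
      2 * P * ∫ s, (H0 s - H1 s) ∂mD k νD ν H0 := by
  rw [mul_comm 2 P, mul_assoc]
  exact dsd_norm (fun _ hg hb => tv1 (ds_ok hk) ds_mono h0 h1 hle hg hb (k + 1) 0 _) hg hb

theorem tl_tv (hk : 0 < k) (h0 : (DS k I νD ν).Lin H0) (h1 : (DS k I νD ν).Lin H1)
    (hle : ∀ s, H1 s ≤ H0 s) (hG : Measurable (Function.uncurry G)) (hb : ∀ x y, |G x y| ≤ P) :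
    |tl k νD ν H1 j G - tl k νD ν H0 j G| ≤ 6 * P * ∫ s, (H0 s - H1 s) ∂mD k νD ν H0 := by
  have a0 : 0 ≤ ∫ s, (H0 s - H1 s) ∂mD k νD ν H0 := integral_nonneg fun s => sub_nonneg.2 (hle s)
  have hP : 0 ≤ P := (abs_nonneg _).trans (hb (Classical.arbitrary _) (Classical.arbitrary _))
  refine (dsd_tri (int_tv hk h0 h1 hle (dsd_m1 hG) fun s => hb _ _)
    (dsd_avg_abs hk (c := P * (4 * ∫ s, (H0 s - H1 s) ∂mD k νD ν H0)) (by positivity)
      fun l hl => dsd_norm (fun g hg hb => ?_) (dsd_m2 hG) fun s => hb _ _)).trans (le_of_eq (by ring))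
  have := tv2 (ds_ok hk) ds_mono h0 h1 hle hg hb l (k + 1 - l) 0 (s0 I (D × Cf))
  rwa [Nat.add_sub_cancel' (by have := (mem_Ioo.1 hl).2; omega)] at this


theorem dsd_transfer (hk : 0 < k) (h0 : (DS k I νD ν).Lin H0) (h1 : (DS k I νD ν).Lin H1)
    (hG : Measurable (Function.uncurry G)) (hb : ∀ x y, |G x y| ≤ P) (hA : IsPath k P A)
    {Q c1 c2 : ℝ} (hQ : 0 < Q) (hPQ : 2 * P ≤ Q) (hc1 : 0 ≤ c1)
    (h : ∀ l ≤ k + 1, ∀ F : St I (D × Cf) × St I (D × Cf) → ℝ, Measurable F → (∀ z, 0 ≤ F z) →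
      (∀ z, F z ≤ 1) → Q * ∫ z, F z ∂pD k νD ν H1 l ≤ c1 + c2 * (Q * ∫ z, F z ∂pD k νD ν H0 l)) :
    serr k νD ν H1 G A ≤ 2 * c1 + c2 * serr k νD ν H0 G A := by
  have key : ∀ l ≤ k + 1, ∀ l' ≤ k, ∫ z, |G z.1.1 z.2.1 - A l'| ∂pD k νD ν H1 l ≤
      c1 + c2 * ∫ z, |G z.1.1 z.2.1 - A l'| ∂pD k νD ν H0 l := fun l hl l' hl' => by
    have a1 := h l hl (fun z => |G z.1.1 z.2.1 - A l'| / Q)
      ((continuous_abs.measurable.comp ((dsd_m2 hG).sub_const _)).div_const Q)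
      (fun z => by positivity) fun z => (div_le_one hQ).2 ((abs_sub _ _).trans
        (by linarith [hb z.1.1 z.2.1, hA.abs_le hl']))
    rwa [integral_div, integral_div, mul_div_cancel₀ _ hQ.ne', mul_div_cancel₀ _ hQ.ne'] at a1
  have a1 := key (k + 1) le_rfl k le_rfl
  have hm : Measurable fun z : St I (D × Cf) × St I (D × Cf) => |G z.1.1 z.2.1 - A k| :=
    continuous_abs.measurable.comp ((dsd_m2 hG).sub_const _)
  have hd : Measurable fun s : St I (D × Cf) => (s, s) := measurable_id.prodMk measurable_id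
  rw [pD_top hk h0, pD_top hk h1, integral_map hd.aemeasurable hm.aestronglyMeasurable,
    integral_map hd.aemeasurable hm.aestronglyMeasurable] at a1
  have a2 := dsd_avg_le hk (j := 0) hc1
    (x := fun l => (∫ z, |G z.1.1 z.2.1 - A l| ∂pD k νD ν H1 l) -
      c2 * ∫ z, |G z.1.1 z.2.1 - A l| ∂pD k νD ν H0 l) fun l hl => by
      have := (mem_Ioo.1 hl).2
      linarith [key l (by omega) l this.le]
  rw [sum_sub_distrib, ← mul_sum] at a2
  simp only [serr]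
  linarith

theorem dsd_num {Q a ε : ℝ} (hQ : 0 < Q) (ha : 0 < a) (hε : 0 < ε) : ∃ L, 1 ≤ L ∧ ∃ c > (0 : ℝ),
    ∀ x, 0 ≤ x → Q * (a * √(L ^ 4 * x + a / L)) ≤ ε + c * (Q * x) := by
  set η := ε / (Q * a) with hη
  have h0 : 0 < η := by positivity
  have hL : 0 < max 1 (a / η ^ 2) := lt_max_of_lt_left one_pos
  refine ⟨max 1 (a / η ^ 2), le_max_left _ _, a * max 1 (a / η ^ 2) ^ 4 / (2 * η), by positivity,
    fun x hx => ?_⟩
  have a1 : a / max 1 (a / η ^ 2) ≤ η ^ 2 := by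
    rw [div_le_comm₀ hL (by positivity)]
    exact le_max_right _ _
  set L := max 1 (a / η ^ 2)
  have a2 : √(L ^ 4 * x + a / L) ≤ η + L ^ 4 * x / (2 * η) := by
    refine sqrt_le_iff.2 ⟨by positivity, ?_⟩
    have : (η + L ^ 4 * x / (2 * η)) ^ 2 = η ^ 2 + L ^ 4 * x + (L ^ 4 * x / (2 * η)) ^ 2 := by
      field_simp
      ring
    rw [this]
    linarith [sq_nonneg (L ^ 4 * x / (2 * η))]
  refine (mul_le_mul_of_nonneg_left (mul_le_mul_of_nonneg_left a2 ha.le) hQ.le).trans (le_of_eq ?_)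
  have : Q * (a * η) = ε := by rw [hη]; field_simp
  rw [← this]
  ring

/-- synchronisation survives exponentially integrable perturbations -/
theorem serr_dl (P a ε : ℝ) (hε : 0 < ε) : ∃ δ > (0 : ℝ), ∀ {I D Cf : Type} [Fintype I]
    [MeasurableSpace D] [MeasurableSpace Cf] [Nonempty D] [Nonempty Cf] {k : ℕ} {νD : Measure D}
    {ν : Measure Cf} [IsProbabilityMeasure νD] [IsProbabilityMeasure ν]
    {H0 H1 : St I (D × Cf) → ℝ} {G : D × Cf → D × Cf → ℝ} {A : ℕ → ℝ}, 0 < k →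
    (DS k I νD ν).Lin H0 → (DS k I νD ν).Lin H1 → Measurable (Function.uncurry G) →
    (∀ x y, |G x y| ≤ P) → IsPath k P A → ∫ s, exp (4 * |H1 s - H0 s|) ∂mD k νD ν H0 ≤ a →
    serr k νD ν H0 G A ≤ δ → serr k νD ν H1 G A ≤ ε := by
  have hQ : 0 < 2 * max P 1 := by positivity
  obtain ⟨L, hL, c, hc, h⟩ := dsd_num hQ (lt_max_of_lt_right one_pos : 0 < max a 1)
    (ε := ε / 4) (by positivity)
  refine ⟨ε / (2 * c), by positivity, fun hk h0 h1 hG hb hA ha hδ => ?_⟩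
  have a1 := dsd_transfer hk h0 h1 hG hb hA hQ (by linarith [le_max_left P 1])
    (c1 := ε / 4) (c2 := c) (by positivity) fun l hl F hF hF0 hF1 =>
      (mul_le_mul_of_nonneg_left (Sys.DLpr (ds_ok hk) ds_mono h0 h1 hF hF0 hF1 l _ 0 _ hL
        (by rw [Nat.add_sub_cancel' hl]; exact ha.trans (le_max_left a 1))) hQ.le).trans
        (h _ (integral_nonneg hF0))
  have a2 := mul_le_mul_of_nonneg_left hδ hc.le
  have a3 : c * (ε / (2 * c)) = ε / 2 := by field_simp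
  linarith


/-- synchronisation passes to a larger Hamiltonian -/
theorem serr_odl (P a ε : ℝ) (hε : 0 < ε) : ∃ δ > (0 : ℝ), ∀ {I D Cf : Type} [Fintype I]
    [MeasurableSpace D] [MeasurableSpace Cf] [Nonempty D] [Nonempty Cf] {k : ℕ} {νD : Measure D}
    {ν : Measure Cf} [IsProbabilityMeasure νD] [IsProbabilityMeasure ν]
    {H0 H1 : St I (D × Cf) → ℝ} {G : D × Cf → D × Cf → ℝ} {A : ℕ → ℝ}, 0 < k →
    (DS k I νD ν).Lin H0 → (DS k I νD ν).Lin H1 → Measurable (Function.uncurry G) →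
    (∀ x y, |G x y| ≤ P) → IsPath k P A → (∀ s, H1 s ≤ H0 s) →
    ∫ s, (H0 s - H1 s) ∂mD k νD ν H0 ≤ a →
    serr k νD ν H1 G A ≤ δ → serr k νD ν H0 G A ≤ ε := by
  have hQ : 0 < 2 * max P 1 := by positivity
  have ha1 : 0 < max a 1 := lt_max_of_lt_right one_pos
  set L := 8 * max a 1 * (2 * max P 1) / ε with hL
  have hL0 : 0 < L := by positivity
  refine ⟨ε / (2 * exp L), by positivity, ?_⟩
  intro I D Cf _ _ _ _ _ k νD ν _ _ H0 H1 G A hk h0 h1 hG hb hA hle ha hδ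
  have a1 := dsd_transfer hk h1 h0 hG hb hA hQ (by linarith [le_max_left P 1])
    (c1 := ε / 4) (c2 := exp L) (by positivity) fun l hl F hF hF0 hF1 => by
      have b1 := odl_small (ds_ok hk) ds_mono h0 h1 hle hF hF0 hF1 l (k + 1 - l) 0 (s0 _ _) hL0
      rw [Nat.add_sub_cancel' hl] at b1
      have b2 := mul_le_mul_of_nonneg_left (b1.trans (add_le_add le_rfl
        (div_le_div_of_nonneg_right (mul_le_mul_of_nonneg_left (ha.trans (le_max_left a 1))
          zero_le_two) hL0.le))) hQ.le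
      have b3 : 2 * max P 1 * (2 * max a 1 / L) = ε / 4 := by
        rw [hL]
        field_simp
        ring
      refine b2.trans (le_of_eq ?_)
      rw [mul_add, b3, add_comm, mul_left_comm]
      rfl
  have a2 := mul_le_mul_of_nonneg_left hδ (exp_pos L).le
  have a3 : exp L * (ε / (2 * exp L)) = ε / 2 := by field_simp
  linarith


end Vale.Agent.P166
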