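import Vale.Agent.P166.DSB
import Vale.Agent.P166.DSD
import Vale.Agent.P157.Deriv

/-! Finite differences for a small noise at one level. -/

namespace Vale.Agent.P166

open MeasureTheory ProbabilityTheory Real Finset Matrix Filter Topology
open Vale.Agent.P157 (Sys St γ GS s0 YY mm pp sh DirD pull mrg Rg Sp νB xB)
open scoped ENNReal

theorem fd_lip {f f1 : ℝ → ℝ} {K : ℝ} (hd : ∀ u, HasDerivAt f (f1 u) u) (hb : ∀ u, |f1 u| ≤ K)
    (u v : ℝ) : |f u - f v| ≤ K * |u - v| := by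
  have := Convex.norm_image_sub_le_of_norm_hasDerivWithin_le (f := f) (f' := f1)
    (s := Set.univ) (C := K) (x := v) (y := u) (fun x _ => (hd x).hasDerivWithinAt)
    (fun x _ => hb x) convex_univ trivial trivial
  simpa [Real.norm_eq_abs] using this

theorem fd_cont {f f1 : ℝ → ℝ} (hd : ∀ u, HasDerivAt f (f1 u) u) : Continuous f :=
  continuous_iff_continuousAt.2 fun u => (hd u).continuousAt

theorem fd_cont2 {f f1 f2 : ℝ → ℝ} {K : ℝ} (hf : Nc f f1 f2 K) : Continuous f2 :=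
  (LipschitzWith.of_dist_le_mul (K := ⟨K, zero_le_one.trans hf.one_le⟩) fun u v =>
    hf.lip u v).continuous

section Aux

/-- the argument of the potential -/
def fdU {I C : Type} [Fintype I] (a : C → ℝ) (e : I → C → ℝ) (j : ℕ) (t : ℝ) (s : St I C) : ℝ :=
  a s.1 + t * ∑ i, e i s.1 * s.2 j i

/-- the one replica observable -/
def fdA {I C : Type} [Fintype I] (f1 f2 : ℝ → ℝ) (a : C → ℝ) (e : I → C → ℝ) (j : ℕ) (t : ℝ)
    (s : St I C) : ℝ :=
  (∑ i, e i s.1 ^ 2) * f2 (fdU a e j t s) +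
    (∑ i, e i s.1 * e i s.1) * (f1 (fdU a e j t s) * f1 (fdU a e j t s))

/-- the two replica observable -/
def fdB {I C : Type} [Fintype I] (f1 : ℝ → ℝ) (a : C → ℝ) (e : I → C → ℝ) (j : ℕ) (t : ℝ)
    (z : St I C × St I C) : ℝ :=
  (∑ i, e i z.1.1 * e i z.2.1) * (f1 (fdU a e j t z.1) * f1 (fdU a e j t z.2))

variable {I D Cf : Type} [Fintype I] [MeasurableSpace D] [MeasurableSpace Cf] {k : ℕ}
  {νD : Measure D} {ν : Measure Cf} [IsProbabilityMeasure νD] [IsProbabilityMeasure ν]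
  {H : St I (D × Cf) → ℝ} {p : I → Prop} [DecidablePred p] {f f1 f2 : ℝ → ℝ} {K : ℝ}
  {a : D × Cf → ℝ} {e : I → D × Cf → ℝ} {j : ℕ}

theorem fd_lin_xi (hj : j < k) (he : ∀ i, BM (e i)) :
    (DS k I νD ν).Lin fun s => ∑ i, e i s.1 * s.2 j i :=
  have hk : 0 < k := by omega
  Sys.Lin.sum (ds_ok hk) _ fun i _ => (he i).mul_lin hk (lin_coordD hk hj i)

theorem fd_lin_U (hj : j < k) (ha : BM a) (he : ∀ i, BM (e i)) (t : ℝ) :
    (DS k I νD ν).Lin (fdU a e j t) :=
  (ha.lin (by omega)).add ((fd_lin_xi hj he).const_mul t)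

theorem fd_f_le (hf : Nc f f1 f2 K) (u : ℝ) : |f u| ≤ (|f 0| + K) * (1 + |u|) := by
  have a1 := fd_lip hf.d1 hf.b1 u 0
  have a2 := abs_sub_abs_le_abs_sub (f u) (f 0)
  have a3 := hf.one_le
  rw [sub_zero] at a1
  nlinarith [abs_nonneg (f 0), abs_nonneg u]

theorem fd_lin_H (hj : j < k) (hH : (DS k I νD ν).Lin H) (hf : Nc f f1 f2 K) (ha : BM a)
    (he : ∀ i, BM (e i)) (t : ℝ) : (DS k I νD ν).Lin fun s => H s + f (fdU a e j t s) :=
  hH.add (lin_comp (by omega) (fd_lin_U hj ha he t) (fd_cont hf.d1).measurable (fd_f_le hf))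

theorem fd_ex (hj : j < k) (ha : BM a) (he : ∀ i, BM (e i)) (t : ℝ) {F : ℝ → ℝ}
    (hF : Continuous F) (hb : ∀ u, |F u| ≤ K) : (DS k I νD ν).Ex fun s => F (fdU a e j t s) :=
  Sys.Ex.of_bdd (ds_ok (by omega)) (hF.measurable.comp (fd_lin_U (νD := νD) (ν := ν) hj ha he t).1)
    K fun _ => hb _

theorem fd_lfam (hj : j < k) (hH : (DS k I νD ν).Lin H) (hf : Nc f f1 f2 K) (ha : BM a)
    (he : ∀ i, BM (e i)) :
    (DS k I νD ν).LFam (Set.Ioo (-2) 2) (fun t s => H s + f (fdU a e j t s))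
      fun t s => f1 (fdU a e j t s) * ∑ i, e i s.1 * s.2 j i := by
  have hk : 0 < k := by omega
  have hY := ds_ok (I := I) (νD := νD) (ν := ν) hk
  obtain ⟨C1, h1, b1⟩ := hH.bd hY
  obtain ⟨C2, h2, b2⟩ := (fd_lin_xi (νD := νD) (ν := ν) hj he).bd hY
  obtain ⟨C3, b3⟩ := ha.2
  have hK := hf.one_le
  have hl : ∀ t ∈ Set.Ioo (-2 : ℝ) 2, ∀ s, |H s + f (fdU a e j t s)| ≤
      (C1 + (|f 0| + K) * (1 + C3 + 2 * C2)) * (1 + (DS k I νD ν).ν s) := fun t ht s => by
    have c0 := hY.ν_nonneg s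
    have c1 : |t| ≤ 2 := (abs_lt.2 ht).le
    have c2 : |fdU a e j t s| ≤ C3 + 2 * (C2 * (1 + (DS k I νD ν).ν s)) := by
      refine (abs_add_le _ _).trans (add_le_add (b3 _) ?_)
      rw [abs_mul]
      exact mul_le_mul c1 (b2 s) (abs_nonneg _) zero_le_two
    have c3 : 0 ≤ C3 := (abs_nonneg _).trans (b3 s.1)
    have c4 : 1 + |fdU a e j t s| ≤ (1 + C3 + 2 * C2) * (1 + (DS k I νD ν).ν s) := by
      nlinarith [mul_nonneg c3 c0]
    have c5 := (fd_f_le hf _).trans (mul_le_mul_of_nonneg_left c4 (by positivity))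
    refine (abs_add_le _ _).trans ((add_le_add (b1 s) c5).trans (le_of_eq (by ring)))
  refine ⟨Sys.Fam.mk' hY (fun t _ => (fd_lin_H hj hH hf ha he t).1)
    (fun t _ => ((fd_ex (νD := νD) (ν := ν) hj ha he t (fd_cont hf.d2) hf.b1).1).mul
      (fd_lin_xi (νD := νD) (ν := ν) hj he).1) (fun t _ s => ?_) (Sys.UB.of_lin hY hl)
    (Sys.UB.of_lin hY (C := K * C2) fun t _ s => ?_), _, hl⟩
  · have d1 : HasDerivAt (fun t => fdU a e j t s) (∑ i, e i s.1 * s.2 j i) t := by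
      simpa only [fdU, one_mul] using
        ((hasDerivAt_id' t).mul_const (∑ i, e i s.1 * s.2 j i)).const_add (a s.1)
    exact ((hf.d1 _).comp t d1).const_add (H s)
  · rw [abs_mul, mul_assoc]
    exact mul_le_mul (hf.b1 _) (b2 s) (abs_nonneg _) (by linarith)

omit [MeasurableSpace D] [MeasurableSpace Cf] in
theorem fd_dirD [DecidableEq I] (t : ℝ) (i : I) :
    DirD j i (fdU a e j t) fun s => t * e i s.1 := by
  refine ((DirD.config a).add ((DirD.sum univ fun i' _ => (DirD.config (e i')).mul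
    (DirD.coord j i')).const_mul t)).congr (fun _ => rfl) fun s => ?_
  simp

omit [MeasurableSpace D] [MeasurableSpace Cf] in
theorem fd_cs (h1 : ∀ c, ∑ i, e i c ^ 2 ≤ 1) (c c' : D × Cf) : |∑ i, e i c * e i c'| ≤ 1 := by
  rw [← sq_le_one_iff_abs_le_one]
  exact (sum_mul_sq_le_sq_mul_sq _ _ _).trans
    (mul_le_one₀ (h1 c) (sum_nonneg fun _ _ => sq_nonneg _) (h1 c'))

omit [MeasurableSpace D] [MeasurableSpace Cf] in
theorem fd_U_sub (t : ℝ) (ht : 0 ≤ t) (s : St I (D × Cf)) :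
    |fdU a e j t s - fdU a e j 0 s| = t * |∑ i, e i s.1 * s.2 j i| := by
  rw [fdU, fdU, zero_mul, add_zero, add_sub_cancel_left, abs_mul, abs_of_nonneg ht]

theorem fd_prod (hf : Nc f f1 f2 K) (u v u' v' : ℝ) :
    |f1 u * f1 v - f1 u' * f1 v'| ≤ K ^ 2 * (|u - u'| + |v - v'|) := by
  have hK := zero_le_one.trans hf.one_le
  have a1 := mul_le_mul (fd_lip hf.d2 hf.b2 u u') (hf.b1 v) (abs_nonneg _) (by positivity)
  have a2 := mul_le_mul (hf.b1 u') (fd_lip hf.d2 hf.b2 v v') (abs_nonneg _) hK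
  rw [← abs_mul] at a1 a2
  rw [show f1 u * f1 v - f1 u' * f1 v' = (f1 u - f1 u') * f1 v + f1 u' * (f1 v - f1 v') by ring]
  refine (abs_add_le _ _).trans ((add_le_add a1 a2).trans (le_of_eq (by ring)))

omit [MeasurableSpace D] [MeasurableSpace Cf] in
theorem fd_B_le (hf : Nc f f1 f2 K) (h1 : ∀ c, ∑ i, e i c ^ 2 ≤ 1) (t : ℝ)
    (z : St I (D × Cf) × St I (D × Cf)) : |fdB f1 a e j t z| ≤ K ^ 2 := by
  rw [fdB, abs_mul, abs_mul, pow_two]
  exact (mul_le_of_le_one_left (by positivity) (fd_cs h1 _ _)).trans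
    (mul_le_mul (hf.b1 _) (hf.b1 _) (abs_nonneg _) (zero_le_one.trans hf.one_le))

omit [MeasurableSpace D] [MeasurableSpace Cf] in
theorem fd_B_sub (hf : Nc f f1 f2 K) (h1 : ∀ c, ∑ i, e i c ^ 2 ≤ 1) {t : ℝ} (ht : 0 ≤ t)
    (z : St I (D × Cf) × St I (D × Cf)) : |fdB f1 a e j t z - fdB f1 a e j 0 z| ≤
      K ^ 2 * t * (|∑ i, e i z.1.1 * z.1.2 j i| + |∑ i, e i z.2.1 * z.2.2 j i|) := by
  rw [fdB, fdB, ← mul_sub, abs_mul]
  refine (mul_le_of_le_one_left (abs_nonneg _) (fd_cs h1 _ _)).trans ((fd_prod hf _ _ _ _).trans ?_)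
  rw [fd_U_sub t ht, fd_U_sub t ht, ← mul_add, mul_assoc]

omit [MeasurableSpace D] [MeasurableSpace Cf] in
theorem fd_A_le (hf : Nc f f1 f2 K) (h1 : ∀ c, ∑ i, e i c ^ 2 ≤ 1) (t : ℝ) (s : St I (D × Cf)) :
    |fdA f1 f2 a e j t s| ≤ 2 * K ^ 2 := by
  have a1 := fd_B_le (a := a) (j := j) hf h1 t (s, s)
  have a2 : |(∑ i, e i s.1 ^ 2) * f2 (fdU a e j t s)| ≤ K := by
    rw [abs_mul, abs_of_nonneg (sum_nonneg fun _ _ => sq_nonneg _)]
    exact (mul_le_of_le_one_left (abs_nonneg _) (h1 _)).trans (hf.b2 _)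
  have a3 := hf.one_le
  refine (abs_add_le _ _).trans ((add_le_add a2 a1).trans ?_)
  nlinarith

omit [MeasurableSpace D] [MeasurableSpace Cf] in
theorem fd_A_sub (hf : Nc f f1 f2 K) (h1 : ∀ c, ∑ i, e i c ^ 2 ≤ 1) {t : ℝ} (ht : 0 ≤ t)
    (s : St I (D × Cf)) : |fdA f1 f2 a e j t s - fdA f1 f2 a e j 0 s| ≤
      3 * K ^ 2 * t * |∑ i, e i s.1 * s.2 j i| := by
  have a1 := fd_B_sub (a := a) (j := j) hf h1 ht (s, s)
  have a2 : |(∑ i, e i s.1 ^ 2) * f2 (fdU a e j t s) - (∑ i, e i s.1 ^ 2) * f2 (fdU a e j 0 s)| ≤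
      K * (t * |∑ i, e i s.1 * s.2 j i|) := by
    rw [← mul_sub, abs_mul, abs_of_nonneg (sum_nonneg fun _ _ => sq_nonneg _), ← fd_U_sub t ht]
    exact (mul_le_of_le_one_left (abs_nonneg _) (h1 _)).trans (hf.lip _ _)
  have a3 := hf.one_le
  have a4 : K ≤ K ^ 2 := by nlinarith
  have a5 := mul_le_mul_of_nonneg_right a4 (mul_nonneg ht (abs_nonneg (∑ i, e i s.1 * s.2 j i)))
  rw [fdA, fdA, add_sub_add_comm]
  refine (abs_add_le _ _).trans ((add_le_add a2 a1).trans ?_)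
  simp only
  linarith

theorem fd_ex_A (hj : j < k) (hf : Nc f f1 f2 K) (ha : BM a) (he : ∀ i, BM (e i)) (t : ℝ) :
    (DS k I νD ν).Ex (fun s => (∑ i, e i s.1 ^ 2) * f2 (fdU a e j t s)) ∧
    (DS k I νD ν).Ex fun s =>
      (∑ i, e i s.1 * e i s.1) * (f1 (fdU a e j t s) * f1 (fdU a e j t s)) := by
  have hk : 0 < k := by omega
  have hY := ds_ok (I := I) (νD := νD) (ν := ν) hk
  have e1 := fd_ex (νD := νD) (ν := ν) hj ha he t (fd_cont hf.d2) hf.b1
  exact ⟨(Sys.Ex.sum hY _ fun i _ => ((he i).ex hk).sq hY).mul hY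
    (fd_ex hj ha he t (fd_cont2 hf) hf.b2),
    (Sys.Ex.sum hY _ fun i _ => ((he i).ex hk).mul hY ((he i).ex hk)).mul hY (e1.mul hY e1)⟩

theorem fd_ex_B (hj : j < k) (hf : Nc f f1 f2 K) (ha : BM a) (he : ∀ i, BM (e i)) (t : ℝ) :
    (DS k I νD ν).Ex2 (fdB f1 a e j t) := by
  have hk : 0 < k := by omega
  have hY := ds_ok (I := I) (νD := νD) (ν := ν) hk
  have e1 := fd_ex (νD := νD) (ν := ν) hj ha he t (fd_cont hf.d2) hf.b1
  exact (Sys.Ex2.sum hY _ fun i _ => (((he i).ex hk).fst hY).mul hY (((he i).ex hk).snd hY)).mul hY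
    ((e1.fst hY).mul hY (e1.snd hY))

variable [Nonempty D] [Nonempty Cf]

/-- the second order coefficient -/
noncomputable def fdT (k : ℕ) (νD : Measure D) (ν : Measure Cf) (H : St I (D × Cf) → ℝ)
    (f f1 f2 : ℝ → ℝ) (a : D × Cf → ℝ) (e : I → D × Cf → ℝ) (j : ℕ) (t : ℝ) : ℝ :=
  (∫ s, fdA f1 f2 a e j t s ∂mD k νD ν fun s => H s + f (fdU a e j t s)) -
    (1 / (k : ℝ)) * ∑ l ∈ Ioo j k,
      ∫ z, fdB f1 a e j t z ∂pD k νD ν (fun s => H s + f (fdU a e j t s)) l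

variable [StandardBorelSpace D]

theorem fd_ibp (hj : j < k) (hH : (DS k I νD ν).Lin H) (hp : Free k p H) (hf : Nc f f1 f2 K)
    (ha : BM a) (he : ∀ i, BM (e i)) (h0 : ∀ i, ¬p i → ∀ c, e i c = 0) (t : ℝ) :
    ∫ s, f1 (fdU a e j t s) * ∑ i, e i s.1 * s.2 j i
      ∂mD k νD ν (fun s => H s + f (fdU a e j t s)) = t * fdT k νD ν H f f1 f2 a e j t := by
  classical
  have hk : 0 < k := by omega
  have hY := ds_ok (I := I) (νD := νD) (ν := ν) hk
  have hHt := fd_lin_H hj hH hf ha he t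
  have e1 := fd_ex (νD := νD) (ν := ν) hj ha he t (fd_cont hf.d2) hf.b1
  have e2 := fd_ex (νD := νD) (ν := ν) hj ha he t (fd_cont2 hf) hf.b2
  have ee := fun i => (he i).ex (I := I) (νD := νD) (ν := ν) hk
  have eg := fun i => (ee i).mul hY e1
  have iA := fun i => integrable_mD hk hHt ((((ee i).sq hY).mul hY e2).add hY
    (((ee i).mul hY (ee i)).mul hY (e1.mul hY e1)))
  have iB := fun i l => integrable_pD hk hHt ((((ee i).fst hY).mul hY ((ee i).snd hY)).mul hY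
    ((e1.fst hY).mul hY (e1.snd hY))) l
  have key : ∀ i, ∫ s, s.2 j i * (e i s.1 * f1 (fdU a e j t s))
      ∂mD k νD ν (fun s => H s + f (fdU a e j t s)) =
      t * ((∫ s, e i s.1 ^ 2 * f2 (fdU a e j t s) +
        e i s.1 * e i s.1 * (f1 (fdU a e j t s) * f1 (fdU a e j t s))
          ∂mD k νD ν fun s => H s + f (fdU a e j t s)) - (1 / (k : ℝ)) * ∑ l ∈ Ioo j k,
        ∫ z, e i z.1.1 * e i z.2.1 * (f1 (fdU a e j t z.1) * f1 (fdU a e j t z.2))
          ∂pD k νD ν (fun s => H s + f (fdU a e j t s)) l) := fun i => by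
    by_cases hi : p i
    · have g' := (((ee i).sq hY).mul hY e2).const_mul hY t
      have h' := (eg i).const_mul hY t
      rw [ibpD hk hj hHt h' (((hp.dirD hj hi).add ((fd_dirD t i).comp hf.d1)).congr (fun _ => rfl)
        fun s => by ring) (eg i) g' (((DirD.config (e i)).mul ((fd_dirD t i).comp hf.d2)).congr
          (fun _ => rfl) fun s => by ring),
        ← integral_add (integrable_mD hk hHt g') (integrable_mD hk hHt ((eg i).mul hY h')), mul_sub,
        ← integral_const_mul, mul_left_comm, mul_sum _ _ t]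
      congr 1
      · exact integral_congr_ae (ae_of_all _ fun s => by simp only; ring)
      · congr 1
        refine sum_congr rfl fun l _ => ?_
        rw [← integral_const_mul]
        exact integral_congr_ae (ae_of_all _ fun s => by simp only; ring)
    · simp [h0 i hi]
  have e3 : (fun s : St I (D × Cf) => f1 (fdU a e j t s) * ∑ i, e i s.1 * s.2 j i) =
      fun s => ∑ i, s.2 j i * (e i s.1 * f1 (fdU a e j t s)) := by
    funext s
    rw [mul_sum]
    exact sum_congr rfl fun i _ => by ring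
  rw [e3, integral_finsetSum _ fun i _ =>
    integrable_mD hk hHt (((lin_coordD hk hj i).ex hY).mul hY (eg i))]
  simp only [key]
  rw [← mul_sum, sum_sub_distrib, ← mul_sum, sum_comm, ← integral_finsetSum _ fun i _ => iA i]
  simp only [← integral_finsetSum _ fun i _ => iB i _, fdT, fdA, fdB, sum_mul, sum_add_distrib]

theorem fd_exp (hj : j < k) (hH : (DS k I νD ν).Lin H) (hp : Free k p H) (he : ∀ i, BM (e i))
    (h0 : ∀ i, ¬p i → ∀ c, e i c = 0) (h1 : ∀ c, ∑ i, e i c ^ 2 ≤ 1) :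
    ∫ s, exp (4 * |∑ i, e i s.1 * s.2 j i|) ∂mD k νD ν H ≤ 2 * exp 8 := by
  have hk : 0 < k := by omega
  have := mD_prob hk hH
  have a1 := exp_fld_le hk hH hp he (w := fun j' _ => if j' = j then 1 else 0)
    (fun _ _ _ => by split_ifs <;> norm_num) (fun _ _ i hi => Or.inr (h0 i hi)) (BM.const 0) 4
  have e1 : ∀ s : St I (D × Cf), fld k e (fun j' _ => if j' = j then 1 else 0) s =
      ∑ i, e i s.1 * s.2 j i := fun s => by
    rw [fld, sum_eq_single_of_mem j (mem_range.2 hj) fun j' _ hj' => by simp [hj']]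
    simp
  have e2 : ∀ c, fvar k e (fun j' _ => if j' = j then 1 else 0) c = ∑ i, e i c ^ 2 := fun c => by
    rw [fvar, sum_eq_single_of_mem j (mem_range.2 hj) fun j' _ hj' => by simp [hj']]
    simp
  simp only [e1, e2, add_zero] at a1
  refine a1.trans (mul_le_mul_of_nonneg_left ((integral_mono_of_nonneg
    (ae_of_all _ fun _ => (exp_pos _).le) (integrable_const (exp 8))
    (ae_of_all _ fun s => exp_le_exp.2 ?_)).trans (by simp)) zero_le_two)
  linarith [h1 s.1]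

theorem fd_T_sub (hj : j < k) (hH : (DS k I νD ν).Lin H) (hp : Free k p H) (hf : Nc f f1 f2 K)
    (ha : BM a) (he : ∀ i, BM (e i)) (h0 : ∀ i, ¬p i → ∀ c, e i c = 0)
    (h1 : ∀ c, ∑ i, e i c ^ 2 ≤ 1) {t : ℝ} (ht : 0 ≤ t) (hKt : K * t ≤ 1) :
    |fdT k νD ν H f f1 f2 a e j t - fdT k νD ν H f f1 f2 a e j 0| ≤
      (2 * exp 8) * (13 + 6 * (2 * exp 8)) * K ^ 3 * √t := by
  have hk : 0 < k := by omega
  have hY := ds_ok (I := I) (νD := νD) (ν := ν) hk
  have hK := hf.one_le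
  have hHt := fd_lin_H hj hH hf ha he t
  have hH0 := fd_lin_H hj hH hf ha he 0
  have := mD_prob hk hH0
  have hp0 : Free k p fun s => H s + f (fdU a e j 0 s) := by
    simpa only [fdU, zero_mul, add_zero] using hp.comp₂ (Free.cfg a) fun x y => x + f y
  have hxi := (fd_lin_xi (νD := νD) (ν := ν) hj he).abs
  have iE := integrable_mD hk hH0 ((hxi.const_mul 4).ex_exp hY)
  have ixi := integrable_mD hk hH0 (hxi.ex hY)
  have a1 := fd_exp hj hH0 hp0 he h0 h1
  set C := 2 * exp 8 with hC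
  have hC1 : 1 ≤ C := by linarith [one_le_exp (by norm_num : (0 : ℝ) ≤ 8)]
  have a2 : ∫ s, |∑ i, e i s.1 * s.2 j i| ∂mD k νD ν (fun s => H s + f (fdU a e j 0 s)) ≤ C :=
    (integral_mono ixi iE fun s => by
      linarith [add_one_le_exp (4 * |∑ i, e i s.1 * s.2 j i|),
        abs_nonneg (∑ i, e i s.1 * s.2 j i)]).trans a1
  have hx : 0 ≤ K * t := by positivity
  have a3 : ∫ s, exp (4 * |(H s + f (fdU a e j t s)) - (H s + f (fdU a e j 0 s))|)
      ∂mD k νD ν (fun s => H s + f (fdU a e j 0 s)) ≤ 1 + C * (K * t) := by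
    refine (integral_mono (integrable_mD hk hH0 (((hHt.sub hH0).abs.const_mul 4).ex_exp hY))
      ((iE.const_mul (K * t)).add (integrable_const (1 - K * t))) fun s => ?_).trans ?_
    · refine le_trans (exp_le_exp.2 ?_) (Vale.Agent.P157.c2_exp_mul_le hx hKt _)
      have b1 := fd_lip hf.d1 hf.b1 (fdU a e j t s) (fdU a e j 0 s)
      rw [fd_U_sub t ht] at b1
      rw [add_sub_add_left_eq_sub]
      linarith
    · simp only [Pi.add_apply]
      rw [integral_add (iE.const_mul _) (integrable_const _), integral_const_mul]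
      simp only [integral_const, probReal_univ, smul_eq_mul, one_mul]
      linarith [mul_le_mul_of_nonneg_left a1 hx]
  have ht1 : t ≤ 1 := by nlinarith
  have s0 := sqrt_nonneg t
  have s1 : t ≤ √t := by
    refine le_sqrt_of_sq_le ?_
    nlinarith
  have s2 : √(1 + C * (K * t) - 1) ≤ C * K * √t := by
    refine sqrt_le_iff.2 ⟨by positivity, ?_⟩
    have b1 : 1 ≤ C * K := one_le_mul_of_one_le_of_one_le hC1 hK
    rw [mul_pow, sq_sqrt ht, add_sub_cancel_left, ← mul_assoc]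
    exact mul_le_mul_of_nonneg_right (by nlinarith) ht
  have eA := fun t => (fd_ex_A (νD := νD) (ν := ν) hj hf ha he t).1.add hY
    (fd_ex_A (νD := νD) (ν := ν) hj hf ha he t).2
  have eB := fd_ex_B (νD := νD) (ν := ν) hj hf ha he
  have hK2 : K ^ 2 * t ≤ K ^ 3 * √t :=
    mul_le_mul (pow_le_pow_right₀ hK (by norm_num)) s1 ht (by positivity)
  have c1 := (int_close hk hH0 hHt (g := fdA f1 f2 a e j t) (eA t).1 (fd_A_le hf h1 t) a3).trans
    (mul_le_mul_of_nonneg_left s2 (by positivity))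
  have c2 : |(∫ s, fdA f1 f2 a e j t s ∂mD k νD ν fun s => H s + f (fdU a e j 0 s)) -
      ∫ s, fdA f1 f2 a e j 0 s ∂mD k νD ν fun s => H s + f (fdU a e j 0 s)| ≤
      3 * K ^ 2 * t * C := by
    have i1 : Integrable (fdA f1 f2 a e j t) _ := integrable_mD hk hH0 (eA t)
    have i0 : Integrable (fdA f1 f2 a e j 0) _ := integrable_mD hk hH0 (eA 0)
    rw [← integral_sub i1 i0]
    refine (abs_integral_le_integral_abs.trans (integral_mono (i1.sub i0).abs (ixi.const_mul _)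
      (fd_A_sub hf h1 ht))).trans ?_
    rw [integral_const_mul]
    exact mul_le_mul_of_nonneg_left a2 (by positivity)
  have c3 := dsd_avg_abs hk (j := j)
    (x := fun l => ∫ z, fdB f1 a e j t z ∂pD k νD ν (fun s => H s + f (fdU a e j t s)) l)
    (y := fun l => ∫ z, fdB f1 a e j 0 z ∂pD k νD ν (fun s => H s + f (fdU a e j 0 s)) l)
    (c := K ^ 2 * (6 * (1 + C) * (C * K * √t)) + K ^ 2 * t * (2 * C)) (by positivity)
    fun l hl => by
      have hl' : l ≤ k + 1 := by have := (mem_Ioo.1 hl).2; omega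
      have d1 := pD_close hk hH0 hHt (eB t).1 (fd_B_le hf h1 t) a3 hl'
      have i1 := integrable_pD hk hH0 (eB t) l
      have i0 := integrable_pD hk hH0 (eB 0) l
      refine (abs_sub_le _ _ _).trans (add_le_add (d1.trans ?_) ?_)
      · refine mul_le_mul_of_nonneg_left (mul_le_mul ?_ s2 (sqrt_nonneg _) (by positivity))
          (by positivity)
        linarith [mul_le_of_le_one_right (zero_le_one.trans hC1) hKt]
      · rw [← integral_sub i1 i0]
        refine (abs_integral_le_integral_abs.trans (integral_mono (i1.sub i0).abs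
          ((integrable_pD hk hH0 (((hxi.ex hY).fst hY).add hY ((hxi.ex hY).snd hY)) l).const_mul _)
          (fd_B_sub hf h1 ht))).trans ?_
        rw [integral_const_mul, dsd_pD_add hk hH0 (hxi.ex hY) hl']
        exact mul_le_mul_of_nonneg_left (by linarith) (by positivity)
  refine (dsd_tri ((abs_sub_le _ _ _).trans (add_le_add c1 c2)) c3).trans ?_
  have c4 := mul_le_mul_of_nonneg_right hK2 (zero_le_one.trans hC1)
  nlinarith

end Aux

theorem fd : ∃ C > (0 : ℝ), ∀ {I D Cf : Type} [Fintype I] [MeasurableSpace D]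
    [MeasurableSpace Cf] [Nonempty D] [Nonempty Cf] [StandardBorelSpace D] {k : ℕ}
    {νD : Measure D} {ν : Measure Cf} [IsProbabilityMeasure νD] [IsProbabilityMeasure ν]
    {H : St I (D × Cf) → ℝ} {p : I → Prop} [DecidablePred p] {f f1 f2 : ℝ → ℝ} {K lam : ℝ}
    {a : D × Cf → ℝ} {e : I → D × Cf → ℝ} {j : ℕ}, j < k → (DS k I νD ν).Lin H → Free k p H →
    Nc f f1 f2 K → BM a → (∀ i, BM (e i)) → (∀ i, ¬p i → ∀ c, e i c = 0) →
    (∀ c, ∑ i, e i c ^ 2 ≤ 1) → 0 ≤ lam → K * lam ≤ 1 →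
    |YD k νD ν (fun s => H s + f (a s.1 + lam * ∑ i, e i s.1 * s.2 j i)) -
      YD k νD ν (fun s => H s + f (a s.1)) - lam ^ 2 / 2 *
        ((∫ s, (∑ i, e i s.1 ^ 2) * f2 (a s.1) ∂mD k νD ν fun s => H s + f (a s.1)) +
          tl k νD ν (fun s => H s + f (a s.1)) j
            fun c c' => (∑ i, e i c * e i c') * (f1 (a c) * f1 (a c')))| ≤
      C * K ^ 4 * lam ^ 2 * √lam := by
  refine ⟨(2 * exp 8) * (13 + 6 * (2 * exp 8)), by positivity, ?_⟩
  intro I D Cf _ _ _ _ _ _ k νD ν _ _ H p _ f f1 f2 K lam a e j hj hH hp hf ha he h0 h1 hl hKl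
  have hk : 0 < k := by omega
  have hY := ds_ok (I := I) (νD := νD) (ν := ν) hk
  have hK := hf.one_le
  set C := (2 * exp 8) * (13 + 6 * (2 * exp 8)) with hC
  have hC0 : 0 ≤ C := by positivity
  have hX := Sys.X_fam hY isOpen_Ioo (fd_lfam hj hH hf ha he) (k + 1) 0
  have hd : ∀ t ∈ Set.Icc 0 lam, HasDerivWithinAt (fun t =>
      YD k νD ν (fun s => H s + f (fdU a e j t s)) - t ^ 2 / 2 * fdT k νD ν H f f1 f2 a e j 0)
      (t * (fdT k νD ν H f f1 f2 a e j t - fdT k νD ν H f f1 f2 a e j 0)) (Set.Icc 0 lam) t := by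
    intro t ht
    have d1 := hX.der t ⟨by linarith [ht.1], by nlinarith [ht.2]⟩ (s0 I (D × Cf))
    have d2 := (((hasDerivAt_id' t).fun_pow 2).div_const 2).mul_const
      (fdT k νD ν H f f1 f2 a e j 0)
    refine ((d1.fun_sub d2).congr_deriv ?_).hasDerivWithinAt
    have := fd_ibp hj hH hp hf ha he h0 t
    rw [mD] at this
    rw [Sys.P, this]
    simp only [Nat.cast_ofNat, Nat.add_one_sub_one, pow_one]
    ring
  have a1 := norm_image_sub_le_of_norm_deriv_le_segment' hd (C := lam * (C * K ^ 3 * √lam))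
    (fun t ht => by
      rw [Real.norm_eq_abs, abs_mul, abs_of_nonneg ht.1]
      refine mul_le_mul ht.2.le ((fd_T_sub hj hH hp hf ha he h0 h1 ht.1 (by nlinarith [ht.2])).trans
        (mul_le_mul_of_nonneg_left (sqrt_le_sqrt ht.2.le) (by positivity))) (abs_nonneg _) hl)
    lam ⟨hl, le_rfl⟩
  have eA := fd_ex_A (νD := νD) (ν := ν) hj hf ha he 0
  have hH0 := fd_lin_H hj hH hf ha he 0
  rw [fdT] at a1
  simp only [fdA] at a1
  rw [integral_add (integrable_mD hk hH0 eA.1) (integrable_mD hk hH0 eA.2)] at a1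
  simp only [fdB, fdU, zero_mul, add_zero, Real.norm_eq_abs] at a1
  refine le_trans (le_of_eq (congrArg abs ?_)) (a1.trans ?_)
  · rw [tl]
    ring
  · have a2 : K ^ 3 ≤ K ^ 4 := pow_le_pow_right₀ hK (by norm_num)
    have a3 := mul_le_mul_of_nonneg_right a2
      (show 0 ≤ C * lam ^ 2 * √lam by positivity)
    linarith

end Vale.Agent.P166
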