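import Vale.Agent.P166.MdlB

/-! Transfer of synchronisation to the model with relabelled coordinates. -/

namespace Vale.Agent.P166

open MeasureTheory ProbabilityTheory Real Finset Matrix Filter Topology
open Vale.Agent.P157 (Sys St γ GS s0 YY mm pp sh DirD pull mrg Rg Sp νB xB)
open scoped ENNReal

theorem midM_H {ι α J : Type} [Fintype ι] [DecidableEq ι] [DecidableEq α] [Fintype J] (k : ℕ)
    (top : α) (ℓ : ι → α) (e : α → ℝ) (b : ℝ) (y : ℕ → ℝ) (r : ℕ → ι → ℝ) (S : Finset ι)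
    (s : AT ι J) : (midM top ℓ e b y r S).H k J s = (mkM top (upL top ℓ S) e b y r).H k J s -
      (1 / 2) * ∑ i ∈ S, e (ℓ i) * xs s.1 i ^ 2 := by
  have e1 : ∑ i, (midM top ℓ e b y r S).c i * xs s.1 i ^ 2 =
      ∑ i, (mkM top (upL top ℓ S) e b y r).c i * xs s.1 i ^ 2 - ∑ i ∈ S, e (ℓ i) * xs s.1 i ^ 2 := by
    simp only [midM, sub_mul, sum_sub_distrib, ite_mul, zero_mul, sum_ite_mem, univ_inter]
  have e2 : (midM top ℓ e b y r S).w J = (mkM top (upL top ℓ S) e b y r).w J := rfl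
  simp only [Mdl.H, e1, e2]
  ring

theorem blkL_upL {ι α : Type} [Fintype ι] [DecidableEq ι] [DecidableEq α] (top : α) (ℓ : ι → α)
    (S : Finset ι) : blkL (upL top ℓ S) top = blkL ℓ top ∪ S := by
  ext i
  by_cases h : i ∈ S <;> simp [blkL, upL, h]

lemma tr_conv {θ : ℝ} (h0 : 0 < θ) (h1 : θ ≤ 1) (t : ℝ) : exp t ≤ 1 - θ + θ * exp (t / θ) := by
  have := convexOn_exp.2 (Set.mem_univ 0) (Set.mem_univ (t / θ)) (sub_nonneg.2 h1) h0.le
    (by ring)
  simpa [mul_div_cancel₀ _ h0.ne'] using this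

lemma tr_bmQ {ι : Type} [Fintype ι] [DecidableEq ι] (S : Finset ι) :
    BM fun c : CF ι => ∑ i ∈ S, xs c i ^ 2 :=
  BM.sum S fun i _ => (bm_xs i).comp (F := fun x => x ^ 2) (by fun_prop)

theorem tr0 (P ε : ℝ) (m : ℕ) (hP : 0 < P) (hε : 0 < ε) : ∃ δ > (0 : ℝ), ∀ {ι α J : Type}
    [Fintype ι] [DecidableEq ι] [DecidableEq α] [Fintype J] {k : ℕ} (top : α) (ℓ : ι → α)
    (e : α → ℝ) (b : ℝ) (y : ℕ → ℝ) (r : ℕ → ι → ℝ) (S : Finset ι), 0 < k → e top = 0 →
    S.card ≤ m → (∀ i ∈ S, (Fintype.card ι : ℝ) ≤ P * (blkL ℓ (ℓ i)).card) → Small k δ b y →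
    ∫ s, exp (4 * |(midM top ℓ e b y r S).H k J s - (mkM top ℓ e b y r).H k J s|)
      ∂mA k ((mkM top ℓ e b y r).H k J) ≤ 1 + ε := by
  obtain ⟨θ, hθ, hθ1, hθ2⟩ : ∃ θ > (0 : ℝ), θ ≤ 1 ∧ 5 * θ ≤ ε :=
    ⟨min 1 (ε / 5), by positivity, min_le_left _ _, by linarith [min_le_right 1 (ε / 5)]⟩
  refine ⟨θ ^ 2 / (160 * P * (m + 1)), by positivity, ?_⟩
  intro ι α J _ _ _ _ k top ℓ e b y r S hk he hm hS hs
  classical
  set δ := θ ^ 2 / (160 * P * (m + 1)) with hδ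
  let S' := S.filter fun i => ℓ i ≠ top
  let w : ℕ → (ι ⊕ ι) ⊕ J → ℝ := fun j =>
    Sum.elim (Sum.elim (fun _ => 0) fun i => if i ∈ S' then y j ^ 2 else 0) fun _ => 0
  let p : (ι ⊕ ι) ⊕ J → Prop := Sum.elim (Sum.elim (fun _ => False) (· ∈ S')) fun _ => False
  have ok := ds_ok (I := (ι ⊕ ι) ⊕ J) (νD := hO ι) (ν := nC ι) hk
  have h0 := (mkM top ℓ e b y r).lin (J := J) hk
  have := mD_prob hk h0
  have hf : Free k p ((mkM top ℓ e b y r).H k J) := Mdl.free _ fun j _ i hi => by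
    rcases i with (i | i) | i
    · exact hi.elim
    · exact if_neg (mem_filter.1 hi).2
    · exact hi.elim
  have hQ := tr_bmQ S'
  have hD : ∀ s : AT ι J, (midM top ℓ e b y r S).H k J s - (mkM top ℓ e b y r).H k J s =
      fld k (fx ι J) w s - b / 2 * ∑ i ∈ S', xs s.1 i ^ 2 := fun s => by
    have e1 : ∑ i, (midM top ℓ e b y r S).c i * xs s.1 i ^ 2 =
        ∑ i, (mkM top ℓ e b y r).c i * xs s.1 i ^ 2 - b * ∑ i ∈ S', xs s.1 i ^ 2 := by
      rw [mul_sum, ← univ_inter S', ← sum_ite_mem, ← sum_sub_distrib]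
      refine sum_congr rfl fun i _ => ?_
      by_cases h1 : i ∈ S <;> by_cases h2 : ℓ i = top <;> simp [midM, mkM, upL, S', h1, h2, he]
      ring
    have e2 : fld k (fx ι J) ((midM top ℓ e b y r S).w J) s =
        fld k (fx ι J) ((mkM top ℓ e b y r).w J) s + fld k (fx ι J) w s := by
      simp only [fld, ← sum_add_distrib, ← add_mul]
      refine sum_congr rfl fun j _ => sum_congr rfl fun i _ => ?_
      congr 2
      rcases i with (i | i) | i
      · simp [Mdl.w, midM, mkM, w]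
      · by_cases h1 : i ∈ S <;> by_cases h2 : ℓ i = top <;>
          simp [Mdl.w, midM, mkM, upL, w, S', h1, h2]
      · simp [Mdl.w, w]
    simp only [Mdl.H, e1, e2]
    ring
  have hv : ∀ c : CF ι, fvar k (fx ι J) w c ≤ δ * ∑ i ∈ S', xs c i ^ 2 := fun c => by
    have : fvar k (fx ι J) w c = (∑ j ∈ range k, y j ^ 2) * ∑ i ∈ S', xs c i ^ 2 := by
      rw [fvar, sum_mul]
      refine sum_congr rfl fun j _ => ?_
      simp [w, fx, Fintype.sum_sum_type, mul_sum]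
    rw [this]
    exact mul_le_mul_of_nonneg_right hs.2.2 (sum_nonneg fun _ _ => sq_nonneg _)
  have k1 := exp_fld_le hk h0 hf (bm_fx (J := J)) (w := w) (fun j _ i => by
      rcases i with (i | i) | i
      · exact le_rfl
      · simp only [w, Sum.elim_inl, Sum.elim_inr]
        split_ifs <;> positivity
      · exact le_rfl) (fun j _ i hi => by
      rcases i with (i | i) | i
      · exact .inl rfl
      · exact .inl (if_neg hi)
      · exact .inl rfl) ((BM.const (2 * b / θ)).mul hQ) (4 / θ)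
  have k2 := (em_sum hk h0 (S := S') ((card_filter_le _ _).trans hm) hP zero_le_one le_rfl
    fun i hi => ⟨blkL ℓ (ℓ i), by simp [blkL], (mkM_iso top ℓ e b y r _).rotB,
      hS i (mem_filter.1 hi).1⟩).1
  have k3 : ∫ s, exp ((4 / θ) ^ 2 * fvar k (fx ι J) w s.1 / 2 +
      2 * b / θ * ∑ i ∈ S', xs s.1 i ^ 2) ∂mA k ((mkM top ℓ e b y r).H k J) ≤ 1 + 2 * 1 := by
    refine le_trans (integral_mono_of_nonneg (.of_forall fun s => (exp_pos _).le)
      (integrable_mD hk h0 ((((BM.const _).mul hQ).lin hk).ex_exp ok)) (.of_forall fun s => ?_)) k2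
    refine exp_le_exp.2 ?_
    have q0 : 0 ≤ ∑ i ∈ S', xs s.1 i ^ 2 := sum_nonneg fun _ _ => sq_nonneg _
    have q1 := mul_le_mul_of_nonneg_left (hv s.1) (sq_nonneg (4 / θ))
    have q2 : 2 * b / θ ≤ 2 * δ / θ ^ 2 := by
      rw [div_le_div_iff₀ hθ (by positivity)]
      have : b * θ ≤ δ * 1 := mul_le_mul hs.2.1 hθ1 hθ.le (hs.1.trans hs.2.1)
      nlinarith
    have q3 : (4 / θ) ^ 2 * δ / 2 + 2 * δ / θ ^ 2 = 1 / (16 * P * (m + 1)) := by
      rw [hδ]
      field_simp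
      ring
    rw [← q3]
    nlinarith [mul_le_mul_of_nonneg_right q2 q0]
  have hI := integrable_mD hk h0 (((((lin_fld hk (bm_fx (J := J)) w).abs).const_mul (4 / θ)).add
    (((BM.const (2 * b / θ)).mul hQ).lin hk)).ex_exp ok)
  refine (integral_mono_of_nonneg (.of_forall fun s => (exp_pos _).le)
    ((integrable_const (1 - θ)).add (hI.const_mul θ)) (.of_forall fun s => ?_)).trans ?_
  · refine (tr_conv hθ hθ1 _).trans ?_
    have q0 : 0 ≤ ∑ i ∈ S', xs s.1 i ^ 2 := sum_nonneg fun _ _ => sq_nonneg _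
    have q1 : |fld k (fx ι J) w s - b / 2 * ∑ i ∈ S', xs s.1 i ^ 2| ≤
        |fld k (fx ι J) w s| + b / 2 * ∑ i ∈ S', xs s.1 i ^ 2 :=
      (abs_sub _ _).trans_eq (by rw [abs_of_nonneg (mul_nonneg (by linarith [hs.1]) q0)])
    refine add_le_add le_rfl (mul_le_mul_of_nonneg_left (exp_le_exp.2 ?_) hθ.le)
    rw [hD]
    refine (div_le_div_of_nonneg_right (mul_le_mul_of_nonneg_left q1 (by norm_num))
      hθ.le).trans_eq ?_
    ring
  · simp only [Pi.add_apply]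
    rw [integral_add (integrable_const _) (hI.const_mul θ), integral_const_mul]
    simp only [integral_const, probReal_univ, one_smul]
    nlinarith [mul_le_mul_of_nonneg_left (k1.trans (mul_le_mul_of_nonneg_left k3 zero_le_two)) hθ.le]

lemma tr_ovx {ι : Type} [Fintype ι] [DecidableEq ι] {B S : Finset ι} {P : ℝ} {m : ℕ} (hP : 0 < P)
    (hN : (0 : ℝ) < Fintype.card ι) (hB : (Fintype.card ι : ℝ) ≤ P * B.card) (hm : S.card ≤ m)
    (c c' : CF ι) : |ovx (B ∪ S) c c' - ovx B c c'| ≤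
      (P ^ 2 * m / (2 * Fintype.card ι) + P / (2 * Fintype.card ι) * ∑ i ∈ S, xs c i ^ 2) +
        (P ^ 2 * m / (2 * Fintype.card ι) + P / (2 * Fintype.card ι) * ∑ i ∈ S, xs c' i ^ 2) := by
  have hn : (0 : ℝ) < B.card := (mul_pos_iff_of_pos_left hP).1 (hN.trans_le hB)
  have hc : ((B ∪ S).card : ℝ) = B.card + (S \ B).card := by
    rw [← union_sdiff_self_eq_union, card_union_of_disjoint disjoint_sdiff, Nat.cast_add]
  have ht : ((S \ B).card : ℝ) ≤ m := Nat.cast_le.2 ((card_le_card sdiff_subset).trans hm)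
  have ht0 : (0 : ℝ) ≤ (S \ B).card := Nat.cast_nonneg _
  have e : ovx (B ∪ S) c c' - ovx B c c' =
      (∑ i ∈ S \ B, xs c i * xs c' i - ovx B c c' * (S \ B).card) / (B.card + (S \ B).card) := by
    rw [ovx, hc, ← union_sdiff_self_eq_union, sum_union disjoint_sdiff, ovx]
    field_simp
    ring
  have k1 : |∑ i ∈ S \ B, xs c i * xs c' i| ≤
      (∑ i ∈ S, xs c i ^ 2 + ∑ i ∈ S, xs c' i ^ 2) / 2 := by
    rw [← sum_add_distrib, sum_div]
    refine (abs_sum_le_sum_abs _ _).trans ((sum_le_sum fun i _ => ?_).trans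
      (sum_le_sum_of_subset_of_nonneg sdiff_subset fun _ _ _ => by positivity))
    rw [abs_le]
    constructor <;> nlinarith [sq_nonneg (xs c i + xs c' i), sq_nonneg (xs c i - xs c' i)]
  have k2 : |ovx B c c' * (S \ B).card| ≤ P * m := by
    rw [abs_mul, abs_of_nonneg ht0]
    exact mul_le_mul (abs_ovx_le hB hP.le c c') ht ht0 hP.le
  have k3 : 1 / ((B.card : ℝ) + (S \ B).card) ≤ P / Fintype.card ι := by
    rw [div_le_div_iff₀ (by positivity) hN]
    nlinarith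
  rw [e, abs_div, abs_of_pos (show (0 : ℝ) < B.card + (S \ B).card by positivity),
    div_eq_mul_one_div]
  refine (mul_le_mul ((abs_sub _ _).trans (add_le_add k1 k2)) k3 (by positivity)
    (by positivity)).trans_eq ?_
  ring

theorem tr (P C ε : ℝ) (m : ℕ) (hP : 0 < P) (hε : 0 < ε) : ∃ δ > (0 : ℝ), ∃ N0 : ℕ,
    ∀ {ι α : Type} [Fintype ι] [DecidableEq ι] [DecidableEq α] {k : ℕ} (top : α) (ℓ : ι → α)
    (e : α → ℝ) (b : ℝ) (y : ℕ → ℝ) (r : ℕ → ι → ℝ) (S : Finset ι) (A : ℕ → ℝ), 0 < k →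
    e top = 0 → S.card ≤ m → N0 ≤ Fintype.card ι →
    (Fintype.card ι : ℝ) ≤ P * (blkL ℓ top).card →
    (∀ i ∈ S, (Fintype.card ι : ℝ) ≤ P * (blkL ℓ (ℓ i)).card ∧ 0 ≤ e (ℓ i) ∧ e (ℓ i) ≤ C) →
    Small k δ b y → IsPath k P A → (mkM top ℓ e b y r).serr k (ovx (blkL ℓ top)) A ≤ δ →
    (mkM top (upL top ℓ S) e b y r).serr k (ovx (blkL (upL top ℓ S) top)) A ≤ ε := by
  obtain ⟨δ1, hδ1, h1⟩ := serr_odl P (16 * |C| * P * m) (ε / 2) (by positivity)
  obtain ⟨δ2, hδ2, h2⟩ := serr_dl P (1 + 1) δ1 hδ1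
  obtain ⟨δ3, hδ3, h3⟩ := tr0 P 1 m hP one_pos
  obtain ⟨N0, hN0⟩ := exists_nat_ge (132 * P ^ 2 * m / ε)
  refine ⟨min δ2 δ3, lt_min hδ2 hδ3, N0 + 1, ?_⟩
  intro ι α _ _ _ k top ℓ e b y r S A hk he hm hN hB hS hs hA hser
  have hN1 : (0 : ℝ) < Fintype.card ι := Nat.cast_pos.2 (by omega)
  have hN2 : 132 * P ^ 2 * m ≤ Fintype.card ι * ε := by
    rw [div_le_iff₀ hε] at hN0
    have : (N0 : ℝ) ≤ Fintype.card ι := Nat.cast_le.2 (by omega)
    nlinarith
  have l0 := (mkM top ℓ e b y r).lin (J := Empty) hk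
  have l1 := (midM top ℓ e b y r S).lin (J := Empty) hk
  have l2 := (mkM top (upL top ℓ S) e b y r).lin (J := Empty) hk
  have := mD_prob hk l2
  have hQ := tr_bmQ S
  have iQ := integrable_mD hk l2 (hQ.ex hk)
  have k0 := (em_sum hk l2 hm hP zero_le_one le_rfl fun i hi =>
    ⟨blkL (upL top ℓ S) top, by simp [blkL_upL, hi], (mkM_iso top _ e b y r _).rotB,
      hB.trans (mul_le_mul_of_nonneg_left (Nat.cast_le.2 (card_le_card (by
        rw [blkL_upL]
        exact subset_union_left))) hP.le)⟩).2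
  have k1 := h2 hk l0 l1 (bm_ovx _).1 (abs_ovx_le hB hP.le) hA
    (h3 top ℓ e b y r S hk he hm (fun i hi => (hS i hi).1)
      ⟨hs.1, hs.2.1.trans (min_le_right _ _), hs.2.2.trans (min_le_right _ _)⟩)
    (hser.trans (min_le_left _ _))
  have k2 := h1 hk l2 l1 (bm_ovx _).1 (abs_ovx_le hB hP.le) hA (fun s => by
    rw [midM_H]
    have : 0 ≤ ∑ i ∈ S, e (ℓ i) * xs s.1 i ^ 2 :=
      sum_nonneg fun i hi => mul_nonneg (hS i hi).2.1 (sq_nonneg _)
    linarith) (by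
    simp only [midM_H, sub_sub_cancel]
    refine (integral_mono_of_nonneg (.of_forall fun s => mul_nonneg (by norm_num)
      (sum_nonneg fun i hi => mul_nonneg (hS i hi).2.1 (sq_nonneg _))) (iQ.const_mul (|C| / 2))
      (.of_forall fun s => ?_)).trans ?_
    · have : ∑ i ∈ S, e (ℓ i) * xs s.1 i ^ 2 ≤ |C| * ∑ i ∈ S, xs s.1 i ^ 2 := by
        rw [mul_sum]
        exact sum_le_sum fun i hi => mul_le_mul_of_nonneg_right
          ((hS i hi).2.2.trans (le_abs_self _)) (sq_nonneg _)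
      dsimp only
      linarith
    · rw [integral_const_mul]
      exact (mul_le_mul_of_nonneg_left k0 (by positivity)).trans_eq (by ring)) k1
  have k3 := serr_le_add (A := A) hk l2 (bm_ovx (blkL ℓ top ∪ S)) (bm_ovx (blkL ℓ top))
    ((BM.const (P ^ 2 * m / (2 * Fintype.card ι))).add
      ((BM.const (P / (2 * Fintype.card ι))).mul hQ)) (tr_ovx hP hN1 hB hm)
  rw [integral_add (integrable_const _) (iQ.const_mul _), integral_const_mul] at k3
  simp only [integral_const, probReal_univ, one_smul] at k3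
  have k4 : 4 * (P ^ 2 * m / (2 * Fintype.card ι) + P / (2 * Fintype.card ι) * (32 * P * m)) ≤
      ε / 2 := by
    rw [show 4 * (P ^ 2 * m / (2 * Fintype.card ι) + P / (2 * Fintype.card ι) * (32 * P * m)) =
      66 * P ^ 2 * m / Fintype.card ι by field_simp; ring, div_le_iff₀ hN1]
    linarith
  have k5 := mul_le_mul_of_nonneg_left k0 (show 0 ≤ P / (2 * Fintype.card ι) by positivity)
  rw [blkL_upL, Mdl.serr]
  linarith

/-- blocks are large when the frequencies are close to positive weights -/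
theorem near_blk {α : Type} [Fintype α] [DecidableEq α] {p : α → ℝ} (hp : ∀ a, 0 < p a) :
    ∃ P > (0 : ℝ), ∃ δ > (0 : ℝ), ∀ {ι : Type} [Fintype ι] [DecidableEq ι] (ℓ : ι → α),
    Near p δ ℓ → ∀ a, (Fintype.card ι : ℝ) ≤ P * (blkL ℓ a).card := by
  have h0 : 0 ≤ ∑ a, 1 / p a := sum_nonneg fun a _ => (one_div_pos.2 (hp a)).le
  refine ⟨2 * (∑ a, 1 / p a + 1), by positivity, 1 / (2 * (∑ a, 1 / p a + 1)), by positivity,
    fun {ι} _ _ ℓ h a => ?_⟩
  have k1 : 1 / p a ≤ ∑ a, 1 / p a :=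
    single_le_sum (f := fun a => 1 / p a) (fun a _ => (one_div_pos.2 (hp a)).le) (mem_univ a)
  have k2 : 1 / (∑ a, 1 / p a + 1) ≤ p a := by
    rw [one_div_le (by positivity) (hp a)]
    linarith
  have k3 := (abs_le.1 (h a)).1
  rcases (Nat.cast_nonneg (α := ℝ) (Fintype.card ι)).eq_or_lt with hN | hN
  · rw [← hN]
    positivity
  · rw [← div_le_iff₀' (by positivity), div_eq_mul_one_div, ← le_div_iff₀' hN]
    have : 1 / (∑ a, 1 / p a + 1) = 2 * (1 / (2 * (∑ a, 1 / p a + 1))) := by field_simp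
    linarith

theorem Near.mono {ι α : Type} [Fintype ι] [DecidableEq ι] [DecidableEq α] {p : α → ℝ} {δ δ' : ℝ}
    {ℓ : ι → α} (h : Near p δ ℓ) (hδ : δ ≤ δ') : Near p δ' ℓ := fun a => (h a).trans hδ

theorem Small.mono {k : ℕ} {δ δ' b : ℝ} {y : ℕ → ℝ} (h : Small k δ b y) (hδ : δ ≤ δ') :
    Small k δ' b y := ⟨h.1, h.2.1.trans hδ, h.2.2.trans hδ⟩

end Vale.Agent.P166
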