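import Vale.Agent.P166.CavQ
import Vale.Agent.P166.TR

/-! Steps of the comparison of the truncated cavity response with the response of a block. -/

namespace Vale.Agent.P166

open MeasureTheory ProbabilityTheory Real Finset Matrix Filter Topology
open Vale.Agent.P157 (Sys St γ GS s0 YY mm pp sh DirD pull mrg Rg Sp νB xB)
open scoped ENNReal

variable {ι J : Type} [Fintype ι] [DecidableEq ι] [Fintype J] {k j : ℕ}

theorem gr_bm {f : ℝ → ℝ} (hf : Continuous f) (i : ι) : BM fun c : CF ι => f (xs c i) :=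
  (bm_xs i).comp hf

theorem gr_cont1 {f f1 f2 : ℝ → ℝ} {K : ℝ} (h : Nc f f1 f2 K) : Continuous f1 :=
  continuous_iff_continuousAt.2 fun u => (h.d2 u).continuousAt

theorem gr_cont2 {f f1 f2 : ℝ → ℝ} {K : ℝ} (h : Nc f f1 f2 K) : Continuous f2 := by
  have hK : 0 ≤ K := le_trans zero_le_one h.one_le
  refine (LipschitzWith.of_dist_le_mul (K := ⟨K, hK⟩) fun u u' => ?_).continuous
  exact h.lip u u'

/-- exponential moment of one coordinate -/
theorem gr_em (hk : 0 < k) {H : AT ι J → ℝ} (hH : (AS k ι J).Lin H) {B : Finset ι}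
    (hB : RotB B H) {P l : ℝ} (hP0 : 0 < P) (hP : (Fintype.card ι : ℝ) ≤ P * B.card) {i : ι}
    (hi : i ∈ B) (hl : l ≤ 1 / (16 * P)) :
    ∫ s, exp (l * xs s.1 i ^ 2) ∂mA k H ≤ 3 := by
  have h1 := em hk hH hB hP0 hP zero_le_one le_rfl (u := Pi.single i 1) (fun i' hi' => by
    rw [Pi.single_eq_of_ne]; rintro rfl; exact hi' hi) (by simp)
  simp only [single_dotProduct, one_mul] at h1
  refine le_trans (integral_mono ?_ ?_ fun s => ?_) (h1.trans (by norm_num))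
  · exact integrable_mD hk hH
      ((gr_bm (f := fun u => exp (l * u ^ 2)) (by fun_prop) i).ex hk)
  · exact integrable_mD hk hH
      ((gr_bm (f := fun u => exp (1 / (16 * P) * u ^ 2)) (by fun_prop) i).ex hk)
  · exact exp_le_exp.2 (mul_le_mul_of_nonneg_right hl (sq_nonneg _))

/-- the response functional -/
noncomputable def grR (k j : ℕ) (κ σ : ℝ) (i : ι) (H : AT ι J → ℝ) : ℝ :=
  (∫ s, tq2 κ σ 0 (xs s.1 i) ∂mA k H) + tl k (hO ι) (nC ι) H j
    (fun c c' => tq1 κ σ 0 (xs c i) * tq1 κ σ 0 (xs c' i))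

variable {κ σ C P l : ℝ} {i : ι}

theorem gr_G_bm (hκ : 0 ≤ κ) (h0 : 0 ≤ σ) (hC : σ ≤ C) : BM (Function.uncurry
    fun c c' : CF ι => tq1 κ σ 0 (xs c i) * tq1 κ σ 0 (xs c' i)) :=
  bm_mul₂ (gr_bm (gr_cont1 (nc_tq hκ h0 hC 0)) i) (gr_bm (gr_cont1 (nc_tq hκ h0 hC 0)) i)

theorem gr_G_le (hκ : 0 ≤ κ) (h0 : 0 ≤ σ) (hC : σ ≤ C) (u u' : ℝ) :
    |tq1 κ σ 0 u * tq1 κ σ 0 u'| ≤ KK C κ ^ 2 := by
  have h := nc_tq hκ h0 hC 0
  rw [abs_mul, sq]
  exact mul_le_mul (h.b1 u) (h.b1 u') (abs_nonneg _) (le_trans zero_le_one h.one_le)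

omit [Fintype J] in
theorem gr_g_meas (hκ : 0 ≤ κ) (h0 : 0 ≤ σ) (hC : σ ≤ C) :
    Measurable fun s : AT ι J => tq2 κ σ 0 (xs s.1 i) :=
  (gr_bm (gr_cont2 (nc_tq hκ h0 hC 0)) i).1.comp measurable_fst

/-- removal of the truncation in the Hamiltonian -/
theorem gr_step1 (hk : 0 < k) {H : AT ι J → ℝ} (hH : (AS k ι J).Lin H) {B : Finset ι}
    (hB : RotB B H) (hP0 : 0 < P) (hP : (Fintype.card ι : ℝ) ≤ P * B.card) (hi : i ∈ B)
    (hκ : 0 ≤ κ) (h0 : 0 ≤ σ) (hC : σ ≤ C) (hl0 : 0 < l) (hl1 : l ≤ 1)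
    (hl : l * C ≤ 1 / (16 * P)) :
    |grR k j κ σ i (fun s => H s + qq σ 0 (xs s.1 i)) -
      grR k j κ σ i (fun s => H s + tq κ σ 0 (xs s.1 i))| ≤
      96 / l * KK C κ ^ 2 * exp (-(l * κ)) := by
  have hN := nc_tq hκ h0 hC 0
  have hK := hN.one_le
  have bt := gr_bm (continuous_tq κ σ 0) i
  have bq := gr_bm (continuous_qq σ 0) i
  have lt : (AS k ι J).Lin fun s => tq κ σ 0 (xs s.1 i) := bt.lin hk
  have lq : (AS k ι J).Lin fun s => qq σ 0 (xs s.1 i) := bq.lin hk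
  have hle : ∀ s : AT ι J, H s + qq σ 0 (xs s.1 i) ≤ H s + tq κ σ 0 (xs s.1 i) := fun s =>
    add_le_add_right (le_chi κ _) _
  have a1 := int_tv hk (hH.add lt) (hH.add lq) hle (gr_g_meas hκ h0 hC (i := i))
    (fun s => hN.b2 _)
  have a2 := tl_tv (j := j) hk (hH.add lt) (hH.add lq) hle (gr_G_bm hκ h0 hC (i := i)).1
    (fun x y => gr_G_le hκ h0 hC _ _)
  simp only [add_sub_add_left_eq_sub] at a1 a2
  have a3 := act (ds_ok hk) ds_mono hH lt (κ := κ) (fun s => neg_le_chi κ _)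
    ((bt.sub bq).ex hk) (fun s => sub_nonneg.2 (le_chi κ _)) (k + 1) 0 (s0 _ _)
  have a4 := gr_em hk hH hB hP0 hP hi hl
  have a5 : ∫ s, (tq κ σ 0 (xs s.1 i) - qq σ 0 (xs s.1 i)) * exp (tq κ σ 0 (xs s.1 i) + κ)
      ∂mA k H ≤ ∫ s, 4 / l * exp (-(l * κ)) * exp (l * C * xs s.1 i ^ 2) ∂mA k H := by
    refine integral_mono ?_ ?_ fun s => ?_
    · exact integrable_mD hk hH (((bt.sub bq).mul
        (bt.comp (F := fun u => exp (u + κ)) (by fun_prop))).ex hk)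
    · exact integrable_mD hk hH ((gr_bm
        (f := fun u => 4 / l * exp (-(l * κ)) * exp (l * C * u ^ 2)) (by fun_prop) i).ex hk)
    · refine (chi_tail hl0 hl1 κ _).trans (mul_le_mul_of_nonneg_left (exp_le_exp.2 ?_)
        (by positivity))
      have h1 := neg_qq_le h0 0 (xs s.1 i)
      have h2 : σ * xs s.1 i ^ 2 ≤ C * xs s.1 i ^ 2 := mul_le_mul_of_nonneg_right hC (sq_nonneg _)
      have h3 : l * -qq σ 0 (xs s.1 i) ≤ l * (C * xs s.1 i ^ 2) :=
        mul_le_mul_of_nonneg_left (by nlinarith) hl0.le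
      linarith
  rw [integral_const_mul] at a5
  have a6 : ∫ s, (tq κ σ 0 (xs s.1 i) - qq σ 0 (xs s.1 i))
      ∂mA k (fun s => H s + tq κ σ 0 (xs s.1 i)) ≤ 4 / l * exp (-(l * κ)) * 3 :=
    le_trans a3 (a5.trans (mul_le_mul_of_nonneg_left a4 (by positivity)))
  have hE : 0 ≤ 4 / l * exp (-(l * κ)) * 3 := by positivity
  have b1 := a1.trans (mul_le_mul (show 2 * KK C κ ≤ 2 * KK C κ ^ 2 by nlinarith) a6
    (integral_nonneg fun s => sub_nonneg.2 (le_chi κ _)) (by positivity))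
  have b2 := a2.trans (mul_le_mul_of_nonneg_left a6 (by positivity))
  unfold grR
  rw [add_sub_add_comm]
  refine (abs_add_le _ _).trans ((add_le_add b1 b2).trans (le_of_eq ?_))
  ring

/-- a small change of the Hamiltonian -/
theorem gr_step2 (hk : 0 < k) {H H' : AT ι J → ℝ} (hH : (AS k ι J).Lin H)
    (hH' : (AS k ι J).Lin H') (hκ : 0 ≤ κ) (h0 : 0 ≤ σ) (hC : σ ≤ C) {η : ℝ} (hη1 : η ≤ 1)
    (h : ∫ s, exp (4 * |H' s - H s|) ∂mA k H ≤ 1 + η) :
    |grR k j κ σ i H' - grR k j κ σ i H| ≤ 15 * KK C κ ^ 2 * √η := by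
  have hN := nc_tq hκ h0 hC 0
  have hK := hN.one_le
  have a1 := int_close hk hH hH' (gr_g_meas hκ h0 hC (i := i)) (fun s => hN.b2 _) h
  have a2 := tl_close (j := j) hk hH hH' (gr_G_bm hκ h0 hC (i := i)).1
    (fun x y => gr_G_le hκ h0 hC _ _) h
  rw [add_sub_cancel_left] at a1 a2
  have hs := Real.sqrt_nonneg η
  have b1 : KK C κ * √η ≤ KK C κ ^ 2 * √η := mul_le_mul_of_nonneg_right (by nlinarith) hs
  have b2 : 7 * KK C κ ^ 2 * (1 + η) * √η ≤ 7 * KK C κ ^ 2 * 2 * √η :=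
    mul_le_mul_of_nonneg_right (mul_le_mul_of_nonneg_left (by linarith) (by positivity)) hs
  unfold grR
  rw [add_sub_add_comm]
  refine (abs_add_le _ _).trans ((add_le_add (a1.trans b1) (a2.trans b2)).trans (le_of_eq ?_))
  ring

/-- removal of the truncation in the observables -/
theorem gr_step3 (hk : 0 < k) {H : AT ι J → ℝ} (hH : (AS k ι J).Lin H) {B : Finset ι}
    (hB : RotB B H) (hP0 : 0 < P) (hP : (Fintype.card ι : ℝ) ≤ P * B.card) (hi : i ∈ B)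
    (hκ : 0 ≤ κ) (h0 : 0 ≤ σ) (hC : σ ≤ C) (hl0 : 0 < l) (hl1 : l ≤ 1)
    (hl : l ≤ 1 / (16 * P)) :
    |grR k j κ σ i H - (-σ + σ ^ 2 * tl k (hO ι) (nC ι) H j (ovx B))| ≤
      (24 * (1 + C) ^ 2 / l + 96 * (1 + C) ^ 2 / l ^ 2) * exp (-(l / (1 + C) * κ)) := by
  have hN := nc_tq hκ h0 hC 0
  have a4 := gr_em hk hH hB hP0 hP hi hl
  have := mD_prob hk hH
  have be := gr_bm (f := fun u => exp (l * u ^ 2)) (by fun_prop) i
  have b2 := gr_bm (gr_cont2 hN) i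
  have a1 : |(∫ s, tq2 κ σ 0 (xs s.1 i) ∂mA k H) - -σ| ≤
      8 * (1 + C) ^ 2 / l * exp (-(l / (1 + C) * κ)) * 3 := by
    have e1 : (∫ s, tq2 κ σ 0 (xs s.1 i) ∂mA k H) - -σ =
        ∫ s, (tq2 κ σ 0 (xs s.1 i) + σ) ∂mA k H := by
      rw [integral_add (integrable_mD hk hH (b2.ex hk)) (integrable_const _)]
      simp
    rw [e1]
    refine abs_integral_le_integral_abs.trans (le_trans (integral_mono ?_ ?_
      fun s => tq2_close h0 hC hl0 hl1 κ (xs s.1 i)) ?_)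
    · exact (integrable_mD hk hH ((b2.add (BM.const σ)).ex hk)).abs
    · exact (integrable_mD hk hH (be.ex hk)).const_mul _
    · rw [integral_const_mul]
      exact mul_le_mul_of_nonneg_left a4 (by positivity)
  have a2 := abs_tl_sub_le (j := j) hk hH (gr_G_bm hκ h0 hC (i := i))
    (G' := fun c c' => σ ^ 2 * (xs c i * xs c' i))
    ((BM.const (σ ^ 2)).mul (bm_mul₂ (bm_xs i) (bm_xs i)))
    ((BM.const (8 * (1 + C) ^ 2 / l ^ 2 * exp (-(l / (1 + C) * κ)))).mul be) (fun x y => by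
      rw [← mul_add]
      exact tq1_mul h0 hC hl0 hl1 κ _ _)
  rw [tl_const_mul, tl_blk hk hH hB hi, integral_const_mul] at a2
  have a3 := a2.trans (mul_le_mul_of_nonneg_left (mul_le_mul_of_nonneg_left a4
    (by positivity)) (by norm_num))
  unfold grR
  rw [add_sub_add_comm]
  refine (abs_add_le _ _).trans ((add_le_add a1 a3).trans (le_of_eq ?_))
  ring

end Vale.Agent.P166
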