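import Vale.Agent.P166.CavQ
import Vale.Agent.P166.TR
import Vale.Agent.P166.GRA

/-! The overlaps of a block in terms of the top overlap. -/

namespace Vale.Agent.P166

open MeasureTheory ProbabilityTheory Real Finset Matrix Filter Topology
open Vale.Agent.P157 (Sys St γ GS s0 YY mm pp sh DirD pull mrg Rg Sp νB xB)
open scoped ENNReal

/-- the response of the truncated cavity system against the response of the block -/
theorem gr_cmp (P C : ℝ) (hP : 0 < P) (hC : 0 ≤ C) : ∃ c > (0 : ℝ), ∃ C' ≥ (0 : ℝ), ∀ κ ε : ℝ,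
    0 ≤ κ → 0 < ε → ∃ δ > (0 : ℝ), ∀ {ι α J : Type} [Fintype ι] [DecidableEq ι] [DecidableEq α]
    [Fintype J] {k : ℕ} (top : α) (ℓ : ι → α) (e : α → ℝ) (b : ℝ) (y : ℕ → ℝ) (r : ℕ → ι → ℝ)
    (i : ι) (j : ℕ), 0 < k → e top = 0 → 0 ≤ e (ℓ i) → e (ℓ i) ≤ C →
    (Fintype.card ι : ℝ) ≤ P * (blkL ℓ top).card →
    (Fintype.card ι : ℝ) ≤ P * (blkL ℓ (ℓ i)).card → Small k δ b y →
    |(∫ s, tq2 κ (e (ℓ i)) 0 (xs s.1 i) ∂mA k fun s : AT ι J =>
        (mkM top (upL top ℓ {i}) e b y r).H k J s + tq κ (e (ℓ i)) 0 (xs s.1 i)) +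
      tl k (hO ι) (nC ι) (fun s : AT ι J =>
        (mkM top (upL top ℓ {i}) e b y r).H k J s + tq κ (e (ℓ i)) 0 (xs s.1 i)) j
        (fun c c' => tq1 κ (e (ℓ i)) 0 (xs c i) * tq1 κ (e (ℓ i)) 0 (xs c' i)) -
      (-e (ℓ i) + e (ℓ i) ^ 2 * (mkM top ℓ e b y r).tl k j (ovx (blkL ℓ (ℓ i))))| ≤
      C' * KK C κ ^ 2 * exp (-(c * κ)) + ε := by
  obtain ⟨l, hl0, hl1, hlC, hlP⟩ : ∃ l : ℝ, 0 < l ∧ l ≤ 1 ∧ l * C ≤ 1 / (16 * P) ∧
      l ≤ 1 / (16 * P) := by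
    have h1 : min 1 (1 / (16 * P * (C + 1))) * (C + 1) ≤ 1 / (16 * P) :=
      (mul_le_mul_of_nonneg_right (min_le_right _ _) (by positivity)).trans
        (le_of_eq (by field_simp))
    have h2 : 0 < min 1 (1 / (16 * P * (C + 1))) := lt_min one_pos (by positivity)
    exact ⟨_, h2, min_le_left _ _, by nlinarith, by nlinarith⟩
  refine ⟨l / (1 + C), by positivity, 96 / l + (24 * (1 + C) ^ 2 / l + 96 * (1 + C) ^ 2 / l ^ 2),
    by positivity, fun κ ε hκ hε => ?_⟩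
  have hK : 1 ≤ KK C κ := (nc_tq hκ le_rfl hC 0).one_le
  obtain ⟨δ, hδ, htr⟩ := tr0 P (min 1 ((ε / (15 * KK C κ ^ 2)) ^ 2)) 1 hP
    (lt_min one_pos (by positivity))
  refine ⟨δ, hδ, ?_⟩
  intro ι α J _ _ _ _ k top ℓ e b y r i j hk he h0 h1 hB0 hB hsm
  have hsub : blkL ℓ top ⊆ blkL (upL top ℓ {i}) top := by
    rw [blkL_upL]; exact Finset.subset_union_left
  have s1 := gr_step1 (J := J) (j := j) (κ := κ) (i := i) hk
    ((mkM top (upL top ℓ {i}) e b y r).lin hk) (mkM_iso top (upL top ℓ {i}) e b y r top).rotB hP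
    (hB0.trans (mul_le_mul_of_nonneg_left (Nat.cast_le.2 (Finset.card_le_card hsub)) hP.le))
    (by rw [blkL_upL]; simp) hκ h0 h1 hl0 hl1 hlC
  have e1 : (fun s : AT ι J => (mkM top (upL top ℓ {i}) e b y r).H k J s +
      qq (e (ℓ i)) 0 (xs s.1 i)) = (midM top ℓ e b y r {i}).H k J := by
    funext s
    rw [midM_H, Finset.sum_singleton, qq]
    ring
  rw [e1] at s1
  have s2 := gr_step2 (j := j) (i := i) hk ((mkM top ℓ e b y r).lin hk)
    ((midM top ℓ e b y r {i}).lin hk) hκ h0 h1 (min_le_left _ _)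
    (htr (J := J) top ℓ e b y r {i} hk he (by simp) (by simpa using hB) hsm)
  have s3 := gr_step3 (J := J) (j := j) (i := i) hk ((mkM top ℓ e b y r).lin hk)
    (mkM_iso top ℓ e b y r (ℓ i)).rotB hP hB (by simp [blkL]) hκ h0 h1 hl0 hl1 hlP
  rw [tl_amb _ hk (bm_ovx _).1] at s3
  have b1 : exp (-(l * κ)) ≤ exp (-(l / (1 + C) * κ)) := by
    refine exp_le_exp.2 (neg_le_neg (mul_le_mul_of_nonneg_right ?_ hκ))
    exact div_le_self hl0.le (by linarith)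
  have b2 : √(min 1 ((ε / (15 * KK C κ ^ 2)) ^ 2)) ≤ ε / (15 * KK C κ ^ 2) :=
    Real.sqrt_le_iff.2 ⟨by positivity, min_le_right _ _⟩
  have b3 : 15 * KK C κ ^ 2 * √(min 1 ((ε / (15 * KK C κ ^ 2)) ^ 2)) ≤ ε :=
    (mul_le_mul_of_nonneg_left b2 (by positivity)).trans (le_of_eq (by field_simp))
  have b4 := s1.trans (mul_le_mul_of_nonneg_left b1 (by positivity))
  have b5 : (24 * (1 + C) ^ 2 / l + 96 * (1 + C) ^ 2 / l ^ 2) * exp (-(l / (1 + C) * κ)) ≤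
      (24 * (1 + C) ^ 2 / l + 96 * (1 + C) ^ 2 / l ^ 2) * KK C κ ^ 2 *
        exp (-(l / (1 + C) * κ)) :=
    mul_le_mul_of_nonneg_right (le_mul_of_one_le_right (by positivity) (one_le_pow₀ hK))
      (by positivity)
  have b6 := s2.trans b3
  have b7 := s3.trans b5
  unfold grR at b4 b6 b7
  rw [abs_le] at b4 b6 b7 ⊢
  constructor <;> linarith [b4.1, b4.2, b6.1, b6.2, b7.1, b7.2]

/-- the feature of the noise -/
def grE (ι : Type) [Fintype ι] [DecidableEq ι] : (ι ⊕ ι) ⊕ (Unit ⊕ Unit) → CF ι → ℝ :=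
  Sum.elim (fun _ _ => 0) (Sum.elim (fun _ _ => 1) fun _ _ => 0)

theorem gr_HC {ι : Type} [Fintype ι] [DecidableEq ι] {k j : ℕ} (hj : j < k) (M : Mdl ι)
    (κ σ : ℝ) (i : ι) {lam : ℝ} (hl : 0 ≤ lam) :
    HC k M (fun _ : Unit => tq κ σ 0) (fun _ => Pi.single i 1) (fun j' _ => one j (lam ^ 2) j') 0 =
      fun s => M.H k (Unit ⊕ Unit) s +
        tq κ σ 0 (xs s.1 i + lam * ∑ i', grE ι i' s.1 * s.2 j i') := by
  funext s
  have e1 : ∑ j' ∈ range k, √(one j (lam ^ 2) j') * s.2 j' (.inr (.inl ())) =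
      lam * s.2 j (.inr (.inl ())) := by
    rw [Finset.sum_eq_single_of_mem j (Finset.mem_range.2 hj)]
    · simp [one, Real.sqrt_sq hl]
    · intro j' _ h
      simp [one, h]
  simp only [HC, HE, UC, Finset.univ_unique, Finset.sum_singleton, Pi.zero_apply, Real.sqrt_zero,
    zero_mul, Finset.sum_const_zero, mul_zero, add_zero, single_dotProduct, one_mul]
  rw [tq_even κ σ _ (es_sq s.1), e1]
  simp [grE, Fintype.sum_sum_type]

theorem gr_HC0 {ι : Type} [Fintype ι] [DecidableEq ι] {k : ℕ} (M : Mdl ι) (κ σ : ℝ) (i : ι) :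
    HC k M (fun _ : Unit => tq κ σ 0) (fun _ => Pi.single i 1) (fun _ _ => 0) 0 =
      fun s => M.H k (Unit ⊕ Unit) s + tq κ σ 0 (xs s.1 i) := by
  funext s
  simp only [HC, HE, UC, Finset.univ_unique, Finset.sum_singleton, Pi.zero_apply, Real.sqrt_zero,
    zero_mul, Finset.sum_const_zero, mul_zero, add_zero, single_dotProduct, one_mul]
  rw [tq_even κ σ _ (es_sq s.1)]

/-- the finite difference of the cavity free energy -/
theorem gr_fd : ∃ C3 > (0 : ℝ), ∀ {ι : Type} [Fintype ι] [DecidableEq ι] {k j : ℕ} (M : Mdl ι)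
    (κ σ C lam : ℝ) (i : ι), j < k → 0 ≤ κ → 0 ≤ σ → σ ≤ C → 0 ≤ lam → KK C κ * lam ≤ 1 →
    |YC k M (fun _ : Unit => tq κ σ 0) (fun _ => Pi.single i 1) (fun j' _ => one j (lam ^ 2) j') 0 -
      YC k M (fun _ : Unit => tq κ σ 0) (fun _ => Pi.single i 1) (fun _ _ => 0) 0 - lam ^ 2 / 2 *
        grR k j κ σ i fun s => M.H k (Unit ⊕ Unit) s + tq κ σ 0 (xs s.1 i)| ≤
      C3 * KK C κ ^ 4 * lam ^ 2 * √lam := by
  obtain ⟨C3, hC3, h⟩ := fd
  refine ⟨C3, hC3, ?_⟩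
  intro ι _ _ k j M κ σ C lam i hj hκ h0 h1 hl hK
  have hk : 0 < k := by omega
  have e1 : ∀ c : CF ι, ∑ i', grE ι i' c ^ 2 = 1 := by
    intro c; simp [grE, Fintype.sum_sum_type]
  have e2 : ∀ c c' : CF ι, ∑ i', grE ι i' c * grE ι i' c' = 1 := by
    intro c c'; simp [grE, Fintype.sum_sum_type]
  have key := h (νD := hO ι) (ν := nC ι) (p := fun i' => i'.isRight = true) (e := grE ι) hj
    (M.lin (J := Unit ⊕ Unit) hk) (M.free (by
      rintro j' _ (i' | i') hp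
      · simp at hp
      · rfl)) (nc_tq hκ h0 h1 0) (bm_xs i) (by
      rintro (i' | i' | i')
      · exact BM.const 0
      · exact BM.const 1
      · exact BM.const 0) (by
      rintro (i' | i') hp c
      · rfl
      · simp at hp) (fun c => (e1 c).le) hl hK
  simp only [e1, e2, one_mul] at key
  unfold YC
  rw [gr_HC hj M κ σ i hl, gr_HC0]
  exact key

theorem gr (P c0 C ε : ℝ) (hP : 0 < P) (hc : 0 < c0) (hε : 0 < ε) : ∃ δ > (0 : ℝ), ∃ N0 : ℕ,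
    ∀ {ι α : Type} [Fintype ι] [DecidableEq ι] [DecidableEq α] {k : ℕ} (top : α) (ℓ : ι → α)
    (e : α → ℝ) (b : ℝ) (y : ℕ → ℝ) (r : ℕ → ι → ℝ) (a : α) (A : ℕ → ℝ), 0 < k → e top = 0 →
    c0 ≤ e a → e a ≤ C → N0 ≤ Fintype.card ι → (Fintype.card ι : ℝ) ≤ P * (blkL ℓ top).card →
    (Fintype.card ι : ℝ) ≤ P * (blkL ℓ a).card → Small k δ b y → IsPath k P A →
    (mkM top ℓ e b y r).serr k (ovx (blkL ℓ top)) A ≤ δ → ∀ j < k,
    |(mkM top ℓ e b y r).tl k j (ovx (blkL ℓ a)) - tail k (Tilt k (e a) A) j| ≤ ε := by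
  rcases lt_or_ge C 0 with hC | hC
  · refine ⟨1, one_pos, 0, ?_⟩
    intro ι α _ _ _ k top ℓ e b y r a A _ _ h0 h1
    linarith
  obtain ⟨c1, hc1, C1, hC1, htree⟩ := tree (C + P + 1) (by positivity)
  obtain ⟨c2, hc2, C2, hC2, hcmp⟩ := gr_cmp P C hP hC
  obtain ⟨C3, hC3, hfd⟩ := gr_fd
  have hε1 : 0 < ε * c0 ^ 2 / 14 := by positivity
  obtain ⟨κ, hκ, lam, hlam, t1, t2, t3, t4, t5⟩ := choose_trunc C (min c1 c2)
    (C1 + C2 + C3 + (C ^ 2 + C ^ 3 * P)) (ε * c0 ^ 2 / 14) hC (lt_min hc1 hc2) hε1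
  obtain ⟨δ2, hδ2, hcmp⟩ := hcmp κ _ hκ hε1
  obtain ⟨δc, hδc, Nc', hcav⟩ := cav (KK C κ) P 0 (ε * c0 ^ 2 / 14 * lam ^ 2) 1 hP (by positivity)
  obtain ⟨δt, hδt, Nt, htr⟩ := tr P C δc 1 hP hδc
  refine ⟨min δt δ2, lt_min hδt hδ2, max Nt ⌈P * Nc'⌉₊ + 1, ?_⟩
  intro ι α _ _ _ k top ℓ e b y r a A hk he h0 h1 hN hB0 hB hsm hA hs j hj
  have hK : 1 ≤ KK C κ := (nc_tq hκ le_rfl hC 0).one_le
  have hσ : 0 ≤ e a := hc.le.trans h0
  have hN1 : (1 : ℝ) ≤ Fintype.card ι := by exact_mod_cast le_trans (by omega) hN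
  obtain ⟨i, hi⟩ : (blkL ℓ a).Nonempty := by
    rw [← Finset.card_pos]
    by_contra hh
    rw [Nat.eq_zero_of_not_pos hh] at hB
    simp only [Nat.cast_zero, mul_zero] at hB
    linarith
  obtain rfl : ℓ i = a := by simpa [blkL] using hi
  have hsub : blkL ℓ top ⊆ blkL (upL top ℓ {i}) top := by
    rw [blkL_upL]; exact Finset.subset_union_left
  have hB1 : (Fintype.card ι : ℝ) ≤ P * (blkL (upL top ℓ {i}) top).card :=
    hB0.trans (mul_le_mul_of_nonneg_left (Nat.cast_le.2 (Finset.card_le_card hsub)) hP.le)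
  have hNc : Nc' ≤ (blkL (upL top ℓ {i}) top).card := by
    have h2 : P * Nc' ≤ (Fintype.card ι : ℝ) :=
      Nat.ceil_le.1 (le_trans (le_trans (le_max_right _ _) (Nat.le_succ _)) hN)
    exact_mod_cast le_of_mul_le_mul_left (h2.trans hB1) hP
  have hs0 := htr top ℓ e b y r {i} A hk he (by simp)
    (le_trans (le_trans (le_max_left _ _) (Nat.le_succ _)) hN) hB0
    (by simpa using ⟨hB, hσ, h1⟩) (hsm.mono (min_le_left _ _)) hA (hs.trans (min_le_left _ _))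
  have hl1 : lam ≤ 1 := le_trans (le_mul_of_one_le_left hlam.le hK) t1
  have hl2 : lam ^ 2 ≤ 1 := pow_le_one₀ hlam.le hl1
  have hone : ∀ j', 0 ≤ one j (lam ^ 2) j' := by
    intro j'; unfold one; split_ifs <;> positivity
  have hfr : Frame (blkL (upL top ℓ {i}) top) fun _ : Unit => Pi.single i (1 : ℝ) :=
    frame_single (o := fun _ : Unit => i) (fun _ _ _ => rfl) fun _ => by rw [blkL_upL]; simp
  have hc' : ∀ n : ℕ → ℝ, (∀ j', 0 ≤ n j') → ∑ j' ∈ range k, n j' ≤ 1 →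
      |YC k (mkM top (upL top ℓ {i}) e b y r) (fun _ : Unit => tq κ (e (ℓ i)) 0)
        (fun _ => Pi.single i 1) (fun j' _ => n j') 0 - YM k (mkM top (upL top ℓ {i}) e b y r) -
        psi k (e (ℓ i)) (fun j' => inc A j' + n j')| ≤
        ε * c0 ^ 2 / 14 * lam ^ 2 + C1 * exp (-(c1 * κ)) := by
    intro n hn hn1
    have a1 := hcav (mkM top (upL top ℓ {i}) e b y r) (blkL (upL top ℓ {i}) top)
      (fun _ : Unit => tq κ (e (ℓ i)) 0) (fun _ => tq1 κ (e (ℓ i)) 0)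
      (fun _ => tq2 κ (e (ℓ i)) 0) (fun _ => Pi.single i 1) (fun j' _ => n j') 0 A hk (by simp)
      hNc hB1 (mkM_iso _ _ _ _ _ _ _) (fun _ => nc_tq hκ hσ h1 0)
      (fun _ u => abs_tq_le hκ hσ h1 0 u) hfr (fun j' _ _ => hn j') (fun _ _ => le_rfl)
      (by simp) hA hs0
    have a2 := htree (fun _ : Unit => e (ℓ i)) 0 (fun j' _ => inc A j' + n j') 0 κ hk hκ
      (fun _ => ⟨hσ, by linarith, by simp only [Pi.zero_apply, abs_zero]; positivity⟩)
      (fun j' _ _ => add_nonneg (hA.inc_nonneg j') (hn j')) (fun _ => by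
        rw [Finset.sum_add_distrib, hA.sum_inc]; linarith [hA.2.2]) (fun _ _ => le_rfl)
    rw [TV_old hk] at a2
    simp only [Pi.zero_apply, Finset.univ_unique, Finset.sum_singleton, Fintype.card_unique,
      Nat.cast_one, mul_one] at a2
    rw [abs_le] at a1 a2 ⊢
    constructor <;> linarith [a1.1, a1.2, a2.1, a2.2]
  have y1 := hc' (one j (lam ^ 2)) hone (by
    simp only [one, Finset.sum_ite_eq', Finset.mem_range, hj, if_true]; exact hl2)
  have y0 := hc' (fun _ => 0) (fun _ => le_rfl) (by simp)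
  simp only [add_zero] at y0
  have y2 := psi_noise hA hσ h1 (sq_nonneg lam) hj
  have y3 := hfd (mkM top (upL top ℓ {i}) e b y r) κ (e (ℓ i)) C lam i hj hκ hσ h1 hlam.le t1
  have y4 := hcmp (J := Unit ⊕ Unit) top ℓ e b y r i j hk he hσ h1 hB0 hB
    (hsm.mono (min_le_right _ _))
  have hl0 : 0 < lam ^ 2 := by positivity
  have hE1 : exp (-(c1 * κ)) ≤ exp (-(min c1 c2 * κ)) :=
    exp_le_exp.2 (neg_le_neg (mul_le_mul_of_nonneg_right (min_le_left _ _) hκ))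
  have hE2 : exp (-(c2 * κ)) ≤ exp (-(min c1 c2 * κ)) :=
    exp_le_exp.2 (neg_le_neg (mul_le_mul_of_nonneg_right (min_le_right _ _) hκ))
  have hq : 0 ≤ C ^ 2 + C ^ 3 * P := by positivity
  have z1 : C1 * exp (-(c1 * κ)) ≤ ε * c0 ^ 2 / 14 * lam ^ 2 :=
    le_trans (mul_le_mul (by linarith) hE1 (by positivity) (by positivity)) t3
  have z2 : (C ^ 2 + C ^ 3 * P) * (lam ^ 2) ^ 2 ≤ ε * c0 ^ 2 / 14 * lam ^ 2 := by
    rw [sq (lam ^ 2), ← mul_assoc]
    exact mul_le_mul_of_nonneg_right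
      (le_trans (mul_le_mul_of_nonneg_right (by linarith) hl0.le) t5) hl0.le
  have z3 : C3 * KK C κ ^ 4 * lam ^ 2 * √lam ≤ ε * c0 ^ 2 / 14 * lam ^ 2 := by
    rw [mul_right_comm]
    refine mul_le_mul_of_nonneg_right (le_trans ?_ t2) hl0.le
    exact mul_le_mul_of_nonneg_right (mul_le_mul_of_nonneg_right (by linarith) (by positivity))
      (Real.sqrt_nonneg _)
  have z4 : C2 * KK C κ ^ 2 * exp (-(c2 * κ)) ≤ ε * c0 ^ 2 / 14 :=
    le_trans (mul_le_mul (mul_le_mul_of_nonneg_right (by linarith) (by positivity)) hE2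
      (by positivity) (by positivity)) t4
  have y5 := mul_le_mul_of_nonneg_left (y4.trans (add_le_add z4 le_rfl))
    (show 0 ≤ lam ^ 2 / 2 by positivity)
  rw [← abs_of_nonneg (show 0 ≤ lam ^ 2 / 2 by positivity), ← abs_mul,
    abs_of_nonneg (show 0 ≤ lam ^ 2 / 2 by positivity)] at y5
  have y6 : |lam ^ 2 / 2 * e (ℓ i) ^ 2 * ((mkM top ℓ e b y r).tl k j (ovx (blkL ℓ (ℓ i))) -
      tail k (Tilt k (e (ℓ i)) A) j)| ≤ lam ^ 2 / 2 * c0 ^ 2 * ε := by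
    have w1 := y1.trans (add_le_add le_rfl z1)
    have w0 := y0.trans (add_le_add le_rfl z1)
    have w2 := y2.trans z2
    have w3 := y3.trans z3
    unfold grR at w3
    rw [abs_le] at w0 w1 w2 w3 y5 ⊢
    constructor <;> linarith [w0.1, w0.2, w1.1, w1.2, w2.1, w2.2, w3.1, w3.2, y5.1, y5.2]
  rw [abs_mul, abs_of_nonneg (show 0 ≤ lam ^ 2 / 2 * e (ℓ i) ^ 2 by positivity)] at y6
  refine le_of_mul_le_mul_left (le_trans ?_ y6) (show 0 < lam ^ 2 / 2 * c0 ^ 2 by positivity)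
  exact mul_le_mul_of_nonneg_right (mul_le_mul_of_nonneg_left (pow_le_pow_left₀ hc.le h0 2)
    (by positivity)) (abs_nonneg _)

end Vale.Agent.P166
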