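import Vale.Agent.P166.GR

/-! The spin overlap and the energy in terms of the top overlap. -/

namespace Vale.Agent.P166

open MeasureTheory ProbabilityTheory Real Finset Matrix Filter Topology
open Vale.Agent.P157 (Sys St γ GS s0 YY mm pp sh DirD pull mrg Rg Sp νB xB)
open scoped ENNReal

theorem gr2_sum {α : Type} [Fintype α] {w p f T τ : α → ℝ} {C P ε δ : ℝ}
    (hw : ∀ a, 0 ≤ w a ∧ w a ≤ 1) (hp : ∀ a, |w a - p a| ≤ δ) (hf : ∀ a, |f a| ≤ C)
    (hT : ∀ a, |T a - τ a| ≤ ε) (hτ : ∀ a, 0 ≤ τ a ∧ τ a ≤ P) :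
    |∑ a, w a * f a * T a - ∑ a, p a * f a * τ a| ≤ Fintype.card α * (C * (ε + δ * P)) := by
  rw [← sum_sub_distrib, ← nsmul_eq_mul, ← card_univ, ← sum_const]
  refine (abs_sum_le_sum_abs _ _).trans (sum_le_sum fun a _ => ?_)
  rw [show w a * f a * T a - p a * f a * τ a = f a * (w a * (T a - τ a) + (w a - p a) * τ a) by
    ring, abs_mul]
  refine mul_le_mul (hf a) ((abs_add_le _ _).trans (add_le_add ?_ ?_)) (abs_nonneg _)
    ((abs_nonneg _).trans (hf a))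
  · rw [abs_mul, abs_of_nonneg (hw a).1]
    exact (mul_le_of_le_one_left (abs_nonneg _) (hw a).2).trans (hT a)
  · rw [abs_mul, abs_of_nonneg (hτ a).1]
    exact mul_le_mul (hp a) (hτ a).2 (hτ a).1 ((abs_nonneg _).trans (hp a))

theorem gr2_fiber {ι α : Type} [Fintype ι] [Fintype α] [DecidableEq α] (ℓ : ι → α) (f : α → ℝ) :
    ∑ i, f (ℓ i) = ∑ a, (blkL ℓ a).card * f a := by
  rw [← sum_fiberwise univ ℓ]
  refine sum_congr rfl fun a _ => ?_
  rw [sum_congr rfl fun i hi => by rw [(mem_filter.1 hi).2], sum_const, nsmul_eq_mul, blkL]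

theorem gr2_tl {ι α : Type} [Fintype ι] [DecidableEq ι] [Fintype α] [DecidableEq α] {k j : ℕ}
    (hk : 0 < k) (top : α) (ℓ : ι → α) (e : α → ℝ) (b : ℝ) (y : ℕ → ℝ) (r : ℕ → ι → ℝ)
    (f : α → ℝ) : (∑ i, f (ℓ i) * (mkM top ℓ e b y r).tl k j fun x y => xs x i * xs y i) /
      Fintype.card ι = ∑ a, ((blkL ℓ a).card : ℝ) / Fintype.card ι * f a *
        (mkM top ℓ e b y r).tl k j (ovx (blkL ℓ a)) := by
  have h1 : ∀ i, (mkM top ℓ e b y r).tl k j (fun x y => xs x i * xs y i) =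
      (mkM top ℓ e b y r).tl k j (ovx (blkL ℓ (ℓ i))) := fun i =>
    tl_blk hk (Mdl.lin _ hk) (mkM_iso top ℓ e b y r (ℓ i)).rotB (mem_filter.2 ⟨mem_univ _, rfl⟩)
  simp only [h1]
  rw [gr2_fiber ℓ fun a => f a * (mkM top ℓ e b y r).tl k j (ovx (blkL ℓ a)), sum_div]
  exact sum_congr rfl fun a _ => by ring

theorem gr2_ovs {ι : Type} [Fintype ι] [DecidableEq ι] {k j : ℕ} (hk : 0 < k) (M : Mdl ι) :
    M.tl k j ovs = (∑ i, M.tl k j fun x y => xs x i * xs y i) / Fintype.card ι := by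
  rw [Mdl.tl, tl_ovs hk (M.lin hk)]
  have h1 : (ovx univ : CF ι → CF ι → ℝ) =
      fun x y => (Fintype.card ι : ℝ)⁻¹ * ∑ i, xs x i * xs y i := by
    funext x y
    rw [ovx, card_univ, div_eq_inv_mul]
  rw [h1, tl_const_mul, tl_sum hk (M.lin hk) univ fun i _ => bm_mul₂ (bm_xs i) (bm_xs i),
    div_eq_inv_mul]
  rfl

theorem gr2_last {ι : Type} [Fintype ι] [DecidableEq ι] {k : ℕ} (hk : 0 < k) (M : Mdl ι)
    (hN : 0 < Fintype.card ι) : M.tl k (k - 1) ovs = 1 := by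
  have := mD_prob hk (M.lin (J := Empty) hk)
  have hN' : (Fintype.card ι : ℝ) ≠ 0 := by exact_mod_cast hN.ne'
  rw [Mdl.tl, tl_last hk]
  simp [ovs, ← sq, ss_sq, hN']

theorem gr2 {α : Type} [Fintype α] [DecidableEq α] (top : α) {p : α → ℝ} (hp : ∀ a, 0 < p a)
    (h1 : ∑ a, p a = 1) (P c0 C ε : ℝ) (hc : 0 < c0) (hε : 0 < ε) : ∃ δ > (0 : ℝ), ∃ N0 : ℕ,
    ∀ {ι : Type} [Fintype ι] [DecidableEq ι] {k : ℕ} (ℓ : ι → α) (e : α → ℝ) (b : ℝ) (y : ℕ → ℝ)
    (r : ℕ → ι → ℝ) (A : ℕ → ℝ), 0 < k → e top = 0 → (∀ a, a ≠ top → c0 ≤ e a ∧ e a ≤ C) →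
    N0 ≤ Fintype.card ι → Near p δ ℓ → Small k δ b y → IsPath k P A →
    (mkM top ℓ e b y r).serr k (ovx (blkL ℓ top)) A ≤ δ →
    (∀ j < k, |(mkM top ℓ e b y r).tl k j ovs - tail k (qA k p e A) j| ≤ ε) ∧
    |qA k p e A k - 1| ≤ ε ∧
    |(∑ i, e (ℓ i) * (mkM top ℓ e b y r).tl k (k - 1) fun x y => xs x i * xs y i) /
      Fintype.card ι - ∑ a, p a * e a * Tilt k (e a) A k| ≤ ε := by
  have _ := h1
  obtain ⟨P0, hP0, δ0, hδ0, hblk⟩ := near_blk hp
  have hP' : 0 < max P P0 := lt_max_of_lt_right hP0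
  obtain ⟨ε1, hε1, hε2⟩ : ∃ ε1 > (0 : ℝ), Fintype.card α * ((|C| + 1) * (ε1 + ε1)) ≤ ε := by
    refine ⟨ε / (2 * (Fintype.card α + 1) * (|C| + 1)), by positivity, ?_⟩
    rw [show ∀ x : ℝ, Fintype.card α * ((|C| + 1) * (x + x)) =
      (2 * Fintype.card α * (|C| + 1)) * x from fun x => by ring, ← mul_div_assoc,
      div_le_iff₀ (by positivity)]
    nlinarith [abs_nonneg C]
  obtain ⟨δ1, hδ1, N1, hgr⟩ := gr (max P P0) c0 C ε1 hP' hc hε1
  refine ⟨min (min δ0 δ1) (min ε1 (ε1 / max P P0)), by positivity, N1 + 1,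
    fun {ι} _ _ {k} ℓ e b y r A hk he0 he hN hnear hsm hA hse => ?_⟩
  generalize hδ : min (min δ0 δ1) (min ε1 (ε1 / max P P0)) = δ at hnear hsm hse
  have d0 : δ ≤ δ0 := hδ ▸ (min_le_left _ _).trans (min_le_left _ _)
  have d1 : δ ≤ δ1 := hδ ▸ (min_le_left _ _).trans (min_le_right _ _)
  have d2 : δ ≤ ε1 := hδ ▸ (min_le_right _ _).trans (min_le_left _ _)
  have d3 : δ * max P P0 ≤ ε1 :=
    (le_div_iff₀ hP').1 (hδ ▸ (min_le_right _ _).trans (min_le_right _ _))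
  have hPB : ∀ a, (Fintype.card ι : ℝ) ≤ max P P0 * (blkL ℓ a).card := fun a =>
    (hblk ℓ (hnear.mono d0) a).trans
      (mul_le_mul_of_nonneg_right (le_max_right _ _) (Nat.cast_nonneg _))
  have hN' : (0 : ℝ) < Fintype.card ι := by exact_mod_cast (by omega : 0 < Fintype.card ι)
  have hA' : IsPath k (max P P0) A := hA.mono (le_max_left _ _)
  have he' : ∀ a, 0 ≤ e a ∧ |e a| ≤ |C| + 1 := fun a => by
    rcases eq_or_ne a top with rfl | h
    · rw [he0, abs_zero]; exact ⟨le_rfl, by positivity⟩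
    · have := he a h
      refine ⟨by linarith, ?_⟩
      rw [abs_of_nonneg (by linarith)]
      linarith [le_abs_self C]
  have hT : ∀ j < k, ∀ a, |(mkM top ℓ e b y r).tl k j (ovx (blkL ℓ a)) -
      tail k (Tilt k (e a) A) j| ≤ ε1 := fun j hj a => by
    rcases eq_or_ne a top with rfl | h
    · rw [he0, Tilt_zero hA.1]
      exact (abs_tl_sub_tail hk (Mdl.lin _ hk) (bm_ovx _)).trans (hse.trans d2)
    · exact hgr top ℓ e b y r a A hk he0 (he a h).1 (he a h).2 (by omega) (hPB top) (hPB a)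
        (hsm.mono d1) hA' (hse.trans d1) j hj
  have key : ∀ f : α → ℝ, (∀ a, |f a| ≤ |C| + 1) → ∀ j < k,
      |(∑ i, f (ℓ i) * (mkM top ℓ e b y r).tl k j fun x y => xs x i * xs y i) / Fintype.card ι -
        ∑ a, p a * f a * tail k (Tilt k (e a) A) j| ≤ ε := fun f hf j hj => by
    rw [gr2_tl hk]
    refine (gr2_sum (fun a => ⟨by positivity, (div_le_one hN').2 ?_⟩) hnear hf (hT j hj)
      fun a => (isPath_Tilt hA' (he' a).1).tail_mem j).trans (le_trans ?_ hε2)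
    · exact_mod_cast card_le_univ _
    · gcongr
  have k1 : ∀ j < k, |(mkM top ℓ e b y r).tl k j ovs - tail k (qA k p e A) j| ≤ ε := by
    intro j hj
    have h2 := key (fun _ => 1) (fun _ => by rw [abs_one]; linarith [abs_nonneg C]) j hj
    simp only [one_mul, mul_one] at h2
    rw [gr2_ovs hk]
    exact (congrArg (fun x => |_ - x|) (tail_sum p fun a => Tilt k (e a) A)).trans_le h2
  refine ⟨k1, ?_, ?_⟩
  · have h2 := k1 (k - 1) (by omega)
    rwa [gr2_last hk _ (by omega), tail_last hk, abs_sub_comm] at h2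
  · simpa only [tail_last hk] using key e (fun a => (he' a).2) (k - 1) (by omega)

end Vale.Agent.P166
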