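import Vale.Agent.P166.Defs

/-! Orthogonal matrices: reflections, blocks, frames. -/

namespace Vale.Agent.P166

open MeasureTheory ProbabilityTheory Real Finset Matrix Filter Topology
open Vale.Agent.P157 (Sys St γ GS s0 YY mm pp sh DirD pull mrg Rg Sp νB xB)
open scoped ENNReal

variable {ι ι' : Type} [Fintype ι] [DecidableEq ι] [Fintype ι'] [DecidableEq ι']

theorem ha_mul_T (S : O ι) : (S : Matrix ι ι ℝ) * (S : Matrix ι ι ℝ)ᵀ = 1 :=
  (Matrix.mem_orthogonalGroup_iff ι ℝ).1 S.2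

theorem ha_T_mul (S : O ι) : (S : Matrix ι ι ℝ)ᵀ * (S : Matrix ι ι ℝ) = 1 :=
  (Matrix.mem_orthogonalGroup_iff' ι ℝ).1 S.2

theorem ha_rows (S : O ι) (i j : ι) :
    ∑ l, (S : Matrix ι ι ℝ) i l * (S : Matrix ι ι ℝ) j l = if i = j then 1 else 0 := by
  have := congrFun (congrFun (ha_mul_T S) i) j
  simpa [Matrix.mul_apply, Matrix.one_apply] using this

theorem ha_cols (S : O ι) (i j : ι) :
    ∑ l, (S : Matrix ι ι ℝ) l i * (S : Matrix ι ι ℝ) l j = if i = j then 1 else 0 := by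
  have := congrFun (congrFun (ha_T_mul S) i) j
  simpa [Matrix.mul_apply, Matrix.one_apply] using this

theorem ha_mem {A : Matrix ι ι ℝ} (h : ∀ i j, ∑ l, A i l * A j l = if i = j then 1 else 0) :
    A ∈ Matrix.orthogonalGroup ι ℝ := by
  rw [Matrix.mem_orthogonalGroup_iff]
  ext i j
  simpa [Matrix.mul_apply, Matrix.one_apply] using h i j

theorem ha_inv (S : O ι) : ((S⁻¹ : O ι) : Matrix ι ι ℝ) = (S : Matrix ι ι ℝ)ᵀ := rfl

theorem O.dot (S : O ι) (x y : ι → ℝ) :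
    ((S : Matrix ι ι ℝ) *ᵥ x) ⬝ᵥ ((S : Matrix ι ι ℝ) *ᵥ y) = x ⬝ᵥ y := by
  rw [Matrix.dotProduct_mulVec, Matrix.vecMul_mulVec, ha_T_mul, Matrix.vecMul_one]

theorem O.mul_mulVec (S T : O ι) (x : ι → ℝ) : ((S * T : O ι) : Matrix ι ι ℝ) *ᵥ x =
    (S : Matrix ι ι ℝ) *ᵥ ((T : Matrix ι ι ℝ) *ᵥ x) := by
  rw [Matrix.mulVec_mulVec]
  rfl

theorem O.inv_mulVec (S : O ι) (x : ι → ℝ) :
    ((S⁻¹ : O ι) : Matrix ι ι ℝ) *ᵥ ((S : Matrix ι ι ℝ) *ᵥ x) = x := by
  rw [Matrix.mulVec_mulVec, ha_inv, ha_T_mul, Matrix.one_mulVec]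

/-- reflections -/
theorem exists_refl (d : ι → ℝ) : ∃ S : O ι, ∀ i i',
    (S : Matrix ι ι ℝ) i i' = (if i = i' then 1 else 0) - 2 * d i * d i' / (d ⬝ᵥ d) := by
  refine ⟨⟨Matrix.of fun i i' => (if i = i' then 1 else 0) - 2 * d i * d i' / (d ⬝ᵥ d),
    ha_mem fun i j => ?_⟩, fun _ _ => rfl⟩
  have e1 : ∀ l, ((if i = l then 1 else 0) - 2 * d i * d l / (d ⬝ᵥ d)) *
      ((if j = l then 1 else 0) - 2 * d j * d l / (d ⬝ᵥ d)) =
      (if i = l then (if j = l then 1 else 0) - 2 * d j * d l / (d ⬝ᵥ d) else 0) -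
        (if j = l then 2 * d i * d l / (d ⬝ᵥ d) else 0) +
        4 * d i * d j / (d ⬝ᵥ d) ^ 2 * (d l * d l) := by
    intro l
    split_ifs <;> ring
  simp only [Matrix.of_apply, e1, Finset.sum_add_distrib, Finset.sum_sub_distrib,
    Finset.sum_ite_eq, Finset.mem_univ, if_true, ← Finset.mul_sum]
  have e2 : ∑ l, d l * d l = d ⬝ᵥ d := rfl
  rw [e2]
  have e3 : 4 * d i * d j / (d ⬝ᵥ d) ^ 2 * (d ⬝ᵥ d) = 4 * d i * d j / (d ⬝ᵥ d) := by
    by_cases h : d ⬝ᵥ d = 0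
    · simp [h]
    · field_simp
  rw [e3]
  simp only [eq_comm (a := j) (b := i)]
  ring

theorem ha_refl_vec {d : ι → ℝ} {S : O ι} (h : ∀ i i',
    (S : Matrix ι ι ℝ) i i' = (if i = i' then 1 else 0) - 2 * d i * d i' / (d ⬝ᵥ d))
    (x : ι → ℝ) (i : ι) :
    ((S : Matrix ι ι ℝ) *ᵥ x) i = x i - 2 * (d ⬝ᵥ x) / (d ⬝ᵥ d) * d i := by
  have e1 : d ⬝ᵥ x = ∑ l, d l * x l := rfl
  have e2 : ((S : Matrix ι ι ℝ) *ᵥ x) i = ∑ l, (S : Matrix ι ι ℝ) i l * x l := rfl
  rw [e2, e1, Finset.mul_sum, Finset.sum_div, Finset.sum_mul]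
  simp only [h, sub_mul, Finset.sum_sub_distrib, ite_mul, one_mul, zero_mul, Finset.sum_ite_eq,
    Finset.mem_univ, if_true]
  congr 1
  exact Finset.sum_congr rfl fun l _ => by ring

theorem exists_refl_mulVec (d : ι → ℝ) : ∃ S : O ι, ∀ x i,
    ((S : Matrix ι ι ℝ) *ᵥ x) i = x i - 2 * (d ⬝ᵥ x) / (d ⬝ᵥ d) * d i := by
  obtain ⟨S, hS⟩ := exists_refl d
  exact ⟨S, ha_refl_vec hS⟩

theorem ha_col {B : Finset ι} {S : O ι} (hS : FixO B S) {i' : ι} (hi : i' ∉ B) (i : ι) :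
    (S : Matrix ι ι ℝ) i i' = if i = i' then 1 else 0 := by
  have := ha_rows S i i'
  simpa [hS i' hi] using this

theorem ha_fix_one (B : Finset ι) : FixO B 1 := fun _ _ _ => Matrix.one_apply

theorem FixO.mul {B : Finset ι} {S T : O ι} (hS : FixO B S) (hT : FixO B T) :
    FixO B (S * T) := by
  intro i hi i'
  have : ((S * T : O ι) : Matrix ι ι ℝ) i i' =
      ∑ l, (S : Matrix ι ι ℝ) i l * (T : Matrix ι ι ℝ) l i' := Matrix.mul_apply
  rw [this]
  simp [hS i hi, hT i hi]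
theorem FixO.inv {B : Finset ι} {S : O ι} (hS : FixO B S) : FixO B S⁻¹ := by
  intro i hi i'
  rw [ha_inv, Matrix.transpose_apply, ha_col hS hi]
  simp only [eq_comm]
theorem FixO.mono {B B' : Finset ι} {S : O ι} (hS : FixO B S) (h : B ⊆ B') : FixO B' S :=
  fun i hi => hS i fun hh => hi (h hh)
theorem FixO.mulVec_of_notMem {B : Finset ι} {S : O ι} (hS : FixO B S) (x : ι → ℝ) {i : ι}
    (hi : i ∉ B) : ((S : Matrix ι ι ℝ) *ᵥ x) i = x i := by
  simp [Matrix.mulVec, dotProduct, hS i hi]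
theorem FixO.ne_zero {B : Finset ι} {S : O ι} (hS : FixO B S) {i i' : ι}
    (h : (S : Matrix ι ι ℝ) i i' ≠ 0) : i = i' ∨ (i ∈ B ∧ i' ∈ B) := by
  by_cases h0 : i = i'
  · exact Or.inl h0
  · refine Or.inr ⟨?_, ?_⟩
    · by_contra hh
      exact h (by rw [hS i hh, if_neg h0])
    · by_contra hh
      exact h (by rw [ha_col hS hh, if_neg h0])

/-- the reflection that exchanges two vectors of the same length -/
theorem ha_fix {B : Finset ι} {w w' : ι → ℝ} (hw : ∀ i ∉ B, w i = 0) (hw' : ∀ i ∉ B, w' i = 0)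
    (h : w ⬝ᵥ w = w' ⬝ᵥ w') : ∃ S : O ι, FixO B S ∧ (S : Matrix ι ι ℝ) *ᵥ w = w' ∧
      ∀ x, w ⬝ᵥ x = w' ⬝ᵥ x → (S : Matrix ι ι ℝ) *ᵥ x = x := by
  obtain ⟨S, hS⟩ := exists_refl (w - w')
  refine ⟨S, fun i hi i' => ?_, funext fun i => ?_, fun x hx => funext fun i => ?_⟩
  · simp [hS, hw i hi, hw' i hi]
  · rw [ha_refl_vec hS]
    by_cases h0 : (w - w') ⬝ᵥ (w - w') = 0
    · have h1 := sub_eq_zero.1 (dotProduct_self_eq_zero.1 h0)
      simp [h1]
    · have h1 : 2 * ((w - w') ⬝ᵥ w) = (w - w') ⬝ᵥ (w - w') := by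
        simp only [sub_dotProduct, dotProduct_sub, dotProduct_comm w w']
        linarith
      rw [h1, div_self h0]
      simp
  · rw [ha_refl_vec hS, sub_dotProduct w w' x, hx]
    simp

theorem exists_fix {B : Finset ι} {w w' : ι → ℝ} (hw : ∀ i ∉ B, w i = 0) (hw' : ∀ i ∉ B, w' i = 0)
    (h : w ⬝ᵥ w = w' ⬝ᵥ w') : ∃ S : O ι, FixO B S ∧ (S : Matrix ι ι ℝ) *ᵥ w = w' := by
  obtain ⟨S, h1, h2, -⟩ := ha_fix hw hw' h
  exact ⟨S, h1, h2⟩

omit [Fintype ι] in
theorem ha_single {B : Finset ι} {i : ι} (hi : i ∈ B) :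
    ∀ l ∉ B, (Pi.single i (1 : ℝ) : ι → ℝ) l = 0 := by
  intro l hl
  rw [Pi.single_eq_of_ne]
  rintro rfl
  exact hl hi

theorem exists_swap {B : Finset ι} {i i' : ι} (hi : i ∈ B) (hi' : i' ∈ B) :
    ∃ S : O ι, FixO B S ∧ ∀ x, ((S : Matrix ι ι ℝ) *ᵥ x) i = x i' := by
  obtain ⟨S, h1, h2⟩ := exists_fix (ha_single hi') (ha_single hi) (by simp)
  refine ⟨S, h1, fun x => ?_⟩
  have := O.dot S (Pi.single i' 1) x
  rw [h2] at this
  simpa using this

theorem exists_blk {α : Type} [Fintype α] [DecidableEq α] (ℓ : ι → α) {w w' : ι → ℝ}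
    (h : ∀ a, ∑ i ∈ blkL ℓ a, w i ^ 2 = ∑ i ∈ blkL ℓ a, w' i ^ 2) :
    ∃ S : O ι, (∀ i i', (S : Matrix ι ι ℝ) i i' ≠ 0 → ℓ i = ℓ i') ∧
      (S : Matrix ι ι ℝ) *ᵥ w = w' := by
  have key : ∀ T : Finset α, ∃ S : O ι, (∀ i i', (S : Matrix ι ι ℝ) i i' ≠ 0 → ℓ i = ℓ i') ∧
      (S : Matrix ι ι ℝ) *ᵥ w = fun i => if ℓ i ∈ T then w' i else w i := by
    intro T
    induction T using Finset.induction_on with
    | empty =>
      refine ⟨1, fun i i' hh => ?_, by simp⟩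
      by_contra h0
      exact hh (Matrix.one_apply_ne fun h1 => h0 (congrArg ℓ h1))
    | insert a T ha ih =>
      obtain ⟨S, h1, h2⟩ := ih
      obtain ⟨S', h3, h4, h5⟩ := ha_fix (B := blkL ℓ a) (w := fun i => if ℓ i = a then w i else 0)
        (w' := fun i => if ℓ i = a then w' i else 0) (fun i hi => if_neg (by simpa [blkL] using hi))
        (fun i hi => if_neg (by simpa [blkL] using hi)) (by
          have := h a
          simp only [blkL, Finset.sum_filter] at this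
          have e1 : ∀ (z : ι → ℝ) (i : ι), (if ℓ i = a then z i else 0) *
              (if ℓ i = a then z i else 0) = if ℓ i = a then z i ^ 2 else 0 := by
            intro z i
            split_ifs <;> ring
          simpa only [dotProduct, e1] using this)
      refine ⟨S' * S, fun i i' hh => ?_, ?_⟩
      · have e1 : ((S' * S : O ι) : Matrix ι ι ℝ) i i' =
            ∑ l, (S' : Matrix ι ι ℝ) i l * (S : Matrix ι ι ℝ) l i' := Matrix.mul_apply
        rw [e1] at hh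
        obtain ⟨l, -, hl⟩ := Finset.exists_ne_zero_of_sum_ne_zero hh
        rw [← h1 l i' (right_ne_zero_of_mul hl)]
        rcases h3.ne_zero (left_ne_zero_of_mul hl) with h6 | h6
        · rw [h6]
        · simp only [blkL, Finset.mem_filter, Finset.mem_univ, true_and] at h6
          rw [h6.1, h6.2]
      · have e1 : (fun i => if ℓ i ∈ T then w' i else w i) = (fun i => if ℓ i = a then w i else 0) +
            fun i => if ℓ i = a then 0 else if ℓ i ∈ T then w' i else w i := by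
          funext i
          by_cases h6 : ℓ i = a
          · simp [h6, ha]
          · simp [h6]
        rw [O.mul_mulVec, h2, e1, Matrix.mulVec_add, h4, h5]
        · funext i
          by_cases h6 : ℓ i = a
          · simp [h6]
          · simp [h6]
        · unfold dotProduct
          refine Finset.sum_congr rfl fun i _ => ?_
          by_cases h6 : ℓ i = a
          · simp [h6]
          · simp [h6]
  obtain ⟨S, h1, h2⟩ := key Finset.univ
  exact ⟨S, h1, by simpa using h2⟩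

section Frames

variable {β : Type} [Fintype β] [DecidableEq β] {B : Finset ι} {g g' : β → ι → ℝ}

omit [Fintype β] in
theorem frame_single {o : β → ι} (ho : Function.Injective o) (hB : ∀ b, o b ∈ B) :
    Frame B fun b => Pi.single (o b) (1 : ℝ) := by
  refine ⟨fun b => ha_single (hB b), fun b b' => ?_⟩
  simp [Pi.single_apply, ho.eq_iff, eq_comm]

theorem Frame.rot (hg : Frame B g) (R : O β) :
    Frame B fun b i => ∑ a, (R : Matrix β β ℝ) b a * g a i := by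
  refine ⟨fun b i hi => by simp [hg.1 _ i hi], fun b b' => ?_⟩
  have e1 : ∀ b, (fun i => ∑ a, (R : Matrix β β ℝ) b a * g a i) =
      ∑ a, (R : Matrix β β ℝ) b a • g a := by
    intro b
    funext i
    simp
  simp only [e1, sum_dotProduct, dotProduct_sum, smul_dotProduct, dotProduct_smul, hg.2,
    smul_eq_mul, mul_ite, mul_one, mul_zero, Finset.sum_ite_eq', Finset.mem_univ, if_true]
  rw [← ha_rows R b b']
  exact Finset.sum_congr rfl fun a _ => by ring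

theorem frame_eq (hg : Frame B g) (hg' : Frame B g') :
    ∃ S : O ι, FixO B S ∧ ∀ b, (S : Matrix ι ι ℝ) *ᵥ g b = g' b := by
  have key : ∀ T : Finset β, ∃ S : O ι, FixO B S ∧ ∀ b ∈ T, (S : Matrix ι ι ℝ) *ᵥ g b = g' b := by
    intro T
    induction T using Finset.induction_on with
    | empty => exact ⟨1, ha_fix_one B, by simp⟩
    | insert b T hb ih =>
      obtain ⟨S, h1, h2⟩ := ih
      obtain ⟨S', h3, h4, h5⟩ := ha_fix (B := B) (w := (S : Matrix ι ι ℝ) *ᵥ g b) (w' := g' b)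
        (fun i hi => by rw [h1.mulVec_of_notMem _ hi, hg.1 b i hi]) (hg'.1 b)
        (by rw [O.dot, hg.2, hg'.2])
      refine ⟨S' * S, h3.mul h1, fun a ha => ?_⟩
      rw [O.mul_mulVec]
      rcases Finset.mem_insert.1 ha with rfl | ha
      · exact h4
      · rw [h2 a ha]
        refine h5 _ ?_
        rw [hg'.2, ← h2 a ha, O.dot, hg.2]
  obtain ⟨S, h1, h2⟩ := key Finset.univ
  exact ⟨S, h1, fun b => h2 b (Finset.mem_univ b)⟩

omit [Fintype β] in
/-- one more vector -/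
theorem ha_step (hg' : Frame B g') {T : Finset β} {b : β} (hb : b ∉ T) {v : ι → ℝ}
    (hv : ∀ i ∉ B, v i = 0) : ∃ S : O ι, FixO B S ∧ (∀ a ∈ T, (S : Matrix ι ι ℝ) *ᵥ g' a = g' a) ∧
      ((S : Matrix ι ι ℝ) *ᵥ v - g' b) ⬝ᵥ ((S : Matrix ι ι ℝ) *ᵥ v - g' b) ≤
        |v ⬝ᵥ v - 1| + 2 * ∑ a ∈ T, (v ⬝ᵥ g' a) ^ 2 := by
  obtain ⟨u, hu⟩ : ∃ u : ι → ℝ, u = ∑ a ∈ T, (v ⬝ᵥ g' a) • g' a := ⟨_, rfl⟩
  have u1 : ∀ a, u ⬝ᵥ g' a = if a ∈ T then v ⬝ᵥ g' a else 0 := by
    intro a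
    simp [hu, sum_dotProduct, hg'.2]
  have u2 : v ⬝ᵥ u = ∑ a ∈ T, (v ⬝ᵥ g' a) ^ 2 := by
    simp [hu, dotProduct_sum, sq]
  have u3 : u ⬝ᵥ u = ∑ a ∈ T, (v ⬝ᵥ g' a) ^ 2 := by
    have : u ⬝ᵥ u = u ⬝ᵥ ∑ a ∈ T, (v ⬝ᵥ g' a) • g' a := by rw [← hu]
    rw [this, dotProduct_sum]
    refine Finset.sum_congr rfl fun a ha => ?_
    rw [dotProduct_smul, u1, if_pos ha, smul_eq_mul, sq]
  have u4 : ∀ i ∉ B, u i = 0 := by
    intro i hi
    simp [hu, hg'.1 _ i hi]
  have hbb : g' b ⬝ᵥ g' b = 1 := by rw [hg'.2, if_pos rfl]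
  have hub : u ⬝ᵥ g' b = 0 := by rw [u1, if_neg hb]
  have h0 : 0 ≤ (v - u) ⬝ᵥ (v - u) := Finset.sum_nonneg fun i _ => mul_self_nonneg _
  obtain ⟨ρ, hρ0, hρ⟩ : ∃ ρ : ℝ, 0 ≤ ρ ∧ ρ * ρ = (v - u) ⬝ᵥ (v - u) :=
    ⟨_, Real.sqrt_nonneg _, Real.mul_self_sqrt h0⟩
  obtain ⟨S, h1, h2, h3⟩ := ha_fix (B := B) (w := v - u) (w' := ρ • g' b)
    (fun i hi => by simp [hv i hi, u4 i hi]) (fun i hi => by simp [hg'.1 _ i hi])
    (by rw [smul_dotProduct, dotProduct_smul, hbb, ← hρ]; simp)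
  refine ⟨S, h1, fun a ha => h3 _ ?_, ?_⟩
  · rw [sub_dotProduct, u1, if_pos ha, smul_dotProduct, hg'.2, if_neg (by rintro rfl; exact hb ha)]
    simp
  · have e1 : (S : Matrix ι ι ℝ) *ᵥ v = ρ • g' b + u := by
      have h4 := h3 u (by
        rw [sub_dotProduct, u2, u3, smul_dotProduct, dotProduct_comm, hub]; simp)
      rw [← h2, Matrix.mulVec_sub, h4, sub_add_cancel]
    have e2 : ρ • g' b + u - g' b = (ρ - 1) • g' b + u := by
      rw [sub_smul, one_smul]; abel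
    rw [e1, e2]
    simp only [add_dotProduct, dotProduct_add, smul_dotProduct, dotProduct_smul, hbb, hub, u3,
      dotProduct_comm (g' b) u, smul_eq_mul, mul_zero, add_zero, zero_add, mul_one]
    simp only [sub_dotProduct, dotProduct_sub, dotProduct_comm u v, u2, u3] at hρ
    have h5 : 0 ≤ ∑ a ∈ T, (v ⬝ᵥ g' a) ^ 2 := Finset.sum_nonneg fun _ _ => sq_nonneg _
    have h6 := le_abs_self (v ⬝ᵥ v - 1)
    have h7 := neg_abs_le (v ⬝ᵥ v - 1)
    rcases le_total ρ 1 with h8 | h8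
    · nlinarith
    · nlinarith

end Frames

theorem ha_close (m : ℕ) : ∀ (ε : ℝ), 0 < ε → ∃ δ > (0 : ℝ), ∀ (ι β : Type) [Fintype ι]
    [DecidableEq ι] [DecidableEq β] (B : Finset ι) (g g' : β → ι → ℝ) (T : Finset β),
    T.card ≤ m → Frame B g' → (∀ b, ∀ i ∉ B, g b i = 0) →
    (∀ b b', |g b ⬝ᵥ g b' - if b = b' then 1 else 0| ≤ δ) → ∃ S : O ι, FixO B S ∧ ∀ b ∈ T,
      ((S : Matrix ι ι ℝ) *ᵥ g b - g' b) ⬝ᵥ ((S : Matrix ι ι ℝ) *ᵥ g b - g' b) ≤ ε := by
  induction m with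
  | zero =>
    refine fun ε _ => ⟨1, one_pos, fun ι β _ _ _ B g g' T hT _ _ _ => ⟨1, ha_fix_one B, ?_⟩⟩
    rw [Finset.card_eq_zero.1 (Nat.le_zero.1 hT)]
    simp
  | succ m ih =>
    intro ε hε
    obtain ⟨η, hη, hηε⟩ : ∃ η : ℝ, 0 < η ∧ η * (12 * m + 1) = ε :=
      ⟨ε / (12 * m + 1), by positivity, by field_simp⟩
    obtain ⟨δ, hδ, h⟩ := ih η hη
    refine ⟨min δ (min η 1), lt_min hδ (lt_min hη one_pos), ?_⟩
    intro ι β _ _ _ B g g' T hT hg' hg hG
    have hm : (0 : ℝ) ≤ m := by positivity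
    have hle : η ≤ ε := by nlinarith
    rcases T.eq_empty_or_nonempty with rfl | ⟨b, hb⟩
    · exact ⟨1, ha_fix_one B, by simp⟩
    have hc : (T.erase b).card ≤ m := by rw [Finset.card_erase_of_mem hb]; omega
    obtain ⟨S, h1, h2⟩ := h ι β B g g' (T.erase b) hc hg' hg
      fun b b' => (hG b b').trans (min_le_left _ _)
    obtain ⟨S', h3, h4, h5⟩ := ha_step hg' (T.notMem_erase b) (v := (S : Matrix ι ι ℝ) *ᵥ g b)
      fun i hi => by rw [h1.mulVec_of_notMem _ hi, hg b i hi]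
    refine ⟨S' * S, h3.mul h1, fun a ha => ?_⟩
    rw [O.mul_mulVec]
    by_cases hab : a = b
    · subst hab
      refine h5.trans ?_
      have k1 : |g a ⬝ᵥ g a - 1| ≤ min η 1 := by
        simpa using (hG a a).trans (min_le_right _ _)
      have k2 : g a ⬝ᵥ g a ≤ 2 := by
        linarith [(abs_le.1 (k1.trans (min_le_right _ _))).2]
      have k3 : ∀ c ∈ T.erase a, (((S : Matrix ι ι ℝ) *ᵥ g a) ⬝ᵥ g' c) ^ 2 ≤ 6 * η := by
        intro c hc
        have q1 : |g a ⬝ᵥ g c| ≤ min η 1 := by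
          have := (hG a c).trans (min_le_right _ _)
          rwa [if_neg (Finset.ne_of_mem_erase hc).symm, sub_zero] at this
        have q2 : (g a ⬝ᵥ g c) ^ 2 ≤ η := by
          rw [← sq_abs, sq]
          exact (mul_le_mul (q1.trans (min_le_left _ _)) (q1.trans (min_le_right _ _))
            (abs_nonneg _) hη.le).trans (by simp)
        have q3 : (((S : Matrix ι ι ℝ) *ᵥ g a) ⬝ᵥ ((S : Matrix ι ι ℝ) *ᵥ g c - g' c)) ^ 2 ≤
            (((S : Matrix ι ι ℝ) *ᵥ g a) ⬝ᵥ ((S : Matrix ι ι ℝ) *ᵥ g a)) *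
              (((S : Matrix ι ι ℝ) *ᵥ g c - g' c) ⬝ᵥ ((S : Matrix ι ι ℝ) *ᵥ g c - g' c)) := by
          simpa only [dotProduct, sq] using Finset.sum_mul_sq_le_sq_mul_sq Finset.univ
            ((S : Matrix ι ι ℝ) *ᵥ g a) ((S : Matrix ι ι ℝ) *ᵥ g c - g' c)
        rw [O.dot S (g a) (g a)] at q3
        have q4 := q3.trans (mul_le_mul k2 (h2 c hc)
          (Finset.sum_nonneg fun i _ => mul_self_nonneg _) (by norm_num))
        rw [dotProduct_sub, O.dot] at q4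
        nlinarith [sq_nonneg (2 * (g a ⬝ᵥ g c) - ((S : Matrix ι ι ℝ) *ᵥ g a) ⬝ᵥ g' c)]
      have k4 := Finset.sum_le_card_nsmul _ _ _ k3
      rw [nsmul_eq_mul] at k4
      have k5 := k4.trans (mul_le_mul_of_nonneg_right (Nat.cast_le.2 hc) (by positivity))
      rw [O.dot]
      linarith [k1.trans (min_le_left _ _)]
    · have ha' : a ∈ T.erase b := Finset.mem_erase.2 ⟨hab, ha⟩
      rw [← h4 a ha', ← Matrix.mulVec_sub, O.dot]
      exact (h2 a ha').trans hle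

theorem frame_close (m : ℕ) (ε : ℝ) (hε : 0 < ε) : ∃ δ > (0 : ℝ), ∀ (ι β : Type) [Fintype ι]
    [DecidableEq ι] [Fintype β] [DecidableEq β] (B : Finset ι) (g g' : β → ι → ℝ),
    Fintype.card β ≤ m → Frame B g' → (∀ b, ∀ i ∉ B, g b i = 0) →
    (∀ b b', |g b ⬝ᵥ g b' - if b = b' then 1 else 0| ≤ δ) → ∃ S : O ι, FixO B S ∧ ∀ b,
      ((S : Matrix ι ι ℝ) *ᵥ g b - g' b) ⬝ᵥ ((S : Matrix ι ι ℝ) *ᵥ g b - g' b) ≤ ε := by
  obtain ⟨δ, hδ, h⟩ := ha_close m ε hε
  refine ⟨δ, hδ, fun ι β _ _ _ _ B g g' hm hg' hg hG => ?_⟩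
  obtain ⟨S, h1, h2⟩ := h ι β B g g' Finset.univ hm hg' hg hG
  exact ⟨S, h1, fun b => h2 b (Finset.mem_univ b)⟩

theorem ha_embO (U : O ι) : (Matrix.of fun i j : Option ι =>
    i.elim (j.elim 1 fun _ => 0) fun i => j.elim 0 fun j => (U : Matrix ι ι ℝ) i j) ∈
      Matrix.orthogonalGroup (Option ι) ℝ := by
  refine ha_mem ?_
  rintro (_ | i) (_ | j) <;> simp [Fintype.sum_option, ha_rows]

/-- block sum with the identity on the new axis -/
noncomputable def embO (U : O ι) : O (Option ι) :=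
  ⟨Matrix.of fun i j => i.elim (j.elim 1 fun _ => 0) fun i => j.elim 0 fun j =>
    (U : Matrix ι ι ℝ) i j, ha_embO U⟩

theorem embO_mulVec (U : O ι) (x : Option ι → ℝ) : (embO U : Matrix (Option ι) (Option ι) ℝ) *ᵥ x =
    fun i => i.elim (x none) ((U : Matrix ι ι ℝ) *ᵥ fun j => x (some j)) := by
  funext i
  cases i <;> simp [embO, Matrix.mulVec, dotProduct, Fintype.sum_option]
theorem embO_mul (U V : O ι) : embO (U * V) = embO U * embO V := by
  refine Subtype.ext (Matrix.ext ?_)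
  rintro (_ | i) (_ | j) <;> simp [embO, Matrix.mul_apply, Fintype.sum_option]
theorem continuous_embO : Continuous (embO : O ι → O (Option ι)) := by
  refine Continuous.subtype_mk (continuous_matrix ?_) _
  rintro (_ | i) (_ | j)
  · exact continuous_const
  · exact continuous_const
  · exact continuous_const
  · exact continuous_subtype_val.matrix_elem i j
theorem exists_embO (V : O (Option ι)) (h : (V : Matrix (Option ι) (Option ι) ℝ) *ᵥ
    Pi.single none 1 = Pi.single none 1) : ∃ T : O ι, V = embO T := by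
  have h1 : ∀ i, (V : Matrix (Option ι) (Option ι) ℝ) i none = if i = none then 1 else 0 := by
    intro i
    have := congrFun h i
    simpa [Pi.single_apply] using this
  have h2 : ∀ j, (V : Matrix (Option ι) (Option ι) ℝ) none j = if none = j then 1 else 0 := by
    intro j
    have := ha_cols V none j
    simpa [h1] using this
  refine ⟨⟨Matrix.of fun i j => (V : Matrix (Option ι) (Option ι) ℝ) (some i) (some j),
    ha_mem fun i j => ?_⟩, Subtype.ext (Matrix.ext ?_)⟩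
  · have := ha_rows V (some i) (some j)
    simpa [Fintype.sum_option, h1] using this
  · rintro (_ | i) (_ | j) <;> simp [embO, h1, h2]

theorem ha_reO (E : ι ≃ ι') (U : O ι) : (Matrix.of fun i j : ι' =>
    (U : Matrix ι ι ℝ) (E.symm i) (E.symm j)) ∈ Matrix.orthogonalGroup ι' ℝ := by
  refine ha_mem fun i j => ?_
  rw [← E.sum_comp]
  simp [ha_rows]

/-- relabelling -/
noncomputable def reO (E : ι ≃ ι') (U : O ι) : O ι' :=
  ⟨Matrix.of fun i j => (U : Matrix ι ι ℝ) (E.symm i) (E.symm j), ha_reO E U⟩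

theorem reO_mulVec (E : ι ≃ ι') (U : O ι) (x : ι' → ℝ) :
    (reO E U : Matrix ι' ι' ℝ) *ᵥ x = fun i => ((U : Matrix ι ι ℝ) *ᵥ fun j => x (E j)) (E.symm i) := by
  funext i
  simp only [reO, Matrix.mulVec, dotProduct, Matrix.of_apply]
  rw [← E.sum_comp]
  simp
theorem reO_mul (E : ι ≃ ι') (U V : O ι) : reO E (U * V) = reO E U * reO E V := by
  refine Subtype.ext (Matrix.ext fun i j => ?_)
  simp only [reO, Submonoid.coe_mul, Matrix.mul_apply, Matrix.of_apply]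
  rw [← E.sum_comp]
  simp
theorem reO_symm (E : ι ≃ ι') (U : O ι) : reO E.symm (reO E U) = U := by
  refine Subtype.ext (Matrix.ext fun i j => ?_)
  simp [reO]
theorem continuous_reO (E : ι ≃ ι') : Continuous (reO E) :=
  Continuous.subtype_mk (continuous_matrix fun i j =>
    continuous_subtype_val.matrix_elem (E.symm i) (E.symm j)) _

theorem exists_perm (E : Equiv.Perm ι) :
    ∃ S : O ι, ∀ x, (S : Matrix ι ι ℝ) *ᵥ x = fun i => x (E i) := by
  refine ⟨⟨Matrix.of fun i j => if E i = j then 1 else 0, ha_mem fun i j => ?_⟩, fun x => ?_⟩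
  · simp [eq_comm]
  · funext i
    simp [Matrix.mulVec, dotProduct]

end Vale.Agent.P166
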