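import Vale.Agent.P166.HaarA
import Vale.Agent.P166.ConcB
import Vale.Agent.P157.Rest
import Vale.Agent.P157.SphA

/-! Invariance of the Haar measure and of Gaussian vectors, concentration of columns. -/

namespace Vale.Agent.P166

open MeasureTheory ProbabilityTheory Real Finset Matrix Filter Topology
open Vale.Agent.P157 (Sys St γ GS s0 YY mm pp sh DirD pull mrg Rg Sp νB xB)
open scoped ENNReal

variable {ι ι' : Type} [Fintype ι] [DecidableEq ι] [Fintype ι'] [DecidableEq ι']

theorem mp_mul_left (S : O ι) : MeasurePreserving (fun U => S * U) (hO ι) (hO ι) :=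
  measurePreserving_mul_left _ S

theorem hb_unique {Ω : Type*} [MeasurableSpace Ω] (m : Measure Ω) [IsProbabilityMeasure m]
    {f : Ω → O ι} (hf : Measurable f)
    (h : ∀ S, ∃ φ : Ω → Ω, MeasurePreserving φ m m ∧ ∀ w, f (φ w) = S * f w) :
    MeasurePreserving f m (hO ι) := by
  refine ⟨hf, ?_⟩
  have := Measure.isProbabilityMeasure_map (μ := m) hf.aemeasurable
  have : (m.map f).IsMulLeftInvariant := ⟨fun S => by
    obtain ⟨φ, h1, h2⟩ := h S
    rw [Measure.map_map (measurable_const_mul S) hf]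
    conv_rhs => rw [← h1.map_eq, Measure.map_map hf h1.measurable]
    congr 1
    funext w
    exact (h2 w).symm⟩
  exact ((Measure.haarMeasure_eq_iff ⊤ (m.map f)).2 (by simp)).symm

theorem mp_mul_right (S : O ι) : MeasurePreserving (fun U => U * S) (hO ι) (hO ι) :=
  hb_unique _ (measurable_mul_const S) fun T => ⟨_, mp_mul_left T, fun _ => mul_assoc _ _ _⟩

theorem mp_reO (E : ι ≃ ι') : MeasurePreserving (reO E) (hO ι) (hO ι') :=
  hb_unique _ (continuous_reO E).measurable fun T => ⟨_, mp_mul_left (reO E.symm T), fun U => by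
    rw [reO_mul]
    exact congrArg (· * _) (reO_symm E.symm T)⟩

theorem mp_emb : MeasurePreserving (fun z : O (Option ι) × O ι => z.1 * embO z.2)
    ((hO (Option ι)).prod (hO ι)) (hO (Option ι)) :=
  hb_unique _ (measurable_fst.mul (continuous_embO.measurable.comp measurable_snd)) fun T =>
    ⟨_, (mp_mul_left T).prod (MeasurePreserving.id _), fun _ => mul_assoc _ _ _⟩

omit [DecidableEq ι] in
theorem hb_dot (x : ι → ℝ) : x ⬝ᵥ x = ∑ i, x i ^ 2 := by simp [dotProduct, sq]

omit [DecidableEq ι] in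
theorem hb_mp_toLp : MeasurePreserving (WithLp.toLp 2) (γ ι) (stdGaussian (EuclideanSpace ℝ ι)) :=
  ⟨WithLp.measurable_toLp 2 _, map_pi_eq_stdGaussian⟩

/-- the isometry of an orthogonal matrix -/
noncomputable def hbRot (U : O ι) : EuclideanSpace ℝ ι ≃ₗᵢ[ℝ] EuclideanSpace ℝ ι :=
  LinearIsometry.toLinearIsometryEquiv
    { toLinearMap := Matrix.toLpLin 2 2 (U : Matrix ι ι ℝ)
      norm_map' := fun y => by
        rw [← sq_eq_sq₀ (norm_nonneg _) (norm_nonneg _), EuclideanSpace.real_norm_sq_eq,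
          EuclideanSpace.real_norm_sq_eq, ← hb_dot, ← hb_dot]
        exact O.dot U y.ofLp y.ofLp } rfl

theorem mp_mulVec (S : O ι) :
    MeasurePreserving (fun z : ι → ℝ => (S : Matrix ι ι ℝ) *ᵥ z) (γ ι) (γ ι) := by
  have h1 : MeasurePreserving (hbRot S) (stdGaussian (EuclideanSpace ℝ ι))
      (stdGaussian (EuclideanSpace ℝ ι)) := ⟨(hbRot S).continuous.measurable, stdGaussian_map _⟩
  have h2 : MeasurePreserving (MeasurableEquiv.toLp 2 (ι → ℝ)) (γ ι)
      (stdGaussian (EuclideanSpace ℝ ι)) := hb_mp_toLp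
  exact h2.symm.comp (h1.comp h2)

theorem measurable_entry (i j : ι) : Measurable fun U : O ι => (U : Matrix ι ι ℝ) i j :=
  (Continuous.matrix_elem (A := fun U : O ι => (U : Matrix ι ι ℝ)) continuous_subtype_val
    i j).measurable

omit [DecidableEq ι] in
theorem unif_eq_pi : unif ι = Measure.pi fun _ : ι => νB := by
  unfold unif νB
  rw [← uniformOn_pi, Set.pi_univ]

omit [DecidableEq ι] [DecidableEq ι'] in
theorem mp_unif (E : ι ≃ ι') :
    MeasurePreserving (fun (σ : ι' → Bool) i => σ (E i)) (unif ι') (unif ι) := by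
  rw [unif_eq_pi, unif_eq_pi]
  exact P157.tl_mp_comp _ E.injective

omit [DecidableEq ι] in
theorem mp_unif_elim : MeasurePreserving
    (fun (σ : (ι → Bool) × Bool) (i : Option ι) => i.elim σ.2 σ.1) (nC ι) (unif (Option ι)) := by
  refine ⟨measurable_of_countable _, ?_⟩
  unfold nC
  rw [unif_eq_pi, unif_eq_pi, ← Measure.pi_map_piOptionEquivProd]
  congr 1
  funext σ i
  cases i <;> rfl

omit [DecidableEq ι] in
theorem mp_unif_option : MeasurePreserving
    (fun σ : Option ι → Bool => ((fun i => σ (some i)), σ none)) (unif (Option ι)) (nC ι) := by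
  refine ⟨measurable_of_countable _, ?_⟩
  rw [← mp_unif_elim.map_eq, Measure.map_map (measurable_of_countable _) (measurable_of_countable _)]
  exact Measure.map_id

/-- rotation of a part of the Gaussian coordinates -/
theorem mp_rot_sub {I : Type} [Fintype I] {c : ι → I} (hc : Function.Injective c) (S : O ι) :
    ∃ L : (I → ℝ) → I → ℝ, MeasurePreserving L (γ I) (γ I) ∧ L 0 = 0 ∧
      (∃ C, ∀ z, ∑ i, |L z i| ≤ C * ∑ i, |z i|) ∧
      (∀ z x, L z (c x) = ((S : Matrix ι ι ℝ) *ᵥ fun x => z (c x)) x) ∧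
      ∀ z i, i ∉ Set.range c → L z i = z i := by
  classical
  let E : ι ⊕ {i // i ∉ Set.range c} ≃ I :=
    (Equiv.sumCongr (Equiv.ofInjective c hc) (Equiv.refl _)).trans
      (Equiv.sumCompl fun i => i ∈ Set.range c)
  have e1 : ∀ x, E.symm (c x) = .inl x := fun x => E.symm_apply_eq.2 rfl
  have e2 : ∀ i (h : i ∉ Set.range c), E.symm i = .inr ⟨i, h⟩ := fun i h => E.symm_apply_eq.2 rfl
  refine ⟨fun z i => Sum.elim ((S : Matrix ι ι ℝ) *ᵥ fun x => z (c x))
    (fun y : {i // i ∉ Set.range c} => z y) (E.symm i), ?_, ?_,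
    ⟨Fintype.card I * (Fintype.card ι + 1), fun z => ?_⟩, fun z x => ?_, fun z i hi => ?_⟩
  · exact (P157.ra_mp_sum E.symm.injective).comp (((mp_mulVec S).prod
      (MeasurePreserving.id _)).comp ((measurePreserving_sumPiEquivProdPi
        fun _ => gaussianReal 0 1).comp (P157.measurePreserving_coord E.injective)))
  · funext i
    dsimp only
    rcases E.symm i with x | y
    · exact congrFun (Matrix.mulVec_zero _) x
    · rfl
  · have h1 : ∀ i, |z i| ≤ ∑ i, |z i| := fun i =>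
      single_le_sum (f := fun i => |z i|) (fun _ _ => abs_nonneg _) (mem_univ i)
    have h0 : 0 ≤ ∑ i, |z i| := by positivity
    refine (sum_le_card_nsmul _ _ ((Fintype.card ι + 1) * ∑ i, |z i|) fun i _ => ?_).trans ?_
    · dsimp only
      rcases E.symm i with x | y
      · refine (abs_sum_le_sum_abs _ _).trans
          ((sum_le_card_nsmul _ _ (∑ i, |z i|) fun j _ => ?_).trans ?_)
        · rw [abs_mul]
          exact (mul_le_of_le_one_left (abs_nonneg _) (O.abs_le S x j)).trans (h1 _)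
        · rw [nsmul_eq_mul, card_univ]
          linarith
      · have := mul_nonneg (Nat.cast_nonneg (α := ℝ) (Fintype.card ι)) h0
        have := h1 y
        simp only [Sum.elim_inr]
        linarith
    · rw [nsmul_eq_mul, card_univ, mul_assoc]
  · simp only [e1, Sum.elim_inl]
  · simp only [e2 i hi, Sum.elim_inr]

section Cheb

variable {I : Type} [Fintype I] [DecidableEq I]

omit [DecidableEq I] in
theorem hb_indep : iIndepFun (fun (i : I) (v : I → ℝ) => v i) (γ I) :=
  iIndepFun_pi (X := fun _ => id) (fun _ => aemeasurable_id)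

omit [DecidableEq I] in
theorem hb_eval (a : I) {f : ℝ → ℝ} (hf : Measurable f) :
    ∫ z, f (z a) ∂γ I = ∫ u, f u ∂gaussianReal 0 1 :=
  P157.Sys.mo_int (measurePreserving_eval (fun _ : I => gaussianReal 0 1) a) hf

theorem hb_pair (a b : I) : MemLp (fun z : I → ℝ => z a * z b) 2 (γ I) ∧
    ∫ z, z a * z b ∂γ I = (if a = b then 1 else 0) ∧ Var[fun z => z a * z b; γ I] ≤ 2 := by
  have ev := fun a => measurePreserving_eval (fun _ : I => gaussianReal 0 1) a
  split_ifs with h
  · subst h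
    simp only [← pow_two]
    have hm : MemLp (fun z : I → ℝ => z a ^ 2) 2 (γ I) :=
      P157.su_memLp.comp_measurePreserving (ev a)
    have h1 : ∫ z, z a ^ 2 ∂γ I = 1 :=
      (hb_eval a (f := fun u => u ^ 2) (by fun_prop)).trans P157.su_m2
    have h2 : ∫ z, (z a ^ 2) ^ 2 ∂γ I = 3 :=
      (hb_eval a (f := fun u => (u ^ 2) ^ 2) (by fun_prop)).trans P157.su_m4
    refine ⟨hm, h1, ?_⟩
    rw [variance_eq_sub hm, h1]
    simp only [Pi.pow_apply, h2]
    norm_num
  · have i1 := (hb_indep (I := I)).indepFun h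
    have i2 : IndepFun (fun z : I → ℝ => z a ^ 2) (fun z => z b ^ 2) (γ I) :=
      i1.comp (measurable_id.pow_const 2) (measurable_id.pow_const 2)
    have q : ∀ a, Integrable (fun z : I → ℝ => z a ^ 2) (γ I) := fun a =>
      (ev a).integrable_comp_of_integrable (P157.su_ipow 2)
    have h1 : ∀ a, ∫ z, z a ^ 2 ∂γ I = 1 := fun a =>
      (hb_eval a (f := fun u => u ^ 2) (by fun_prop)).trans P157.su_m2
    refine ⟨(memLp_two_iff_integrable_sq (Measurable.aestronglyMeasurable (by fun_prop))).2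
      ((i2.integrable_mul (q a) (q b)).congr (ae_of_all _ fun z => (mul_pow _ _ _).symm)), ?_, ?_⟩
    · rw [i1.integral_fun_mul_eq_mul_integral (measurable_pi_apply a).aestronglyMeasurable
        (measurable_pi_apply b).aestronglyMeasurable,
        hb_eval a (f := fun u => u) measurable_id, integral_id_gaussianReal, zero_mul]
    · refine (variance_le_expectation_sq (Measurable.aestronglyMeasurable (by fun_prop))).trans ?_
      simp only [Pi.pow_apply, mul_pow]
      rw [i2.integral_fun_mul_eq_mul_integral (q a).1 (q b).1, h1, h1]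
      norm_num

theorem hb_cheb {J : Type} (A : Finset J) (a b : J → I) (c : J → ℝ)
    (h : ∀ i ∈ A, ∀ j ∈ A, i ≠ j → a i ≠ a j ∧ a i ≠ b j ∧ b i ≠ a j ∧ b i ≠ b j) {t : ℝ}
    (ht : 0 < t) : (γ I).real {z | t ≤ |∑ j ∈ A, c j * (z (a j) * z (b j)) -
      ∑ j ∈ A, c j * (if a j = b j then 1 else 0)|} ≤ 2 * (∑ j ∈ A, c j ^ 2) / t ^ 2 := by
  have hm : ∀ j, MemLp (fun z : I → ℝ => c j * (z (a j) * z (b j))) 2 (γ I) := fun j =>
    (hb_pair (a j) (b j)).1.const_mul _
  have h1 := meas_ge_le_variance_div_sq (memLp_finsetSum' A fun j _ => hm j) ht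
  rw [IndepFun.variance_sum (fun j _ => hm j) fun i hi j hj hij => ?_] at h1
  · simp only [Finset.sum_apply] at h1
    rw [integral_finsetSum _ fun j _ => (hm j).integrable one_le_two] at h1
    simp only [integral_const_mul, (hb_pair _ _).2.1, variance_const_mul] at h1
    refine (ENNReal.toReal_le_of_le_ofReal (div_nonneg (sum_nonneg fun j _ =>
      mul_nonneg (sq_nonneg _) (variance_nonneg _ _)) (sq_nonneg _)) h1).trans ?_
    refine div_le_div_of_nonneg_right ?_ (sq_nonneg _)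
    rw [mul_comm, sum_mul]
    exact sum_le_sum fun j _ => mul_le_mul_of_nonneg_left (hb_pair _ _).2.2 (sq_nonneg _)
  · obtain ⟨h1, h2, h3, h4⟩ := h i hi j hj hij
    exact (hb_indep.indepFun_mul_mul (fun i => measurable_pi_apply i) _ _ _ _ h1 h2 h3 h4).comp
      (measurable_const_mul (c i)) (measurable_const_mul (c j))

end Cheb

theorem hb_mulVec_meas :
    Measurable fun p : O ι × (ι → ℝ) => (p.1 : Matrix ι ι ℝ) *ᵥ p.2 :=
  (Continuous.matrix_mulVec (continuous_subtype_val.comp continuous_fst) continuous_snd).measurable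

/-- the law of a column on cones is the Gaussian law -/
theorem hb_cone (i0 : ι) {A : Set (ι → ℝ)} (hA : MeasurableSet A)
    (hc : ∀ (r : ℝ) x, r ≠ 0 → (r • x ∈ A ↔ x ∈ A)) :
    hO ι {V | (V : Matrix ι ι ℝ) *ᵥ Pi.single i0 1 ∈ A} = γ ι A := by
  have : NullSingletonClass (gaussianReal 0 1) := nullSingletonClass_gaussianReal one_ne_zero
  have : NullSingletonClass (γ ι) := Measure.pi_nullSingletonClass i0
  have hS := hb_mulVec_meas hA
  have h1 := Measure.prod_apply (μ := hO ι) (ν := γ ι) hS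
  have h2 := Measure.prod_apply_symm (μ := hO ι) (ν := γ ι) hS
  have h3 : ∀ V : O ι, γ ι (Prod.mk V ⁻¹' ((fun p : O ι × (ι → ℝ) =>
      (p.1 : Matrix ι ι ℝ) *ᵥ p.2) ⁻¹' A)) = γ ι A := fun V =>
    (mp_mulVec V).measure_preimage hA.nullMeasurableSet
  simp only [h3, lintegral_const, measure_univ, mul_one] at h1
  rw [← h1, h2, lintegral_congr_ae (g := fun _ =>
    hO ι {V | (V : Matrix ι ι ℝ) *ᵥ Pi.single i0 1 ∈ A}), lintegral_const, measure_univ, mul_one]
  filter_upwards [(Set.countable_singleton (0 : ι → ℝ)).ae_notMem (γ ι)] with g hg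
  have hg0 : 0 < g ⬝ᵥ g := lt_of_le_of_ne (by rw [hb_dot]; positivity)
    fun h => hg (dotProduct_self_eq_zero.1 h.symm)
  obtain ⟨T, -, hT⟩ := exists_fix (B := univ) (w := √(g ⬝ᵥ g) • Pi.single i0 1) (w' := g)
    (by simp) (by simp) (by simp [mul_self_sqrt hg0.le])
  rw [← (mp_mul_right T).measure_preimage
    (s := {V : O ι | (V : Matrix ι ι ℝ) *ᵥ Pi.single i0 1 ∈ A}) ((hb_mulVec_meas.comp (measurable_id.prodMk measurable_const)) hA).nullMeasurableSet]
  congr 1
  ext V
  show (V : Matrix ι ι ℝ) *ᵥ g ∈ A ↔ ((V * T : O ι) : Matrix ι ι ℝ) *ᵥ Pi.single i0 1 ∈ A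
  rw [← hc _ (_ *ᵥ Pi.single i0 1) (sqrt_pos.2 hg0).ne', ← Matrix.mulVec_smul, O.mul_mulVec, hT]

/-- the mass of a column in a block concentrates -/
theorem col_conc (G : Finset ι) (i0 : ι) {δ : ℝ} (hδ : 0 < δ) :
    (hO ι).real {V | δ < |∑ i ∈ G, (V : Matrix ι ι ℝ) i i0 ^ 2 - G.card / Fintype.card ι|} ≤
      64 / (δ ^ 2 * Fintype.card ι) := by
  have : Nonempty ι := ⟨i0⟩
  have hN : (0 : ℝ) < Fintype.card ι := by exact_mod_cast Fintype.card_pos
  set N : ℝ := (Fintype.card ι : ℝ) with hNd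
  have hG : (G.card : ℝ) ≤ N := Nat.cast_le.2 (card_le_univ G)
  have hG0 : (0 : ℝ) ≤ G.card := Nat.cast_nonneg _
  have hcol : ∀ V : O ι, ∑ i, (V : Matrix ι ι ℝ) i i0 ^ 2 = 1 := fun V => by
    have := O.dot V (Pi.single i0 1) (Pi.single i0 1)
    rw [hb_dot] at this
    simpa using this
  rcases le_or_gt 1 δ with h1 | h1
  · refine le_trans (le_of_eq ?_) (by positivity : (0 : ℝ) ≤ _)
    rw [Set.eq_empty_of_forall_notMem (s := {V : O ι | _}) fun V hV => ?_, measureReal_empty]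
    have a1 : ∑ i ∈ G, (V : Matrix ι ι ℝ) i i0 ^ 2 ≤ 1 := (sum_le_sum_of_subset_of_nonneg
      (subset_univ G) fun _ _ _ => sq_nonneg _).trans (hcol V).le
    have a2 : 0 ≤ ∑ i ∈ G, (V : Matrix ι ι ℝ) i i0 ^ 2 := by positivity
    have a3 : G.card / N ≤ 1 := (div_le_one hN).2 hG
    have a4 : 0 ≤ G.card / N := by positivity
    exact absurd (h1.trans_lt hV) (not_lt.2 (abs_le.2 ⟨by linarith, by linarith⟩))
  have hc := hb_cone i0 (A := {x | δ * ∑ i, x i ^ 2 < |∑ i ∈ G, x i ^ 2 - G.card / N * ∑ i, x i ^ 2|})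
    (measurableSet_lt (by fun_prop) (by fun_prop)) fun r x hr => by
      have hr2 : 0 < r ^ 2 := by positivity
      simp only [Set.mem_ofPred_eq, Pi.smul_apply, smul_eq_mul, mul_pow, ← mul_sum]
      rw [mul_left_comm δ, mul_left_comm (G.card / N), ← mul_sub, abs_mul, abs_of_pos hr2,
        mul_lt_mul_iff_right₀ hr2]
  simp only [Set.mem_ofPred_eq, Matrix.mulVec_single_one, Matrix.col_apply, hcol, mul_one] at hc
  rw [measureReal_def, hc, ← measureReal_def]
  have c1 := hb_cheb (I := ι) univ id id (fun _ => 1) (fun i _ j _ h => ⟨h, h, h, h⟩) (half_pos hN)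
  have c2 := hb_cheb (I := ι) univ id id (fun i => (if i ∈ G then 1 else 0) - G.card / N)
    (fun i _ j _ h => ⟨h, h, h, h⟩) (t := δ * N / 2) (by positivity)
  have e1 : ∑ i, ((if i ∈ G then (1 : ℝ) else 0) - G.card / N) = 0 := by
    rw [sum_sub_distrib, sum_const, card_univ, nsmul_eq_mul, ← hNd, mul_div_cancel₀ _ hN.ne']
    simp
  have e2 : ∑ i, ((if i ∈ G then (1 : ℝ) else 0) - G.card / N) ^ 2 ≤ N := by
    refine (sum_le_card_nsmul _ _ 1 fun i _ => ?_).trans (by simp [hNd])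
    have a3 : G.card / N ≤ 1 := (div_le_one hN).2 hG
    have a4 : 0 ≤ G.card / N := by positivity
    split_ifs <;> nlinarith
  have e3 : ∀ x : ι → ℝ, ∑ i, ((if i ∈ G then (1 : ℝ) else 0) - G.card / N) * x i ^ 2 =
      ∑ i ∈ G, x i ^ 2 - G.card / N * ∑ i, x i ^ 2 := fun x => by
    simp only [sub_mul, sum_sub_distrib, ← mul_sum, ite_mul, one_mul, zero_mul]
    rw [sum_ite_mem, univ_inter]
  simp only [id, if_true, mul_one, one_mul, e1, e3, sub_zero, one_pow, sum_const, card_univ,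
    nsmul_eq_mul, ← hNd, ← pow_two] at c1 c2
  refine (measureReal_mono (fun x hx => ?_)).trans ((measureReal_union_le _ _).trans
    ((add_le_add c1 c2).trans ?_))
  · by_contra h
    simp only [Set.mem_union, Set.mem_ofPred_eq, not_or, not_le] at h hx
    have := (abs_lt.1 h.1).1
    nlinarith [h.2]
  · have b1 : 2 * N / (N / 2) ^ 2 = 8 * δ ^ 2 / (δ ^ 2 * N) := by field_simp; norm_num
    have b2 : 2 * N / (δ * N / 2) ^ 2 = 8 / (δ ^ 2 * N) := by field_simp; norm_num
    have b3 := div_le_div_of_nonneg_right (mul_le_mul_of_nonneg_left e2 zero_le_two)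
      (sq_nonneg (δ * N / 2))
    have b4 : 8 * δ ^ 2 / (δ ^ 2 * N) + 8 / (δ ^ 2 * N) ≤ 64 / (δ ^ 2 * N) := by
      rw [← add_div]
      exact div_le_div_of_nonneg_right (by nlinarith) (by positivity)
    linarith

/-- Gaussian directions are almost orthonormal -/
theorem gram_conc {β : Type} [Fintype β] [DecidableEq β] {B : Finset ι} (hB : B.Nonempty)
    (b b' : β) {δ : ℝ} (hδ : 0 < δ) :
    (γ (β × ι)).real {z | δ < |gG B z b ⬝ᵥ gG B z b' - if b = b' then 1 else 0|} ≤
      2 / (δ ^ 2 * B.card) := by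
  have hN : (0 : ℝ) < B.card := by exact_mod_cast hB.card_pos
  have c := hb_cheb (I := β × ι) B (fun i => (b, i)) (fun i => (b', i)) (fun _ => (B.card : ℝ)⁻¹)
    (fun i _ j _ h => by simp [h]) hδ
  refine (measureReal_mono (fun z hz => ?_)).trans (c.trans (le_of_eq ?_))
  · refine (le_of_lt (show δ < _ from hz)).trans (le_of_eq ?_)
    congr 2
    · simp only [dotProduct, gG, ite_mul, zero_mul]
      rw [sum_ite_mem, univ_inter]
      refine sum_congr rfl fun i hi => ?_
      rw [if_pos hi, div_mul_div_comm, mul_self_sqrt hN.le]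
      ring
    · simp only [Prod.mk.injEq, and_true, sum_const, nsmul_eq_mul]
      rw [mul_inv_cancel_left₀ hN.ne']
  · rw [sum_const, nsmul_eq_mul]
    field_simp

/-- extension by zero -/
def hbExt (B : Finset ι) (g : {i // i ∈ B} → ℝ) (i : ι) : ℝ := if h : i ∈ B then g ⟨i, h⟩ else 0

theorem hb_ext_dot (B : Finset ι) (g : {i // i ∈ B} → ℝ) (y : ι → ℝ) :
    hbExt B g ⬝ᵥ y = ∑ i : {i // i ∈ B}, g i * y i := by
  rw [dotProduct, ← sum_subset (subset_univ B) fun i _ hi => by simp [hbExt, hi],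
    ← sum_coe_sort B]
  exact sum_congr rfl fun i _ => by simp [hbExt]

/-- exponential moment of a coordinate of a vector with isotropic law -/
theorem sphere_avg {Ω : Type*} [MeasurableSpace Ω] (m : Measure Ω) [IsProbabilityMeasure m]
    {X : Ω → ι → ℝ} (hX : Measurable X) {B : Finset ι} {N l : ℝ} (hN : ∀ w, X w ⬝ᵥ X w ≤ N)
    (hl : 0 ≤ l) (hB : 16 * l * N ≤ B.card)
    (hinv : ∀ S : O ι, FixO B S → m.map (fun w => (S : Matrix ι ι ℝ) *ᵥ X w) = m.map X)
    {u : ι → ℝ} (hu : ∀ i ∉ B, u i = 0) (hu1 : u ⬝ᵥ u ≤ 1) :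
    ∫ w, exp (l * (u ⬝ᵥ X w) ^ 2) ∂m ≤ 3 := by
  rcases B.eq_empty_or_nonempty with rfl | hB0
  · obtain rfl : u = 0 := funext fun i => hu i (notMem_empty i)
    simp
  set Y : Ω → EuclideanSpace ℝ {i // i ∈ B} := fun w => WithLp.toLp 2 fun i => X w i with hY
  have mY : Measurable Y := (WithLp.measurable_toLp 2 _).comp (by fun_prop)
  have nY : ∀ w, ‖Y w‖ ^ 2 ≤ N := fun w => by
    refine le_trans ?_ (hN w)
    rw [EuclideanSpace.real_norm_sq_eq, hb_dot, sum_coe_sort B fun i => X w i ^ 2]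
    exact sum_le_sum_of_subset_of_nonneg (subset_univ B) fun _ _ _ => sq_nonneg _
  have hr : Module.finrank ℝ (EuclideanSpace ℝ {i // i ∈ B}) = B.card := by simp
  have hcs : ∀ (g : EuclideanSpace ℝ {i // i ∈ B}) w, |inner ℝ g (Y w) ^ 2 / ‖g‖ ^ 2| ≤ N :=
    fun g w => by
      rw [abs_of_nonneg (by positivity)]
      refine div_le_of_le_mul₀ (sq_nonneg _) ((sq_nonneg _).trans (nY w)) ?_
      have h1 : inner ℝ g (Y w) ^ 2 ≤ (‖g‖ * ‖Y w‖) ^ 2 := by
        rw [← sq_abs]
        exact pow_le_pow_left₀ (abs_nonneg _) (abs_real_inner_le_norm _ _) 2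
      nlinarith [nY w, sq_nonneg ‖g‖]
  have hi : Integrable (Function.uncurry fun (g : EuclideanSpace ℝ {i // i ∈ B}) w =>
      exp (l * (inner ℝ g (Y w) ^ 2 / ‖g‖ ^ 2))) ((stdGaussian _).prod m) :=
    integrable_of_bdd _ (by unfold Function.uncurry; fun_prop) fun p => abs_exp_le (hcs p.1 p.2)
  have h1 : ∀ᵐ g ∂stdGaussian (EuclideanSpace ℝ {i // i ∈ B}),
      ∫ w, exp (l * (u ⬝ᵥ X w) ^ 2) ∂m ≤ ∫ w, exp (l * (inner ℝ g (Y w) ^ 2 / ‖g‖ ^ 2)) ∂m := by
    have h0 := gauss_subspace (⊥ : Submodule ℝ (EuclideanSpace ℝ {i // i ∈ B}))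
      (by rw [hr, finrank_bot]; exact hB0.card_pos)
    filter_upwards [measure_eq_zero_iff_ae_notMem.1 h0] with g hg
    have hg0 : 0 < ‖g‖ ^ 2 := pow_pos (norm_pos_iff.2 hg) 2
    have hu0 : 0 ≤ u ⬝ᵥ u := by rw [hb_dot]; positivity
    have e0 : hbExt B g.ofLp ⬝ᵥ hbExt B g.ofLp = ‖g‖ ^ 2 := by
      rw [hb_ext_dot, EuclideanSpace.real_norm_sq_eq]
      exact sum_congr rfl fun i _ => by simp [hbExt, sq]
    have hq : 0 ≤ u ⬝ᵥ u / ‖g‖ ^ 2 := div_nonneg hu0 hg0.le
    obtain ⟨S, hS, hSu⟩ := exists_fix (B := B) (w := √(u ⬝ᵥ u / ‖g‖ ^ 2) • hbExt B g.ofLp)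
      (w' := u) (fun i hi => by simp [hbExt, hi]) hu (by
        rw [smul_dotProduct, dotProduct_smul, e0, smul_eq_mul, smul_eq_mul, ← mul_assoc,
          mul_self_sqrt hq, div_mul_cancel₀ _ hg0.ne'])
    have mf : Measurable fun x : ι → ℝ => exp (l * (u ⬝ᵥ x) ^ 2) := by
      unfold dotProduct; fun_prop
    rw [← integral_map hX.aemeasurable mf.aestronglyMeasurable, ← hinv S hS,
      integral_map (φ := fun w => (S : Matrix ι ι ℝ) *ᵥ X w)
        ((mp_mulVec S).measurable.comp hX).aemeasurable mf.aestronglyMeasurable]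
    refine integral_mono_of_nonneg (ae_of_all _ fun w => (exp_pos _).le)
      (integrable_of_bdd _ (by fun_prop) fun w => abs_exp_le (hcs g w)) (ae_of_all _ fun w => ?_)
    refine exp_le_exp.2 (mul_le_mul_of_nonneg_left ?_ hl)
    have e1 : inner ℝ g (Y w) = hbExt B g.ofLp ⬝ᵥ X w := by
      rw [hb_ext_dot, PiLp.inner_apply]
      exact sum_congr rfl fun i _ => by simp [hY, mul_comm]
    have e2 : u ⬝ᵥ ((S : Matrix ι ι ℝ) *ᵥ X w) = √(u ⬝ᵥ u / ‖g‖ ^ 2) * inner ℝ g (Y w) := by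
      rw [e1, ← smul_eq_mul, ← smul_dotProduct, ← O.dot S (_ • _), hSu]
    show (u ⬝ᵥ ((S : Matrix ι ι ℝ) *ᵥ X w)) ^ 2 ≤ _
    rw [e2, mul_pow, sq_sqrt hq, div_mul_eq_mul_div]
    exact div_le_div_of_nonneg_right (mul_le_of_le_one_left (sq_nonneg _) hu1) hg0.le
  have h2 := integral_mono_ae (integrable_const _) hi.integral_prod_left h1
  rw [integral_const, probReal_univ, one_smul] at h2
  refine (h2.trans_eq (integral_integral_swap hi)).trans ((le_abs_self _).trans (abs_integral_le_bdd m fun w => ?_))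
  rw [abs_of_nonneg (integral_nonneg fun _ => (exp_pos _).le)]
  exact gauss_ratio (Y w) hl (nY w) (by rw [hr]; exact hB)

end Vale.Agent.P166
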