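import Vale.Agent.P166.MdlB
import Vale.Agent.P157.SyncB

/-! Synchronisation of the top overlap at a contact point. -/

namespace Vale.Agent.P166

open MeasureTheory ProbabilityTheory Real Finset Matrix Filter Topology
open Vale.Agent.P157 (Sys St γ GS s0 YY mm pp sh DirD pull mrg Rg Sp νB xB)
open scoped ENNReal

theorem exists_contact {ι α : Type} [Fintype ι] [DecidableEq ι] [DecidableEq α] {k : ℕ}
    (hk : 0 < k) (top : α) (ℓ : ι → α) (e : α → ℝ) (r : ℕ → ι → ℝ) {η : ℝ} (hη : 0 < η) (c : ℝ) :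
    ∃ b y, Box η b y ∧ ∀ b' y', Box η b' y' → YM k (mkM top ℓ e b' y' r) - c * pen k η b' y' ≤
      YM k (mkM top ℓ e b y r) - c * pen k η b y := by
  have hK : IsCompact (Set.Icc (η / 2) (2 * η) ×ˢ
      Set.pi Set.univ fun _ : ℕ => Set.Icc (η / 2) (2 * η)) :=
    isCompact_Icc.prod (isCompact_univ_pi fun _ => isCompact_Icc)
  have hne : (Set.Icc (η / 2) (2 * η) ×ˢ
      Set.pi Set.univ fun _ : ℕ => Set.Icc (η / 2) (2 * η)).Nonempty :=
    ⟨(η, fun _ => η), ⟨by constructor <;> linarith, fun _ _ => by constructor <;> linarith⟩⟩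
  have h1 : Continuous fun p : ℝ × (ℕ → ℝ) => YM k (mkM top ℓ e p.1 p.2 r) := by
    refine continuous_iff_continuousAt.2 fun p => YM_cont hk (fun i => ?_)
      (fun j _ i => tendsto_const_nhds) fun j _ i => ?_
    · simp only [mkM]
      split_ifs
      · exact (continuous_fst.neg.tendsto p)
      · exact tendsto_const_nhds
    · simp only [mkM]
      split_ifs
      · exact (((continuous_apply j).comp continuous_snd).pow 2).tendsto p
      · exact tendsto_const_nhds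
  have h2 : Continuous fun p : ℝ × (ℕ → ℝ) => pen k η p.1 p.2 := by
    unfold pen
    fun_prop
  obtain ⟨p, hp, hm⟩ := hK.exists_isMaxOn hne
    (f := fun p => YM k (mkM top ℓ e p.1 p.2 r) - c * pen k η p.1 p.2)
    (h1.sub (continuous_const.mul h2)).continuousOn
  exact ⟨p.1, p.2, ⟨hp.1, fun j => hp.2 j trivial⟩, fun b' y' h =>
    hm (a := (b', y')) ⟨h.1, fun j _ => h.2 j⟩⟩

section Gen

variable {I D Cf : Type} [Fintype I] [MeasurableSpace D] [MeasurableSpace Cf] {k : ℕ}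
  {νD : Measure D} {ν : Measure Cf} [IsProbabilityMeasure νD] [IsProbabilityMeasure ν]
  {H h : St I (D × Cf) → ℝ}

theorem sy_lfam (hk : 0 < k) (hH : (DS k I νD ν).Lin H) (hh : (DS k I νD ν).Lin h) :
    (DS k I νD ν).LFam (Set.Ioo (-1) 1) (fun t s => H s + t * h s) fun _ => h := by
  have hY : (DS k I νD ν).OK := ds_ok hk
  obtain ⟨C1, h1, b1⟩ := hH.bd hY
  obtain ⟨C2, h2, b2⟩ := hh.bd hY
  have hl : ∀ t ∈ Set.Ioo (-1 : ℝ) 1, ∀ s,
      |H s + t * h s| ≤ (C1 + C2) * (1 + (DS k I νD ν).ν s) := by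
    intro t ht s
    have h3 : |t * h s| ≤ |h s| := by
      rw [abs_mul]
      exact mul_le_of_le_one_left (abs_nonneg _) (abs_le.2 ⟨ht.1.le, ht.2.le⟩)
    have := abs_add_le (H s) (t * h s)
    have := b1 s
    have := b2 s
    linarith
  refine ⟨Sys.Fam.mk' hY (fun t _ => hH.1.add (hh.1.const_mul t)) (fun _ _ => hh.1)
    (fun t _ s => by simpa using ((hasDerivAt_id t).mul_const (h s)).const_add (H s)) ?_ ?_,
    C1 + C2, hl⟩
  · refine ⟨C1 + C2 + 1, by positivity, fun t ht s => (hl t ht s).trans ?_⟩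
    have h0 := hY.ν_nonneg s
    have h4 : 1 + (DS k I νD ν).ν s ≤ exp ((C1 + C2 + 1) * (DS k I νD ν).ν s) := by
      have := add_one_le_exp ((C1 + C2 + 1) * (DS k I νD ν).ν s)
      nlinarith [mul_nonneg (add_nonneg h1 h2) h0]
    exact mul_le_mul (by linarith) h4 (by linarith) (by positivity)
  · exact (Sys.Fam.const (U := Set.Ioo (-1) 1) hY (hh.ex hY)).ub hY

variable [Nonempty D] [Nonempty Cf]

/-- first and second order conditions at a one sided maximum -/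
theorem sy_key (hk : 0 < k) (hH : (DS k I νD ν).Lin H) (hh : (DS k I νD ν).Lin h) {c x η : ℝ}
    (hη : 0 < η) (hx : x ∈ Set.Icc (η / 2) (2 * η))
    (hm : ∀ t, x + t ∈ Set.Icc (η / 2) (2 * η) →
      YD k νD ν (fun s => H s + t * h s) - c * (x + t - η) ^ 2 ≤ YD k νD ν H - c * (x - η) ^ 2)
    (h1 : -(c * η) < ∫ s, h s ∂mD k νD ν H) (h2 : ∫ s, h s ∂mD k νD ν H < 2 * c * η) :
    ∫ s, h s ∂mD k νD ν H = 2 * c * (x - η) ∧
      (∫ s, h s ^ 2 ∂mD k νD ν H) - (∫ s, h s ∂mD k νD ν H) ^ 2 ≤ 2 * c * k := by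
  have hY : (DS k I νD ν).OK := ds_ok hk
  have hk' : (0 : ℝ) < k := by exact_mod_cast hk
  have hL := sy_lfam hk hH hh
  have hX := Sys.X_fam hY isOpen_Ioo hL (k + 1) 0
  have hP := Sys.P_fam hY isOpen_Ioo hL (Sys.Fam.const hY (hh.ex hY)) (k + 1) 0
  have h0 : (0 : ℝ) ∈ Set.Ioo (-1 : ℝ) 1 := by norm_num
  set φ : ℝ → ℝ := fun t => YD k νD ν (fun s => H s + t * h s) - c * (x + t - η) ^ 2 with hφ
  set φ1 : ℝ → ℝ := fun t => (∫ s, h s ∂mD k νD ν fun s => H s + t * h s) - 2 * c * (x + t - η)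
    with hφ1
  have dq : ∀ t : ℝ, HasDerivAt (fun t => x + t - η) 1 t := fun t =>
    ((hasDerivAt_id t).const_add x).sub_const η
  have d1 : ∀ t ∈ Set.Ioo (-1 : ℝ) 1, HasDerivAt φ (φ1 t) t := fun t ht =>
    ((hX.der t ht (s0 I (D × Cf))).sub (((dq t).pow 2).const_mul c)).congr_deriv (by
      simp only [hφ1, Sys.P, mD]; ring)
  have e0 : (fun s => H s + (0 : ℝ) * h s) = H := by funext s; simp
  have hφ0 : φ 0 = YD k νD ν H - c * (x - η) ^ 2 := by simp [hφ]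
  have hφ10 : φ1 0 = (∫ s, h s ∂mD k νD ν H) - 2 * c * (x - η) := by simp [hφ1]
  have hm' : ∀ t, x + t ∈ Set.Icc (η / 2) (2 * η) → φ t ≤ φ 0 := fun t ht => by
    rw [hφ0]; exact hm t ht
  have hr : x < 2 * η → φ1 0 ≤ 0 := by
    intro hlt
    refine le_of_tendsto (d1 0 h0).tendsto_slope_zero_right ?_
    filter_upwards [Ioo_mem_nhdsGT (sub_pos.2 hlt)] with t ht
    have := hm' t ⟨by linarith [hx.1, ht.1], by linarith [ht.2]⟩
    simp only [zero_add, smul_eq_mul]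
    exact mul_nonpos_of_nonneg_of_nonpos (inv_pos.2 ht.1).le (by linarith)
  have hl : η / 2 < x → 0 ≤ φ1 0 := by
    intro hlt
    refine ge_of_tendsto (d1 0 h0).tendsto_slope_zero_left ?_
    filter_upwards [Ioo_mem_nhdsLT (sub_neg.2 hlt)] with t ht
    have := hm' t ⟨by linarith [ht.1], by linarith [hx.2, ht.2]⟩
    simp only [zero_add, smul_eq_mul]
    exact mul_nonneg_of_nonpos_of_nonpos (inv_nonpos.2 ht.2.le) (by linarith)
  have i1 : η / 2 < x := by
    by_contra hn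
    have e : x = η / 2 := le_antisymm (not_lt.1 hn) hx.1
    have := hr (by linarith)
    rw [hφ10, e] at this
    linarith
  have i2 : x < 2 * η := by
    by_contra hn
    have e : x = 2 * η := le_antisymm hx.2 (not_lt.1 hn)
    have := hl (by linarith)
    rw [hφ10, e] at this
    linarith
  refine ⟨by linarith [hr i2, hl i1], ?_⟩
  have hmax : IsLocalMax φ 0 := by
    filter_upwards [Ioo_mem_nhds (sub_neg.2 i1) (sub_pos.2 i2)] with t ht
    exact hm' t ⟨by linarith [ht.1], by linarith [ht.2]⟩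
  have d2 := hP.der 0 h0 (s0 I (D × Cf))
  simp only [e0] at d2
  have d3 : HasDerivAt φ1 ((DS k I νD ν).D (k + 1) 0 H h h (s0 I (D × Cf)) - 2 * c) 0 :=
    (d2.sub ((dq 0).const_mul (2 * c))).congr_deriv (by simp [Sys.P])
  have h3 := P157.sb_second hmax (by
    filter_upwards [isOpen_Ioo.mem_nhds h0] with t ht using d1 t ht) d3
  have h4 := Sys.var_le_D hY hH (hh.ex hY) (k + 1) 0 (1 / k) (fun i _ _ => le_min
    (by rw [div_le_one hk']; exact_mod_cast hk)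
    (div_le_div_of_nonneg_right (by linarith [Nat.cast_nonneg (α := ℝ) i]) hk'.le))
    (s0 I (D × Cf))
  change 1 / (k : ℝ) * ((∫ s, h s ^ 2 ∂mD k νD ν H) - (∫ s, h s ∂mD k νD ν H) ^ 2) ≤ _ at h4
  rw [one_div, inv_mul_le_iff₀ hk'] at h4
  nlinarith

omit [MeasurableSpace D] [MeasurableSpace Cf] [Nonempty D] [Nonempty Cf] in
theorem sy_dirD [DecidableEq I] {C : Type} (e : I → C → ℝ) (w : ℕ → I → ℝ) {j : ℕ} (hj : j < k)
    (i : I) : DirD j i (fld k e w) fun s => √(w j i) * e i s.1 := by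
  have h1 := P157.DirD.sum (j := j) (i := i) (range k) fun j' _ =>
    P157.DirD.sum (j := j) (i := i) univ fun i' _ =>
      (P157.DirD.config (j := j) (i := i) fun c => √(w j' i') * e i' c).mul
        (P157.DirD.coord j' i')
  refine h1.congr (fun s => rfl) fun s => ?_
  rw [sum_eq_single_of_mem j (mem_range.2 hj) fun j' _ h => by simp [h],
    sum_eq_single_of_mem i (mem_univ _) fun i' _ h => by simp [h]]
  simp

/-- absolute deviation against variance -/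
theorem sy_abs {Z : Type*} [MeasurableSpace Z] {μ : Measure Z} [IsProbabilityMeasure μ]
    {f : Z → ℝ} (hf : Measurable f) {C : ℝ} (hC : ∀ z, |f z| ≤ C) {ε : ℝ} (hε : 0 < ε) (a : ℝ) :
    ∫ z, |f z - a| ∂μ ≤ ε / 4 + (∫ z, (f z - a) ^ 2 ∂μ) / ε := by
  have hb : ∀ z, |f z - a| ≤ C + |a| := fun z => (abs_sub _ _).trans (by linarith [hC z])
  have i1 : Integrable (fun z => |f z - a|) μ :=
    Integrable.of_bound (hf.sub_const a).abs.aestronglyMeasurable (C + |a|)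
      (ae_of_all _ fun z => by rw [Real.norm_eq_abs, abs_abs]; exact hb z)
  have i2 : Integrable (fun z => (f z - a) ^ 2) μ :=
    Integrable.of_bound ((hf.sub_const a).pow_const 2).aestronglyMeasurable ((C + |a|) ^ 2)
      (ae_of_all _ fun z => by
        rw [Real.norm_eq_abs, abs_pow]
        exact pow_le_pow_left₀ (abs_nonneg _) (hb z) 2)
  have h1 : ∫ z, |f z - a| ∂μ ≤ ∫ z, (ε / 4 + (f z - a) ^ 2 / ε) ∂μ := by
    refine integral_mono i1 ((integrable_const _).add (i2.div_const _)) fun z => ?_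
    simp only
    rw [← sq_abs, ← sub_nonneg]
    have : ε / 4 + |f z - a| ^ 2 / ε - |f z - a| = (|f z - a| - ε / 2) ^ 2 / ε := by
      field_simp; ring
    rw [this]; positivity
  rw [integral_add (integrable_const _) (i2.div_const _), integral_const, integral_div] at h1
  simpa using h1

end Gen

section Mod

variable {ι α : Type} [Fintype ι] [DecidableEq ι] [DecidableEq α] {k : ℕ} (top : α) (ℓ : ι → α)
  (e : α → ℝ) (r : ℕ → ι → ℝ)

/-- the field of the level `j` on the top block -/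
noncomputable def syh (j : ℕ) (s : AT ι Empty) : ℝ :=
  ∑ d : blkL ℓ top, s.2 j (.inl (.inr d.1)) * xs s.1 d.1

/-- the mass of the top block -/
noncomputable def syq (s : AT ι Empty) : ℝ := -(1 / 2) * ∑ i ∈ blkL ℓ top, xs s.1 i ^ 2

theorem sy_H (b : ℝ) {y : ℕ → ℝ} (hy : ∀ j, 0 ≤ y j) (s : AT ι Empty) :
    (mkM top ℓ e b y r).H k Empty s = (mkM top ℓ e 0 0 r).H k Empty s + b * syq top ℓ s +
      ∑ j ∈ range k, y j * syh top ℓ j s := by
  have h1 : ∀ j, syh top ℓ j s = ∑ i, if ℓ i = top then s.2 j (.inl (.inr i)) * xs s.1 i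
      else 0 := by
    intro j
    rw [syh, sum_coe_sort (blkL ℓ top) fun i => s.2 j (.inl (.inr i)) * xs s.1 i, blkL,
      sum_filter]
  have h2 : syq top ℓ s = -(1 / 2) * ∑ i, if ℓ i = top then xs s.1 i ^ 2 else 0 := by
    rw [syq, blkL, sum_filter]
  simp only [h1, h2, Mdl.H, fld, Fintype.sum_sum_type, Mdl.w, fx, mkM, Sum.elim_inl, Sum.elim_inr,
    sum_add_distrib, mul_sum]
  have h3 : ∑ i, 1 / 2 * ((if ℓ i = top then -b else -e (ℓ i)) * xs s.1 i ^ 2) =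
      ∑ i, 1 / 2 * ((if ℓ i = top then -0 else -e (ℓ i)) * xs s.1 i ^ 2) +
        ∑ i, b * (-(1 / 2) * if ℓ i = top then xs s.1 i ^ 2 else 0) := by
    rw [← sum_add_distrib]
    refine sum_congr rfl fun i _ => ?_
    split_ifs <;> ring
  have h4 : ∑ j ∈ range k, ∑ i, √(if ℓ i = top then y j ^ 2 else 0) * xs s.1 i *
      s.2 j (.inl (.inr i)) = ∑ j ∈ range k, ∑ i, √(if ℓ i = top then (0 : ℕ → ℝ) j ^ 2 else 0) *
        xs s.1 i * s.2 j (.inl (.inr i)) + ∑ j ∈ range k, ∑ i, y j *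
          if ℓ i = top then s.2 j (.inl (.inr i)) * xs s.1 i else 0 := by
    rw [← sum_add_distrib]
    refine sum_congr rfl fun j _ => ?_
    rw [← sum_add_distrib]
    refine sum_congr rfl fun i _ => ?_
    split_ifs
    · rw [sqrt_sq (hy j)]; simp; ring
    · simp
  rw [h3, h4]
  ring

theorem sy_lin_h (hk : 0 < k) {j : ℕ} (hj : j < k) : (AS k ι Empty).Lin (syh top ℓ j) :=
  Sys.Lin.sum (ds_ok hk) univ fun d _ => by
    simpa only [mul_comm] using (bm_xs d.1).mul_lin hk (lin_coordD (νD := hO ι) (ν := nC ι) hk hj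
      (.inl (.inr d.1) : (ι ⊕ ι) ⊕ Empty))

theorem sy_bm_q : BM fun c : CF ι => ∑ i ∈ blkL ℓ top, xs c i ^ 2 :=
  BM.sum _ fun i _ => (bm_xs i).comp (continuous_pow 2)

theorem sy_lin_q (hk : 0 < k) : (AS k ι Empty).Lin (syq top ℓ) :=
  ((sy_bm_q top ℓ).lin hk).const_mul _

theorem sy_q_le (c : CF ι) : ∑ i ∈ blkL ℓ top, xs c i ^ 2 ≤ Fintype.card ι := by
  rw [← sum_xs_sq c]
  exact sum_le_sum_of_subset_of_nonneg (subset_univ _) fun _ _ _ => sq_nonneg _

theorem sy_dH (b : ℝ) {y : ℕ → ℝ} (hy : ∀ j, 0 ≤ y j) {j : ℕ} (hj : j < k) (d : blkL ℓ top) :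
    DirD j (.inl (.inr d.1)) ((mkM top ℓ e b y r).H k Empty) fun s => y j * xs s.1 d.1 := by
  have hd : ℓ d.1 = top := (mem_filter.1 d.2).2
  refine ((P157.DirD.config fun c => (1 / 2) * ∑ i, (mkM top ℓ e b y r).c i * xs c i ^ 2).add
    (sy_dirD (fx ι Empty) ((mkM top ℓ e b y r).w Empty) hj _)).congr (fun s => rfl) fun s => ?_
  simp [Mdl.w, fx, mkM, hd, sqrt_sq (hy j)]

theorem sy_int_h (hk : 0 < k) (b : ℝ) {y : ℕ → ℝ} (hy : ∀ j, 0 ≤ y j) {j : ℕ} (hj : j < k) :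
    0 ≤ ∫ s, syh top ℓ j s ∂mA k ((mkM top ℓ e b y r).H k Empty) ∧
      ∫ s, syh top ℓ j s ∂mA k ((mkM top ℓ e b y r).H k Empty) ≤ y j * Fintype.card ι := by
  classical
  have hY : (AS k ι Empty).OK := ds_ok hk
  have hH := (mkM top ℓ e b y r).lin (J := Empty) hk
  have := mD_prob hk hH
  set H := (mkM top ℓ e b y r).H k Empty
  have h1 : ∀ d : blkL ℓ top, ∫ s, s.2 j (.inl (.inr d.1)) * xs s.1 d.1 ∂mA k H =
      y j * tl k (hO ι) (nC ι) H j fun c c' => xs c d.1 * xs c' d.1 := by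
    intro d
    rw [mA, ibpD hk hj hH (((bm_xs d.1).ex hk).const_mul hY _) (sy_dH top ℓ e r b hy hj d)
      ((bm_xs d.1).ex hk) (Sys.Ex.const hY 0) (P157.DirD.config fun c => xs c d.1), tl]
    have e1 : ∀ u v : ℝ, u * (y j * v) = y j * (u * v) := fun u v => by ring
    simp only [e1, integral_const_mul, ← mul_sum, integral_zero]
    ring
  have h2 : ∫ s, syh top ℓ j s ∂mA k H =
      ∑ d : blkL ℓ top, y j * tl k (hO ι) (nC ι) H j fun c c' => xs c d.1 * xs c' d.1 := by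
    simp only [syh]
    rw [integral_finsetSum _ fun d _ => integrable_mD hk hH
      (((lin_coordD hk hj _).ex hY).mul hY ((bm_xs d.1).ex hk))]
    exact sum_congr rfl fun d _ => h1 d
  rw [h2]
  refine ⟨sum_nonneg fun d _ => mul_nonneg (hy j) (tl_sq_mem hk hH (bm_xs d.1)).1, ?_⟩
  rw [← mul_sum]
  refine mul_le_mul_of_nonneg_left ((sum_le_sum fun d _ =>
    (tl_sq_mem hk hH (bm_xs d.1)).2).trans ?_) (hy j)
  rw [← integral_finsetSum _ fun d _ => integrable_mD hk hH (((bm_xs d.1).ex hk).sq hY)]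
  refine (integral_mono (g := fun _ => (Fintype.card ι : ℝ)) (integrable_finsetSum _ fun d _ =>
    integrable_mD hk hH (((bm_xs d.1).ex hk).sq hY)) (integrable_const _) fun s => ?_).trans
    (by simp)
  simp only
  rw [sum_coe_sort (blkL ℓ top) fun i => xs s.1 i ^ 2]
  exact sy_q_le top ℓ s.1

theorem sy_int_q (hk : 0 < k) {H : AT ι Empty → ℝ} (hH : (AS k ι Empty).Lin H) :
    -(Fintype.card ι / 2 : ℝ) ≤ ∫ s, syq top ℓ s ∂mA k H ∧ ∫ s, syq top ℓ s ∂mA k H ≤ 0 := by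
  have := mD_prob hk hH
  refine ⟨?_, integral_nonpos fun s => ?_⟩
  · refine le_trans (by simp) (integral_mono (f := fun _ => -(Fintype.card ι / 2 : ℝ))
      (integrable_const _) (integrable_mD hk hH ((sy_lin_q top ℓ hk).ex (ds_ok hk))) fun s => ?_)
    have := sy_q_le top ℓ s.1
    simp only [syq]
    linarith
  · have : 0 ≤ ∑ i ∈ blkL ℓ top, xs s.1 i ^ 2 := sum_nonneg fun _ _ => sq_nonneg _
    simp only [syq, Pi.zero_apply]
    linarith

/-- the analytic consequences of the contact -/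
theorem sy_contact (hk : 0 < k) {η K b : ℝ} {y : ℕ → ℝ} (hK : 2 ≤ K) (hKη : 1 ≤ K * η)
    (hN : 0 < Fintype.card ι) (hB : Box η b y)
    (hm : ∀ b' y', Box η b' y' →
      YM k (mkM top ℓ e b' y' r) - K * Fintype.card ι * pen k η b' y' ≤
        YM k (mkM top ℓ e b y r) - K * Fintype.card ι * pen k η b y) :
    (∀ j < k, (∫ s, syh top ℓ j s ^ 2 ∂mA k ((mkM top ℓ e b y r).H k Empty)) -
      (∫ s, syh top ℓ j s ∂mA k ((mkM top ℓ e b y r).H k Empty)) ^ 2 ≤
        2 * (K * Fintype.card ι) * k) ∧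
    (∫ s, syq top ℓ s ^ 2 ∂mA k ((mkM top ℓ e b y r).H k Empty)) -
      (∫ s, syq top ℓ s ∂mA k ((mkM top ℓ e b y r).H k Empty)) ^ 2 ≤
        2 * (K * Fintype.card ι) * k ∧
    K * pen k η b y ≤ (k * η ^ 2 + 1) / K := by
  have hη : 0 < η := by nlinarith
  have hN' : (0 : ℝ) < Fintype.card ι := by exact_mod_cast hN
  set N : ℝ := (Fintype.card ι : ℝ)
  have hy : ∀ j, 0 ≤ y j := fun j => by linarith [(hB.2 j).1]
  have hH := (mkM top ℓ e b y r).lin (J := Empty) hk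
  have k1 : ∀ j < k, ∫ s, syh top ℓ j s ∂mA k ((mkM top ℓ e b y r).H k Empty) =
      2 * (K * N) * (y j - η) ∧ (∫ s, syh top ℓ j s ^ 2 ∂mA k ((mkM top ℓ e b y r).H k Empty)) -
      (∫ s, syh top ℓ j s ∂mA k ((mkM top ℓ e b y r).H k Empty)) ^ 2 ≤ 2 * (K * N) * k := by
    intro j hj
    obtain ⟨i1, i2⟩ := sy_int_h top ℓ e r hk b hy hj
    refine sy_key hk hH (sy_lin_h top ℓ hk hj) hη (hB.2 j) (fun t ht => ?_) ?_ ?_
    · have hB' : Box η b (Function.update y j (y j + t)) := ⟨hB.1, fun j' => by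
        rcases eq_or_ne j' j with rfl | h
        · simpa using ht
        · simpa [Function.update_of_ne h] using hB.2 j'⟩
      have h1 := hm b _ hB'
      have hy' : ∀ j', 0 ≤ Function.update y j (y j + t) j' := fun j' => by
        linarith [(hB'.2 j').1]
      have h2 : (mkM top ℓ e b (Function.update y j (y j + t)) r).H k Empty =
          fun s => (mkM top ℓ e b y r).H k Empty s + t * syh top ℓ j s := by
        funext s
        rw [sy_H top ℓ e r b hy', sy_H top ℓ e r b hy,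
          ← add_sum_erase _ _ (mem_range.2 hj), ← add_sum_erase _ _ (mem_range.2 hj),
          sum_congr rfl fun j' hj' => by rw [Function.update_of_ne (ne_of_mem_erase hj')]]
        simp only [Function.update_self]
        ring
      have h3 : pen k η b (Function.update y j (y j + t)) =
          pen k η b y + (y j + t - η) ^ 2 - (y j - η) ^ 2 := by
        rw [pen, pen, ← add_sum_erase _ _ (mem_range.2 hj), ← add_sum_erase _ _ (mem_range.2 hj),
          sum_congr rfl fun j' hj' => by rw [Function.update_of_ne (ne_of_mem_erase hj')]]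
        simp only [Function.update_self]
        ring
      rw [YM, YM, h2, h3] at h1
      linarith
    · have : 0 < K * N * η := by positivity
      linarith
    · have h1 : y j * N ≤ 2 * η * N := mul_le_mul_of_nonneg_right (hB.2 j).2 hN'.le
      have : 0 < η * N := by positivity
      nlinarith
  have k2 : ∫ s, syq top ℓ s ∂mA k ((mkM top ℓ e b y r).H k Empty) =
      2 * (K * N) * (b - η) ∧ (∫ s, syq top ℓ s ^ 2 ∂mA k ((mkM top ℓ e b y r).H k Empty)) -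
      (∫ s, syq top ℓ s ∂mA k ((mkM top ℓ e b y r).H k Empty)) ^ 2 ≤ 2 * (K * N) * k := by
    obtain ⟨i1, i2⟩ := sy_int_q top ℓ hk hH
    refine sy_key hk hH (sy_lin_q top ℓ hk) hη hB.1 (fun t ht => ?_) ?_ ?_
    · have h1 := hm (b + t) y ⟨ht, hB.2⟩
      have h2 : (mkM top ℓ e (b + t) y r).H k Empty =
          fun s => (mkM top ℓ e b y r).H k Empty s + t * syq top ℓ s := by
        funext s
        rw [sy_H top ℓ e r (b + t) hy, sy_H top ℓ e r b hy]
        ring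
      have h3 : pen k η (b + t) y = pen k η b y + (b + t - η) ^ 2 - (b - η) ^ 2 := by
        rw [pen, pen]; ring
      rw [YM, YM, h2, h3] at h1
      linarith
    · nlinarith
    · have : 0 < K * N * η := by positivity
      linarith
  refine ⟨fun j hj => (k1 j hj).2, k2.2, ?_⟩
  have hK0 : 0 < K := by linarith
  have p1 : ∀ j ∈ range k, (K * (y j - η)) ^ 2 ≤ η ^ 2 := by
    intro j hj
    obtain ⟨i1, i2⟩ := sy_int_h top ℓ e r hk b hy (mem_range.1 hj)
    rw [(k1 j (mem_range.1 hj)).1] at i1 i2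
    have h1 : y j * N ≤ 2 * η * N := mul_le_mul_of_nonneg_right (hB.2 j).2 hN'.le
    refine sq_le_sq' ?_ ?_
    · by_contra hn
      nlinarith
    · by_contra hn
      nlinarith
  have p2 : (K * (b - η)) ^ 2 ≤ 1 ^ 2 := by
    obtain ⟨i1, i2⟩ := sy_int_q top ℓ hk hH
    rw [k2.1] at i1 i2
    refine sq_le_sq' ?_ ?_
    · by_contra hn
      nlinarith
    · by_contra hn
      nlinarith
  have p3 := sum_le_sum p1
  rw [sum_const, card_range, nsmul_eq_mul] at p3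
  simp only [mul_pow] at p2 p3
  rw [← mul_sum] at p3
  rw [le_div_iff₀ hK0, pen]
  nlinarith

theorem sy_diag (hk : 0 < k) {H : AT ι Empty → ℝ} (hH : (AS k ι Empty).Lin H) {V : ℝ}
    (hB0 : (0 : ℝ) < (blkL ℓ top).card)
    (hV : (∫ s, syq top ℓ s ^ 2 ∂mA k H) - (∫ s, syq top ℓ s ∂mA k H) ^ 2 ≤ V) :
    ∫ s, (ovx (blkL ℓ top) s.1 s.1 - ∫ s, ovx (blkL ℓ top) s.1 s.1 ∂mA k H) ^ 2 ∂mA k H ≤
      4 / ((blkL ℓ top).card : ℝ) ^ 2 * V := by
  have hY : (AS k ι Empty).OK := ds_ok hk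
  have := mD_prob hk hH
  have e1 : ∀ s : AT ι Empty, ovx (blkL ℓ top) s.1 s.1 =
      (-2 / (blkL ℓ top).card) * syq top ℓ s := fun s => by
    simp only [ovx, syq, ← sq]
    field_simp
  have xq := (sy_lin_q top ℓ hk).ex hY
  have e2 : ∀ s : AT ι Empty,
      (ovx (blkL ℓ top) s.1 s.1 - ∫ s, ovx (blkL ℓ top) s.1 s.1 ∂mA k H) ^ 2 =
      (4 / ((blkL ℓ top).card : ℝ) ^ 2) * (syq top ℓ s ^ 2 -
        2 * (∫ s, syq top ℓ s ∂mA k H) * syq top ℓ s + (∫ s, syq top ℓ s ∂mA k H) ^ 2) :=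
    fun s => by
      simp only [e1, integral_const_mul]
      field_simp
      ring
  simp only [e2]
  have i1 : Integrable (fun s => syq top ℓ s ^ 2 - 2 * (∫ s, syq top ℓ s ∂mA k H) * syq top ℓ s)
      (mA k H) := (integrable_mD hk hH (xq.sq hY)).sub ((integrable_mD hk hH xq).const_mul _)
  rw [integral_const_mul, integral_add i1 (integrable_const _),
    integral_sub (integrable_mD hk hH (xq.sq hY)) ((integrable_mD hk hH xq).const_mul _),
    integral_const_mul]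
  simp only [integral_const, probReal_univ, smul_eq_mul, one_mul]
  exact mul_le_mul_of_nonneg_left (by linarith) (by positivity)

end Mod

theorem sy_serr {I D Cf : Type} [Fintype I] [MeasurableSpace D] [MeasurableSpace Cf] {k : ℕ}
    {νD : Measure D} {ν : Measure Cf} [IsProbabilityMeasure νD] [IsProbabilityMeasure ν]
    [Nonempty D] [Nonempty Cf] {H : St I (D × Cf) → ℝ} (hk : 0 < k) (hH : (DS k I νD ν).Lin H)
    {G : D × Cf → D × Cf → ℝ} (hG : BM (Function.uncurry G)) {ε : ℝ} (hε : 0 < ε) :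
    serr k νD ν H G (ovP k νD ν H G) ≤ ε / 2 +
      ((∫ s, (G s.1 s.1 - ∫ s, G s.1 s.1 ∂mD k νD ν H) ^ 2 ∂mD k νD ν H) + (1 / (k : ℝ)) *
        ∑ l ∈ range k, ∫ z, (G z.1.1 z.2.1 - ∫ z, G z.1.1 z.2.1 ∂pD k νD ν H l) ^ 2
          ∂pD k νD ν H l) / ε := by
  obtain ⟨mG, P, hP⟩ := hG
  have hk' : (0 : ℝ) < k := by exact_mod_cast hk
  have := mD_prob hk hH
  have m1 : Measurable fun s : St I (D × Cf) => G s.1 s.1 :=
    mG.comp (measurable_fst.prodMk measurable_fst)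
  have m2 : Measurable fun z : St I (D × Cf) × St I (D × Cf) => G z.1.1 z.2.1 :=
    mG.comp (measurable_fst.fst.prodMk measurable_snd.fst)
  have c1 := sy_abs (μ := mD k νD ν H) m1 (fun s => hP (s.1, s.1)) hε
    (∫ s, G s.1 s.1 ∂mD k νD ν H)
  have c3 : ∀ l ∈ Ioo 0 k, ∫ z, |G z.1.1 z.2.1 - ovP k νD ν H G l| ∂pD k νD ν H l ≤ ε / 4 +
      (∫ z, (G z.1.1 z.2.1 - ∫ z, G z.1.1 z.2.1 ∂pD k νD ν H l) ^ 2 ∂pD k νD ν H l) / ε := by
    intro l hl
    have := pD_prob hk hH l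
    rw [ovP, if_neg (mem_Ioo.1 hl).1.ne', if_pos (mem_Ioo.1 hl).2]
    exact sy_abs m2 (fun z => hP (z.1.1, z.2.1)) hε _
  have c4 := sum_le_sum c3
  rw [sum_add_distrib, sum_const, nsmul_eq_mul, Nat.card_Ioo, ← sum_div] at c4
  have c5 : ∑ l ∈ Ioo 0 k,
      ∫ z, (G z.1.1 z.2.1 - ∫ z, G z.1.1 z.2.1 ∂pD k νD ν H l) ^ 2 ∂pD k νD ν H l ≤
      ∑ l ∈ range k,
      ∫ z, (G z.1.1 z.2.1 - ∫ z, G z.1.1 z.2.1 ∂pD k νD ν H l) ^ 2 ∂pD k νD ν H l :=
    sum_le_sum_of_subset_of_nonneg (fun l hl => mem_range.2 (mem_Ioo.1 hl).2)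
      fun _ _ _ => integral_nonneg fun _ => sq_nonneg _
  have c6 : ((k - 0 - 1 : ℕ) : ℝ) ≤ k := by exact_mod_cast (by omega : k - 0 - 1 ≤ k)
  rw [serr, show ovP k νD ν H G k = ∫ s, G s.1 s.1 ∂mD k νD ν H by
    rw [ovP, if_neg hk.ne', if_neg (lt_irrefl k)], add_div]
  generalize (∑ l ∈ range k,
      ∫ z, (G z.1.1 z.2.1 - ∫ z, G z.1.1 z.2.1 ∂pD k νD ν H l) ^ 2 ∂pD k νD ν H l) = T at *
  have c8 : (1 / (k : ℝ)) *
      ∑ l ∈ Ioo 0 k, ∫ z, |G z.1.1 z.2.1 - ovP k νD ν H G l| ∂pD k νD ν H l ≤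
      ε / 4 + (1 / (k : ℝ) * T) / ε := by
    have h1 : ((k - 0 - 1 : ℕ) : ℝ) * (ε / 4) ≤ k * (ε / 4) := by gcongr
    have h2 := div_le_div_of_nonneg_right c5 hε.le
    calc _ ≤ (1 / (k : ℝ)) * (k * (ε / 4) + T / ε) := by
          refine mul_le_mul_of_nonneg_left ?_ (by positivity)
          linarith
      _ = _ := by field_simp
  linarith

theorem sy_num {P ε k η K δ N B : ℝ} (hP : 0 < P) (hε : 0 < ε) (hk : 0 < k) (hη : 0 < η)
    (hK : 0 < K) (hN : 0 < N) (hB : 0 < B) (hPB : N ≤ P * B)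
    (hδ : δ = ε ^ 2 * η / (320 * k * P ^ 2)) (h1 : 28 * P ^ 2 / ε ^ 2 ≤ k)
    (h2 : 8 * ((8 * K + 5) * k * P ^ 2) / ε ^ 2 ≤ N) :
    ε / 2 + (4 / B ^ 2 * (2 * (K * N) * k) +
      (7 * P ^ 2 / k + 5 * k * (P / B + 2 * (δ * N) * P / (η / 2 * B)))) / ε ≤ ε := by
  have hδ0 : 0 < δ := by rw [hδ]; positivity
  have b2 : (8 * K + 5) * k * P ^ 2 / N ≤ ε ^ 2 / 8 := by
    rw [div_le_iff₀ (by positivity)] at h2
    rw [div_le_iff₀ hN]
    linarith
  have b3 : 7 * P ^ 2 / k ≤ ε ^ 2 / 4 := by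
    rw [div_le_iff₀ (by positivity)] at h1
    rw [div_le_iff₀ hk]
    linarith
  have e3 : 4 / B ^ 2 ≤ 4 * P ^ 2 / N ^ 2 := by
    rw [div_le_div_iff₀ (by positivity) (by positivity)]
    have : N ^ 2 ≤ (P * B) ^ 2 := pow_le_pow_left₀ hN.le hPB 2
    nlinarith
  have c2 : 4 / B ^ 2 * (2 * (K * N) * k) ≤ 8 * K * k * P ^ 2 / N :=
    calc _ ≤ 4 * P ^ 2 / N ^ 2 * (2 * (K * N) * k) := by gcongr
      _ = _ := by field_simp; ring
  have c7 : 5 * k * (P / B + 2 * (δ * N) * P / (η / 2 * B)) ≤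
      5 * k * P ^ 2 / N + ε ^ 2 / 16 := by
    have h1 : P / B ≤ P ^ 2 / N := by
      rw [div_le_div_iff₀ hB hN]
      nlinarith
    have h2 : 2 * (δ * N) * P / (η / 2 * B) ≤ 4 * δ * P ^ 2 / η := by
      rw [div_le_div_iff₀ (by positivity) hη]
      have : 0 ≤ δ * P * η := by positivity
      nlinarith
    have h3 : 5 * k * (4 * δ * P ^ 2 / η) = ε ^ 2 / 16 := by
      rw [hδ]; field_simp; ring
    calc _ ≤ 5 * k * (P ^ 2 / N + 4 * δ * P ^ 2 / η) := by gcongr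
      _ = _ := by rw [mul_add, h3]; ring
  have c9 : (4 / B ^ 2 * (2 * (K * N) * k) +
      (7 * P ^ 2 / k + 5 * k * (P / B + 2 * (δ * N) * P / (η / 2 * B)))) / ε ≤ ε / 2 := by
    rw [div_le_iff₀ hε]
    have : (8 * K + 5) * k * P ^ 2 / N = 8 * K * k * P ^ 2 / N + 5 * k * P ^ 2 / N := by ring
    nlinarith [sq_nonneg ε]
  linarith

theorem sync (P ε : ℝ) (hP : 0 < P) (hε : 0 < ε) : ∃ k0 : ℕ, ∀ k ≥ k0, 0 < k → ∀ η K : ℝ, 2 ≤ K →
    1 ≤ K * η → ∃ N0 : ℕ, ∀ {ι α : Type} [Fintype ι] [DecidableEq ι] [DecidableEq α] (top : α)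
    (ℓ : ι → α) (e : α → ℝ) (r : ℕ → ι → ℝ) (b : ℝ) (y : ℕ → ℝ), N0 ≤ Fintype.card ι →
    (Fintype.card ι : ℝ) ≤ P * (blkL ℓ top).card → Box η b y →
    (∀ b' y', Box η b' y' →
      YM k (mkM top ℓ e b' y' r) - K * Fintype.card ι * pen k η b' y' ≤
        YM k (mkM top ℓ e b y r) - K * Fintype.card ι * pen k η b y) →
    (mkM top ℓ e b y r).serr k (ovx (blkL ℓ top))
      ((mkM top ℓ e b y r).ovP k (ovx (blkL ℓ top))) ≤ ε ∧
    K * pen k η b y ≤ (k * η ^ 2 + 1) / K := by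
  classical
  refine ⟨⌈28 * P ^ 2 / ε ^ 2⌉₊, fun k hk0 hk η K hK hKη => ?_⟩
  have hη : 0 < η := by nlinarith
  have hk' : (0 : ℝ) < k := by exact_mod_cast hk
  have hK0 : 0 < K := by linarith
  obtain ⟨δ, hδ⟩ : ∃ δ : ℝ, δ = ε ^ 2 * η / (320 * k * P ^ 2) := ⟨_, rfl⟩
  have hδ0 : 0 < δ := by rw [hδ]; positivity
  refine ⟨⌈2 * K * k / δ ^ 2 + 8 * ((8 * K + 5) * k * P ^ 2) / ε ^ 2⌉₊,
    fun {ι α} _ _ _ top ℓ e r b y hN0 hPB hB hm => ?_⟩
  have hN1 := (Nat.ceil_le.1 hN0)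
  have a1 : 0 < 2 * K * k / δ ^ 2 := by positivity
  have a2 : 0 < 8 * ((8 * K + 5) * k * P ^ 2) / ε ^ 2 := by positivity
  have hN' : (0 : ℝ) < Fintype.card ι := by linarith
  obtain ⟨v1, v2, v3⟩ := sy_contact top ℓ e r hk hK hKη (by exact_mod_cast hN') hB hm
  refine ⟨?_, v3⟩
  have hB0 : (0 : ℝ) < (blkL ℓ top).card :=
    (mul_pos_iff_of_pos_left hP).1 (hN'.trans_le hPB)
  have hy : ∀ j, 0 ≤ y j := fun j => by linarith [(hB.2 j).1]
  have hH := (mkM top ℓ e b y r).lin (J := Empty) hk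
  have b1 : 2 * (K * Fintype.card ι) * k ≤ (δ * Fintype.card ι) ^ 2 := by
    have : 2 * K * k / δ ^ 2 ≤ Fintype.card ι := by linarith
    rw [div_le_iff₀ (by positivity)] at this
    nlinarith
  have hs := syncD (νD := hO ι) (ν := nC ι) (X := blkL ℓ top) hk hH (fun d => .inl (.inr d.1))
    (fun d c => xs c d.1) y (N := (blkL ℓ top).card) (K := P) (ε := η / 2)
    (β := δ * Fintype.card ι) hB0 hP.le
    (half_pos hη) (by positivity) (fun j _ => (hB.2 j).1) (fun d => (bm_xs d.1).1)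
    (fun j hj d => sy_dH top ℓ e r b hy hj d)
    (fun c => by
      rw [sum_coe_sort (blkL ℓ top) fun i => xs c i ^ 2]
      exact (sy_q_le top ℓ c).trans hPB)
    (fun j hj => (v1 j hj).trans b1)
  have eK : ∀ p : AT ι Empty × AT ι Empty, P157.Kr ((blkL ℓ top).card : ℝ)
      (fun (d : blkL ℓ top) (s : AT ι Empty) => xs s.1 d.1) p = ovx (blkL ℓ top) p.1.1 p.2.1 :=
    fun p => by rw [P157.Kr, ovx, sum_coe_sort (blkL ℓ top) fun i => xs p.1.1 i * xs p.2.1 i]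
  simp only [eK] at hs
  refine (sy_serr hk hH (bm_ovx _) hε).trans (le_trans ?_
    (sy_num hP hε hk' hη hK0 hN' hB0 hPB hδ (Nat.ceil_le.1 hk0) (by linarith)))
  exact add_le_add le_rfl (div_le_div_of_nonneg_right
    (add_le_add (sy_diag top ℓ hk hH hB0 v2) hs) hε.le)

theorem Box.small {k : ℕ} {η b δ : ℝ} {y : ℕ → ℝ} (h : Box η b y) (h1 : 2 * η ≤ δ)
    (h2 : 4 * k * η ^ 2 ≤ δ) : Small k δ b y := by
  have hη : 0 ≤ η := by linarith [h.1.1, h.1.2]
  refine ⟨by linarith [h.1.1], h.1.2.trans h1, le_trans ?_ h2⟩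
  have : ∀ j ∈ range k, y j ^ 2 ≤ (2 * η) ^ 2 := fun j _ =>
    pow_le_pow_left₀ (by linarith [(h.2 j).1]) (h.2 j).2 2
  have h3 := sum_le_sum this
  rw [sum_const, card_range, nsmul_eq_mul] at h3
  linarith

end Vale.Agent.P166
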