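import Vale.Agent.P166.One
import Vale.Agent.P166.Sync
import Vale.Agent.P166.TR
import Vale.Agent.P166.SC
import Vale.Agent.P166.CalcB

/-! The lower bound. -/

namespace Vale.Agent.P166

open MeasureTheory ProbabilityTheory Real Finset Matrix Filter Topology
open Vale.Agent.P157 (Sys St γ GS s0 YY mm pp sh DirD pull mrg Rg Sp νB xB)
open scoped ENNReal

/-- squared deviation of the counts -/
noncomputable def lwD {α : Type} [Fintype α] [DecidableEq α] (p : α → ℝ) (N : ℕ)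
    (ℓ : Fin N → α) : ℝ := ∑ a, (((blkL ℓ a).card : ℝ) - N * p a) ^ 2

lemma lw_card {α : Type} [DecidableEq α] {N : ℕ} (ℓ : Fin N → α) (a a' : α) :
    ((blkL (Fin.cons a ℓ : Fin (N + 1) → α) a').card : ℝ) =
      (blkL ℓ a').card + if a = a' then 1 else 0 := by
  simp only [blkL, card_filter, Fin.sum_univ_succ, Fin.cons_zero, Fin.cons_succ]
  push_cast
  ring

lemma lwD_nonneg {α : Type} [Fintype α] [DecidableEq α] (p : α → ℝ) (N : ℕ) (ℓ : Fin N → α) :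
    0 ≤ lwD p N ℓ := sum_nonneg fun _ _ => sq_nonneg _

lemma lwD_step {α : Type} [Fintype α] [DecidableEq α] {p : α → ℝ} (h1 : ∑ a, p a = 1) (N : ℕ)
    (ℓ : Fin N → α) : ∑ a, p a * lwD p (N + 1) (Fin.cons a ℓ) ≤ lwD p N ℓ + 1 := by
  have e : ∀ a', ∑ a, p a * (((blkL (Fin.cons a ℓ : Fin (N + 1) → α) a').card : ℝ) -
      (N + 1 : ℕ) * p a') ^ 2 ≤ (((blkL ℓ a').card : ℝ) - N * p a') ^ 2 + p a' := fun a' => by
    set d := ((blkL ℓ a').card : ℝ) - N * p a' with hd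
    have k : ∀ a, p a * (((blkL (Fin.cons a ℓ : Fin (N + 1) → α) a').card : ℝ) -
        (N + 1 : ℕ) * p a') ^ 2 = p a * (d - p a') ^ 2 +
          if a = a' then p a' * (2 * (d - p a') + 1) else 0 := fun a => by
      rw [lw_card, hd]
      push_cast
      split_ifs with h
      · subst h
        ring
      · ring
    simp only [k, sum_add_distrib, ← sum_mul, h1, sum_ite_eq', mem_univ, if_true]
    nlinarith [sq_nonneg (p a')]
  simp only [lwD, mul_sum]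
  rw [sum_comm, ← h1, ← sum_add_distrib]
  exact sum_le_sum fun a' _ => e a'

lemma lw_near {α : Type} [Fintype α] [DecidableEq α] {p : α → ℝ} {N : ℕ} {ℓ : Fin N → α}
    {L δ : ℝ} (hN : 0 < N) (hδ : 0 ≤ δ) (h : lwD p N ℓ ≤ L * N) (hL : L ≤ δ ^ 2 * N) :
    Near p δ ℓ := fun a => by
  have hN' : (0 : ℝ) < N := Nat.cast_pos.2 hN
  have k : (((blkL ℓ a).card : ℝ) - N * p a) ^ 2 ≤ lwD p N ℓ :=
    single_le_sum (f := fun a => (((blkL ℓ a).card : ℝ) - N * p a) ^ 2)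
      (fun _ _ => sq_nonneg _) (mem_univ a)
  have e : ((blkL ℓ a).card : ℝ) / N - p a = (((blkL ℓ a).card : ℝ) - N * p a) / N := by
    field_simp
  rw [Fintype.card_fin, e, abs_div, abs_of_pos hN', div_le_iff₀ hN']
  refine abs_le_of_sq_le_sq' ?_ (by positivity) |> abs_le.2
  nlinarith [mul_le_mul_of_nonneg_right hL hN'.le]

lemma lw_max {α : Type} [Fintype α] {p : α → ℝ} (hp : ∀ a, 0 ≤ p a) (h1 : ∑ a, p a = 1)
    (f : α → ℝ) : ∃ a0, ∑ a, p a * f a ≤ f a0 := by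
  have : Nonempty α := by
    by_contra h
    rw [not_nonempty_iff] at h
    simp at h1
  obtain ⟨a0, h0⟩ := Finite.exists_max f
  refine ⟨a0, (sum_le_sum fun a _ => mul_le_mul_of_nonneg_left (h0 a) (hp a)).trans ?_⟩
  rw [← sum_mul, h1, one_mul]

/-- a greedy walk on labellings keeps the frequencies -/
theorem walk {α : Type} [Fintype α] [DecidableEq α] {p : α → ℝ} (hp : ∀ a, 0 ≤ p a)
    (h1 : ∑ a, p a = 1) (B : (N : ℕ) → (Fin N → α) → ℝ) {C c δ : ℝ} (hδ : 0 < δ) (N0 : ℕ)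
    (hB : ∀ N ℓ, |B N ℓ| ≤ C * N)
    (h : ∀ N ≥ N0, ∀ ℓ : Fin N → α, Near p δ ℓ →
      B N ℓ + c ≤ ∑ a, p a * B (N + 1) (Fin.cons a ℓ)) {η : ℝ} (hη : 0 < η) :
    ∃ ℓ : (N : ℕ) → Fin N → α,
      (∀ a, Tendsto (fun N : ℕ => ((univ.filter fun i => ℓ N i = a).card : ℝ) / N) atTop
        (𝓝 (p a))) ∧ ∀ᶠ N : ℕ in atTop, N * (c - η) ≤ B N (ℓ N) := by
  obtain ⟨θ, hθ, rfl⟩ : ∃ θ > (0 : ℝ), η = 2 * θ := ⟨η / 2, by positivity, by ring⟩
  set L := (2 * |C| + |c| + 2 * θ) / θ with hL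
  obtain ⟨N1, hN1, hN2, hN3⟩ : ∃ N1 : ℕ, N0 ≤ N1 ∧ 0 < N1 ∧ L ≤ δ ^ 2 * N1 := by
    obtain ⟨n, hn⟩ := exists_nat_ge (L / δ ^ 2)
    refine ⟨N0 + n + 1, by omega, by omega, ?_⟩
    rw [div_le_iff₀ (by positivity)] at hn
    push_cast
    nlinarith [sq_nonneg δ, (Nat.cast_nonneg N0 : (0 : ℝ) ≤ N0)]
  let Ψ : (N : ℕ) → (Fin N → α) → ℝ := fun N ℓ => B N ℓ - θ * lwD p N ℓ
  choose g hg using fun N (ℓ : Fin N → α) => lw_max hp h1 fun a =>
    if N < N1 then -lwD p (N + 1) (Fin.cons a ℓ) else Ψ (N + 1) (Fin.cons a ℓ)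
  let ℓ : (N : ℕ) → Fin N → α := fun N =>
    Nat.rec (motive := fun N => Fin N → α) Fin.elim0 (fun N ℓ => Fin.cons (g N ℓ) ℓ) N
  have hℓ : ∀ N, ℓ (N + 1) = Fin.cons (g N (ℓ N)) (ℓ N) := fun _ => rfl
  have a1 : ∀ N ≤ N1, lwD p N (ℓ N) ≤ N := fun N => by
    induction N with
    | zero => simp [lwD, blkL]
    | succ N ih =>
      intro hN
      have k := hg N (ℓ N)
      simp only [if_pos (show N < N1 by omega), mul_neg, sum_neg_distrib] at k
      rw [hℓ]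
      push_cast
      linarith [lwD_step h1 N (ℓ N), ih (by omega)]
  have hC : ∀ N ℓ, |B N ℓ| ≤ |C| * N := fun N ℓ =>
    (hB N ℓ).trans (mul_le_mul_of_nonneg_right (le_abs_self _) (Nat.cast_nonneg _))
  have a0 : -(|C| + θ) * N1 ≤ Ψ N1 (ℓ N1) := by
    have := mul_le_mul_of_nonneg_left (a1 N1 le_rfl) hθ.le
    simp only [Ψ]
    linarith [(abs_le.1 (hC N1 (ℓ N1))).1]
  have a2 : ∀ N ≥ N1, Ψ N1 (ℓ N1) + ((N : ℝ) - N1) * (c - θ) ≤ Ψ N (ℓ N) →
      lwD p N (ℓ N) ≤ L * N := fun N hN hΨ => by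
    have hN' : (N1 : ℝ) ≤ N := Nat.cast_le.2 hN
    have h0 : (0 : ℝ) ≤ N1 := Nat.cast_nonneg _
    rw [hL, div_mul_eq_mul_div, le_div_iff₀ hθ]
    have k1 := (abs_le.1 (hC N (ℓ N))).2
    have k2 : ((N : ℝ) - N1) * (-|c| - θ) ≤ ((N : ℝ) - N1) * (c - θ) :=
      mul_le_mul_of_nonneg_left (by linarith [neg_abs_le c]) (by linarith)
    have k3 : Ψ N (ℓ N) = B N (ℓ N) - θ * lwD p N (ℓ N) := rfl
    nlinarith [mul_le_mul_of_nonneg_left hN' (abs_nonneg C), mul_nonneg h0 (abs_nonneg c),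
      mul_nonneg h0 hθ.le, mul_nonneg (h0.trans hN') hθ.le]
  have a3 : ∀ N ≥ N1, Ψ N1 (ℓ N1) + ((N : ℝ) - N1) * (c - θ) ≤ Ψ N (ℓ N) := fun N hN => by
    induction N, hN using Nat.le_induction with
    | base => simp
    | succ N hN ih =>
      have hn : Near p δ (ℓ N) := lw_near (by omega) hδ.le (a2 N hN ih)
        (hN3.trans (mul_le_mul_of_nonneg_left (Nat.cast_le.2 hN) (sq_nonneg _)))
      have k := hg N (ℓ N)
      simp only [if_neg (show ¬N < N1 by omega)] at k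
      have k3 : Ψ N (ℓ N) = B N (ℓ N) - θ * lwD p N (ℓ N) := rfl
      have k4 : ∑ a, p a * Ψ (N + 1) (Fin.cons a (ℓ N)) = ∑ a, p a * B (N + 1) (Fin.cons a (ℓ N)) -
          θ * ∑ a, p a * lwD p (N + 1) (Fin.cons a (ℓ N)) := by
        rw [mul_sum, ← sum_sub_distrib]
        exact sum_congr rfl fun a _ => by simp only [Ψ]; ring
      have k5 := mul_le_mul_of_nonneg_left (lwD_step h1 N (ℓ N)) hθ.le
      rw [hℓ]
      push_cast
      linarith [h N (hN1.trans hN) _ hn]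
  refine ⟨ℓ, fun a => Metric.tendsto_nhds.2 fun ε hε => ?_, ?_⟩
  · filter_upwards [eventually_ge_atTop N1, tendsto_natCast_atTop_atTop.eventually_ge_atTop
      (L / (ε / 2) ^ 2)] with N hN hN'
    rw [div_le_iff₀' (by positivity)] at hN'
    have := lw_near (by omega) (by positivity) (a2 N hN (a3 N hN)) hN' a
    rw [Fintype.card_fin] at this
    exact this.trans_lt (by linarith)
  · filter_upwards [eventually_ge_atTop N1, tendsto_natCast_atTop_atTop.eventually_ge_atTop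
      (((|C| + θ) * N1 + N1 * (c - θ)) / θ)] with N hN hN'
    rw [div_le_iff₀ hθ] at hN'
    have k3 : Ψ N (ℓ N) = B N (ℓ N) - θ * lwD p N (ℓ N) := rfl
    nlinarith [a3 N hN, mul_nonneg hθ.le (lwD_nonneg p N (ℓ N))]

lemma lw_cons {α : Type} [DecidableEq α] {k N : ℕ} (hk : 0 < k) (top : α) (ℓ : Fin N → α)
    (e : α → ℝ) (b : ℝ) (y : ℕ → ℝ) (a : α) :
    YM k (mkM top (Fin.cons a ℓ : Fin (N + 1) → α) e b y 0) = YM k (newM top ℓ e b y 0 a 0) := by
  rw [← YM_reindex hk (finSuccEquiv N)]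
  have h : ∀ i, (finSuccEquiv N i).elim a ℓ = (Fin.cons a ℓ : Fin (N + 1) → α) i := fun i => by
    refine Fin.cases ?_ (fun i => ?_) i <;> simp
  refine YM_congr ?_ (fun j _ => ?_) fun j _ => ?_
  · funext i
    simp only [newM, mkM, h]
  · funext i
    simp only [newM, mkM]
    cases finSuccEquiv N i <;> rfl
  · funext i
    simp only [newM, mkM, h]

lemma lw_zero {ι : Type} [Fintype ι] [DecidableEq ι] {k : ℕ} (hk : 0 < k) :
    YM k (⟨0, 0, 0⟩ : Mdl ι) = 0 := by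
  have := YM_field (ι := ι) hk 0
  rwa [YI_zero hk, mul_zero] at this

lemma lw_up {ι α : Type} [Fintype ι] [DecidableEq ι] [Fintype α] [DecidableEq α] (Λ : Atoms α)
    {k : ℕ} (hk : 0 < k) (ℓ : ι → α) {τ b : ℝ} {y : ℕ → ℝ} (hs : Small k τ b y) :
    YM k (mkM Λ.top ℓ (Λ.e 1) b y 0) ≤ Yk k (fun i => Λ.c (ℓ i)) + τ * Fintype.card ι / 2 ∧
      Yk k (fun i => Λ.c (ℓ i)) ≤ 0 := by
  have hc : ∀ a, Λ.c a ≤ 0 := fun a => by
    by_cases h : a = Λ.top
    · rw [h, Λ.c_top]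
    · exact (Λ.c_neg a h).le
  constructor
  · refine (YM_u hk (τ := τ) (fun j _ i => ?_) fun i => ?_).2.trans ?_
    · split_ifs <;> positivity
    · refine le_trans (sum_le_sum fun j _ => ?_) hs.2.2
      split_ifs
      exacts [le_rfl, sq_nonneg _]
    · rw [← YM_zero hk]
      have := YM_mono_c (δ := 0) (r := 0) (u := 0) (c' := fun i => Λ.c (ℓ i))
        (c := fun i => if ℓ i = Λ.top then -b else -Λ.e 1 (ℓ i)) hk fun i => by
          split_ifs with h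
          · rw [h, Λ.c_top]
            linarith [hs.1]
          · simp [Atoms.e]
      linarith
  · rw [← YM_zero hk]
    have := YM_mono_c (δ := 0) (r := 0) (u := 0) (c := fun i => Λ.c (ℓ i)) (c' := 0) hk
      fun i => by simpa using hc _
    rw [lw_zero hk] at this
    linarith

lemma lw_lo {ι α : Type} [Fintype ι] [DecidableEq ι] [Fintype α] [DecidableEq α] (top : α)
    (e : α → ℝ) {k : ℕ} (hk : 0 < k) (ℓ : ι → α) (b : ℝ) (y : ℕ → ℝ) :
    -((|b| + ∑ a, |e a|) * Fintype.card ι / 2) ≤ YM k (mkM top ℓ e b y 0) := by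
  refine le_trans ?_ (YM_u hk (τ := ∑ j ∈ range k, y j ^ 2) (fun j _ i => ?_) fun i => ?_).1
  · have := YM_mono_c (δ := |b| + ∑ a, |e a|) (r := 0) (u := 0) (c := 0)
      (c' := fun i => if ℓ i = top then -b else -e (ℓ i)) hk fun i => by
        have k1 : |e (ℓ i)| ≤ ∑ a, |e a| :=
          single_le_sum (f := fun a => |e a|) (fun _ _ => abs_nonneg _) (mem_univ _)
        have := le_abs_self b
        have := le_abs_self (e (ℓ i))
        have := abs_nonneg b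
        have := abs_nonneg (e (ℓ i))
        rw [Pi.zero_apply]
        split_ifs <;> linarith
    rw [lw_zero hk] at this
    linarith
  · split_ifs <;> positivity
  · refine sum_le_sum fun j _ => ?_
    split_ifs
    exacts [le_rfl, sq_nonneg _]

theorem coreLower : CoreLower := by
  intro α _ _ Λ ε hε
  obtain ⟨P, hP, δ0, hδ0, hblk⟩ := near_blk Λ.p_pos
  obtain ⟨δ, hδ, N0, hone⟩ := onestep Λ P (ε / 4) (by positivity)
  obtain ⟨k0, hsync⟩ := sync P δ hP hδ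
  filter_upwards [eventually_ge_atTop k0, eventually_gt_atTop 0] with k hk0 hk v hv
  have hk' : (0 : ℝ) < k := Nat.cast_pos.2 hk
  have hk1 : (1 : ℝ) ≤ k := Nat.one_le_cast.2 hk
  obtain ⟨τ, hτ, hτ1, hτ2, hτ3⟩ : ∃ τ > (0 : ℝ), τ ≤ δ ∧ τ ≤ ε / 4 ∧ τ ≤ 1 :=
    ⟨min δ (min (ε / 4) 1), by positivity, min_le_left _ _,
      (min_le_right _ _).trans (min_le_left _ _), (min_le_right _ _).trans (min_le_right _ _)⟩
  obtain ⟨η, hη, hη1, hη2⟩ : ∃ η > (0 : ℝ), 2 * η ≤ τ ∧ 4 * k * η ^ 2 ≤ τ := by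
    refine ⟨τ / (4 * k), by positivity, ?_, ?_⟩
    · rw [mul_div_assoc', div_le_iff₀ (by positivity)]
      nlinarith
    · rw [show 4 * k * (τ / (4 * k)) ^ 2 = τ * τ / (4 * k) by field_simp,
        div_le_iff₀ (by positivity)]
      nlinarith
  obtain ⟨K, hK, hK1, hK2⟩ : ∃ K : ℝ, 2 ≤ K ∧ 1 ≤ K * η ∧ (k * η ^ 2 + 1) / K ≤ ε / 4 := by
    have h1 : 0 < 1 / η := by positivity
    have h2 : 0 < (k * η ^ 2 + 1) / (ε / 4) := by positivity
    refine ⟨2 + 1 / η + (k * η ^ 2 + 1) / (ε / 4), by linarith, ?_, ?_⟩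
    · rw [← div_le_iff₀ hη]
      linarith
    · rw [div_le_comm₀ (by positivity) (by positivity)]
      linarith
  obtain ⟨N1, hs⟩ := hsync k hk0 hk η K hK hK1
  choose b y hbox hmax using fun N (ℓ : Fin N → α) =>
    exists_contact hk Λ.top ℓ (Λ.e 1) 0 hη (K * Fintype.card (Fin N))
  have hpen : ∀ b y, 0 ≤ pen k η b y := fun b y =>
    add_nonneg (sq_nonneg _) (sum_nonneg fun _ _ => sq_nonneg _)
  let B : (N : ℕ) → (Fin N → α) → ℝ := fun N ℓ =>
    YM k (mkM Λ.top ℓ (Λ.e 1) (b N ℓ) (y N ℓ) 0) - K * Fintype.card (Fin N) * pen k η (b N ℓ) (y N ℓ)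
  have hup : ∀ N ℓ, B N ℓ ≤ Yk k (fun i => Λ.c (ℓ i)) + τ * N / 2 := fun N ℓ => by
    have k1 := (lw_up Λ hk ℓ ((hbox N ℓ).small hη1 hη2)).1
    have k2 : 0 ≤ K * Fintype.card (Fin N) * pen k η (b N ℓ) (y N ℓ) :=
      mul_nonneg (by positivity) (hpen _ _)
    simp only [B]
    rw [Fintype.card_fin] at k1
    linarith
  obtain ⟨ℓ, h1, h2⟩ := walk (fun a => (Λ.p_pos a).le) Λ.p_sum B
    (C := τ / 2 + (|η| + ∑ a, |Λ.e 1 a|) / 2) (c := v - ε / 2) (lt_min hδ0 hδ) (max N0 N1)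
    (fun N ℓ => by
      have k1 := hup N ℓ
      have k2 := (lw_up Λ hk ℓ ((hbox N ℓ).small hη1 hη2)).2
      have k3 := hmax N ℓ η (fun _ => η) ⟨⟨by linarith, by linarith⟩,
        fun _ => ⟨by linarith, by linarith⟩⟩
      have k4 := lw_lo Λ.top (Λ.e 1) hk ℓ η fun _ => η
      have k5 : pen k η η (fun _ => η) = 0 := by simp [pen]
      have k6 : 0 ≤ τ * N := by positivity
      have k7 : 0 ≤ (|η| + ∑ a, |Λ.e 1 a|) * N := by positivity
      rw [k5, mul_zero, sub_zero] at k3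
      rw [Fintype.card_fin] at k4
      refine abs_le.2 ⟨le_trans (by linarith) (k4.trans k3), by linarith⟩)
    (fun N hN ℓ hn => by
      have hb := hblk ℓ (hn.mono (min_le_left _ _)) Λ.top
      obtain ⟨s1, s2⟩ := hs Λ.top ℓ (Λ.e 1) 0 (b N ℓ) (y N ℓ)
        (by rw [Fintype.card_fin]; omega) hb (hbox N ℓ) (hmax N ℓ)
      have k1 := hone ℓ (b N ℓ) (y N ℓ) _ v hk (by rw [Fintype.card_fin]; omega)
        (hn.mono (min_le_right _ _)) (((hbox N ℓ).small hη1 hη2).mono hτ1)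
        (Mdl.isPath _ hk hb hP.le) s1 hv
      have k2 : ∑ a, Λ.p a * (YM k (newM Λ.top ℓ (Λ.e 1) (b N ℓ) (y N ℓ) 0 a 0) -
          K * (N + 1) * pen k η (b N ℓ) (y N ℓ)) ≤ ∑ a, Λ.p a * B (N + 1) (Fin.cons a ℓ) :=
        sum_le_sum fun a _ => mul_le_mul_of_nonneg_left (by
          have := hmax (N + 1) (Fin.cons a ℓ) _ _ (hbox N ℓ)
          rw [lw_cons hk] at this
          simpa [B] using this) (Λ.p_pos a).le
      simp only [mul_sub, sum_sub_distrib, ← sum_mul, Λ.p_sum] at k2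
      simp only [B, Fintype.card_fin] at k2 ⊢
      linarith) (η := ε / 4) (by positivity)
  refine ⟨ℓ, h1, ?_⟩
  filter_upwards [h2, eventually_gt_atTop 0] with N hN hN0
  have hN' : (0 : ℝ) < N := Nat.cast_pos.2 hN0
  rw [le_div_iff₀ hN']
  nlinarith [hup N (ℓ N), mul_le_mul_of_nonneg_right hτ2 hN'.le, mul_pos hε hN']

end Vale.Agent.P166
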