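import Vale.Agent.P166.RedD

/-! Reduction of the main theorem to the two bounds for atomic spectra. -/

namespace Vale.Agent.P166

open MeasureTheory ProbabilityTheory Real Filter Topology Set

noncomputable section

lemma conv_of_bounds {y : ℕ → ℝ} {P : ℕ → EReal} {C : ℝ} (hy : ∀ᶠ N in atTop, |y N| ≤ C)
    (hU : ∀ ε : ℝ, 0 < ε → ∀ᶠ k in atTop, ∀ w : ℝ, P k < w → ∀ᶠ N in atTop, y N ≤ w + ε)
    (hL : ∀ ε : ℝ, 0 < ε → ∀ᶠ k in atTop, ∀ v : ℝ, v ≤ P k → ∀ᶠ N in atTop, v - ε ≤ y N) :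
    ∃ p : ℝ, Tendsto P atTop (𝓝 (p : EReal)) ∧ Tendsto y atTop (𝓝 p) := by
  have key : ∀ ε : ℝ, 0 < ε → ∀ᶠ k in atTop, ∃ x : ℝ, P k = x ∧ ∀ᶠ N in atTop, |y N - x| ≤ ε := by
    intro ε hε
    filter_upwards [hU (ε / 2) (by positivity), hL (ε / 2) (by positivity)] with k h1 h2
    have ht : P k ≠ ⊤ := by
      intro h
      obtain ⟨N, hN1, hN2⟩ := ((h2 (C + ε) (h ▸ le_top)).and hy).exists
      linarith [le_abs_self (y N)]
    have hb : P k ≠ ⊥ := by
      intro h
      obtain ⟨N, hN1, hN2⟩ := ((h1 (-C - ε) (h ▸ EReal.bot_lt_coe _)).and hy).exists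
      linarith [neg_abs_le (y N)]
    refine ⟨(P k).toReal, (EReal.coe_toReal ht hb).symm, ?_⟩
    have e := EReal.coe_toReal ht hb
    filter_upwards [h1 ((P k).toReal + ε / 2) (by
      conv_lhs => rw [← e]
      exact_mod_cast (by linarith : (P k).toReal < (P k).toReal + ε / 2)),
      h2 (P k).toReal e.le] with N h3 h4
    rw [abs_le]
    constructor <;> linarith
  have hc : CauchySeq y := by
    rw [Metric.cauchySeq_iff]
    intro ε hε
    obtain ⟨k, x, -, hx⟩ := (key (ε / 3) (by positivity)).exists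
    obtain ⟨N, hN⟩ := eventually_atTop.1 hx
    refine ⟨N, fun a ha b hb => ?_⟩
    have h1 := abs_le.1 (hN a ha)
    have h2 := abs_le.1 (hN b hb)
    rw [Real.dist_eq, abs_lt]
    constructor <;> linarith [h1.1, h1.2, h2.1, h2.2]
  obtain ⟨p, hp⟩ := cauchySeq_tendsto_of_complete hc
  have key2 : ∀ ε : ℝ, 0 < ε → ∀ᶠ k in atTop, ∃ x : ℝ, P k = x ∧ |p - x| ≤ ε := by
    intro ε hε
    filter_upwards [key ε hε] with k ⟨x, h1, h2⟩
    exact ⟨x, h1, le_of_tendsto (hp.sub_const x).abs h2⟩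
  refine ⟨p, tendsto_order.2 ⟨fun a ha => ?_, fun a ha => ?_⟩, hp⟩
  · obtain ⟨z, h1, h2⟩ := EReal.lt_iff_exists_real_btwn.1 ha
    have h3 : z < p := by exact_mod_cast h2
    filter_upwards [key2 (p - z) (by linarith)] with k ⟨x, h4, h5⟩
    rw [h4]
    exact h1.trans_le (by exact_mod_cast (by linarith [(abs_le.1 h5).2] : z ≤ x))
  · obtain ⟨z, h1, h2⟩ := EReal.lt_iff_exists_real_btwn.1 ha
    have h3 : p < z := by exact_mod_cast h1
    filter_upwards [key2 (z - p) (by linarith)] with k ⟨x, h4, h5⟩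
    rw [h4]
    exact lt_of_le_of_lt (by exact_mod_cast (by linarith [(abs_le.1 h5).1] : x ≤ z)) h2

/-- the eigenvalues do not leave the support asymptotically -/
def Rng (A B : ℝ) (c : (N : ℕ) → Fin N → ℝ) : Prop :=
  ∀ η, 0 < η → ∀ᶠ N in atTop, ∀ i, A - η ≤ c N i ∧ c N i ≤ B + η

lemma Yk_close {α : Type} [Fintype α] [DecidableEq α] (Λ : Atoms α) {ε : ℝ} (hε : 0 < ε) :
    ∀ᶠ k : ℕ in atTop, ∀ ℓ, Λ.Freq ℓ → ∀ᶠ N : ℕ in atTop,
      eL (fun i => Λ.c (ℓ N i)) / N ≤ Yk k (fun i => Λ.c (ℓ N i)) / N ∧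
        Yk k (fun i => Λ.c (ℓ N i)) / N ≤ eL (fun i => Λ.c (ℓ N i)) / N + ε := by
  obtain ⟨M, hM0, hM⟩ := exists_abs_le Λ.c
  have hp := Λ.p_pos Λ.top
  set s := Λ.p Λ.top / (16 * (M + 1)) with hs
  have hs0 : 0 < s := by positivity
  have h1 : ∀ᶠ k : ℕ in atTop, 1 / (k : ℝ) < s / 4 :=
    (tendsto_const_div_atTop_nhds_zero_nat 1).eventually (gt_mem_nhds (by positivity))
  have h2 : ∀ᶠ k : ℕ in atTop, cC s 4 / (k : ℝ) < ε :=
    (tendsto_const_div_atTop_nhds_zero_nat _).eventually (gt_mem_nhds hε)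
  filter_upwards [h1, h2, eventually_gt_atTop 0] with k hk1 hk2 hk ℓ hℓ
  filter_upwards [hℓ.top_le, eventually_gt_atTop 0] with N hN hN0
  have hN' : (0 : ℝ) < N := by exact_mod_cast hN0
  have h3 := Yk_le_eL hk (fun i => Λ.c (ℓ N i)) (κ := 0) (M := M + 1) (by positivity) hs0
    (fun i => Λ.c_le _) (fun i => by linarith [neg_abs_le (Λ.c (ℓ N i)), hM (ℓ N i)])
    (Finset.univ.filter fun i => ℓ N i = Λ.top)
    (fun i hi => by rw [(Finset.mem_filter.1 hi).2, Λ.c_top]) (by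
      rw [Fintype.card_fin]
      refine le_of_eq_of_le ?_ hN
      rw [hs]; field_simp; ring) hk1.le
  rw [Fintype.card_fin] at h3
  refine ⟨by gcongr; exact eL_le_Yk hk _, ?_⟩
  rw [div_add' _ _ _ hN'.ne']
  gcongr
  nlinarith

variable {m : Measure ℝ} [IsProbabilityMeasure m] {A B : ℝ} {c : (N : ℕ) → Fin N → ℝ}

lemma eL_close (hw : Weak m c) (hr : Rng A B c) {α : Type} [Fintype α] [DecidableEq α]
    {Λ : Atoms α} {κ δ : ℝ} {V : Finset ℝ} (hδ : 0 < δ) (hκ : B < κ) (hAB : A ≤ B)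
    (h1 : ∀ a, κ + Λ.c a ∈ V ∧ κ + Λ.c a - δ ∈ V ∧ A ≤ κ + Λ.c a)
    (h2 : ∀ v ∈ V, m {v} = 0 ∧
      ∑ a ∈ Finset.univ.filter (fun a => κ + Λ.c a ≤ v), Λ.p a = m.real (Iic v))
    {ℓ : (N : ℕ) → Fin N → α} (hℓ : Λ.Freq ℓ) {ε : ℝ} (hε : 0 < ε) :
    ∀ᶠ N : ℕ in atTop, |eL (c N) / N - (eL (fun i => Λ.c (ℓ N i)) / N + κ / 2)| ≤ δ / 2 + ε := by
  set M := κ - A + 1 with hM
  have hM0 : 0 < M := by linarith
  have hp := Λ.p_pos Λ.top
  have hd : Tendsto (fun N : ℕ => ∑ v ∈ V,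
      |(cnt (c N) v : ℝ) / N - (cnt (fun i => κ + Λ.c (ℓ N i)) v : ℝ) / N|) atTop (𝓝 0) := by
    have := tendsto_finsetSum V fun v hv =>
      ((hw.tendsto_cnt (h2 v hv).1).sub (hℓ.tendsto_cnt κ v)).abs
    rwa [Finset.sum_eq_zero fun v hv => by rw [(h2 v hv).2, sub_self, abs_zero]] at this
  filter_upwards [hd.eventually (gt_mem_nhds (show 0 < ε * Λ.p Λ.top / M by positivity)),
    hℓ.top_le, hr 1 one_pos, hr (κ - B) (by linarith), eventually_gt_atTop 0]
    with N hN1 hN2 hN3 hN4 hN0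
  have hN' : (0 : ℝ) < N := by exact_mod_cast hN0
  have h3 := eL_compare (c := c N) (c' := fun i => κ + Λ.c (ℓ N i)) (κ := κ) hM0.le hδ.le
    (fun i => by constructor <;> linarith [(hN3 i).1, (hN4 i).2])
    (fun i => by constructor <;> linarith [(h1 (ℓ N i)).2.2, Λ.c_le (ℓ N i)]) V
    fun i => ⟨(h1 _).1, _, (h1 _).2.1, le_rfl, by linarith⟩
  rw [eL_shift, Fintype.card_fin] at h3
  have h4 : ((Finset.univ.filter fun i => ℓ N i = Λ.top).card : ℝ) ≤
      (Finset.univ.filter fun i => κ + Λ.c (ℓ N i) = κ).card := by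
    exact_mod_cast Finset.card_le_card fun i hi => by
      simp only [Finset.mem_filter, Finset.mem_univ, true_and] at hi ⊢
      rw [hi, Λ.c_top, add_zero]
  have h5 : ∑ v ∈ V, |(cnt (c N) v : ℝ) - (cnt (fun i => κ + Λ.c (ℓ N i)) v : ℝ)| ≤
      ε * Λ.p Λ.top / M * N := by
    rw [← div_le_iff₀ hN', Finset.sum_div]
    refine le_of_eq_of_le (Finset.sum_congr rfl fun v _ => ?_) hN1.le
    rw [← sub_div, abs_div, abs_of_pos hN']
  set D := |eL (c N) - (eL (fun i => Λ.c (ℓ N i)) + κ / 2 * N)| with hD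
  have e : |eL (c N) / N - (eL (fun i => Λ.c (ℓ N i)) / N + κ / 2)| = D / N := by
    rw [hD, ← abs_of_pos hN', ← abs_div, abs_of_pos hN']
    congr 1
    field_simp
  rw [e, div_le_iff₀ hN']
  by_contra hc
  have h6 : ε * N < D - δ / 2 * N := by linarith
  have h7 : Λ.p Λ.top / 2 * N * (ε * N) <
      (Finset.univ.filter fun i => κ + Λ.c (ℓ N i) = κ).card * (D - δ / 2 * N) :=
    mul_lt_mul' (hN2.trans h4) h6 (by positivity) (by
      have : 0 < Λ.p Λ.top / 2 * N := by positivity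
      linarith)
  have h8 : M / 2 * (∑ v ∈ V, |(cnt (c N) v : ℝ) - (cnt (fun i => κ + Λ.c (ℓ N i)) v : ℝ)|) * N ≤
      M / 2 * (ε * Λ.p Λ.top / M * N) * N := by gcongr
  have h9 : M / 2 * (ε * Λ.p Λ.top / M * N) * N = Λ.p Λ.top / 2 * N * (ε * N) := by field_simp
  linarith

lemma upper_of_core (hU : CoreUpper) (hL : CoreLower) (hs : Spec m A B) (hw : Weak m c)
    (hr : Rng A B c) (ε : ℝ) (hε : 0 < ε) : ∀ᶠ k in atTop, ∀ w : ℝ, parisi m B 1 k < w →
      ∀ᶠ N : ℕ in atTop, eL (c N) / N ≤ w + ε := by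
  obtain ⟨S, Λ, κ, V, hκ1, hκ2, h1, h2, h3⟩ := exists_atoms hs (δ := ε / 4) (by positivity)
  filter_upwards [hU S Λ (ε / 4) (by positivity), hL S Λ 1 one_pos, Yk_close Λ one_pos]
    with k k1 k2 k3 w hw'
  obtain ⟨ℓ, hℓ, -⟩ := k2 ((A - κ) / 2) (le_parisi fun q hq => by linarith [(h3 k q hq).1])
  obtain ⟨q, hq, hqr⟩ := parisi_lt_iff hw'
  filter_upwards [k1 ℓ hℓ q hq (w - EE m B 1 k q) fun r hr => by linarith [hqr r hr], k3 ℓ hℓ,
    eL_close hw hr (by positivity) hκ1 hs.le h1 h2 hℓ (ε := ε / 4) (by positivity)]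
    with N n1 n2 n3
  linarith [(abs_le.1 n3).2, n2.1, (h3 k q hq).2.2]

lemma lower_of_core (hL : CoreLower) (hs : Spec m A B) (hw : Weak m c)
    (hr : Rng A B c) (ε : ℝ) (hε : 0 < ε) : ∀ᶠ k in atTop, ∀ v : ℝ, v ≤ parisi m B 1 k →
      ∀ᶠ N : ℕ in atTop, v - ε ≤ eL (c N) / N := by
  obtain ⟨S, Λ, κ, V, hκ1, hκ2, h1, h2, h3⟩ := exists_atoms hs (δ := ε / 5) (by positivity)
  filter_upwards [hL S Λ (ε / 5) (by positivity), Yk_close Λ (ε := ε / 5) (by positivity)]
    with k k2 k3 v hv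
  obtain ⟨ℓ, hℓ, hY⟩ := k2 _ (le_parisi_of_le (fun q hq => (h3 k q hq).2.1) hv (η := ε / 5)
    (by positivity))
  filter_upwards [hY, k3 ℓ hℓ,
    eL_close hw hr (by positivity) hκ1 hs.le h1 h2 hℓ (ε := ε / 5) (by positivity)]
    with N n1 n2 n3
  linarith [(abs_le.1 n3).1, n2.2]

lemma summable_tail (hs : Spec m A B) (hw : Weak m c) (hr : Rng A B c) {p : ℝ}
    (hp : Tendsto (fun N : ℕ => eL (c N) / N) atTop (𝓝 p)) {ε : ℝ} (hε : 0 < ε) :
    Summable fun N : ℕ => (hO (Fin N)).real {U | ε ≤ |lz (c N) U / N - p|} := by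
  have hAB := hs.le
  obtain ⟨v, hv1, hv2, hv⟩ := exists_good m (lo := B - ε / 4) (hi := B) (by linarith) 0
  have hv0 : m {v} = 0 := by simpa using hv 0
  set ρ := m.real (Ioi v) with hρ
  have hρ0 : 0 < ρ := by simpa using hs.top (B - v) (by linarith)
  have hρ1 : m.real (Iic v) = 1 - ρ := by
    rw [hρ, ← compl_Ioi, probReal_compl_eq_one_sub measurableSet_Ioi]
  set M := B + ε / 4 - A + 1 with hM
  have hM0 : 0 < M := by linarith
  set s := ρ / (16 * M) with hs'
  have hs0 : 0 < s := by positivity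
  have hC : 0 ≤ cC s 4 := by unfold cC; positivity
  set t := min (s / 4) (ε / (8 * (cC s 4 + 1))) with ht
  have ht0 : 0 < t := lt_min (by positivity) (by positivity)
  have ht1 : cC s 4 * t ≤ ε / 8 := by
    have h1 : t ≤ ε / (8 * (cC s 4 + 1)) := min_le_right _ _
    rw [le_div_iff₀ (by positivity)] at h1
    nlinarith
  have hgeo : Summable fun N : ℕ => 2 * exp (-(t * ε / 8)) ^ N :=
    (summable_geometric_of_lt_one (exp_pos _).le (by
      rw [exp_lt_one_iff]; have : 0 < t * ε / 8 := by positivity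
      linarith)).mul_left 2
  refine Summable.of_norm_bounded_eventually_nat hgeo ?_
  have h1 := (hw.tendsto_cnt hv0).eventually (gt_mem_nhds (show m.real (Iic v) < 1 - ρ / 2 by
    linarith))
  have h2 := (hp.sub_const p).abs.eventually (gt_mem_nhds (show |p - p| < ε / 4 by
    rw [sub_self, abs_zero]; positivity))
  filter_upwards [h1, h2, hr 1 one_pos, hr (ε / 4) (by positivity), eventually_gt_atTop 0]
    with N n1 n2 n3 n4 hN0
  have hN' : (0 : ℝ) < N := by exact_mod_cast hN0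
  have h3 := tail_lz (c N) (κ := B + ε / 4) (δ := ε / 2) hM0 hs0 (by positivity)
    (fun i => (n4 i).2) (fun i => by linarith [(n3 i).1])
    (Finset.univ.filter fun i => ¬ c N i ≤ v)
    (fun i hi => by
      have := not_le.1 (Finset.mem_filter.1 hi).2
      linarith) (by
      have k1 := Finset.card_filter_add_card_filter_not (s := Finset.univ) fun i => c N i ≤ v
      have k2 : (cnt (c N) v : ℝ) + (Finset.univ.filter fun i => ¬ c N i ≤ v).card = N := by
        rw [Finset.card_univ, Fintype.card_fin] at k1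
        exact_mod_cast k1
      rw [div_lt_iff₀ hN'] at n1
      have k3 : 8 * (s * M) = ρ / 2 := by rw [hs']; field_simp; ring
      rw [Fintype.card_fin, k3]
      linarith) ht0.le (min_le_left _ _) (ε / 4 * N)
  rw [Fintype.card_fin] at h3
  rw [Real.norm_eq_abs, abs_of_nonneg measureReal_nonneg]
  refine le_trans (measureReal_mono fun U hU => ?_) (h3.trans ?_)
  · simp only [mem_ofPred_eq] at hU ⊢
    have e : |lz (c N) U - eL (c N)| = |lz (c N) U / N - eL (c N) / N| * N := by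
      rw [← sub_div, abs_div, abs_of_pos hN']; field_simp
    have k1 : 3 * ε / 4 ≤ |lz (c N) U / N - eL (c N) / N| := by
      have := abs_sub_le (lz (c N) U / N) (eL (c N) / N) p
      linarith
    rw [e]
    nlinarith
  · rw [← exp_nat_mul]
    gcongr
    nlinarith [mul_le_mul_of_nonneg_right ht1 (mul_pos ht0 hN').le]

theorem main_normal (hU : CoreUpper) (hL : CoreLower) (hs : Spec m A B) (hw : Weak m c)
    (hr : Rng A B c) : ∃ p : ℝ, Tendsto (parisi m B 1) atTop (𝓝 (p : EReal)) ∧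
      Tendsto (fun N : ℕ => eL (c N) / N) atTop (𝓝 p) ∧ ∀ ε : ℝ, 0 < ε →
        Summable fun N : ℕ => (hO (Fin N)).real {U | ε ≤ |lz (c N) U / N - p|} := by
  obtain ⟨p, h1, h2⟩ := conv_of_bounds (y := fun N : ℕ => eL (c N) / N) (P := parisi m B 1)
    (C := (|A| + |B| + 1) / 2) (by
      filter_upwards [hr 1 one_pos, eventually_gt_atTop 0] with N hN hN0
      have hN' : (0 : ℝ) < N := by exact_mod_cast hN0
      have := abs_eL_le (c := c N) (M := |A| + |B| + 1) (by positivity) fun i => by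
        rw [abs_le]
        constructor <;>
          linarith [(hN i).1, (hN i).2, neg_abs_le A, le_abs_self B, abs_nonneg A, abs_nonneg B]
      rw [Fintype.card_fin] at this
      rwa [abs_div, abs_of_pos hN', div_le_iff₀ hN'])
    (upper_of_core hU hL hs hw hr) (lower_of_core hL hs hw hr)
  exact ⟨p, h1, h2, fun ε hε => summable_tail hs hw hr h2 hε⟩

lemma parisi_scale (μ : Measure ℝ) (b β : ℝ) :
    parisi μ b β = parisi (μ.map fun l => β * l) (β * b) 1 := by
  have h : ∀ x, sphI μ b (β * x) = sphI (μ.map fun l => β * l) (β * b) (1 * x) := by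
    intro x
    unfold sphI
    refine Equiv.iInf_congr (Equiv.subtypeEquivRight fun t => by
      rw [show β * x * b = 1 * x * (β * b) by ring]) fun t => ?_
    rw [integral_map (by fun_prop) (Measurable.aestronglyMeasurable (by fun_prop))]
    simp only [Equiv.subtypeEquivRight_apply_coe]
    congr 3
    funext l
    congr 1
    ring
  funext k
  simp only [parisi, EE, h]

theorem main_of_core (hU : CoreUpper) (hL : CoreLower) (β : ℝ) (hβ : 0 ≤ β) (μ : Measure ℝ)
    [IsProbabilityMeasure μ] (a b : ℝ) (ha : IsLeast μ.support a) (hb : IsGreatest μ.support b)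
    (lam : (N : ℕ) → Fin N → ℝ)
    (hweak : ∀ f : BoundedContinuousFunction ℝ ℝ,
      Tendsto (fun N : ℕ => (N : ℝ)⁻¹ * ∑ i, f (lam N i)) atTop (𝓝 (∫ x, f x ∂μ)))
    (hmin : Tendsto (fun N => ⨅ i, lam N i) atTop (𝓝 a))
    (hmax : Tendsto (fun N => ⨆ i, lam N i) atTop (𝓝 b))
    [ms : ∀ N, MeasurableSpace (Matrix.orthogonalGroup (Fin N) ℝ)]
    [bs : ∀ N, BorelSpace (Matrix.orthogonalGroup (Fin N) ℝ)]
    (ν : (N : ℕ) → Measure (Matrix.orthogonalGroup (Fin N) ℝ))
    [∀ N, IsProbabilityMeasure (ν N)] [∀ N, (ν N).IsHaarMeasure] :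
    ∃ p : ℝ, Tendsto (parisi μ b β) atTop (𝓝 (p : EReal)) ∧
      Tendsto (fun N => ∫ U, pressure N β (lam N) U ∂ν N) atTop (𝓝 p) ∧
      ∀ ε : ℝ, 0 < ε →
        Summable fun N => (ν N).real {U | ε ≤ |pressure N β (lam N) U - p|} := by
  obtain rfl : ms = fun _ => O.ms := funext fun N => (bs N).measurable_eq
  obtain rfl : ν = fun N => hO (Fin N) := funext fun N =>
    Measure.isHaarMeasure_eq_of_isProbabilityMeasure _ _
  have hm : Measurable fun l : ℝ => β * l := by fun_prop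
  have := Measure.isProbabilityMeasure_map (μ := μ) hm.aemeasurable
  have hs : Spec (μ.map fun l => β * l) (β * a) (β * b) := by
    constructor
    · rw [ae_map_iff hm.aemeasurable (measurableSet_Icc (a := β * a) (b := β * b))]
      filter_upwards [μ.support_mem_ae] with l hl
      exact ⟨mul_le_mul_of_nonneg_left (ha.2 hl) hβ, mul_le_mul_of_nonneg_left (hb.2 hl) hβ⟩
    · intro η hη
      rw [map_measureReal_apply hm measurableSet_Ioi, measureReal_def,
        ENNReal.toReal_pos_iff]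
      refine ⟨(Measure.mem_support_iff_forall b).1 hb.1 _ ?_, measure_lt_top _ _⟩
      exact (isOpen_Ioi.preimage (by fun_prop)).mem_nhds (by simpa using hη)
  have hw : Weak (μ.map fun l => β * l) fun N i => β * lam N i := by
    intro f
    rw [integral_map hm.aemeasurable f.continuous.aestronglyMeasurable]
    exact hweak (f.compContinuous ⟨fun l => β * l, by fun_prop⟩)
  have hr : Rng (β * a) (β * b) fun N i => β * lam N i := by
    intro η hη
    filter_upwards [(hmin.const_mul β).eventually (lt_mem_nhds (by linarith : β * a - η < β * a)),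
      (hmax.const_mul β).eventually (gt_mem_nhds (by linarith : β * b < β * b + η))] with N h1 h2 i
    have k1 : ⨅ i, lam N i ≤ lam N i := ciInf_le (Finite.bddBelow_range _) i
    have k2 : lam N i ≤ ⨆ i, lam N i := le_ciSup (Finite.bddAbove_range _) i
    exact ⟨h1.le.trans (mul_le_mul_of_nonneg_left k1 hβ),
      (mul_le_mul_of_nonneg_left k2 hβ).trans h2.le⟩
  obtain ⟨p, h1, h2, h3⟩ := main_normal hU hL hs hw hr
  refine ⟨p, parisi_scale μ b β ▸ h1, ?_, ?_⟩
  · simpa only [pressure_eq, integral_div, eL] using h2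
  · simpa only [pressure_eq] using h3

end

end Vale.Agent.P166
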