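import Vale.Agent.P166.Upper
import Vale.Agent.P166.Lower
import Vale.Agent.P166.RedMain

/-! The two core bounds together. -/

namespace Vale.Agent.P166

theorem core : CoreUpper ∧ CoreLower := ⟨coreUpper, coreLower⟩

end Vale.Agent.P166
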