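import Vale.Agent.P166.DSD
import Vale.Agent.P166.HaarB

/-! The spin glass with fields: basic properties, symmetries, exponential moments. -/

namespace Vale.Agent.P166

open MeasureTheory ProbabilityTheory Real Finset Matrix Filter Topology
open Vale.Agent.P157 (Sys St γ GS s0 YY mm pp sh DirD pull mrg Rg Sp νB xB)
open scoped ENNReal

variable {ι J : Type} [Fintype ι] [DecidableEq ι] [Fintype J] {k j : ℕ} {M : Mdl ι}
  {H : AT ι J → ℝ} {B : Finset ι}

theorem mdlA_ss (i : ι) : BM fun c : CF ι => spin c.2.1 i := by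
  refine ⟨(Measurable.of_discrete (f := fun σ : ι → Bool => spin σ i)).comp measurable_snd.fst, 1,
    fun c => ?_⟩
  simp only [spin]
  split_ifs <;> simp

omit [Fintype ι] [DecidableEq ι] in
theorem mdlA_abs (B : Finset ι) {x y : ι → ℝ} {P : ℝ} (hP : 0 ≤ P)
    (hx : ∑ i ∈ B, x i ^ 2 ≤ P * B.card) (hy : ∑ i ∈ B, y i ^ 2 ≤ P * B.card) :
    |(∑ i ∈ B, x i * y i) / B.card| ≤ P := by
  rw [abs_div, Nat.abs_cast]
  refine div_le_of_le_mul₀ (Nat.cast_nonneg _) hP ((abs_sum_le_sum_abs _ _).trans ?_)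
  have h1 : ∑ i ∈ B, |x i * y i| ≤ ∑ i ∈ B, (x i ^ 2 + y i ^ 2) / 2 := sum_le_sum fun i _ =>
    abs_le.2 ⟨by nlinarith [sq_nonneg (x i + y i)], by nlinarith [sq_nonneg (x i - y i)]⟩
  rw [← sum_div, sum_add_distrib] at h1
  linarith

theorem mdlA_jensen {α : Type} (S : Finset α) (y : α → ℝ) {w : ℝ} (h0 : 0 ≤ w)
    (h1 : w * S.card ≤ 1) :
    exp (w * ∑ i ∈ S, y i) ≤ w * ∑ i ∈ S, exp (y i) + (1 - w * S.card) := by
  obtain ⟨t, ht⟩ : ∃ t, t = w * ∑ i ∈ S, y i := ⟨_, rfl⟩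
  have h2 : ∀ x, exp t * (x - t + 1) ≤ exp x := fun x => by
    rw [show exp x = exp t * exp (x - t) by rw [← exp_add]; ring_nf]
    exact mul_le_mul_of_nonneg_left (add_one_le_exp _) (exp_pos _).le
  have h3 := mul_le_mul_of_nonneg_left (sum_le_sum fun i (_ : i ∈ S) => h2 (y i)) h0
  have h4 := mul_le_mul_of_nonneg_left (h2 0) (sub_nonneg.2 h1)
  rw [← mul_sum, sum_add_distrib, sum_sub_distrib, sum_const, sum_const, nsmul_eq_mul,
    nsmul_eq_mul] at h3
  rw [exp_zero] at h4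
  rw [← ht]
  have h5 : w * (exp t * (∑ i ∈ S, y i - S.card * t + S.card * 1)) +
      (1 - w * S.card) * (exp t * (0 - t + 1)) = exp t := by
    linear_combination (-exp t) * ht
  linarith

theorem bm_xs (i : ι) : BM fun c : CF ι => xs c i := by
  simp only [xs, xc, mulVec, dotProduct]
  exact BM.sum _ fun j _ => BM.mul ⟨(measurable_entry i j).comp measurable_fst, 1,
    fun c => O.abs_le c.1 i j⟩ (mdlA_ss j)

theorem bm_ss (i : ι) : BM fun c : CF ι => ss c i := mdlA_ss i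

theorem bm_es : BM (es : CF ι → ℝ) := by
  refine ⟨(Measurable.of_discrete (f := fun b : Bool => if b then (1 : ℝ) else -1)).comp
    measurable_snd.snd, 1, fun c => ?_⟩
  unfold es
  split_ifs <;> simp

theorem bm_dot (u : ι → ℝ) : BM fun c : CF ι => u ⬝ᵥ xs c := BM.sum _ fun i _ => (BM.const _).mul (bm_xs i)

omit [Fintype J] in
theorem bm_fx (i : (ι ⊕ ι) ⊕ J) : BM (fx ι J i) := by
  rcases i with (i | i) | a
  exacts [bm_ss i, bm_xs i, BM.const 0]

theorem measurable_xs : Measurable (xs : CF ι → ι → ℝ) := measurable_pi_lambda _ fun i => (bm_xs i).1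

theorem ss_sq (c : CF ι) (i : ι) : ss c i ^ 2 = 1 := by
  unfold ss spin
  split_ifs <;> simp

theorem es_sq (c : CF ι) : es c ^ 2 = 1 := by
  unfold es
  split_ifs <;> simp

theorem sum_xs_sq (c : CF ι) : ∑ i, xs c i ^ 2 = Fintype.card ι := by
  have h1 : xs c ⬝ᵥ xs c = ss c ⬝ᵥ ss c := O.dot c.1 _ _
  simp only [dotProduct, ← sq, ss_sq] at h1
  simpa using h1

theorem mdlA_sub (B : Finset ι) (c : CF ι) : ∑ i ∈ B, xs c i ^ 2 ≤ Fintype.card ι :=
  (sum_le_sum_of_subset_of_nonneg (subset_univ B) fun _ _ _ => sq_nonneg _).trans_eq (sum_xs_sq c)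

theorem bm_ovx (B : Finset ι) : BM (Function.uncurry (ovx B)) :=
  (BM.sum B fun i _ => ((bm_xs i).comp_right measurable_fst).mul
    ((bm_xs i).comp_right measurable_snd)).mul (BM.const (B.card : ℝ)⁻¹)

theorem bm_ovs : BM (Function.uncurry (ovs : CF ι → CF ι → ℝ)) :=
  (BM.sum univ fun i _ => ((bm_ss i).comp_right measurable_fst).mul
    ((bm_ss i).comp_right measurable_snd)).mul (BM.const (Fintype.card ι : ℝ)⁻¹)

theorem bm_mul₂ {f g : CF ι → ℝ} (hf : BM f) (hg : BM g) :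
    BM (Function.uncurry fun c c' => f c * g c') :=
  (hf.comp_right measurable_fst).mul (hg.comp_right measurable_snd)

theorem abs_ovx_le {P : ℝ} (hP : (Fintype.card ι : ℝ) ≤ P * B.card) (hP0 : 0 ≤ P) (c c' : CF ι) :
    |ovx B c c'| ≤ P :=
  mdlA_abs B hP0 ((mdlA_sub B c).trans hP) ((mdlA_sub B c').trans hP)

theorem abs_ovs_le (c c' : CF ι) : |ovs c c'| ≤ 1 :=
  mdlA_abs univ zero_le_one (by simp [ss_sq]) (by simp [ss_sq])


theorem Mdl.lin (M : Mdl ι) (hk : 0 < k) : (AS k ι J).Lin (M.H k J) :=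
  (BM.lin hk ((BM.const _).mul (BM.sum _ fun i _ => (BM.const _).mul
    ((bm_xs i).comp (continuous_pow 2))))).add (lin_fld hk bm_fx _)

theorem Mdl.free (M : Mdl ι) {p : (ι ⊕ ι) ⊕ J → Prop} [DecidablePred p]
    (hp : ∀ j < k, ∀ i, p i → M.w J j i = 0) : Free k p (M.H k J) :=
  (Free.cfg fun c => (1 / 2) * ∑ i, M.c i * xs c i ^ 2).comp₂
    (free_fld fun j hj i hi => Or.inl (hp j hj i hi)) (· + ·)

theorem Mdl.isPath (M : Mdl ι) (hk : 0 < k) {P : ℝ} (hP : (Fintype.card ι : ℝ) ≤ P * B.card)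
    (hP0 : 0 ≤ P) : IsPath k P (M.ovP k (ovx B)) :=
  isPath_ovP hk (M.lin hk) B (ψ := fun i c => xs c i) bm_xs (Nat.cast_nonneg _) hP0
    fun c => (mdlA_sub B c).trans hP


/-! the auxiliary coordinates do not matter -/

theorem mdlA_H (M : Mdl ι) (s : AT ι J) : M.H k J s = (1 / 2) * ∑ i, M.c i * xs s.1 i ^ 2 +
    ∑ j ∈ range k, (∑ i, √(M.r j i) * ss s.1 i * s.2 j (.inl (.inl i)) +
      ∑ i, √(M.u j i) * xs s.1 i * s.2 j (.inl (.inr i))) := by
  simp [Mdl.H, fld, fx, Mdl.w, Fintype.sum_sum_type]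

theorem mdlA_int (hk : 0 < k) (hH : (AS k ι J).Lin H) {g : CF ι → ℝ} (hg : BM g) :
    Integrable (fun s => g s.1) (mA k H) := integrable_mD hk hH (hg.ex hk)

theorem mdlA_hom : DHom (hO ι) (nC ι) (hO ι) (nC ι) (fun z => id z.1) id
    fun (z : (ι ⊕ ι) ⊕ J → ℝ) (i : (ι ⊕ ι) ⊕ Empty) => z (Sum.map id Empty.elim i) :=
  DHom.of_inj (MeasurePreserving.id _) (MeasurePreserving.id _)
    (Function.injective_id.sumMap fun a => a.elim)

theorem mdlA_amb (M : Mdl ι) : (fun s => M.H k Empty (dmap (fun z => id z.1) id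
    (fun (z : (ι ⊕ ι) ⊕ J → ℝ) (i : (ι ⊕ ι) ⊕ Empty) => z (Sum.map id Empty.elim i)) s)) =
      M.H k J := by
  funext s
  rw [mdlA_H, mdlA_H]
  rfl

theorem YA_amb (M : Mdl ι) (hk : 0 < k) : YA k (M.H k J) = YM k M := by
  rw [← mdlA_amb M]
  exact mdlA_hom.YD_eq hk (M.lin hk)

theorem int_amb (M : Mdl ι) (hk : 0 < k) {g : CF ι → ℝ} (hg : Measurable g) :
    ∫ s, g s.1 ∂mA k (M.H k J) = ∫ s, g s.1 ∂mA k (M.H k Empty) := by
  rw [← mdlA_amb M, mA, mA, ← (mdlA_hom (J := J)).mD_map hk (M.lin hk),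
    integral_map (f := fun s => g s.1) mdlA_hom.meas.aemeasurable
      (hg.comp measurable_fst).aestronglyMeasurable]
  rfl

theorem tl_amb (M : Mdl ι) (hk : 0 < k) {G : CF ι → CF ι → ℝ}
    (hG : Measurable (Function.uncurry G)) :
    tl k (hO ι) (nC ι) (M.H k J) j G = M.tl k j G := by
  rw [← mdlA_amb M]
  exact mdlA_hom.tl_eq hk (M.lin hk) hG j

theorem serr_amb (M : Mdl ι) (hk : 0 < k) {G : CF ι → CF ι → ℝ}
    (hG : Measurable (Function.uncurry G)) (A : ℕ → ℝ) :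
    serr k (hO ι) (nC ι) (M.H k J) G A = M.serr k G A := by
  rw [← mdlA_amb M]
  exact mdlA_hom.serr_eq hk (M.lin hk) hG A


/-! rotations -/

omit [Fintype J] in
theorem xs_rotA (S : O ι) (s : AT ι J) :
    xs (rotA S s).1 = (S : Matrix ι ι ℝ) *ᵥ xs s.1 := O.mul_mulVec S _ _

omit [Fintype J] in
theorem measurable_rotA (S : O ι) : Measurable (rotA S : AT ι J → AT ι J) := by
  have h1 : ∀ j i, Measurable fun s : AT ι J => s.2 j i := fun j i =>
    (measurable_pi_apply i).comp ((measurable_pi_apply j).comp measurable_snd)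
  refine (((mp_mul_left S).measurable.comp measurable_fst.fst).prodMk measurable_fst.snd).prodMk
    (measurable_pi_lambda _ fun j => measurable_pi_lambda _ fun i => ?_)
  rcases i with (i | i) | a
  · exact h1 j _
  · simp only [Sum.elim_inl, Sum.elim_inr, mulVec, dotProduct]
    exact Finset.measurable_sum _ fun i' _ => (h1 j _).const_mul _
  · exact h1 j _

theorem mdlA_form (S : O ι) (a : ι → ℝ)
    (h : ∀ i i', (S : Matrix ι ι ℝ) i i' ≠ 0 → a i = a i') (x y : ι → ℝ) :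
    ∑ i, a i * ((S : Matrix ι ι ℝ) *ᵥ x) i * ((S : Matrix ι ι ℝ) *ᵥ y) i = ∑ i, a i * x i * y i := by
  refine Eq.trans (sum_congr rfl fun i _ => congrArg (· * _) ?_) (O.dot S (fun i => a i * x i) y)
  simp only [mulVec, dotProduct, mul_sum]
  refine sum_congr rfl fun i' _ => ?_
  by_cases h0 : (S : Matrix ι ι ℝ) i i' = 0
  · simp [h0]
  · rw [h i i' h0]
    ring

theorem mdlA_rot (S : O ι) : ∃ L : ((ι ⊕ ι) ⊕ J → ℝ) → (ι ⊕ ι) ⊕ J → ℝ,
    DHom (hO ι) (nC ι) (hO ι) (nC ι) (fun z => (fun U => S * U) z.1) id L ∧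
      rotA S = dmap (fun z => (fun U => S * U) z.1) id L := by
  obtain ⟨L, h1, h2, h3, h4, h5⟩ := mp_rot_sub (I := (ι ⊕ ι) ⊕ J) (c := fun i => .inl (.inr i))
    (Sum.inl_injective.comp Sum.inr_injective) S
  refine ⟨L, DHom.of_prod (mp_mul_left S) (MeasurePreserving.id _) h1 h2 h3, ?_⟩
  funext s
  refine Prod.ext rfl (funext fun j => funext fun i => ?_)
  rcases i with (i | i) | a
  · exact (h5 (s.2 j) (.inl (.inl i)) (by simp)).symm
  · exact (h4 _ _).symm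
  · exact (h5 (s.2 j) (.inr a) (by simp)).symm

theorem H_rotA (M : Mdl ι) {S : O ι}
    (hS : ∀ i i', (S : Matrix ι ι ℝ) i i' ≠ 0 → M.c i = M.c i' ∧ ∀ j, M.u j i = M.u j i')
    (s : AT ι J) : M.H k J (rotA S s) = M.H k J s := by
  have h1 := mdlA_form S M.c (fun i i' h => (hS i i' h).1) (xs s.1) (xs s.1)
  have h2 := fun j => mdlA_form S (fun i => √(M.u j i)) (fun i i' h => by rw [(hS i i' h).2 j])
    (xs s.1) fun i => s.2 j (.inl (.inr i))
  rw [mdlA_H, mdlA_H, xs_rotA]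
  simp only [sq, ← mul_assoc, h1]
  exact congrArg _ (sum_congr rfl fun j _ => congrArg _ (h2 j))

theorem Mdl.Iso.rotB (hM : M.Iso B) : RotB B (M.H k J) := fun _ hS s =>
  H_rotA M (fun i i' h => by
    rcases hS.ne_zero h with rfl | ⟨h1, h2⟩
    exacts [⟨rfl, fun _ => rfl⟩, hM i h1 i' h2]) s

omit [Fintype ι] [DecidableEq ι] in
theorem Mdl.Iso.mono (hM : M.Iso B) {B' : Finset ι} (h : B' ⊆ B) : M.Iso B' :=
  fun i hi i' hi' => hM i (h hi) i' (h hi')

theorem mkM_iso {α : Type} [DecidableEq α] (top : α) (ℓ : ι → α) (e : α → ℝ) (b : ℝ) (y : ℕ → ℝ)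
    (r : ℕ → ι → ℝ) (a : α) : (mkM top ℓ e b y r).Iso (blkL ℓ a) := by
  intro i hi i' hi'
  simp only [blkL, mem_filter, mem_univ, true_and] at hi hi'
  simp [mkM, hi, hi']

theorem lin_rotA (hk : 0 < k) (S : O ι) (hH : (AS k ι J).Lin H) :
    (AS k ι J).Lin fun s => H (rotA S s) := by
  obtain ⟨L, h1, h2⟩ := mdlA_rot (J := J) S
  rw [h2]
  exact h1.lin hk hH

theorem YA_rot (hk : 0 < k) (S : O ι) (hH : (AS k ι J).Lin H) :
    YA k (fun s => H (rotA S s)) = YA k H := by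
  obtain ⟨L, h1, h2⟩ := mdlA_rot (J := J) S
  rw [h2]
  exact h1.YD_eq hk hH

theorem mA_rot (hk : 0 < k) (S : O ι) (hH : (AS k ι J).Lin H) :
    (mA k fun s => H (rotA S s)).map (rotA S) = mA k H := by
  obtain ⟨L, h1, h2⟩ := mdlA_rot (J := J) S
  rw [h2]
  exact h1.mD_map hk hH

theorem tl_rot (hk : 0 < k) (S : O ι) (hH : (AS k ι J).Lin H) {G : CF ι → CF ι → ℝ}
    (hG : Measurable (Function.uncurry G)) :
    tl k (hO ι) (nC ι) (fun s => H (rotA S s)) j (fun c c' => G (S * c.1, c.2) (S * c'.1, c'.2)) =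
      tl k (hO ι) (nC ι) H j G := by
  obtain ⟨L, h1, h2⟩ := mdlA_rot (J := J) S
  rw [h2]
  exact h1.tl_eq hk hH hG j


/-- exponential moments in an isotropic block -/
theorem em (hk : 0 < k) (hH : (AS k ι J).Lin H) (hB : RotB B H) {P θ : ℝ} (hP0 : 0 < P)
    (hP : (Fintype.card ι : ℝ) ≤ P * B.card) (h0 : 0 ≤ θ) (h1 : θ ≤ 1) {u : ι → ℝ}
    (hu : ∀ i ∉ B, u i = 0) (hu1 : u ⬝ᵥ u ≤ 1) :
    ∫ s, exp (θ / (16 * P) * (u ⬝ᵥ xs s.1) ^ 2) ∂mA k H ≤ 1 + 2 * θ := by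
  have := mD_prob hk hH
  have hx : Measurable fun s : AT ι J => xs s.1 := measurable_xs.comp measurable_fst
  have h2 := sphere_avg (mA k H) hx (B := B) (N := Fintype.card ι) (l := 1 / (16 * P))
    (fun w => by simp only [dotProduct, ← sq, sum_xs_sq, le_refl]) (by positivity)
    (by rw [show 16 * (1 / (16 * P)) * (Fintype.card ι : ℝ) = Fintype.card ι / P by field_simp,
      div_le_iff₀' hP0]; exact hP)
    (fun S hS => by
      have h3 := mA_rot hk S hH
      rw [funext (hB S hS)] at h3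
      conv_rhs => rw [← h3, Measure.map_map hx (measurable_rotA S)]
      exact congrArg (fun f => Measure.map f _) (funext fun s => (xs_rotA S s).symm)) hu hu1
  have h4 := mdlA_int hk hH ((bm_dot u).comp (F := fun x => exp (1 / (16 * P) * x ^ 2))
    (by fun_prop))
  refine (integral_mono_of_nonneg (ae_of_all _ fun s => (exp_pos _).le)
    ((integrable_const (1 - θ)).add (h4.const_mul θ)) (ae_of_all _ fun s => ?_)).trans ?_
  · have h5 := convexOn_exp.2 (Set.mem_univ 0) (Set.mem_univ (1 / (16 * P) * (u ⬝ᵥ xs s.1) ^ 2))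
      (sub_nonneg.2 h1) h0 (by ring)
    simp only [smul_eq_mul, mul_zero, zero_add, exp_zero, mul_one] at h5
    refine le_of_eq_of_le (congrArg exp ?_) h5
    ring
  · rw [integral_add' (integrable_const _) (h4.const_mul θ), integral_const, integral_const_mul,
      probReal_univ, one_smul]
    nlinarith


theorem em_sq (hk : 0 < k) (hH : (AS k ι J).Lin H) (hB : RotB B H) {P : ℝ} (hP0 : 0 < P)
    (hP : (Fintype.card ι : ℝ) ≤ P * B.card) {u : ι → ℝ} (hu : ∀ i ∉ B, u i = 0) :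
    ∫ s, (u ⬝ᵥ xs s.1) ^ 2 ∂mA k H ≤ 32 * P * (u ⬝ᵥ u) := by
  have := mD_prob hk hH
  obtain ⟨a, ha⟩ : ∃ a, a = u ⬝ᵥ u := ⟨_, rfl⟩
  rcases (show 0 ≤ a from ha ▸ sum_nonneg fun i _ => mul_self_nonneg _).eq_or_lt with h | h
  · rw [dotProduct_self_eq_zero.1 (ha.symm.trans h.symm)]
    simp
  have h1 : (√a)⁻¹ * (√a)⁻¹ * a = 1 := by
    rw [← mul_inv, mul_self_sqrt h.le, inv_mul_cancel₀ h.ne']
  have h2 := em hk hH hB hP0 hP zero_le_one le_rfl (u := (√a)⁻¹ • u)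
    (fun i hi => by simp [hu i hi]) (by
      rw [smul_dotProduct, dotProduct_smul, ← ha, smul_eq_mul, smul_eq_mul, ← mul_assoc, h1])
  have h4 := mdlA_int hk hH ((bm_dot ((√a)⁻¹ • u)).comp
    (F := fun x => exp (1 / (16 * P) * x ^ 2)) (by fun_prop))
  rw [← ha]
  refine (integral_mono_of_nonneg (ae_of_all _ fun s => sq_nonneg _)
    ((h4.sub (integrable_const 1)).const_mul (16 * P * a)) (ae_of_all _ fun s => ?_)).trans ?_
  · have h5 := add_one_le_exp (1 / (16 * P) * (((√a)⁻¹ • u) ⬝ᵥ xs s.1) ^ 2)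
    have h6 : (u ⬝ᵥ xs s.1) ^ 2 = 16 * P * a * (1 / (16 * P) * (((√a)⁻¹ • u) ⬝ᵥ xs s.1) ^ 2) := by
      rw [smul_dotProduct, smul_eq_mul, mul_pow, sq (√a)⁻¹]
      field_simp
      rw [sq_sqrt h.le]
    refine h6.trans_le (mul_le_mul_of_nonneg_left ?_ (by positivity))
    exact le_sub_iff_add_le.2 h5
  · rw [integral_const_mul, integral_sub' h4 (integrable_const 1), integral_const, probReal_univ,
      one_smul]
    have h7 : 0 < P * a := by positivity
    nlinarith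


/-- several coordinates, each in a large isotropic block -/
theorem em_sum (hk : 0 < k) (hH : (AS k ι J).Lin H) {S : Finset ι} {m : ℕ} (hm : S.card ≤ m)
    {P θ : ℝ} (hP0 : 0 < P) (h0 : 0 ≤ θ) (h1 : θ ≤ 1)
    (hS : ∀ i ∈ S, ∃ B : Finset ι, i ∈ B ∧ RotB B H ∧ (Fintype.card ι : ℝ) ≤ P * B.card) :
    ∫ s, exp (θ / (16 * P * (m + 1)) * ∑ i ∈ S, xs s.1 i ^ 2) ∂mA k H ≤ 1 + 2 * θ ∧
      ∫ s, ∑ i ∈ S, xs s.1 i ^ 2 ∂mA k H ≤ 32 * P * m := by
  have := mD_prob hk hH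
  have hm' : (S.card : ℝ) ≤ m := Nat.cast_le.2 hm
  have hb : ∀ i, BM fun c : CF ι => xs c i ^ 2 := fun i => (bm_xs i).comp (continuous_pow 2)
  have hb' : ∀ i, BM fun c : CF ι => exp (θ / (16 * P) * xs c i ^ 2) := fun i =>
    (bm_xs i).comp (F := fun x => exp (θ / (16 * P) * x ^ 2)) (by fun_prop)
  have hu : ∀ {B : Finset ι} {i : ι}, i ∈ B → ∀ i' ∉ B, (Pi.single i 1 : ι → ℝ) i' = 0 :=
    fun hi i' hi' => Pi.single_eq_of_ne (ne_of_mem_of_not_mem hi hi').symm _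
  constructor
  · have h2 : ∀ i ∈ S, ∫ s, exp (θ / (16 * P) * xs s.1 i ^ 2) ∂mA k H ≤ 1 + 2 * θ := fun i hi => by
      obtain ⟨B, hi', hB, hP⟩ := hS i hi
      simpa using em hk hH hB hP0 hP h0 h1 (hu hi') (by simp)
    have h3 := sum_le_card_nsmul _ _ _ h2
    have hw : (0 : ℝ) < 1 / (m + 1) := by positivity
    have hw1 : 1 / (m + 1 : ℝ) * S.card ≤ 1 := by
      rw [one_div, inv_mul_le_iff₀ (by positivity)]
      linarith
    have h4 := mdlA_int hk hH (BM.sum S fun i _ => hb' i)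
    refine (integral_mono_of_nonneg (ae_of_all _ fun s => (exp_pos _).le)
      ((h4.const_mul (1 / (m + 1))).add (integrable_const (1 - 1 / (m + 1 : ℝ) * S.card)))
      (ae_of_all _ fun s => ?_)).trans ?_
    · refine le_of_eq_of_le (congrArg exp ?_)
        (mdlA_jensen S (fun i => θ / (16 * P) * xs s.1 i ^ 2) hw.le hw1)
      rw [← mul_sum]
      field_simp
    · rw [integral_add' (h4.const_mul _) (integrable_const _), integral_const, integral_const_mul,
        probReal_univ, one_smul, integral_finsetSum _ fun i _ => mdlA_int hk hH (hb' i)]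
      rw [nsmul_eq_mul] at h3
      have h5 := mul_le_mul_of_nonneg_left h3 hw.le
      nlinarith
  · rw [integral_finsetSum _ fun i _ => mdlA_int hk hH (hb i)]
    have h2 : ∀ i ∈ S, ∫ s, xs s.1 i ^ 2 ∂mA k H ≤ 32 * P := fun i hi => by
      obtain ⟨B, hi', hB, hP⟩ := hS i hi
      simpa using em_sq hk hH hB hP0 hP (hu hi')
    refine (sum_le_card_nsmul _ _ _ h2).trans ?_
    rw [nsmul_eq_mul]
    nlinarith


theorem mdlA_avg (hk : 0 < k) (hH : (AS k ι J).Lin H) {f : ι → CF ι → ℝ} (hf : ∀ i, BM (f i))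
    (hB : B.Nonempty) {v : ℝ}
    (h : ∀ i ∈ B, tl k (hO ι) (nC ι) H j (fun c c' => f i c * f i c') = v) :
    tl k (hO ι) (nC ι) H j (fun c c' => (∑ i ∈ B, f i c * f i c') / B.card) = v := by
  simp only [div_eq_inv_mul]
  rw [tl_const_mul, tl_sum hk hH B fun i _ => bm_mul₂ (hf i) (hf i), sum_congr rfl h, sum_const,
    nsmul_eq_mul, inv_mul_cancel_left₀ (Nat.cast_ne_zero.2 hB.card_pos.ne')]

theorem tl_blk (hk : 0 < k) (hH : (AS k ι J).Lin H) (hB : RotB B H) {i : ι} (hi : i ∈ B) :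
    tl k (hO ι) (nC ι) H j (fun c c' => xs c i * xs c' i) = tl k (hO ι) (nC ι) H j (ovx B) := by
  refine (mdlA_avg hk hH (f := fun i c => xs c i) bm_xs ⟨i, hi⟩ fun i' hi' => ?_).symm
  obtain ⟨S, hS, h1⟩ := exists_swap hi hi'
  have h2 := tl_rot (j := j) hk S hH (bm_mul₂ (bm_xs i) (bm_xs i)).1
  rw [funext (hB S hS)] at h2
  refine Eq.trans (congrArg _ ?_) h2
  funext c c'
  rw [← h1 (xs c), ← h1 (xs c')]
  exact congrArg₂ _ (congrFun (O.mul_mulVec S _ _).symm i) (congrFun (O.mul_mulVec S _ _).symm i)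


theorem tl_ovs (hk : 0 < k) (hH : (AS k ι J).Lin H) :
    tl k (hO ι) (nC ι) H j ovs = tl k (hO ι) (nC ι) H j (ovx univ) := by
  have h1 : ∀ c c' : CF ι, c.1 = c'.1 → ovs c c' = ovx univ c c' := fun c c' h => by
    have h2 : xs c ⬝ᵥ xs c' = ss c ⬝ᵥ ss c' := by
      rw [xs, xs, xc, xc, h]
      exact O.dot _ _ _
    exact congrArg (· / (Fintype.card ι : ℝ)) h2.symm
  unfold tl
  refine congrArg₂ _ (congrArg _ (funext fun s => h1 _ _ rfl)) (congrArg _ (sum_congr rfl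
    fun l hl => integral_congr_ae ?_))
  rw [mem_Ioo] at hl
  have h3 : ∀ᵐ z ∂pD k (hO ι) (nC ι) H l, ∀ i i', (z.1.1.1 : Matrix ι ι ℝ) i i' =
      (z.2.1.1 : Matrix ι ι ℝ) i i' := ae_all_iff.2 fun i => ae_all_iff.2 fun i' =>
    pD_ae_dis hk hH (by omega) (by omega) (measurable_entry i i')
  filter_upwards [h3] with z hz
  exact h1 _ _ (Subtype.ext (Matrix.ext hz))


theorem tl_site (M : Mdl ι) (hk : 0 < k) (hr : ∀ j i i', M.r j i = M.r j i') (i : ι) :
    M.tl k j (fun c c' => ss c i * ss c' i) = M.tl k j ovs := by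
  refine (mdlA_avg hk (M.lin hk) (f := fun i c => ss c i) bm_ss ⟨i, mem_univ i⟩
    fun i' _ => ?_).symm
  obtain ⟨S, hS⟩ := exists_perm (Equiv.swap i i').symm
  have he : Function.Injective (Sum.map (Sum.map (Equiv.swap i i') id) id :
      (ι ⊕ ι) ⊕ Empty → (ι ⊕ ι) ⊕ Empty) :=
    ((Equiv.swap i i').injective.sumMap Function.injective_id).sumMap Function.injective_id
  have hh := DHom.of_inj (ν := nC ι) (ν' := nC ι) (mp_mul_right S)
    ((mp_unif (Equiv.swap i i')).prod (MeasurePreserving.id νB)) he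
  have h2 := hh.tl_eq (F0 := fun U => U * S) hk (M.lin hk) (bm_mul₂ (bm_ss i) (bm_ss i)).1 j
  refine Eq.trans (congrArg₂ (fun a b => tl k (hO ι) (nC ι) a j b) ?_ ?_) h2
  · funext s
    have h3 : ∀ U σ, xc (U * S) (fun a => σ (Equiv.swap i i' a)) = xc U σ := fun U σ => by
      rw [xc, xc, O.mul_mulVec, hS]
      exact congrArg _ (funext fun a => by simp [spin])
    rw [mdlA_H, mdlA_H]
    refine congrArg₂ _ ?_ (sum_congr rfl fun l _ => congrArg₂ _ ?_ ?_)
    · simp only [xs, dmap, Prod.map, h3]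
    · rw [← Equiv.sum_comp (Equiv.swap i i')]
      exact sum_congr rfl fun a _ => by rw [hr l _ a]; rfl
    · simp only [xs, dmap, Prod.map, h3]
      rfl
  · funext c c'
    simp [ss, spin]


end Vale.Agent.P166
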