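import Vale.Agent.P166.MdlA
import Vale.Agent.P166.DSC
import Vale.Agent.P166.DGI
import Vale.Agent.P166.FD
import Vale.Agent.P166.Tq
import Vale.Agent.P157.Grad

/-! The free energy of the spin glass with fields. -/

namespace Vale.Agent.P166

open MeasureTheory ProbabilityTheory Real Finset Matrix Filter Topology
open Vale.Agent.P157 (Sys St γ GS s0 YY mm pp sh DirD pull mrg Rg Sp νB xB)
open scoped ENNReal

variable {ι : Type} [Fintype ι] [DecidableEq ι] {k : ℕ} {c c' : ι → ℝ} {r u : ℕ → ι → ℝ}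

theorem mdlB_quad (c : ι → ℝ) : BM fun x : CF ι => (1 / 2) * ∑ i, c i * xs x i ^ 2 :=
  (BM.const _).mul (BM.sum _ fun i _ => (BM.const _).mul ((bm_xs i).comp (continuous_pow 2)))

theorem mdlB_Hu (c : ι → ℝ) (r u : ℕ → ι → ℝ) : (⟨c, r, u⟩ : Mdl ι).H k Empty = fun s =>
    (⟨c, r, 0⟩ : Mdl ι).H k Empty s + fld k (fx ι Empty) ((⟨c, 0, u⟩ : Mdl ι).w Empty) s := by
  funext s
  simp [Mdl.H, fld, fx, Mdl.w, Fintype.sum_sum_type, sum_add_distrib, add_assoc]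

theorem mdlB_Hr (c : ι → ℝ) (r u : ℕ → ι → ℝ) : (⟨c, r, u⟩ : Mdl ι).H k Empty = fun s =>
    (⟨c, 0, u⟩ : Mdl ι).H k Empty s + fld k (fx ι Empty) ((⟨c, r, 0⟩ : Mdl ι).w Empty) s := by
  funext s
  simp [Mdl.H, fld, fx, Mdl.w, Fintype.sum_sum_type, sum_add_distrib]
  ring

open Classical in
theorem mdlB_free (c : ι → ℝ) (u : ℕ → ι → ℝ) :
    Free k (fun i => ∀ j < k, (⟨c, 0, u⟩ : Mdl ι).w Empty j i = 0)
      ((⟨c, 0, u⟩ : Mdl ι).H k Empty) :=
  Mdl.free _ fun j hj _ hi => hi j hj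

omit [Fintype ι] [DecidableEq ι] in
theorem mdlB_w0 (c : ι → ℝ) (h0 : ∀ j < k, ∀ i, 0 ≤ r j i) :
    ∀ j < k, ∀ i, 0 ≤ (⟨c, r, 0⟩ : Mdl ι).w Empty j i := fun j hj i => by
  rcases i with (i | i) | a
  exacts [h0 j hj i, le_rfl, le_rfl]

theorem mdlB_w (c : ι → ℝ) (r u : ℕ → ι → ℝ) : ∀ j < k, ∀ i,
    ¬(∀ j < k, (⟨c, 0, u⟩ : Mdl ι).w Empty j i = 0) →
      (⟨c, r, 0⟩ : Mdl ι).w Empty j i = 0 ∨ ∀ x, fx ι Empty i x = 0 := fun j hj i hi => by
  rcases i with (i | i) | a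
  exacts [(hi fun _ _ => rfl).elim, Or.inl rfl, Or.inl rfl]

theorem mdlB_fld {I C : Type} [Fintype I] {e : I → C → ℝ} {B : I → ℝ} (hB : ∀ i x, |e i x| ≤ B i)
    (w w' : ℕ → I → ℝ) (s : St I C) : |fld k e w s - fld k e w' s| ≤
      (∑ j ∈ range k, ∑ i, |√(w j i) - √(w' j i)| * B i) * ∑ j ∈ range k, ∑ i, |s.2 j i| := by
  rw [fld, fld, ← sum_sub_distrib, sum_mul]
  refine (abs_sum_le_sum_abs _ _).trans (sum_le_sum fun j hj => ?_)
  rw [← sum_sub_distrib, sum_mul]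
  refine (abs_sum_le_sum_abs _ _).trans (sum_le_sum fun i _ => ?_)
  rw [← sub_mul, ← sub_mul, abs_mul, abs_mul]
  refine mul_le_mul (mul_le_mul_of_nonneg_left (hB i _) (abs_nonneg _)) ?_ (abs_nonneg _)
    (mul_nonneg (abs_nonneg _) ((abs_nonneg _).trans (hB i s.1)))
  exact (single_le_sum (f := fun i => |s.2 j i|) (fun _ _ => abs_nonneg _) (mem_univ i)).trans
    (single_le_sum (f := fun j => ∑ i, |s.2 j i|)
      (fun _ _ => sum_nonneg fun _ _ => abs_nonneg _) hj)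

theorem mdlB_ovs (M : Mdl ι) (hk : 0 < k) {j : ℕ} :
    ∑ i, M.tl k j (fun x y => ss x i * ss y i) = Fintype.card ι * M.tl k j ovs := by
  unfold Mdl.tl
  rw [← tl_sum hk (M.lin hk) univ fun i _ => bm_mul₂ (bm_ss i) (bm_ss i), ← tl_const_mul]
  refine congrArg _ (funext fun x => funext fun y => ?_)
  rcases isEmpty_or_nonempty ι with h | h
  · simp
  · rw [ovs, mul_div_cancel₀ _ (Nat.cast_ne_zero.2 Fintype.card_ne_zero)]

/-- the model without the auxiliary spin and coordinates -/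
noncomputable def mdlB_base (k : ℕ) (M : Mdl ι) (s : St (ι ⊕ ι) (O ι × (ι → Bool))) : ℝ :=
  (1 / 2) * ∑ i, M.c i * xs (s.1.1, s.1.2, true) i ^ 2 +
    fld k (fun i x => fx ι Empty (.inl i) (x.1, x.2, true)) (fun j i => M.w Empty j (.inl i)) s

theorem mdlB_base_eq (M : Mdl ι) {J : Type} [Fintype J] :
    M.H k J = fun s => mdlB_base k M (pull (Prod.map id Prod.fst) Sum.inl s) := by
  funext s
  simp [mdlA_H, mdlB_base, fld, fx, Mdl.w, Fintype.sum_sum_type, pull, xs, ss]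

theorem YM_reindex (hk : 0 < k) {ι' : Type} [Fintype ι'] [DecidableEq ι'] (E : ι ≃ ι')
    (M : Mdl ι') : YM k ⟨fun i => M.c (E i), fun j i => M.r j (E i), fun j i => M.u j (E i)⟩ =
      YM k M := by
  have he : Function.Injective (Sum.map (Sum.map E.symm E.symm) id :
      (ι' ⊕ ι') ⊕ Empty → (ι ⊕ ι) ⊕ Empty) :=
    (E.symm.injective.sumMap E.symm.injective).sumMap Function.injective_id
  have hh := DHom.of_inj (ν := nC ι') (ν' := nC ι) (mp_reO E)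
    ((mp_unif E.symm).prod (MeasurePreserving.id νB)) he
  refine Eq.trans (congrArg (YA k) (funext fun s => ?_)) (hh.YD_eq hk (M.lin hk))
  have h3 : ∀ U σ i, xc (reO E U) (fun a => σ (E.symm a)) (E i) = xc U σ i := fun U σ i => by
    rw [xc, xc, reO_mulVec]
    simp only [Equiv.symm_apply_apply]
    exact congrArg (fun x => ((U : Matrix ι ι ℝ) *ᵥ x) i) (funext fun a => by simp [spin])
  rw [mdlA_H, mdlA_H]
  simp only [← Equiv.sum_comp E, xs, ss, dmap, Prod.map, h3]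
  simp [spin]

theorem YM_congr {M M' : Mdl ι} (hc : M.c = M'.c) (hr : ∀ j < k, M.r j = M'.r j)
    (hu : ∀ j < k, M.u j = M'.u j) : YM k M = YM k M' := by
  refine congrArg (YA k) (funext fun s => ?_)
  rw [mdlA_H, mdlA_H, hc]
  exact congrArg _ (sum_congr rfl fun j hj => by
    rw [hr j (mem_range.1 hj), hu j (mem_range.1 hj)])

theorem YM_zero (hk : 0 < k) (c : ι → ℝ) : YM k ⟨c, 0, 0⟩ = Yk k c := by
  refine Eq.trans (congrArg (YA k) (funext fun s => ?_)) ((YD_cfg hk (mdlB_quad c)).trans ?_)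
  · simp [mdlA_H]
  · refine congrArg (fun f => (k : ℝ) * log (∫ d, exp (f d / k) ∂hO ι)) (funext fun U => ?_)
    refine congrArg log ((integral_fun_fst
      fun σ => exp ((1 / 2) * ∑ i, c i * xc U σ i ^ 2)).trans ?_)
    rw [probReal_univ, one_smul]

theorem YM_field (hk : 0 < k) (ρ : ℕ → ℝ) :
    YM k (⟨0, fun j _ => ρ j, 0⟩ : Mdl ι) = Fintype.card ι * YI k ρ := by
  have hφ : MeasurePreserving (fun (σ : (ι → Bool) × Bool) b => σ.1 b) (nC ι)
      (Measure.pi fun _ => νB) := by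
    rw [← unif_eq_pi]
    exact measurePreserving_fst
  have hH := P157.Rg.lin_Hv (ν := νB) (P157.sp_ok P157.spin_B le_rfl) hk fun j _ => ρ j
  have h1 := P157.YY_sum hk (φ := fun (b : ι) (σ : (ι → Bool) × Bool) => σ.1 b)
    (e := fun b (_ : Unit) => (.inl (.inl b) : (ι ⊕ ι) ⊕ Empty)) hφ
    (fun p q h => Prod.ext (Sum.inl_injective (Sum.inl_injective h)) rfl) fun _ => hH
  have h2 := YD_forget (νD := hO ι) hk (Sys.Lin.sum (P157.gs_ok hk) univ fun (b : ι) _ =>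
    P157.lin_pull (e := fun _ : Unit => (.inl (.inl b) : (ι ⊕ ι) ⊕ Empty)) hk
      ((measurePreserving_eval _ b).comp hφ) (fun _ _ _ => rfl) hH)
  rw [sum_const, card_univ, nsmul_eq_mul] at h1
  refine Eq.trans (congrArg (YA k) (funext fun s => ?_)) (h2.trans h1)
  simp only [mdlA_H, P157.GradAux.Hv_Sp]
  simp only [Pi.zero_apply, zero_mul, sum_const_zero, mul_zero, zero_add, sqrt_zero, add_zero,
    univ_unique, sum_singleton]
  exact sum_comm

theorem YM_mono_c (hk : 0 < k) {δ : ℝ} (h : ∀ i, c i ≤ c' i + δ) :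
    YM k ⟨c, r, u⟩ ≤ YM k ⟨c', r, u⟩ + δ * Fintype.card ι / 2 := by
  refine (YD_mono hk (Mdl.lin _ hk) ((Mdl.lin ⟨c', r, u⟩ hk).add (Sys.Lin.const (ds_ok hk) _))
    fun s => ?_).trans_eq (YD_add_const hk (Mdl.lin _ hk) _)
  have h1 : ∑ i, c i * xs s.1 i ^ 2 ≤ ∑ i, (c' i + δ) * xs s.1 i ^ 2 :=
    sum_le_sum fun i _ => mul_le_mul_of_nonneg_right (h i) (sq_nonneg _)
  simp only [add_mul, sum_add_distrib, ← mul_sum, sum_xs_sq] at h1
  simp only [mdlA_H]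
  linarith

theorem YM_u (hk : 0 < k) {τ : ℝ} (h0 : ∀ j < k, ∀ i, 0 ≤ u j i)
    (h : ∀ i, ∑ j ∈ range k, u j i ≤ τ) : YM k ⟨c, r, 0⟩ ≤ YM k ⟨c, r, u⟩ ∧
      YM k ⟨c, r, u⟩ ≤ YM k ⟨c, r, 0⟩ + τ * Fintype.card ι / 2 := by
  classical
  have hp := Mdl.free (J := Empty) (k := k) ⟨c, r, 0⟩ (p := fun i => ∀ j < k,
    (⟨c, r, 0⟩ : Mdl ι).w Empty j i = 0) fun j hj i hi => hi j hj
  have hw0 : ∀ j < k, ∀ i, 0 ≤ (⟨c, 0, u⟩ : Mdl ι).w Empty j i := fun j hj i => by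
    rcases i with (i | i) | a
    exacts [le_rfl, h0 j hj i, le_rfl]
  have hw : ∀ j < k, ∀ i, ¬(∀ j < k, (⟨c, r, 0⟩ : Mdl ι).w Empty j i = 0) →
      (⟨c, 0, u⟩ : Mdl ι).w Empty j i = 0 ∨ ∀ x, fx ι Empty i x = 0 := fun j hj i hi => by
    rcases i with (i | i) | a
    exacts [Or.inl rfl, (hi fun _ _ => rfl).elim, Or.inl rfl]
  have hl := Mdl.lin (J := Empty) ⟨c, r, 0⟩ hk
  rw [YM, YM, mdlB_Hu c r u]
  refine ⟨YD_le_fld hk hl hp bm_fx hw0 hw, (YD_fld_le hk hl hp bm_fx hw0 hw).trans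
    ((YD_mono hk (hl.add (BM.lin hk ((bm_fvar bm_fx _).mul (BM.const 2⁻¹))))
      (hl.add (Sys.Lin.const (ds_ok hk) _)) fun s => ?_).trans_eq (YD_add_const hk hl _))⟩
  have h1 : ∑ i, (∑ j ∈ range k, u j i) * xs s.1 i ^ 2 ≤ ∑ i, τ * xs s.1 i ^ 2 :=
    sum_le_sum fun i _ => mul_le_mul_of_nonneg_right (h i) (sq_nonneg _)
  have h2 : fvar k (fx ι Empty) ((⟨c, 0, u⟩ : Mdl ι).w Empty) s.1 =
      ∑ i, (∑ j ∈ range k, u j i) * xs s.1 i ^ 2 := by
    simp only [sum_mul]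
    rw [sum_comm]
    simp [fvar, fx, Mdl.w, Fintype.sum_sum_type]
  rw [← mul_sum, sum_xs_sq] at h1
  rw [h2]
  linarith

theorem YM_r (hk : 0 < k) (h0 : ∀ j < k, ∀ i, 0 ≤ r j i) : YM k ⟨c, 0, u⟩ ≤ YM k ⟨c, r, u⟩ := by
  classical
  rw [YM, YM, mdlB_Hr c r u]
  exact YD_le_fld hk (Mdl.lin _ hk) (mdlB_free c u) bm_fx (mdlB_w0 c h0) (mdlB_w c r u)

theorem YM_cont (hk : 0 < k) {τ : Type*} {F : Filter τ} {Mt : τ → Mdl ι} {M : Mdl ι}
    (hc : ∀ i, Tendsto (fun t => (Mt t).c i) F (𝓝 (M.c i)))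
    (hr : ∀ j < k, ∀ i, Tendsto (fun t => (Mt t).r j i) F (𝓝 (M.r j i)))
    (hu : ∀ j < k, ∀ i, Tendsto (fun t => (Mt t).u j i) F (𝓝 (M.u j i))) :
    Tendsto (fun t => YM k (Mt t)) F (𝓝 (YM k M)) := by
  choose B hB using fun i => (bm_fx (ι := ι) (J := Empty) i).2
  have hw : ∀ j < k, ∀ i, Tendsto (fun t => (Mt t).w Empty j i) F (𝓝 (M.w Empty j i)) :=
    fun j hj i => by
      rcases i with (i | i) | a
      exacts [hr j hj i, hu j hj i, tendsto_const_nhds]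
  have h1 : Tendsto (fun t => ∑ i, |(Mt t).c i - M.c i| * Fintype.card ι + ∑ j ∈ range k, ∑ i,
      |√((Mt t).w Empty j i) - √(M.w Empty j i)| * B i) F (𝓝 (∑ i, |M.c i - M.c i| *
        Fintype.card ι + ∑ j ∈ range k, ∑ i, |√(M.w Empty j i) - √(M.w Empty j i)| * B i)) :=
    (tendsto_finsetSum _ fun i _ => ((hc i).sub_const _).abs.mul_const _).add
      (tendsto_finsetSum _ fun j hj => tendsto_finsetSum _ fun i _ =>
        ((hw j (mem_range.1 hj) i).sqrt.sub_const _).abs.mul_const _)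
  simp only [sub_self, abs_zero, zero_mul, sum_const_zero, add_zero] at h1
  refine Sys.X_tendsto (ds_ok hk) ds_mono.2 (M.lin hk) h1
    (Eventually.of_forall fun t => ⟨((Mt t).lin hk).1, fun s => ?_⟩) _ _ _
  have h2 := mdlB_fld (k := k) hB ((Mt t).w Empty) (M.w Empty) s
  have h3 : |∑ i, (Mt t).c i * xs s.1 i ^ 2 - ∑ i, M.c i * xs s.1 i ^ 2| ≤
      ∑ i, |(Mt t).c i - M.c i| * Fintype.card ι := by
    rw [← sum_sub_distrib]
    refine (abs_sum_le_sum_abs _ _).trans (sum_le_sum fun i _ => ?_)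
    rw [← sub_mul, abs_mul, abs_sq]
    exact mul_le_mul_of_nonneg_left (by simpa using mdlA_sub {i} s.1) (abs_nonneg _)
  have h4 : 0 ≤ ∑ j ∈ range k, ∑ i, |√((Mt t).w Empty j i) - √(M.w Empty j i)| * B i :=
    sum_nonneg fun j _ => sum_nonneg fun i _ =>
      mul_nonneg (abs_nonneg _) ((abs_nonneg _).trans (hB i s.1))
  have h5 : 0 ≤ ∑ j ∈ range k, ∑ i, |s.2 j i| :=
    sum_nonneg fun j _ => sum_nonneg fun i _ => abs_nonneg _
  have h6 := mul_nonneg ((abs_nonneg _).trans h3) h5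
  show _ ≤ _ * (1 + ∑ j ∈ range k, ∑ i, |s.2 j i|)
  rw [Mdl.H, Mdl.H, abs_le] at *
  constructor <;> nlinarith


theorem YM_deriv (hk : 0 < k) (M : Mdl ι) (c' : ι → ℝ) (ρ : ℕ → ℝ)
    (hr : ∀ j < k, ∀ i, 0 < M.r j i) :
    HasDerivAt (fun t => YM k ⟨fun i => M.c i + t * c' i, fun j i => M.r j i + t * ρ j, M.u⟩)
      ((1 / 2) * ∑ i, c' i * M.tl k (k - 1) (fun x y => xs x i * xs y i) +
        (1 / 2) * Fintype.card ι * ∑ j ∈ range k, ρ j * M.tl k j ovs) 0 := by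
  have h1 := fld_deriv (νD := hO ι) (ν := nC ι) (p := fun _ => True) hk
    (BM.lin hk (mdlB_quad M.c))
    (Free.cfg fun x : CF ι => (1 / 2) * ∑ i, M.c i * xs x i ^ 2) (mdlB_quad c') (bm_fx (J := Empty))
    (w := M.w Empty) (w' := (⟨0, fun j _ => ρ j, 0⟩ : Mdl ι).w Empty) fun j hj i hi => by
      rcases i with (i | i) | a
      exacts [⟨hr j hj i, trivial⟩, (hi rfl).elim, (hi rfl).elim]
  refine (h1.congr_deriv ?_).congr_of_eventuallyEq (Eventually.of_forall fun t =>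
    congrArg (YA k) (funext fun s => ?_))
  · have h2 := tl_last (νD := hO ι) (ν := nC ι) (H := M.H k Empty) hk
      (G := fun x y => (1 / 2) * ∑ i, c' i * (xs x i * xs y i))
    rw [tl_const_mul, tl_sum hk (M.lin hk) univ fun i _ =>
      (BM.const _).mul (bm_mul₂ (bm_xs i) (bm_xs i))] at h2
    simp only [tl_const_mul, ← sq] at h2
    refine congrArg₂ _ h2.symm ?_
    rw [mul_assoc, mul_sum (range k) _ (Fintype.card ι : ℝ)]
    refine congrArg _ (sum_congr rfl fun j _ => ?_)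
    rw [mul_left_comm, ← mdlB_ovs M hk, mul_sum]
    simp only [Fintype.sum_sum_type, Mdl.w, Sum.elim_inl, Sum.elim_inr, Pi.zero_apply, zero_mul,
      sum_const_zero, add_zero]
    rfl
  · have h2 : (⟨fun i => M.c i + t * c' i, fun j i => M.r j i + t * ρ j, M.u⟩ : Mdl ι).w Empty =
        fun j i => M.w Empty j i + t * (⟨0, fun j _ => ρ j, 0⟩ : Mdl ι).w Empty j i := by
      funext j i
      rcases i with (i | i) | a <;> simp [Mdl.w]
    rw [Mdl.H, h2]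
    simp only [add_mul, sum_add_distrib, mul_assoc, ← mul_sum]
    ring


/-- a small field on the spins at one level -/
theorem fd_spin : ∃ C > (0 : ℝ), ∀ {ι : Type} [Fintype ι] [DecidableEq ι] {k j : ℕ} (c w : ι → ℝ)
    (u : ℕ → ι → ℝ) (t : ℝ), j < k → (∀ i, 0 ≤ w i) → ∑ i, w i ≤ 1 → 0 ≤ t → t ≤ 1 →
    |YM k ⟨c, fun j' i => one j t j' * w i, u⟩ - YM k ⟨c, 0, u⟩ - t / 2 * ∑ i, w i *
      (⟨c, 0, u⟩ : Mdl ι).tl k j fun x y => ss x i * ss y i| ≤ C * t * √(√t) := by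
  classical
  obtain ⟨C, hC, h⟩ := fd
  refine ⟨C, hC, fun {ι} _ _ {k j} c w u t hj hw hw1 h0 h1 => ?_⟩
  have hk : 0 < k := by omega
  have h2 := h (νD := hO ι) (ν := nC ι) (lam := √t) (a := fun _ => 0)
    (e := Sum.elim (Sum.elim (fun i x => √(w i) * ss x i) fun _ _ => 0) fun _ _ => 0) hj
    (Mdl.lin (J := Empty) ⟨c, 0, u⟩ hk) (mdlB_free c u) nc_id (BM.const 0)
    (fun i => by
      rcases i with (i | i) | a
      exacts [(BM.const _).mul (bm_ss i), BM.const 0, BM.const 0])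
    (fun i hi x => by
      rcases i with (i | i) | a
      exacts [(hi fun _ _ => rfl).elim, rfl, rfl])
    (fun x => by simpa [Fintype.sum_sum_type, mul_pow, ss_sq, sq_sqrt (hw _)] using hw1)
    (sqrt_nonneg t) (by rwa [one_mul, sqrt_le_one])
  have h3 : ∀ s : AT ι Empty, (⟨c, fun j' i => one j t j' * w i, u⟩ : Mdl ι).H k Empty s =
      (⟨c, 0, u⟩ : Mdl ι).H k Empty s + √t * ∑ i, √(w i) * ss s.1 i * s.2 j (.inl (.inl i)) :=
    fun s => by
      rw [mdlB_Hr]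
      beta_reduce
      rw [fld, sum_eq_single_of_mem j (mem_range.2 hj) fun j' _ hj' => by
        simp [Fintype.sum_sum_type, Mdl.w, one, hj']]
      simp [Fintype.sum_sum_type, Mdl.w, fx, one, sqrt_mul h0, mul_sum, mul_assoc]
  have h4 : ∀ i (x y : CF ι), √(w i) * ss x i * (√(w i) * ss y i) = w i * (ss x i * ss y i) :=
    fun i x y => by rw [mul_mul_mul_comm, mul_self_sqrt (hw i)]
  simp only [id, zero_add, add_zero, mul_zero, mul_one, one_pow, integral_zero, sq_sqrt h0,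
    Fintype.sum_sum_type, Sum.elim_inl, Sum.elim_inr, zero_mul, sum_const_zero, h4] at h2
  rw [tl_sum hk (Mdl.lin _ hk) univ fun i _ => (BM.const _).mul (bm_mul₂ (bm_ss i) (bm_ss i))] at h2
  simp only [tl_const_mul] at h2
  rw [YM, funext h3]
  exact h2


/-- synchronisation survives a bounded total field on the spins -/
theorem serr_field (P ε : ℝ) (hε : 0 < ε) : ∃ δ > (0 : ℝ), ∀ {ι : Type} [Fintype ι]
    [DecidableEq ι] {k : ℕ} (c : ι → ℝ) (r u : ℕ → ι → ℝ) (B : Finset ι) (A : ℕ → ℝ), 0 < k →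
    (Fintype.card ι : ℝ) ≤ P * B.card → IsPath k P A → (∀ j < k, ∀ i, 0 ≤ r j i) →
    ∑ j ∈ range k, ∑ i, r j i ≤ 1 → (⟨c, 0, u⟩ : Mdl ι).serr k (ovx B) A ≤ δ →
    (⟨c, r, u⟩ : Mdl ι).serr k (ovx B) A ≤ ε := by
  classical
  obtain ⟨δ, hδ, h⟩ := serr_dl P (2 * exp 8) ε hε
  refine ⟨δ, hδ, fun {ι} _ _ {k} c r u B A hk hP hA h0 h1 => ?_⟩
  have hP0 : 0 ≤ P := hA.1.ge.trans ((hA.2.1 (Nat.zero_le k)).trans hA.2.2)
  have hl := Mdl.lin (J := Empty) ⟨c, 0, u⟩ hk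
  have := mD_prob hk hl
  refine h hk hl (Mdl.lin _ hk) (bm_ovx B).1 (abs_ovx_le hP hP0) hA ?_
  have h2 := exp_fld_le hk hl (mdlB_free c u) bm_fx (mdlB_w0 c h0) (mdlB_w c r u) (BM.const 0) 4
  have h3 : ∀ x, fvar k (fx ι Empty) ((⟨c, r, 0⟩ : Mdl ι).w Empty) x = ∑ j ∈ range k, ∑ i, r j i :=
    fun x => by simp [fvar, fx, Mdl.w, Fintype.sum_sum_type, ss_sq]
  simp only [h3, add_zero, integral_const, probReal_univ, one_smul] at h2
  simp only [mdlB_Hr c r u, add_sub_cancel_left]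
  exact h2.trans (mul_le_mul_of_nonneg_left (exp_le_exp.2 (by linarith)) zero_le_two)


/-- an independent system built on the auxiliary spin and coordinates -/
theorem YM_add_aux (hk : 0 < k) (M : Mdl ι) {J J2 : Type} [Fintype J] [Fintype J2] {e : J2 → J}
    (he : Function.Injective e) {H2 : St J2 Bool → ℝ} (hH2 : (GS k J2 νB).Lin H2) :
    YA k (fun s : AT ι J => M.H k J s + H2 (s.1.2.2, fun j a => s.2 j (.inr (e a)))) =
      YM k M + YY k νB H2 := by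
  have hm : Measurable fun x : O ι × (ι → Bool) => ((x.1, x.2, true) : CF ι) := by fun_prop
  have hl : (DS k (ι ⊕ ι) (hO ι) (unif ι)).Lin (mdlB_base k M) :=
    (BM.lin hk ((mdlB_quad M.c).comp_right hm)).add
      (lin_fld hk (fun i => (bm_fx (.inl i)).comp_right hm) _)
  have h1 := YD_add2 (ν' := nC ι) (φ := Prod.fst) (φ2 := Prod.snd)
    (e := (Sum.inl : _ → (ι ⊕ ι) ⊕ J)) (e2 := fun a => .inr (e a)) hk (MeasurePreserving.id _)
    (Function.injective_id.sumMap he) hl hH2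
  have h2 := (DHom.of_inj (ν' := nC ι) (e := (Sum.inl : _ → (ι ⊕ ι) ⊕ Empty))
    (MeasurePreserving.id (hO ι)) measurePreserving_fst Sum.inl_injective).YD_eq hk hl
  rw [← h2] at h1
  rw [YM, mdlB_base_eq M, mdlB_base_eq M]
  exact h1


end Vale.Agent.P166
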