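import Vale.Agent.P166.CavA
import Vale.Agent.P166.TR
import Vale.Agent.P166.LA

/-! The system with one more site as a cavity system. -/

namespace Vale.Agent.P166

open MeasureTheory ProbabilityTheory Real Finset Matrix Filter Topology
open Vale.Agent.P157 (Sys St γ GS s0 YY mm pp sh DirD pull mrg Rg Sp νB xB)
open scoped ENNReal

section Fix

variable {ι α : Type} [Fintype ι] [DecidableEq ι] [Fintype α] [DecidableEq α]

/-- the Hamiltonian of the larger system for the rotation `V * embO U`, on the ambient space -/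
noncomputable def HV (k : ℕ) (top : α) (M' : Mdl (Option ι)) (V : O (Option ι))
    (s : AT ι (α ⊕ Unit)) : ℝ :=
  M'.H k Empty ((V * embO s.1.1, fun i => i.elim s.1.2.2 s.1.2.1, true), fun j =>
    Sum.elim (Sum.elim
      (fun i => i.elim (s.2 j (.inr (.inr ()))) fun i => s.2 j (.inl (.inl i)))
      fun i => i.elim (s.2 j (.inr (.inl top))) fun i => s.2 j (.inl (.inr i))) Empty.elim)

/-- the coordinates of the larger system inside the ambient space -/
def nrE (top : α) : (Option ι ⊕ Option ι) ⊕ Empty → (ι ⊕ ι) ⊕ (α ⊕ Unit) :=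
  Sum.elim (Sum.elim (fun i => i.elim (.inr (.inr ())) fun i => .inl (.inl i))
    fun i => i.elim (.inr (.inl top)) fun i => .inl (.inr i)) Empty.elim

omit [Fintype ι] [DecidableEq ι] [Fintype α] [DecidableEq α] in
theorem nrE_inj (top : α) : Function.Injective (nrE (ι := ι) top) := by
  rintro (((_ | i) | (_ | i)) | e) (((_ | i') | (_ | i')) | e') <;>
    first | exact e.elim | exact e'.elim | simp [nrE]

omit [Fintype α] [DecidableEq α] in
theorem HV_eq (k : ℕ) (top : α) (M' : Mdl (Option ι)) (V : O (Option ι)) (s : AT ι (α ⊕ Unit)) :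
    HV k top M' V s = M'.H k Empty ((V * embO s.1.1, fun i => i.elim s.1.2.2 s.1.2.1, true),
      fun j i => s.2 j (nrE top i)) := by
  unfold HV
  congr 2
  funext j i
  rcases i with ((_ | i) | (_ | i)) | e
  exacts [rfl, rfl, rfl, rfl, e.elim]

theorem nr_dummy {J : Type} [Fintype J] (M : Mdl ι) (k : ℕ) (s : AT ι J) (ε : Bool) :
    M.H k J ((s.1.1, s.1.2.1, ε), s.2) = M.H k J s := by
  unfold Mdl.H fld
  congr 1
  refine sum_congr rfl fun j _ => sum_congr rfl fun i _ => ?_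
  rcases i with (i | i) | a <;> rfl

/-- the Hamiltonian without the auxiliary spin -/
noncomputable def nrH (k : ℕ) (M : Mdl ι) (s : St ((ι ⊕ ι) ⊕ Empty) (O ι × (ι → Bool))) : ℝ :=
  M.H k Empty ((s.1.1, s.1.2, true), s.2)

theorem nrH_lin {k : ℕ} (hk : 0 < k) (M : Mdl ι) :
    (DS k ((ι ⊕ ι) ⊕ Empty) (hO ι) (unif ι)).Lin (nrH k M) := by
  obtain ⟨hm, C, hC⟩ := M.lin (J := Empty) hk
  exact ⟨hm.comp (by fun_prop), C, fun s => hC _⟩

theorem nrH_YM {k : ℕ} (hk : 0 < k) (M : Mdl ι) : YM k M = YD k (hO ι) (unif ι) (nrH k M) := by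
  have h := (DHom.of_inj (I := (ι ⊕ ι) ⊕ Empty) (νD' := hO ι) (ν' := nC ι) (ν := unif ι)
    (MeasurePreserving.id _) measurePreserving_fst Function.injective_id).YD_eq hk (nrH_lin hk M)
  rw [← h]
  exact congrArg _ (funext fun s => (nr_dummy M k s true).symm)

omit [DecidableEq α] in
theorem nr_hom (top : α) : DHom ((hO (Option ι)).prod (hO ι)) (nC ι) (hO (Option ι))
    (unif (Option ι)) (fun z : (O (Option ι) × O ι) × ((ι ⊕ ι) ⊕ (α ⊕ Unit) → ℝ) =>
      z.1.1 * embO z.1.2) (fun σ i => i.elim σ.2 σ.1) fun z i => z (nrE top i) :=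
  DHom.of_inj mp_emb mp_unif_elim (nrE_inj top)

omit [DecidableEq α] in
theorem lin_HV {k : ℕ} (hk : 0 < k) (top : α) (M' : Mdl (Option ι)) (V : O (Option ι)) :
    (AS k ι (α ⊕ Unit)).Lin (HV k top M' V) := by
  obtain ⟨hm, C, hC⟩ := (nr_hom (ι := ι) top).lin hk (nrH_lin hk M')
  rw [funext (HV_eq k top M' V)]
  exact ⟨hm.comp (f := fun s : AT ι (α ⊕ Unit) => (((V, s.1.1), s.1.2), s.2)) (by fun_prop), C,
    fun s => hC (((V, s.1.1), s.1.2), s.2)⟩

omit [DecidableEq α] in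
theorem YM_mix {k : ℕ} (hk : 0 < k) (top : α) (M' : Mdl (Option ι)) :
    (Measurable fun V => YA k (HV k top M' V)) ∧
    YM k M' = k * log (∫ V, exp (YA k (HV k top M' V) / k) ∂hO (Option ι)) := by
  have h1 := mix hk (hO (Option ι)) ((nr_hom (ι := ι) top).lin hk (nrH_lin hk M'))
  rw [(nr_hom (ι := ι) top).YD_eq hk (nrH_lin hk M'), ← nrH_YM hk] at h1
  simp only [funext (HV_eq k top M' _)]
  exact h1

omit [DecidableEq α] in
theorem YA_HV_right {k : ℕ} (hk : 0 < k) (top : α) (M' : Mdl (Option ι)) (V : O (Option ι))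
    (T : O ι) : YA k (HV k top M' (V * embO T)) = YA k (HV k top M' V) := by
  refine Eq.trans (congrArg _ (funext fun s => ?_)) ((DHom.of_inj (I := (ι ⊕ ι) ⊕ (α ⊕ Unit))
    (mp_mul_left T) (MeasurePreserving.id (nC ι)) Function.injective_id).YD_eq hk
    (lin_HV hk top M' V))
  rw [HV_eq, HV_eq, mul_assoc, ← embO_mul]
  rfl

omit [DecidableEq α] in
theorem YA_HV_left {k : ℕ} (hk : 0 < k) (top : α) (M' : Mdl (Option ι)) (V S : O (Option ι))
    (hS : ∀ i i', (S : Matrix (Option ι) (Option ι) ℝ) i i' ≠ 0 →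
      M'.c i = M'.c i' ∧ ∀ j, M'.u j i = M'.u j i') :
    YA k (HV k top M' (S * V)) = YA k (HV k top M' V) := by
  obtain ⟨L, h1, h2, h3, h4, h5⟩ := mp_rot_sub (c := fun i : Option ι => nrE top (.inl (.inr i)))
    ((nrE_inj top).comp (Sum.inl_injective.comp Sum.inr_injective)) S
  refine Eq.trans ((DHom.of_prod (MeasurePreserving.id (hO ι)) (MeasurePreserving.id (nC ι))
    h1 h2 h3).YD_eq hk (lin_HV hk top M' (S * V))).symm (congrArg _ (funext fun s => ?_))
  rw [HV_eq, HV_eq, mul_assoc]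
  refine Eq.trans ?_ (H_rotA M' hS _)
  congr 1
  refine Prod.ext rfl (funext fun j => funext fun i => ?_)
  rcases i with (i | i) | e
  · refine h5 _ _ ?_
    rintro ⟨i', hi⟩
    simpa using nrE_inj top hi
  · exact h4 _ _
  · exact e.elim

theorem nr_fld {J : Type} [Fintype J] {k : ℕ} (hk : 0 < k) {p : (ι ⊕ ι) ⊕ J → Prop}
    [DecidablePred p] {H : AT ι J → ℝ} (hH : (AS k ι J).Lin H) (hp : Free k p H)
    {e : (ι ⊕ ι) ⊕ J → CF ι → ℝ} (he : ∀ i, BM (e i)) {w : ℕ → (ι ⊕ ι) ⊕ J → ℝ}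
    (hw0 : ∀ j i, 0 ≤ w j i) (hw : ∀ j i, ¬p i → w j i = 0) {Q : CF ι → ℝ} (hQ : BM Q)
    (hv : ∀ c, fvar k e w c / 2 ≤ Q c) :
    YA k H ≤ YA k (fun s => H s + fld k e w s) ∧
      YA k (fun s => H s + fld k e w s) ≤ YA k fun s => H s + Q s.1 := by
  refine ⟨YD_le_fld hk hH hp he (fun j _ => hw0 j) fun j _ i hi => Or.inl (hw j i hi),
    (YD_fld_le hk hH hp he (fun j _ => hw0 j) fun j _ i hi => Or.inl (hw j i hi)).trans
    (YD_mono hk (hH.add ?_) (hH.add (hQ.lin hk)) fun s => add_le_add_right (hv _) _)⟩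
  exact ((bm_fvar he w).comp (F := fun x => x / 2) (by fun_prop)).lin hk

/-- the target column -/
noncomputable def nrC (ℓ : ι → α) (o : α → ι) (ϖ : α → ℝ) (i : ι) : ℝ :=
  if o (ℓ i) = i then ϖ (ℓ i) else 0

omit [DecidableEq α] [DecidableEq ι] in
theorem nr_sum {ℓ : ι → α} {o : α → ι} (ho : ∀ a, ℓ (o a) = a) {f : ι → ℝ}
    (hf : ∀ i, o (ℓ i) ≠ i → f i = 0) : ∑ i, f i = ∑ a, f (o a) := by
  classical
  refine (Finset.sum_of_injOn o (fun a _ b _ h => by rw [← ho a, h, ho]) (fun _ _ => mem_univ _)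
    (fun i _ hi => hf i fun h => hi ⟨ℓ i, by simp, h⟩) fun _ _ => rfl).symm

omit [Fintype ι] [Fintype α] [DecidableEq α] in
theorem nrC_o {ℓ : ι → α} {o : α → ι} (ho : ∀ a, ℓ (o a) = a) (ϖ : α → ℝ) (a : α) :
    nrC ℓ o ϖ (o a) = ϖ a := by simp [nrC, ho]

omit [Fintype ι] [DecidableEq α] in
theorem nr_mem {ℓ : ι → α} {o : α → ι} (ho : ∀ a, ℓ (o a) = a) (i : ι) :
    i ∈ univ.image o ↔ o (ℓ i) = i := by
  refine ⟨fun h => ?_, fun h => mem_image.2 ⟨_, mem_univ _, h⟩⟩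
  obtain ⟨a, -, rfl⟩ := mem_image.1 h
  rw [ho]

/-- reduction to the reflection -/
theorem nr_refl {k : ℕ} (hk : 0 < k) (top : α) (ℓ : ι → α) (e : α → ℝ) (b : ℝ) (y : ℕ → ℝ)
    (r : ℕ → ι → ℝ) (a' : α) (t : ℕ → ℝ) {o : α → ι} (ho : ∀ a, ℓ (o a) = a) (V : O (Option ι))
    {ϖ : α → ℝ} (hϖ : ∀ a, ϖ a ^ 2 = ∑ i ∈ blkL (fun i : Option ι => i.elim a' ℓ) a,
      (V : Matrix (Option ι) (Option ι) ℝ) i none ^ 2) :
    ∑ a, ϖ a ^ 2 = 1 ∧ ∃ R : O (Option ι),
      YA k (HV k top (newM top ℓ e b y r a' t) V) = YA k (HV k top (newM top ℓ e b y r a' t) R) ∧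
      ∀ x : Option ι → ℝ, (R : Matrix (Option ι) (Option ι) ℝ) *ᵥ x = fun i =>
        i.elim (∑ a, ϖ a * x (some (o a))) fun i =>
          x (some i) + (x none - ∑ a, ϖ a * x (some (o a))) * nrC ℓ o ϖ i := by
  have hcol : (V : Matrix (Option ι) (Option ι) ℝ) *ᵥ Pi.single none 1 =
      fun i => (V : Matrix (Option ι) (Option ι) ℝ) i none := by
    funext i
    simp [mulVec_single]
  have h1 : ∑ a, ϖ a ^ 2 = 1 := by
    have h := O.dot V (Pi.single none 1) (Pi.single none 1)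
    rw [hcol] at h
    simp only [hϖ, blkL]
    rw [sum_fiberwise]
    simpa [dotProduct, sq, Pi.single_apply] using h
  have hs : ∀ f : ι → ℝ, ∑ i, nrC ℓ o ϖ i * f i = ∑ a, ϖ a * f (o a) := fun f => by
    rw [nr_sum ho fun i hi => by simp [nrC, hi]]
    simp only [nrC_o ho]
  set c0 : Option ι → ℝ := fun i => i.elim 0 (nrC ℓ o ϖ) with hc0
  obtain ⟨R, hR⟩ := exists_refl_mulVec (Pi.single none 1 - c0)
  have hd : ∀ x : Option ι → ℝ, (Pi.single none 1 - c0) ⬝ᵥ x =
      x none - ∑ a, ϖ a * x (some (o a)) := fun x => by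
    rw [sub_dotProduct, single_dotProduct, one_mul, dotProduct, Fintype.sum_option,
      ← hs fun i => x (some i)]
    simp [hc0]
  have hdd : (Pi.single none 1 - c0) ⬝ᵥ (Pi.single none 1 - c0) = 2 := by
    rw [hd]
    simp only [hc0, Pi.sub_apply, Pi.single_eq_same, Option.elim_none, Option.elim_some, nrC_o ho,
      ne_eq, reduceCtorEq, not_false_eq_true, Pi.single_eq_of_ne, zero_sub, mul_neg,
      sum_neg_distrib, ← sq, h1]
    norm_num
  have hR' : ∀ x : Option ι → ℝ, (R : Matrix (Option ι) (Option ι) ℝ) *ᵥ x = fun i =>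
      i.elim (∑ a, ϖ a * x (some (o a))) fun i =>
        x (some i) + (x none - ∑ a, ϖ a * x (some (o a))) * nrC ℓ o ϖ i := fun x => by
    funext i
    rw [hR, hdd, hd]
    rcases i with _ | i <;> simp [hc0]
  obtain ⟨S, hS, hSc⟩ := exists_blk (fun i : Option ι => i.elim a' ℓ) (w := c0)
    (w' := fun i => (V : Matrix (Option ι) (Option ι) ℝ) i none) fun a => by
      rw [← hϖ, sum_eq_single (some (o a))]
      · simp [hc0, nrC_o ho]
      · rintro (_ | i) hi hne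
        · simp [hc0]
        · have : ℓ i = a := by simpa [blkL] using hi
          have : o (ℓ i) ≠ i := fun h => hne (by rw [← this, h])
          simp [hc0, nrC, this]
      · intro h
        exact absurd (by simp [blkL, ho]) h
  have hRe : (R : Matrix (Option ι) (Option ι) ℝ) *ᵥ Pi.single none 1 = c0 := by
    rw [hR']
    funext i
    rcases i with _ | i <;> simp [hc0]
  obtain ⟨T, hT⟩ := exists_embO ((S * R)⁻¹ * V) (by
    rw [O.mul_mulVec, hcol, ← hSc, ← hRe, ← O.mul_mulVec S R, O.inv_mulVec])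
  refine ⟨h1, R, ?_, hR'⟩
  have hV : V = S * (R * embO T) := by rw [← hT]; group
  rw [hV, YA_HV_left hk top _ _ S fun i i' h => by
    have := hS i i' h
    simp only [newM, mkM, this, implies_true, and_self], YA_HV_right hk]

/-- the relabelled model without the fields on the special coordinates -/
noncomputable def nrM (top : α) (ℓ : ι → α) (e : α → ℝ) (b : ℝ) (y : ℕ → ℝ) (r : ℕ → ι → ℝ)
    (o : α → ι) : Mdl ι :=
  ⟨(mkM top (upL top ℓ (univ.image o)) e b y r).c, r, fun j i =>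
    if i ∈ univ.image o then 0 else (mkM top (upL top ℓ (univ.image o)) e b y r).u j i⟩

/-- the special coordinates -/
def nrP (o : α → ι) : (ι ⊕ ι) ⊕ (α ⊕ Unit) → Prop :=
  Sum.elim (Sum.elim (fun _ => False) fun i => i ∈ univ.image o)
    (Sum.elim (fun _ => True) fun _ => False)

noncomputable def nrW0 (y : ℕ → ℝ) (o : α → ι) (j : ℕ) : (ι ⊕ ι) ⊕ (α ⊕ Unit) → ℝ :=
  Sum.elim (Sum.elim (fun _ => 0) fun i => if i ∈ univ.image o then y j ^ 2 else 0) fun _ => 0

noncomputable def nrW1 (top a' : α) (y : ℕ → ℝ) (o : α → ι) (j : ℕ) : (ι ⊕ ι) ⊕ (α ⊕ Unit) → ℝ :=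
  Sum.elim (Sum.elim (fun _ => 0) fun i => if i = o top then y j ^ 2 else 0)
    (Sum.elim (fun a => if a = top ∧ a' = top then y j ^ 2 else 0) fun _ => 0)

noncomputable def nrEta (ϖ : α → ℝ) (o : α → ι) (c : CF ι) : ℝ := ∑ a, ϖ a * xs c (o a)

noncomputable def nrX (ℓ : ι → α) (ϖ : α → ℝ) (o : α → ι) (i : ι) (c : CF ι) : ℝ :=
  xs c i + (es c - nrEta ϖ o c) * nrC ℓ o ϖ i

noncomputable def nrF (ℓ : ι → α) (ϖ : α → ℝ) (o : α → ι) : (ι ⊕ ι) ⊕ (α ⊕ Unit) → CF ι → ℝ :=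
  Sum.elim (Sum.elim (fun _ _ => 0) (nrX ℓ ϖ o)) fun _ => nrEta ϖ o

noncomputable def nrB (top a' : α) (b : ℝ) (ℓ : ι → α) (ϖ : α → ℝ) (o : α → ι) (c : CF ι) : ℝ :=
  -(b / 2) * (nrX ℓ ϖ o (o top) c ^ 2 + (if a' = top then nrEta ϖ o c ^ 2 else 0) -
    ∑ a, xs c (o a) ^ 2)

theorem nr_H0 (k : ℕ) (top : α) (ℓ : ι → α) (e : α → ℝ) (b : ℝ) (y : ℕ → ℝ) (r : ℕ → ι → ℝ)
    (o : α → ι) (s : AT ι (α ⊕ Unit)) : (mkM top (upL top ℓ (univ.image o)) e b y r).H k _ s =
      (nrM top ℓ e b y r o).H k _ s + fld k (fx ι _) (nrW0 y o) s := by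
  unfold Mdl.H fld
  rw [add_assoc, ← sum_add_distrib]
  congr 1
  refine sum_congr rfl fun j _ => ?_
  rw [← sum_add_distrib]
  refine sum_congr rfl fun i _ => ?_
  rcases i with (i | i) | a
  · simp [Mdl.w, nrM, nrW0, mkM]
  · by_cases h : i ∈ univ.image o
    · simp only [Mdl.w, nrM, nrW0, mkM, upL, h, Sum.elim_inl, Sum.elim_inr, if_true]
      simp
    · simp only [Mdl.w, nrM, nrW0, h, Sum.elim_inl, Sum.elim_inr, if_false]
      simp
  · simp [Mdl.w, nrW0]

theorem nr_H1 (k : ℕ) (top : α) (ℓ : ι → α) {e : α → ℝ} (he : e top = 0) (b : ℝ) (y : ℕ → ℝ)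
    (r : ℕ → ι → ℝ) (a' : α) (t : ℕ → ℝ) {o : α → ι} (ho : ∀ a, ℓ (o a) = a) {ϖ : α → ℝ}
    {R : O (Option ι)} (hR : ∀ x : Option ι → ℝ,
      (R : Matrix (Option ι) (Option ι) ℝ) *ᵥ x = fun i =>
        i.elim (∑ a, ϖ a * x (some (o a))) fun i =>
          x (some i) + (x none - ∑ a, ϖ a * x (some (o a))) * nrC ℓ o ϖ i)
    (s : AT ι (α ⊕ Unit)) : HV k top (newM top ℓ e b y r a' t) R s =
      (nrM top ℓ e b y r o).H k _ s + HE k t s +
        (Wq ϖ e a' (fun a => xs s.1 (o a)) (es s.1) + nrB top a' b ℓ ϖ o s.1) +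
        fld k (nrF ℓ ϖ o) (nrW1 top a' y o) s := by
  have hx : xs ((R * embO s.1.1, fun i => i.elim s.1.2.2 s.1.2.1, true) : CF (Option ι)) =
      fun i => i.elim (nrEta ϖ o s.1) fun i => nrX ℓ ϖ o i s.1 := by
    unfold xs xc
    rw [O.mul_mulVec, embO_mulVec, hR]
    rfl
  have hq : (1 / 2) * ∑ i : Option ι, (newM top ℓ e b y r a' t).c i *
      (i.elim (nrEta ϖ o s.1) fun i => nrX ℓ ϖ o i s.1) ^ 2 =
      (1 / 2) * ∑ i, (nrM top ℓ e b y r o).c i * xs s.1 i ^ 2 +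
        (Wq ϖ e a' (fun a => xs s.1 (o a)) (es s.1) + nrB top a' b ℓ ϖ o s.1) := by
    have h1 : ∑ i, ((newM top ℓ e b y r a' t).c (some i) * nrX ℓ ϖ o i s.1 ^ 2 -
        (nrM top ℓ e b y r o).c i * xs s.1 i ^ 2) = ∑ a, (-(e a * nrX ℓ ϖ o (o a) s.1 ^ 2) -
          (if a = top then b * nrX ℓ ϖ o (o a) s.1 ^ 2 else 0) + b * xs s.1 (o a) ^ 2) := by
      rw [nr_sum ho fun i hi => by
        have hX : nrX ℓ ϖ o i s.1 = xs s.1 i := by simp [nrX, nrC, hi]
        have hi' : i ∉ univ.image o := fun h => hi ((nr_mem ho i).1 h)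
        simp only [hX, newM, nrM, mkM, upL, if_neg hi']
        exact sub_self _]
      refine sum_congr rfl fun a _ => ?_
      by_cases h : a = top
      · simp [newM, nrM, mkM, upL, ho, h, he]
      · simp [newM, nrM, mkM, upL, ho, h]
    have h2 : (newM top ℓ e b y r a' t).c none * nrEta ϖ o s.1 ^ 2 =
        -(e a' * nrEta ϖ o s.1 ^ 2) - b * if a' = top then nrEta ϖ o s.1 ^ 2 else 0 := by
      by_cases h : a' = top
      · simp [newM, mkM, h, he]
      · simp [newM, mkM, h]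
    rw [sum_sub_distrib, sum_add_distrib, sum_sub_distrib, sum_neg_distrib, sum_ite_eq',
      ← mul_sum] at h1
    simp only [mem_univ, if_true] at h1
    have h3 : Wq ϖ e a' (fun a => xs s.1 (o a)) (es s.1) =
        -(1 / 2) * ∑ a, e a * nrX ℓ ϖ o (o a) s.1 ^ 2 - (1 / 2) * e a' * nrEta ϖ o s.1 ^ 2 := by
      simp only [Wq, nrX, nrEta, nrC_o ho]
    rw [Fintype.sum_option, h3]
    simp only [Option.elim_none, Option.elim_some, h2, nrB]
    linarith
  rw [HV_eq]
  unfold Mdl.H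
  dsimp only
  rw [hx, hq]
  suffices h : fld k (fx (Option ι) Empty) ((newM top ℓ e b y r a' t).w Empty)
      ((R * embO s.1.1, fun i => i.elim s.1.2.2 s.1.2.1, true), fun j i => s.2 j (nrE top i)) =
      fld k (fx ι (α ⊕ Unit)) ((nrM top ℓ e b y r o).w (α ⊕ Unit)) s + HE k t s +
        fld k (nrF ℓ ϖ o) (nrW1 top a' y o) s by rw [h]; ring
  unfold fld HE
  rw [mul_sum, ← sum_add_distrib, ← sum_add_distrib]
  refine sum_congr rfl fun j _ => ?_
  have h4 : ∀ i, √(if ℓ i = top then y j ^ 2 else 0) * nrX ℓ ϖ o i s.1 =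
      √((nrM top ℓ e b y r o).u j i) * xs s.1 i +
        √(if i = o top then y j ^ 2 else 0) * nrX ℓ ϖ o i s.1 := fun i => by
    simp only [nrM, mkM, upL, nr_mem ho]
    by_cases hi : o (ℓ i) = i
    · have : ℓ i = top ↔ i = o top := ⟨fun h => by rw [← h, hi], fun h => by rw [h, ho]⟩
      simp [hi, this]
    · have : i ≠ o top := fun h => hi (by rw [h, ho])
      simp [hi, this, nrX, nrC]
  have h6 : ∀ i, (newM top ℓ e b y r a' t).u j (some i) = if ℓ i = top then y j ^ 2 else 0 :=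
    fun _ => rfl
  have h7 : (newM top ℓ e b y r a' t).u j none = if a' = top then y j ^ 2 else 0 := rfl
  have h8 : (newM top ℓ e b y r a' t).r j = fun i => i.elim (t j) (r j) := rfl
  simp only [Fintype.sum_sum_type, Fintype.sum_option, Mdl.w, fx, Sum.elim_inl, Sum.elim_inr, hx,
    nrE, nrF, nrW1, h6, h7, h8, Option.elim_none, Option.elim_some, h4, add_mul, sum_add_distrib]
  have h5 : ∑ a, √(if a = top ∧ a' = top then y j ^ 2 else 0) * nrEta ϖ o s.1 *
      s.2 j (.inr (.inl a)) =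
      √(if a' = top then y j ^ 2 else 0) * nrEta ϖ o s.1 * s.2 j (.inr (.inl top)) := by
    rw [sum_eq_single top (fun a _ h => by simp [h]) (by simp)]
    simp
  have h9 : (nrM top ℓ e b y r o).r = r := rfl
  have h10 : ∀ i, ss ((R * embO s.1.1, fun i => i.elim s.1.2.2 s.1.2.1, true) : CF (Option ι)) i =
      i.elim (es s.1) (ss s.1) := by rintro (_ | i) <;> rfl
  simp only [h5, h9, h10, Option.elim_none, Option.elim_some, sqrt_zero, zero_mul, mul_zero,
    sum_const_zero]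
  ring

/-- sandwich for a fixed rotation -/
theorem sandwich {k : ℕ} (hk : 0 < k) (top : α) (ℓ : ι → α) {e : α → ℝ} (he : e top = 0)
    {b δ : ℝ} {y : ℕ → ℝ} (hs : Small k δ b y) (r : ℕ → ι → ℝ) (a' : α) (t : ℕ → ℝ) {o : α → ι}
    (ho : ∀ a, ℓ (o a) = a) (V : O (Option ι)) {ϖ : α → ℝ}
    (hϖ : ∀ a, ϖ a ^ 2 = ∑ i ∈ blkL (fun i : Option ι => i.elim a' ℓ) a,
      (V : Matrix (Option ι) (Option ι) ℝ) i none ^ 2) :
    YA k (fun s : AT ι (α ⊕ Unit) =>
        (mkM top (upL top ℓ (univ.image o)) e b y r).H k _ s + HE k t s +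
        Wq ϖ e a' (fun a => xs s.1 (o a)) (es s.1) - δ * (1 + ∑ a, xs s.1 (o a) ^ 2)) ≤
      YA k (HV k top (newM top ℓ e b y r a' t) V) ∧
    YA k (HV k top (newM top ℓ e b y r a' t) V) ≤ YA k fun s : AT ι (α ⊕ Unit) =>
        (mkM top (upL top ℓ (univ.image o)) e b y r).H k _ s + HE k t s +
        Wq ϖ e a' (fun a => xs s.1 (o a)) (es s.1) + δ * (1 + ∑ a, xs s.1 (o a) ^ 2) := by
  classical
  obtain ⟨h1, R, hV, hR⟩ := nr_refl hk top ℓ e b y r a' t ho V hϖ
  rw [hV, funext (nr_H1 k top ℓ he b y r a' t ho hR)]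
  simp only [nr_H0]
  set M := nrM top ℓ e b y r o
  set τ := ∑ j ∈ range k, y j ^ 2 with hτ
  have hτ0 : 0 ≤ τ := sum_nonneg fun _ _ => sq_nonneg _
  set g : CF ι → ℝ := fun c => 1 + ∑ a, xs c (o a) ^ 2 with hg
  set W : CF ι → ℝ := fun c => Wq ϖ e a' (fun a => xs c (o a)) (es c) with hW
  have sq' {f : CF ι → ℝ} (hf : BM f) : BM fun c => f c ^ 2 :=
    hf.comp (F := fun x => x ^ 2) (by fun_prop)
  have bo : BM fun c : CF ι => ∑ a, xs c (o a) ^ 2 := BM.sum _ fun a _ => sq' (bm_xs _)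
  have bg : BM g := (BM.const 1).add bo
  have bη : BM (nrEta ϖ o) := BM.sum _ fun a _ => (BM.const _).mul (bm_xs _)
  have bX : ∀ i, BM (nrX ℓ ϖ o i) := fun i => (bm_xs i).add ((bm_es.sub bη).mul (BM.const _))
  have bF : ∀ i, BM (nrF ℓ ϖ o i) := by
    rintro ((i | i) | a)
    exacts [BM.const 0, bX i, bη]
  have bW : BM W := ((BM.const _).mul (BM.sum _ fun a _ => (BM.const _).mul
    (sq' ((bm_xs _).add ((bm_es.sub bη).mul (BM.const _)))))).sub ((BM.const _).mul (sq' bη))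
  have bB : BM (nrB top a' b ℓ ϖ o) := by
    refine (BM.const _).mul (((sq' (bX _)).add ?_).sub bo)
    split_ifs
    exacts [sq' bη, BM.const 0]
  have bτ : BM fun c => τ / 2 * g c := (BM.const _).mul bg
  have hn : ∀ c : CF ι, nrX ℓ ϖ o (o top) c ^ 2 + (if a' = top then nrEta ϖ o c ^ 2 else 0) ≤ g c ∧
      0 ≤ nrX ℓ ϖ o (o top) c ^ 2 + (if a' = top then nrEta ϖ o c ^ 2 else 0) ∧
      0 ≤ ∑ a, xs c (o a) ^ 2 := fun c => by
    have h2 := sum_sq_refl h1 (fun a => xs c (o a)) (es c)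
    have h3 := single_le_sum (f := fun a => (xs c (o a) + (es c - ∑ b, ϖ b * xs c (o b)) * ϖ a) ^ 2)
      (fun _ _ => sq_nonneg _) (mem_univ top)
    rw [es_sq] at h2
    simp only [nrX, nrC_o ho, nrEta, hg]
    refine ⟨?_, by positivity, by positivity⟩
    split_ifs <;> nlinarith [sq_nonneg (∑ b, ϖ b * xs c (o b))]
  have hB : ∀ c, |nrB top a' b ℓ ϖ o c| ≤ b / 2 * g c := fun c => by
    obtain ⟨h2, h3, h4⟩ := hn c
    have := hs.1
    simp only [hg] at h2 ⊢
    rw [nrB, abs_le]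
    constructor <;> nlinarith
  have hδ : ∀ c, b / 2 * g c + τ / 2 * g c ≤ δ * g c := fun c => by
    have h2 : 0 ≤ g c := by have := (hn c).2.2; simp only [hg]; linarith
    nlinarith [hs.2.1, hs.2.2]
  have hlin : ∀ {Q : CF ι → ℝ}, BM Q →
      (AS k ι (α ⊕ Unit)).Lin fun s => M.H k _ s + HE k t s + Q s.1 := fun hQ =>
    ((M.lin hk).add (lin_HE hk)).add (hQ.lin hk)
  have hfree : ∀ Q : CF ι → ℝ,
      Free k (nrP o) fun s : AT ι (α ⊕ Unit) => M.H k _ s + HE k t s + Q s.1 := fun Q => by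
    refine Free.comp₂ (Free.comp₂ (M.free ?_) ?_ (· + ·)) (Free.cfg Q) (· + ·)
    · rintro j - ((i | i) | a) hi
      · exact hi.elim
      · exact if_pos hi
      · rfl
    · exact Free.comp₂ (Free.cfg es) (Free.sum _ fun j _ => Free.comp₂ (Free.cfg fun _ => √(t j))
        (Free.coord (p := nrP o) (i := Sum.inr (Sum.inr ())) id j) (· * ·)) (· * ·)
  have k0 : ∀ {Q : CF ι → ℝ}, BM Q → _ := fun {Q} hQ => nr_fld hk (hlin hQ) (hfree Q) bm_fx
    (w := nrW0 y o) (by
      rintro j ((i | i) | a) <;> simp only [nrW0, Sum.elim_inl, Sum.elim_inr, le_refl]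
      positivity) (by
      rintro j ((i | i) | a) hi
      exacts [rfl, if_neg hi, rfl]) bτ fun c => by
      have : fvar k (fx ι _) (nrW0 y o) c = τ * ∑ a, xs c (o a) ^ 2 := by
        rw [fvar, hτ, sum_mul]
        refine sum_congr rfl fun j _ => ?_
        simp only [Fintype.sum_sum_type, nrW0, fx, Sum.elim_inl, Sum.elim_inr, zero_mul,
          sum_const_zero, zero_add, add_zero]
        rw [nr_sum ho fun i hi => by rw [if_neg fun h => hi ((nr_mem ho i).1 h), zero_mul], mul_sum]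
        simp
      simp only [this, hg]
      nlinarith
  have k1 := nr_fld hk (hlin (bW.add bB)) (hfree fun c => W c + nrB top a' b ℓ ϖ o c) bF
    (w := nrW1 top a' y o) (by
      rintro j ((i | i) | (a | a)) <;> simp only [nrW1, Sum.elim_inl, Sum.elim_inr, le_refl] <;>
        positivity) (by
      rintro j ((i | i) | (a | a)) hi
      · rfl
      · exact if_neg fun h : i = o top => hi (mem_image.2 ⟨top, mem_univ _, h.symm⟩)
      · exact (hi trivial).elim
      · rfl) bτ fun c => by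
      have : fvar k (nrF ℓ ϖ o) (nrW1 top a' y o) c = τ * (nrX ℓ ϖ o (o top) c ^ 2 +
          (if a' = top then nrEta ϖ o c ^ 2 else 0)) := by
        rw [fvar, hτ, sum_mul]
        refine sum_congr rfl fun j _ => ?_
        by_cases h : a' = top <;> simp [Fintype.sum_sum_type, nrW1, nrF, h, mul_add]
      rw [this]
      nlinarith [(hn c).1]
  have bp : BM fun c => W c + δ * g c := bW.add ((BM.const δ).mul bg)
  have bm : BM fun c => W c - δ * g c := bW.sub ((BM.const δ).mul bg)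
  constructor
  · refine le_trans (le_of_eq (congrArg _ (funext fun s => ?_))) ((k0 bm).2.trans
      ((YD_mono hk ((hlin bm).add (bτ.lin hk)) (hlin (bW.add bB)) fun s => ?_).trans k1.1))
    · simp only [hW, hg]; ring
    · linarith [hδ s.1, (abs_le.1 (hB s.1)).1]
  · refine k1.2.trans ((YD_mono hk ((hlin (bW.add bB)).add (bτ.lin hk)) (hlin bp) fun s => ?_).trans
      ((k0 bp).1.trans (le_of_eq (congrArg _ (funext fun s => ?_)))))
    · linarith [hδ s.1, (abs_le.1 (hB s.1)).2]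
    · simp only [hW, hg]; ring

end Fix

end Vale.Agent.P166
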