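import Vale.Agent.P166.NewRep
import Vale.Agent.P166.CavQ

/-! The cavity increment. -/

namespace Vale.Agent.P166

open MeasureTheory ProbabilityTheory Real Finset Matrix Filter Topology
open Vale.Agent.P157 (Sys St γ GS s0 YY mm pp sh DirD pull mrg Rg Sp νB xB)
open scoped ENNReal

section Aux

variable {ι α : Type} [Fintype ι] [DecidableEq ι] [Fintype α] [DecidableEq α]

omit [DecidableEq ι] [Fintype α] in
theorem st_card (ℓ : ι → α) (a' a : α) :
    ((blkL (fun i : Option ι => i.elim a' ℓ) a).card : ℝ) =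
      (blkL ℓ a).card + if a' = a then 1 else 0 := by
  have : (blkL (fun i : Option ι => i.elim a' ℓ) a).card =
      (if a' = a then 1 else 0) + (blkL ℓ a).card := by
    rw [blkL, blkL, card_filter, card_filter, Fintype.sum_option]
    rfl
  rw [this]
  split_ifs <;> simp [add_comm]

omit [DecidableEq ι] [Fintype α] in
theorem st_freq (ℓ : ι → α) (a' a : α) (hN : 0 < Fintype.card ι) :
    |((blkL (fun i : Option ι => i.elim a' ℓ) a).card : ℝ) / Fintype.card (Option ι) -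
      (blkL ℓ a).card / Fintype.card ι| ≤ 1 / Fintype.card ι := by
  have hN' : (0 : ℝ) < Fintype.card ι := by exact_mod_cast hN
  have h1 : ((blkL ℓ a).card : ℝ) ≤ Fintype.card ι := by exact_mod_cast card_le_univ _
  have h0 : (0 : ℝ) ≤ (blkL ℓ a).card := Nat.cast_nonneg _
  rw [st_card, Fintype.card_option]
  push_cast
  generalize ((blkL ℓ a).card : ℝ) = n at *
  generalize (Fintype.card ι : ℝ) = N at *
  rw [div_sub_div _ _ (by positivity) hN'.ne', abs_div,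
    abs_of_pos (by positivity : 0 < (N + 1) * N), div_le_div_iff₀ (by positivity) hN']
  have : |(n + if a' = a then 1 else 0) * N - (N + 1) * n| ≤ N + 1 := by
    rw [abs_le]
    split_ifs <;> constructor <;> nlinarith
  nlinarith

theorem st_sqrt {x y : ℝ} (hx : 0 ≤ x) (hy : 0 ≤ y) : (√x - √y) ^ 2 ≤ |x - y| := by
  have h1 : x - y = (√x - √y) * (√x + √y) := by
    nlinarith [sq_sqrt hx, sq_sqrt hy]
  rw [h1, abs_mul, ← sq_abs, sq]
  refine mul_le_mul_of_nonneg_left ?_ (abs_nonneg _)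
  rw [abs_of_nonneg (by positivity : 0 ≤ √x + √y), abs_le]
  constructor <;> linarith [sqrt_nonneg x, sqrt_nonneg y]

omit [DecidableEq α] in
theorem st_bm_W (ϖ e : α → ℝ) (a' : α) (o : α → ι) :
    BM fun c : CF ι => Wq ϖ e a' (fun a => xs c (o a)) (es c) := by
  have h1 : BM fun c : CF ι => ∑ b, ϖ b * xs c (o b) :=
    BM.sum _ fun b _ => (BM.const _).mul (bm_xs _)
  exact ((BM.const _).mul (BM.sum _ fun a _ => (BM.const _).mul
    (((bm_xs _).add ((bm_es.sub h1).mul (BM.const _))).comp (continuous_pow 2)))).sub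
    ((BM.const _).mul (h1.comp (continuous_pow 2)))

omit [DecidableEq α] in
theorem st_bm_g (o : α → ι) : BM fun c : CF ι => 1 + ∑ a, xs c (o a) ^ 2 :=
  (BM.const _).add (BM.sum _ fun _ _ => (bm_xs _).comp (continuous_pow 2))

end Aux

section Gen

variable {I D Cf : Type} [Fintype I] [MeasurableSpace D] [MeasurableSpace Cf] {k : ℕ}
  {νD : Measure D} {ν : Measure Cf} [IsProbabilityMeasure νD] [IsProbabilityMeasure ν]
  [Nonempty D] [Nonempty Cf] {H W W' g : St I (D × Cf) → ℝ}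

/-- a value that is sandwiched around a nearby weight -/
theorem st_good (hk : 0 < k) (hH : (DS k I νD ν).Lin H) (hW : (DS k I νD ν).Lin W)
    (hW' : (DS k I νD ν).Lin W') (hg : (DS k I νD ν).Lin g) (hW0 : ∀ s, W s ≤ 0)
    (hg0 : ∀ s, 0 ≤ g s) {l A δ d Y : ℝ} (hl : 0 < l)
    (h1 : ∫ s, exp (l * g s) ∂mD k νD ν H ≤ A) (h2 : ∫ s, -W s ∂mD k νD ν H ≤ A)
    (ht : 0 ≤ δ + d) (htl : δ + d ≤ l) (hd : ∀ s, |W' s - W s| ≤ d * g s)
    (lo : YD k νD ν (fun s => H s + W' s - δ * g s) ≤ Y)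
    (hi : Y ≤ YD k νD ν fun s => H s + W' s + δ * g s) :
    |Y - YD k νD ν fun s => H s + W s| ≤ 2 * (δ + d) * A / l := by
  obtain ⟨q1, q2⟩ := ql (ds_ok hk) ds_mono hH hW hW0 hg hg0 hl (k + 1) 0 (s0 I (D × Cf)) h1 h2
    ht htl
  have m1 := YD_mono hk ((hH.add hW').add (hg.const_mul δ)) ((hH.add hW).add (hg.const_mul (δ + d)))
    fun s => by linarith [(abs_le.1 (hd s)).2]
  have m2 := YD_mono hk ((hH.add hW).sub (hg.const_mul (δ + d))) ((hH.add hW').sub (hg.const_mul δ))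
    fun s => by linarith [(abs_le.1 (hd s)).1]
  change YD k νD ν _ - YD k νD ν _ ≤ _ at q1 q2
  rw [abs_le]
  constructor <;> linarith

/-- the crude bound -/
theorem st_crude (hk : 0 < k) (hH : (DS k I νD ν).Lin H) (hW : (DS k I νD ν).Lin W)
    (hW' : (DS k I νD ν).Lin W') (hg : (DS k I νD ν).Lin g) (hW0 : ∀ s, W s ≤ 0)
    (hW0' : ∀ s, W' s ≤ 0) (hg0 : ∀ s, 0 ≤ g s) {l A δ c Y : ℝ} (hδ : δ ≤ l)
    (h1 : ∫ s, exp (l * g s) ∂mD k νD ν H ≤ A) (h2 : ∫ s, -W s ∂mD k νD ν H ≤ A)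
    (h3 : (c + l) * ∫ s, g s ∂mD k νD ν H ≤ A) (hc : ∀ s, |W' s| ≤ c * g s)
    (lo : YD k νD ν (fun s => H s + W' s - δ * g s) ≤ Y)
    (hi : Y ≤ YD k νD ν fun s => H s + W' s + δ * g s) :
    |Y - YD k νD ν fun s => H s + W s| ≤ 2 * A := by
  have hY : (DS k I νD ν).OK := ds_ok hk
  have m1 := YD_mono hk ((hH.add hW').add (hg.const_mul δ)) (hH.add (hg.const_mul l))
    fun s => by nlinarith [hW0' s, hg0 s]
  have m2 := YD_sub_le hk hH (hH.add (hg.const_mul l))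
  have m3 := le_YD_sub hk hH (hH.add hW)
  have m4 := YD_mono hk (hH.add (hg.const_mul (-(c + l)))) ((hH.add hW').sub (hg.const_mul δ))
    fun s => by nlinarith [(abs_le.1 (hc s)).1, hg0 s]
  have m5 := le_YD_sub hk hH (hH.add (hg.const_mul (-(c + l))))
  have m6 := YD_mono hk (hH.add hW) hH fun s => by linarith [hW0 s]
  simp only [add_sub_cancel_left] at m2 m3 m5
  rw [integral_const_mul] at m5
  rw [integral_neg] at h2
  have h4 : 0 ≤ ∫ s, exp (l * g s) ∂mD k νD ν H := integral_nonneg fun _ => (exp_pos _).le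
  have h5 := log_le_self h4
  rw [abs_le]
  constructor <;> linarith

end Gen

theorem newrep {α : Type} [Fintype α] [DecidableEq α] (top : α) {p : α → ℝ} (hp : ∀ a, 0 < p a)
    (h1 : ∑ a, p a = 1) (C ε : ℝ) (hε : 0 < ε) : ∃ δ > (0 : ℝ), ∃ N0 : ℕ, ∀ {ι : Type} [Fintype ι]
    [DecidableEq ι] {k : ℕ} (ℓ : ι → α) (e : α → ℝ) (b : ℝ) (y : ℕ → ℝ) (r : ℕ → ι → ℝ) (a' : α)
    (t : ℕ → ℝ) (o : α → ι), 0 < k → e top = 0 → (∀ a, 0 ≤ e a ∧ e a ≤ C) → (∀ a, ℓ (o a) = a) →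
    N0 ≤ Fintype.card ι → Near p δ ℓ → Small k δ b y →
    |YM k (newM top ℓ e b y r a' t) - YA k fun s : AT ι (α ⊕ Unit) =>
      (mkM top (upL top ℓ (univ.image o)) e b y r).H k _ s + HE k t s +
        Wq (fun a => √(p a)) e a' (fun a => xs s.1 (o a)) (es s.1)| ≤ ε := by
  rcases lt_or_ge C 0 with hC | hC
  · exact ⟨1, one_pos, 0, fun ℓ e b y r a' t o _ _ he => by linarith [he top]⟩
  obtain ⟨P, hP, δ0, hδ0, hblk⟩ := near_blk hp
  obtain ⟨m, hm⟩ : ∃ m : ℕ, m = Fintype.card α := ⟨_, rfl⟩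
  obtain ⟨l, hl⟩ : ∃ l : ℝ, l = 1 / (16 * P * (m + 1)) := ⟨_, rfl⟩
  have hl0 : 0 < l := by rw [hl]; positivity
  obtain ⟨A, hA⟩ : ∃ A : ℝ, A = 3 * exp l + (C / 2 + l) * (1 + 32 * P * m) := ⟨_, rfl⟩
  have hA0 : 0 < A := by rw [hA]; positivity
  obtain ⟨τ, hτ0, hτ1, hτ2⟩ : ∃ τ > (0 : ℝ), 2 * τ ≤ l ∧ 2 * (2 * τ) * A / l ≤ ε / 2 := by
    refine ⟨min (l / 2) (ε * l / (8 * A)), by positivity,
      by linarith [min_le_left (l / 2) (ε * l / (8 * A))], ?_⟩
    have := min_le_right (l / 2) (ε * l / (8 * A))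
    rw [le_div_iff₀ (by positivity)] at this
    rw [div_le_iff₀ hl0]
    linarith
  obtain ⟨d2, hd20, hd2⟩ : ∃ d2 > (0 : ℝ), 10 * C * d2 ≤ τ :=
    ⟨τ / (10 * (C + 1)), by positivity, by
      rw [← mul_div_assoc, div_le_iff₀ (by positivity)]; nlinarith⟩
  obtain ⟨d1, hd10, hd1⟩ : ∃ d1 > (0 : ℝ), m * d1 ≤ d2 ^ 2 :=
    ⟨d2 ^ 2 / (m + 1), by positivity, by
      rw [← mul_div_assoc, div_le_iff₀ (by positivity)]; nlinarith⟩
  refine ⟨min δ0 (min τ (d1 / 4)), by positivity,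
    ⌈4 / d1 + 2 * (2 * A * exp (2 * A) * (m * (64 / (d1 / 2) ^ 2))) / ε⌉₊,
    fun {ι} _ _ {k} ℓ e b y r a' t o hk he0 he ho hN0 hnear hsm => ?_⟩
  have hN1 := Nat.ceil_le.1 hN0
  have a1 : 0 < 4 / d1 := by positivity
  have a2 : 0 ≤ 2 * (2 * A * exp (2 * A) * (m * (64 / (d1 / 2) ^ 2))) / ε := by positivity
  have hN' : (0 : ℝ) < Fintype.card ι := by linarith
  have hsm' : Small k τ b y := hsm.mono ((min_le_right _ _).trans (min_le_left _ _))
  have hPB := hblk ℓ (hnear.mono (min_le_left _ _)) top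
  have hoi : Function.Injective o := fun a a2 h => by rw [← ho a, h, ho]
  have hY : (AS k ι (α ⊕ Unit)).OK := ds_ok hk
  have hH : (AS k ι (α ⊕ Unit)).Lin fun s =>
      (mkM top (upL top ℓ (univ.image o)) e b y r).H k _ s + HE k t s := cava_lin_base hk
  obtain ⟨e1, e2⟩ := em_sum hk hH (S := univ.image o) (m := m)
    (by rw [hm]; exact card_image_le) hP zero_le_one le_rfl fun i hi =>
      ⟨blkL (upL top ℓ (univ.image o)) top, by rw [blkL_upL]; exact mem_union_right _ hi,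
        rotB_base (mkM_iso _ _ _ _ _ _ _), hPB.trans (mul_le_mul_of_nonneg_left (by
          rw [blkL_upL]; exact_mod_cast card_le_card subset_union_left) hP.le)⟩
  simp only [sum_image fun a _ a2 _ h => hoi h] at e1 e2
  rw [← hl] at e1
  generalize hHd : (fun s : AT ι (α ⊕ Unit) =>
      (mkM top (upL top ℓ (univ.image o)) e b y r).H k _ s + HE k t s) = H at hH e1 e2
  have hHs : ∀ s, (mkM top (upL top ℓ (univ.image o)) e b y r).H k _ s + HE k t s = H s :=
    fun s => congrFun hHd s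
  have := mD_prob hk hH
  have hg := (st_bm_g o).lin (νD := hO ι) (ν := nC ι) (I := (ι ⊕ ι) ⊕ (α ⊕ Unit)) hk
  have hW := fun ϖ => (st_bm_W ϖ e a' o).lin (νD := hO ι) (ν := nC ι)
    (I := (ι ⊕ ι) ⊕ (α ⊕ Unit)) hk
  have hg0 : ∀ s : AT ι (α ⊕ Unit), 0 ≤ 1 + ∑ a, xs s.1 (o a) ^ 2 := fun s => by positivity
  have hp1 : ∑ a, √(p a) ^ 2 = 1 := by
    rw [← h1]; exact sum_congr rfl fun a _ => sq_sqrt (hp a).le
  have i1 : ∫ s, (1 + ∑ a, xs s.1 (o a) ^ 2) ∂mA k H ≤ 1 + 32 * P * m := by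
    rw [integral_add (integrable_const _) (integrable_mD hk hH
      ((BM.sum _ fun a _ => (bm_xs (o a)).comp (continuous_pow 2)).ex hk))]
    simpa using e2
  have i0 : 0 ≤ ∫ s, (1 + ∑ a, xs s.1 (o a) ^ 2) ∂mA k H := integral_nonneg hg0
  have b0 : 0 ≤ (C / 2 + l) * (1 + 32 * P * m) := by positivity
  have i2 : ∫ s, exp (l * (1 + ∑ a, xs s.1 (o a) ^ 2)) ∂mA k H ≤ A := by
    simp only [mul_add l, exp_add, mul_one, integral_const_mul]
    nlinarith [exp_pos l]
  have i3 : (C / 2 + l) * ∫ s, (1 + ∑ a, xs s.1 (o a) ^ 2) ∂mA k H ≤ A := by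
    have := mul_le_mul_of_nonneg_left i1 (by positivity : 0 ≤ C / 2 + l)
    linarith [exp_pos l]
  have i4 : ∫ s, -Wq (fun a => √(p a)) e a' (fun a => xs s.1 (o a)) (es s.1) ∂mA k H ≤ A := by
    refine le_trans (integral_mono (integrable_mD hk hH ((hW _).ex hY)).neg
      ((integrable_mD hk hH (hg.ex hY)).const_mul (C / 2)) fun s =>
        (neg_le_abs _).trans (abs_Wq_le he hp1 a' _ (es_sq s.1))) ?_
    rw [integral_const_mul]
    nlinarith
  obtain ⟨mx, ex⟩ := YM_mix hk top (newM top ℓ e b y r a' t)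
  have hm0 : ∀ (V : O (Option ι)) a, 0 ≤ ∑ i ∈ blkL (fun i : Option ι => i.elim a' ℓ) a,
      (V : Matrix (Option ι) (Option ι) ℝ) i none ^ 2 := fun V a =>
    sum_nonneg fun _ _ => sq_nonneg _
  have sw := fun V : O (Option ι) => sandwich hk top ℓ he0 hsm' r a' t ho V
    (ϖ := fun a => √(∑ i ∈ blkL (fun i : Option ι => i.elim a' ℓ) a,
      (V : Matrix (Option ι) (Option ι) ℝ) i none ^ 2)) fun a => sq_sqrt (hm0 V a)
  have s1 := fun V : O (Option ι) => (nr_refl hk top ℓ e b y r a' t ho V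
    (ϖ := fun a => √(∑ i ∈ blkL (fun i : Option ι => i.elim a' ℓ) a,
      (V : Matrix (Option ι) (Option ι) ℝ) i none ^ 2)) fun a => sq_sqrt (hm0 V a)).1
  simp only [hHs] at sw ⊢
  have he' : ∀ a, 0 ≤ e a := fun a => (he a).1
  rw [ex]
  refine (mixest (hO (Option ι)) mx hk (R := 2 * A) (half_pos hε).le
    (B := ⋃ a, {V : O (Option ι) | d1 / 2 < |∑ i ∈ blkL (fun i : Option ι => i.elim a' ℓ) a,
      (V : Matrix (Option ι) (Option ι) ℝ) i none ^ 2 -
        (blkL (fun i : Option ι => i.elim a' ℓ) a).card / Fintype.card (Option ι)|})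
    (fun V => ?_) fun V hV => ?_).trans ?_
  · exact st_crude hk hH (hW _) (hW _) hg (fun s => Wq_nonpos he' _ _ _ _)
      (fun s => Wq_nonpos he' _ _ _ _) hg0 (by linarith) i2 i4 i3
      (fun s => abs_Wq_le he (s1 V) a' _ (es_sq s.1)) (sw V).1 (sw V).2
  · have h2 : ∀ a, |∑ i ∈ blkL (fun i : Option ι => i.elim a' ℓ) a,
        (V : Matrix (Option ι) (Option ι) ℝ) i none ^ 2 - p a| ≤ d1 := by
      intro a
      have h3 : ¬_ := fun h => hV (Set.mem_iUnion.2 ⟨a, h⟩)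
      rw [Set.mem_ofPred_eq] at h3
      have h4 := abs_le.1 (not_lt.1 h3)
      have h5 := abs_le.1 (st_freq ℓ a' a (by exact_mod_cast hN'))
      have h6 := abs_le.1 ((hnear a).trans ((min_le_right _ _).trans (min_le_right _ _)))
      have h7 : 1 / (Fintype.card ι : ℝ) ≤ d1 / 4 := by
        have : 4 / d1 ≤ Fintype.card ι := by linarith
        rw [div_le_iff₀ hd10] at this
        rw [div_le_iff₀ hN']
        linarith
      rw [abs_le]
      constructor <;> linarith [h4.1, h4.2, h5.1, h5.2, h6.1, h6.2]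
    have h3 := sum_le_sum fun a (_ : a ∈ univ) => (st_sqrt (hm0 V a) (hp a).le).trans (h2 a)
    rw [sum_const, card_univ, nsmul_eq_mul, ← hm] at h3
    refine (st_good hk hH (hW _) (hW _) hg (fun s => Wq_nonpos he' _ _ _ _) hg0 hl0 i2 i4
      (d := τ) (by linarith) (by linarith) (fun s => ?_) (sw V).1 (sw V).2).trans (by
        rw [← two_mul]; exact hτ2)
    exact (Wq_lip he (s1 V) hp1 hd20.le (h3.trans hd1) a' _ (es_sq s.1)).trans
      (mul_le_mul_of_nonneg_right hd2 (hg0 s))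
  · have h2 := (measureReal_iUnion_fintype_le (μ := hO (Option ι)) _).trans
      (sum_le_sum fun a (_ : a ∈ univ) =>
        col_conc (blkL (fun i : Option ι => i.elim a' ℓ) a) none (half_pos hd10))
    rw [sum_const, card_univ, nsmul_eq_mul, ← hm] at h2
    have h3 : 64 / ((d1 / 2) ^ 2 * Fintype.card (Option ι)) ≤
        64 / (d1 / 2) ^ 2 / Fintype.card ι := by
      rw [div_div, Fintype.card_option]
      push_cast
      gcongr
      linarith
    have h4 : 2 * A * exp (2 * A) * (m * (64 / (d1 / 2) ^ 2 / Fintype.card ι)) ≤ ε / 2 := by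
      have : 2 * (2 * A * exp (2 * A) * (m * (64 / (d1 / 2) ^ 2))) / ε ≤ Fintype.card ι := by
        linarith
      rw [div_le_iff₀ hε] at this
      rw [← mul_div_assoc, ← mul_div_assoc, div_le_iff₀ hN']
      linarith
    have h5 := mul_le_mul_of_nonneg_left (h2.trans (mul_le_mul_of_nonneg_left h3
      (Nat.cast_nonneg m))) (by positivity : 0 ≤ 2 * A * exp (2 * A))
    linarith

theorem step1 {α : Type} [Fintype α] [DecidableEq α] (top : α) {p e : α → ℝ} (hp : ∀ a, 0 < p a)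
    (h1 : ∑ a, p a = 1) (he : ∀ a, 0 ≤ e a) (he0 : e top = 0) (P T ε : ℝ) (hε : 0 < ε) :
    ∃ δ > (0 : ℝ), ∃ N0 : ℕ, ∀ {ι : Type} [Fintype ι] [DecidableEq ι] {k : ℕ} (ℓ : ι → α) (b : ℝ)
    (y : ℕ → ℝ) (r : ℕ → ι → ℝ) (a' : α) (t A : ℕ → ℝ), 0 < k → N0 ≤ Fintype.card ι →
    Near p δ ℓ → Small k δ b y → (∀ j < k, 0 ≤ t j) → ∑ j ∈ range k, t j ≤ T → IsPath k P A →
    (mkM top ℓ e b y r).serr k (ovx (blkL ℓ top)) A ≤ δ →
    |YM k (newM top ℓ e b y r a' t) - YM k (mkM top ℓ e b y r) -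
      (CE k p e a' A + YI k fun j => rhoA k p e A j + t j)| ≤ ε := by
  obtain ⟨P0, hP0, δ0, hδ0, hblk⟩ := near_blk hp
  choose R s μ w0 hs hW hl1 hl2 hl3 using fun a' => newrep_la (fun a => (hp a).le) h1 he a'
  obtain ⟨S, hS0, hS1, hS2⟩ : ∃ S ≥ (0 : ℝ), (∀ a' b, s a' b ≤ S ∧ |μ a' b| ≤ S) ∧
      ∀ a, e a ≤ S := by
    have n1 : ∀ a' b, 0 ≤ s a' b + |μ a' b| := fun a' b => add_nonneg (hs a' b) (abs_nonneg _)
    have n2 : 0 ≤ ∑ a', ∑ b, (s a' b + |μ a' b|) := sum_nonneg fun a' _ => sum_nonneg fun b _ =>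
      n1 a' b
    have n3 : 0 ≤ ∑ a, e a := sum_nonneg fun a _ => he a
    refine ⟨∑ a', ∑ b, (s a' b + |μ a' b|) + ∑ a, e a, by positivity, fun a' b => ?_, fun a => ?_⟩
    · have h2 := single_le_sum (f := fun b => s a' b + |μ a' b|) (fun b _ => n1 a' b) (mem_univ b)
      have h3 := single_le_sum (f := fun a' => ∑ b, (s a' b + |μ a' b|))
        (fun a' _ => sum_nonneg fun b _ => n1 a' b) (mem_univ a')
      constructor <;> linarith [hs a' b, abs_nonneg (μ a' b)]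
    · linarith [single_le_sum (f := e) (fun a _ => he a) (mem_univ a)]
  have hP' : 0 < max P P0 := lt_max_of_lt_right hP0
  have hε4 : 0 < ε / 4 := by positivity
  obtain ⟨δ1, hδ1, N1, hnew⟩ := newrep top hp h1 S (ε / 4) hε4
  obtain ⟨δ2, hδ2, N2, hcav⟩ := cavQ S (max P P0) T (ε / 4) (Fintype.card α) hS0 hP' hε4
  obtain ⟨δ3, hδ3, htr0⟩ := tr0 (max P P0) (ε / 4) (Fintype.card α) hP' hε4
  obtain ⟨δ4, hδ4, N4, htr⟩ := tr (max P P0) S δ2 (Fintype.card α) hP' hδ2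
  refine ⟨min (min δ0 δ1) (min δ3 δ4), by positivity, N1 + N4 + ⌈max P P0 * N2⌉₊ + 1,
    fun {ι} _ _ {k} ℓ b y r a' t A hk hN hnear hsm ht hT hA hse => ?_⟩
  have d0 : min (min δ0 δ1) (min δ3 δ4) ≤ δ0 := (min_le_left _ _).trans (min_le_left _ _)
  have d1 : min (min δ0 δ1) (min δ3 δ4) ≤ δ1 := (min_le_left _ _).trans (min_le_right _ _)
  have d3 : min (min δ0 δ1) (min δ3 δ4) ≤ δ3 := (min_le_right _ _).trans (min_le_left _ _)
  have d4 : min (min δ0 δ1) (min δ3 δ4) ≤ δ4 := (min_le_right _ _).trans (min_le_right _ _)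
  have hPB : ∀ a, (Fintype.card ι : ℝ) ≤ max P P0 * (blkL ℓ a).card := fun a =>
    (hblk ℓ (hnear.mono d0) a).trans
      (mul_le_mul_of_nonneg_right (le_max_right _ _) (Nat.cast_nonneg _))
  have hN' : (0 : ℝ) < Fintype.card ι := by exact_mod_cast (by omega : 0 < Fintype.card ι)
  have hne : ∀ a, ∃ i, ℓ i = a := fun a => by
    have h2 : (0 : ℝ) < (blkL ℓ a).card := (mul_pos_iff_of_pos_left hP').1 (hN'.trans_le (hPB a))
    obtain ⟨i, hi⟩ := card_pos.1 (by exact_mod_cast h2 : 0 < (blkL ℓ a).card)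
    exact ⟨i, (mem_filter.1 hi).2⟩
  choose o ho using hne
  have hoi : Function.Injective o := fun a a2 h => by rw [← ho a, h, ho]
  have hA' : IsPath k (max P P0) A := hA.mono (le_max_left _ _)
  have hB0 : (Fintype.card ι : ℝ) ≤ max P P0 * (blkL (upL top ℓ (univ.image o)) top).card :=
    (hPB top).trans (mul_le_mul_of_nonneg_left (by
      rw [blkL_upL]; exact_mod_cast card_le_card subset_union_left) hP'.le)
  have hB1 : N2 ≤ (blkL (upL top ℓ (univ.image o)) top).card := by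
    have h2 : max P P0 * N2 ≤ Fintype.card ι :=
      Nat.ceil_le.1 (by omega : ⌈max P P0 * N2⌉₊ ≤ Fintype.card ι)
    exact_mod_cast le_of_mul_le_mul_left (h2.trans hB0) hP'
  have hse' := htr top ℓ e b y r (univ.image o) A hk he0 card_image_le (by omega) (hPB top)
    (fun i _ => ⟨hPB _, he _, hS2 _⟩) (hsm.mono d4) hA' (hse.trans d4)
  have hfr : Frame (blkL (upL top ℓ (univ.image o)) top) fun a => Pi.single (o a) (1 : ℝ) :=
    frame_single hoi fun a => by
      rw [blkL_upL]; exact mem_union_right _ (mem_image_of_mem _ (mem_univ a))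
  have hT0 : ∑ j ∈ range k, (0 : ℕ → ℝ) j ≤ T := by
    simpa using (sum_nonneg fun j hj => ht j (mem_range.1 hj)).trans hT
  have c1 := hnew ℓ e b y r a' t o hk he0 (fun a => ⟨he a, hS2 a⟩) ho (by omega) (hnear.mono d1)
    (hsm.mono d1)
  have c2 := hcav _ _ (s a') (μ a') _ t A hk le_rfl hB1 hB0 (mkM_iso top _ e b y r top)
    (fun b => ⟨hs a' b, hS1 a' b⟩) (hfr.rot (R a')) ht hT hA' hse'
  have c3 := hcav _ _ e 0 _ 0 A hk le_rfl hB1 hB0 (mkM_iso top _ e b y r top)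
    (fun b => ⟨he b, hS2 b, by simpa using hS0⟩) hfr (fun _ _ => le_rfl) hT0 hA' hse'
  have c4 := abs_YD_sub_le_exp hk ((mkM top ℓ e b y r).lin hk)
    ((midM top ℓ e b y r (univ.image o)).lin hk)
    (htr0 (J := α ⊕ Unit) top ℓ e b y r (univ.image o) hk he0 card_image_le (fun i _ => hPB _)
      (hsm.mono d3))
  have c5 := TV_new (hs a') (hl1 a') (hl2 a') (hl3 a') hA t
  have e1 : (YA k fun s : AT ι (α ⊕ Unit) =>
      (mkM top (upL top ℓ (univ.image o)) e b y r).H k _ s + HE k t s +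
        Wq (fun a => √(p a)) e a' (fun a => xs s.1 (o a)) (es s.1)) =
      YC k (mkM top (upL top ℓ (univ.image o)) e b y r) (fun b => qq (s a' b) (μ a' b))
        (fun b i => ∑ a, (R a' : Matrix α α ℝ) b a * (Pi.single (o a) (1 : ℝ) : ι → ℝ) i) 0 t +
        w0 a' := by
    rw [YC, ← YD_add_const hk (lin_HC0 hk fun b => continuous_qq _ _)]
    congr 1
    funext z
    rw [hW a' _ _ (es_sq z.1), HC]
    have : ∀ b, UC k (fun b i => ∑ a, (R a' : Matrix α α ℝ) b a *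
        (Pi.single (o a) (1 : ℝ) : ι → ℝ) i) 0 b z =
        es z.1 * ((R a' : Matrix α α ℝ) *ᵥ fun a => xs z.1 (o a)) b := fun b => by
      rw [UC_zero]
      congr 1
      simp only [dotProduct, mulVec, sum_mul]
      rw [sum_comm]
      refine sum_congr rfl fun a _ => ?_
      simp only [mul_assoc, ← mul_sum]
      congr 1
      exact single_one_dotProduct (o a) (xs z.1)
    simp only [this]
    ring
  have e2 : (midM top ℓ e b y r (univ.image o)).H k (α ⊕ Unit) =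
      HC k (mkM top (upL top ℓ (univ.image o)) e b y r) (fun b => qq (e b) ((0 : α → ℝ) b))
        (fun a => Pi.single (o a) (1 : ℝ)) 0 0 := by
    funext z
    rw [midM_H, HC, sum_image fun a _ a2 _ h => hoi h]
    simp only [UC_zero, HE, qq, single_one_dotProduct, ho, Pi.zero_apply, sqrt_zero, zero_mul,
      sum_const_zero, mul_zero, add_zero, sub_zero, mul_pow, es_sq, one_mul, mul_sum]
    rw [sub_eq_add_neg, ← sum_neg_distrib]
    congr 1
    exact sum_congr rfl fun a _ => by ring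
  rw [e2] at c4
  change |YC k _ _ _ 0 0 - YA k _| ≤ _ at c4
  rw [YA_amb _ hk] at c4
  rw [e1] at c1
  rw [TV_old hk] at c3
  rw [← c5]
  have f1 := abs_le.1 c1
  have f2 := abs_le.1 c2
  have f3 := abs_le.1 c3
  have f4 := abs_le.1 c4
  rw [abs_le]
  constructor <;> linarith [f1.1, f1.2, f2.1, f2.2, f3.1, f3.2, f4.1, f4.2]

end Vale.Agent.P166
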