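import Vale.Agent.P166.GR2
import Vale.Agent.P166.Step

/-! The averaged one step lower bound. -/

namespace Vale.Agent.P166

open MeasureTheory ProbabilityTheory Real Finset Matrix Filter Topology
open Vale.Agent.P157 (Sys St γ GS s0 YY mm pp sh DirD pull mrg Rg Sp νB xB)
open scoped ENNReal

/-- a field of total weight one on a model without fields -/
theorem on_fd : ∃ C > (0 : ℝ), ∀ {ι : Type} [Fintype ι] [DecidableEq ι] {k j : ℕ} (M M' : Mdl ι)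
    (w : ι → ℝ) (t : ℝ), j < k → (∀ i, 0 ≤ w i) → ∑ i, w i = 1 → 0 ≤ t → t ≤ 1 →
    (∀ j i, M.r j i = 0) → M'.c = M.c → M'.u = M.u → (∀ j' i, M'.r j' i = one j t j' * w i) →
    |YM k M' - YM k M - t / 2 * M.tl k j ovs| ≤ C * t * √(√t) := by
  obtain ⟨C, hC, h⟩ := fd_spin
  refine ⟨C, hC, fun {ι} _ _ {k j} M M' w t hj hw hw1 h0 h1 hr hc hu hr' => ?_⟩
  obtain ⟨c, r, u⟩ := M
  obtain ⟨c', r', u'⟩ := M'
  obtain rfl : r = 0 := funext fun j => funext fun i => hr j i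
  obtain rfl : r' = fun j' i => one j t j' * w i := funext fun j => funext fun i => hr' j i
  obtain rfl : c' = c := hc
  obtain rfl : u' = u := hu
  have h2 := h c' w u' t hj hw hw1.le h0 h1
  have h3 := tl_site (k := k) (j := j) (⟨c', 0, u'⟩ : Mdl ι) (by omega) fun _ _ _ => rfl
  simp only [h3] at h2
  rwa [← sum_mul, hw1, one_mul] at h2

theorem on_sum {k j : ℕ} (hj : j < k) (t : ℝ) : ∑ j' ∈ range k, one j t j' = t := by
  simp [one, hj]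

theorem on_nonneg (j : ℕ) {t : ℝ} (ht : 0 ≤ t) (j' : ℕ) : 0 ≤ one j t j' := by
  unfold one
  split_ifs
  exacts [ht, le_rfl]

theorem onestep {α : Type} [Fintype α] [DecidableEq α] (Λ : Atoms α) (P ε : ℝ) (hε : 0 < ε) :
    ∃ δ > (0 : ℝ), ∃ N0 : ℕ, ∀ {ι : Type} [Fintype ι] [DecidableEq ι] {k : ℕ} (ℓ : ι → α) (b : ℝ)
    (y A : ℕ → ℝ) (v : ℝ), 0 < k → N0 ≤ Fintype.card ι → Near Λ.p δ ℓ → Small k δ b y →
    IsPath k P A → (mkM Λ.top ℓ (Λ.e 1) b y 0).serr k (ovx (blkL ℓ Λ.top)) A ≤ δ →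
    (v : EReal) ≤ parisi Λ.μ 0 1 k → YM k (mkM Λ.top ℓ (Λ.e 1) b y 0) + v - ε ≤
      ∑ a, Λ.p a * YM k (newM Λ.top ℓ (Λ.e 1) b y 0 a 0) := by
  obtain ⟨c0, hc0, C, hC, hbd⟩ := Λ.e_bd
  obtain ⟨hb1, hb2⟩ := hbd 1 zero_le_one
  simp only [mul_one] at hb1 hb2
  have he : ∀ a, 0 ≤ Λ.e 1 a := Λ.e_nonneg zero_le_one
  have hp : ∀ a, 0 ≤ Λ.p a := fun a => (Λ.p_pos a).le
  have hε3 : 0 < ε / 3 := by positivity
  obtain ⟨t0, ht0, d, hd, hsc⟩ := sc Λ P (C ^ 2 * P) (ε / 3) hε3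
  obtain ⟨Cf, hCf, hfd⟩ := on_fd
  obtain ⟨t, ht, ht1, ht2, ht3⟩ : ∃ t > (0 : ℝ), t ≤ t0 ∧ t ≤ 1 ∧ Cf * t * √(√t) ≤ d * t / 12 := by
    have hx : 0 < d / (12 * Cf) := by positivity
    have hpos : 0 < min t0 (min 1 ((d / (12 * Cf)) ^ 4)) := by positivity
    refine ⟨_, hpos, min_le_left _ _, (min_le_right _ _).trans (min_le_left _ _), ?_⟩
    have h1 : min t0 (min 1 ((d / (12 * Cf)) ^ 4)) ≤ ((d / (12 * Cf)) ^ 2) ^ 2 := by
      rw [← pow_mul]; exact (min_le_right _ _).trans (min_le_right _ _)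
    have h2 := (sqrt_le_sqrt ((sqrt_le_sqrt h1).trans_eq (sqrt_sq (by positivity)))).trans_eq
      (sqrt_sq hx.le)
    rw [le_div_iff₀ (by positivity)] at h2
    nlinarith
  obtain ⟨ε1, hε1, a1, a2⟩ : ∃ ε1 > (0 : ℝ), ε1 ≤ d * t / 16 ∧ ε1 ≤ ε / 3 :=
    ⟨min (d * t / 16) (ε / 3), by positivity, min_le_left _ _, min_le_right _ _⟩
  obtain ⟨ε2, hε2, a3, a4⟩ : ∃ ε2 > (0 : ℝ), ε2 ≤ d ∧ C * ε2 ≤ ε / 3 := by
    refine ⟨min d (ε / 3 / (C + 1)), by positivity, min_le_left _ _, ?_⟩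
    have := min_le_right d (ε / 3 / (C + 1))
    rw [le_div_iff₀ (by positivity)] at this
    nlinarith [lt_min hd (by positivity : 0 < ε / 3 / (C + 1))]
  obtain ⟨P0, hP0, δ0, hδ0, hblk⟩ := near_blk Λ.p_pos
  obtain ⟨δ1, hδ1, N1, hst⟩ := step1 Λ.top Λ.p_pos Λ.p_sum he (Λ.e_top 1) P 1 ε1 hε1
  obtain ⟨δ2, hδ2, hsf⟩ := serr_field (max P P0) δ1 hδ1
  obtain ⟨δ3, hδ3, N3, hgr⟩ := gr2 Λ.top Λ.p_pos Λ.p_sum P c0 C ε2 hc0 hε2
  refine ⟨min (min δ0 δ1) (min δ2 δ3), by positivity, N1 + N3 + 1,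
    fun {ι} _ _ {k} ℓ b y A v hk hN hnear hsm hA hse hv => ?_⟩
  generalize hδ : min (min δ0 δ1) (min δ2 δ3) = δ at hnear hsm hse
  have d0 : δ ≤ δ0 := hδ ▸ (min_le_left _ _).trans (min_le_left _ _)
  have d1 : δ ≤ δ1 := hδ ▸ (min_le_left _ _).trans (min_le_right _ _)
  have d2 : δ ≤ δ2 := hδ ▸ (min_le_right _ _).trans (min_le_left _ _)
  have d3 : δ ≤ δ3 := hδ ▸ (min_le_right _ _).trans (min_le_right _ _)
  have hN' : (0 : ℝ) < Fintype.card ι := by exact_mod_cast (by omega : 0 < Fintype.card ι)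
  have hPB : (Fintype.card ι : ℝ) ≤ max P P0 * (blkL ℓ Λ.top).card :=
    (hblk ℓ (hnear.mono d0) _).trans
      (mul_le_mul_of_nonneg_right (le_max_right _ _) (Nat.cast_nonneg _))
  obtain ⟨g1, g2, -⟩ := hgr ℓ (Λ.e 1) b y 0 A hk (Λ.e_top 1) (fun a h => ⟨hb2 a h, hb1 a⟩)
    (by omega) (hnear.mono d3) (hsm.mono d3) hA (hse.trans d3)
  have s0 : ∀ (r : ℕ → ι → ℝ) (a : α),
      (mkM Λ.top ℓ (Λ.e 1) b y r).serr k (ovx (blkL ℓ Λ.top)) A ≤ δ1 →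
      |YM k (newM Λ.top ℓ (Λ.e 1) b y r a 0) - YM k (mkM Λ.top ℓ (Λ.e 1) b y r) -
        (CE k Λ.p (Λ.e 1) a A + YI k (rhoA k Λ.p (Λ.e 1) A))| ≤ ε1 := fun r a h => by
    simpa only [Pi.zero_apply, add_zero] using hst ℓ b y r a 0 A hk (by omega) (hnear.mono d1)
      (hsm.mono d1) (fun _ _ => le_rfl) (by simp) hA h
  have hwN : ∑ _i : ι, (Fintype.card ι : ℝ)⁻¹ = 1 := by
    rw [sum_const, card_univ, nsmul_eq_mul, mul_inv_cancel₀ hN'.ne']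
  have hkey : ∀ j < k, |YI k (fun i => rhoA k Λ.p (Λ.e 1) A i + one j t i) -
      YI k (rhoA k Λ.p (Λ.e 1) A) - t / 2 * tail k (qA k Λ.p (Λ.e 1) A) j| ≤ d * t := by
    intro j hj
    have b0 := abs_le.1 (s0 0 Λ.top (hse.trans d1))
    have b1 := abs_le.1 (hst ℓ b y 0 Λ.top (one j t) A hk (by omega) (hnear.mono d1)
      (hsm.mono d1) (fun j' _ => on_nonneg j ht.le j') (by rw [on_sum hj]; exact ht2) hA
      (hse.trans d1))
    have b2 := abs_le.1 (s0 (fun j' _ => one j t j' * (Fintype.card ι : ℝ)⁻¹) Λ.top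
      (hsf (mkM Λ.top ℓ (Λ.e 1) b y 0).c _ (mkM Λ.top ℓ (Λ.e 1) b y 0).u _ A hk hPB
        (hA.mono (le_max_left _ _)) (fun j' _ _ => mul_nonneg (on_nonneg j ht.le j')
          (by positivity)) (by simp only [← mul_sum, hwN, mul_one, on_sum hj]; exact ht2)
        (hse.trans d2)))
    have f1 := abs_le.1 ((hfd (mkM Λ.top ℓ (Λ.e 1) b y 0)
      (mkM Λ.top ℓ (Λ.e 1) b y fun j' _ => one j t j' * (Fintype.card ι : ℝ)⁻¹)
      (fun _ => (Fintype.card ι : ℝ)⁻¹) t hj (fun _ => by positivity) hwN ht.le ht2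
      (fun _ _ => rfl) rfl rfl fun _ _ => rfl).trans ht3)
    have f2 := abs_le.1 ((hfd (newM Λ.top ℓ (Λ.e 1) b y 0 Λ.top 0)
      (newM Λ.top ℓ (Λ.e 1) b y (fun j' _ => one j t j' * (Fintype.card ι : ℝ)⁻¹) Λ.top 0)
      (fun i => i.elim 0 fun _ => (Fintype.card ι : ℝ)⁻¹) t hj
      (fun i => by cases i <;> simp) (by rw [Fintype.sum_option]; simpa using hwN) ht.le ht2
      (fun _ i => by cases i <;> rfl) rfl rfl fun _ i => by
        cases i <;> simp [newM, mkM]).trans ht3)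
    have f3 := abs_le.1 ((hfd (newM Λ.top ℓ (Λ.e 1) b y 0 Λ.top 0)
      (newM Λ.top ℓ (Λ.e 1) b y 0 Λ.top (one j t))
      (fun i => i.elim 1 fun _ => 0) t hj
      (fun i => by cases i <;> simp) (by rw [Fintype.sum_option]; simp) ht.le ht2
      (fun _ i => by cases i <;> rfl) rfl rfl fun _ i => by
        cases i <;> simp [newM, mkM]).trans ht3)
    have g3 := abs_le.1 ((g1 j hj).trans a3)
    have g4 := mul_le_mul_of_nonneg_left g3.1 (half_pos ht).le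
    have g5 := mul_le_mul_of_nonneg_left g3.2 (half_pos ht).le
    rw [abs_le]
    constructor <;> linarith [b0.1, b0.2, b1.1, b1.2, b2.1, b2.2, f1.1, f1.2, f2.1, f2.2, f3.1,
      f3.2]
  have k1 := hsc t ht ht1 k _ _ v hk (rhoA_nonneg hp Λ.p_sum he hA)
    (sum_rhoA_le hp Λ.p_sum (fun a => ⟨he a, hb1 a⟩) hA) (isPath_qA hp Λ.p_sum he hA) hkey hv
  have k2 := tot Λ hk hA
  have k3 := kapF_mem hp Λ.p_sum (fun a => ⟨he a, hb1 a⟩) le_rfl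
  have k4 : -(C * ε2) ≤ kapF Λ.p (Λ.e 1) 0 / 2 * (1 - qA k Λ.p (Λ.e 1) A k) := by
    have := abs_le.1 g2
    nlinarith [k3.1, k3.2, this.1, this.2]
  have k5 := sum_le_sum fun a (_ : a ∈ univ) => mul_le_mul_of_nonneg_left
    (abs_le.1 (s0 0 a (hse.trans d1))).1 (hp a)
  simp only [mul_sub, mul_add, sum_sub_distrib, sum_add_distrib, ← sum_mul, Λ.p_sum,
    one_mul] at k5
  linarith

end Vale.Agent.P166
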