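import Vale.Agent.P166.ConcD

/-! Comparison of expected log partition functions for different spectra. -/

namespace Vale.Agent.P166

open MeasureTheory ProbabilityTheory Real Function Module
open scoped RealInnerProductSpace

noncomputable section

variable {E : Type*} [NormedAddCommGroup E] [InnerProductSpace ℝ E] [FiniteDimensional ℝ E]
  [MeasurableSpace E] [BorelSpace E] {Cf 𝒢 : Type*} [MeasurableSpace Cf] [MeasurableSpace 𝒢]
  {ι : Type*} [Fintype ι]

lemma exists_abs_le (c : ι → ℝ) : ∃ M, 0 ≤ M ∧ ∀ i, |c i| ≤ M :=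
  ⟨∑ i, |c i|, Finset.sum_nonneg fun _ _ => abs_nonneg _, fun i =>
    Finset.single_le_sum (f := fun i => |c i|) (fun _ _ => abs_nonneg _) (Finset.mem_univ i)⟩

lemma fR_le_add (ν : Measure Cf) [IsProbabilityMeasure ν] {x : Cf → E} (hx : Measurable x)
    {N : ℝ} (hN : ∀ σ, ‖x σ‖ ^ 2 = N) (b : OrthonormalBasis ι ℝ E) {c c' : ι → ℝ} {δ : ℝ}
    (h : ∀ i, c i ≤ c' i + δ) (L : E ≃ₗᵢ[ℝ] E) : fR ν x b c L ≤ fR ν x b c' L + δ * N := by
  obtain ⟨M, hM0, hM⟩ := exists_abs_le c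
  obtain ⟨M', hM0', hM'⟩ := exists_abs_le c'
  have hn : ∀ σ, ‖L (x σ)‖ ^ 2 ≤ N := fun σ => by rw [L.norm_map]; exact (hN σ).le
  unfold fR
  rw [add_comm, ← log_int_add ν (measurable_quad hx b c' L) fun σ => abs_quad_le b hM' (hn σ) hM0']
  refine log_int_mono ν (measurable_quad hx b c L)
    (measurable_const.add (measurable_quad hx b c' L)) (fun σ => abs_quad_le b hM (hn σ) hM0)
    (B' := |δ * N| + M' * N)
    (fun σ => (abs_add_le _ _).trans (add_le_add le_rfl (abs_quad_le b hM' (hn σ) hM0')))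
    fun σ => ?_
  rw [← hN σ, ← L.norm_map, ← b.sum_sq_inner_right, Finset.mul_sum, ← Finset.sum_add_distrib]
  refine Finset.sum_le_sum fun i _ => ?_
  nlinarith [h i, sq_nonneg ⟪b i, L (x σ)⟫]

/-- expected log partition function -/
def eR (ν : Measure Cf) (x : Cf → E) (b : OrthonormalBasis ι ℝ E) (ρ : Measure 𝒢)
    (R : 𝒢 → E ≃ₗᵢ[ℝ] E) (c : ι → ℝ) : ℝ := ∫ g, fR ν x b c (R g) ∂ρ

lemma integrable_fR (ν : Measure Cf) [IsProbabilityMeasure ν] {x : Cf → E} (hx : Measurable x)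
    {N : ℝ} (hN : ∀ σ, ‖x σ‖ ^ 2 = N) (b : OrthonormalBasis ι ℝ E) {ρ : Measure 𝒢}
    {R : 𝒢 → E ≃ₗᵢ[ℝ] E} (hR : RotLaw ρ R) (c : ι → ℝ) :
    Integrable (fun g => fR ν x b c (R g)) ρ := by
  have := hR.prob
  obtain ⟨M, hM0, hM⟩ := exists_abs_le c
  exact integrable_of_bdd _ (measurable_fR ν hx b c hR.meas) fun g =>
    abs_fR_le ν hx b hM (fun σ => (hN σ).le) hM0 _

lemma eR_le_add (ν : Measure Cf) [IsProbabilityMeasure ν] {x : Cf → E} (hx : Measurable x)
    {N : ℝ} (hN : ∀ σ, ‖x σ‖ ^ 2 = N) (b : OrthonormalBasis ι ℝ E) {ρ : Measure 𝒢}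
    {R : 𝒢 → E ≃ₗᵢ[ℝ] E} (hR : RotLaw ρ R) {c c' : ι → ℝ} {δ : ℝ} (h : ∀ i, c i ≤ c' i + δ) :
    eR ν x b ρ R c ≤ eR ν x b ρ R c' + δ * N := by
  have := hR.prob
  have h1 := integral_mono (integrable_fR ν hx hN b hR c)
    ((integrable_fR ν hx hN b hR c').add (integrable_const (δ * N)))
    fun g => fR_le_add ν hx hN b h (R g)
  simp only [Pi.add_apply] at h1
  rw [integral_add (integrable_fR ν hx hN b hR c') (integrable_const _)] at h1
  simpa [eR] using h1

omit [FiniteDimensional ℝ E] [MeasurableSpace E] [BorelSpace E] in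
lemma inner_perm (b : OrthonormalBasis ι ℝ E) (e : ι ≃ ι) (i : ι) (y : E) :
    ⟪b (e i), b.equiv b e y⟫ = ⟪b i, y⟫ := by
  rw [← b.equiv_apply_basis b e, LinearIsometryEquiv.inner_map_map]

lemma eR_perm (ν : Measure Cf) [IsProbabilityMeasure ν] {x : Cf → E} (hx : Measurable x)
    (b : OrthonormalBasis ι ℝ E) {ρ : Measure 𝒢} {R : 𝒢 → E ≃ₗᵢ[ℝ] E} (hR : RotLaw ρ R)
    (c : ι → ℝ) (e : ι ≃ ι) : eR ν x b ρ R (c ∘ e) = eR ν x b ρ R c := by
  obtain ⟨T, hT, hTR⟩ := hR.inv (b.equiv b e)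
  unfold eR
  conv_rhs => rw [← hT.map_eq]
  rw [integral_map hT.measurable.aemeasurable
    (measurable_fR ν hx b c hR.meas).aestronglyMeasurable]
  congr 1
  funext g
  simp only [fR, hTR]
  congr 3
  funext σ
  rw [← e.sum_comp fun i => c i * ⟪b i, b.equiv b e (R g (x σ))⟫ ^ 2]
  simp only [inner_perm, Function.comp]

/-- Gibbs average of a squared coordinate -/
def mR (ν : Measure Cf) (x : Cf → E) (b : OrthonormalBasis ι ℝ E) (c : ι → ℝ) (i : ι)
    (L : E ≃ₗᵢ[ℝ] E) : ℝ :=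
  ∫ σ, ⟪b i, L (x σ)⟫ ^ 2 ∂ν.tilted fun σ => ∑ l, c l * ⟪b l, L (x σ)⟫ ^ 2

lemma measurable_mR (ν : Measure Cf) [SFinite ν] {x : Cf → E} (hx : Measurable x)
    (b : OrthonormalBasis ι ℝ E) (c : ι → ℝ) (i : ι) {R : 𝒢 → E ≃ₗᵢ[ℝ] E}
    (hR : Measurable fun p : 𝒢 × E => R p.1 p.2) : Measurable fun g => mR ν x b c i (R g) := by
  have h1 : Measurable fun p : 𝒢 × Cf => (p.1, x p.2) :=
    measurable_fst.prodMk (hx.comp measurable_snd)
  have h2 := hR.comp h1
  have h3 : Measurable fun p : 𝒢 × Cf => exp (∑ i, c i * ⟪b i, R p.1 (x p.2)⟫ ^ 2) :=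
    (Finset.measurable_sum _ fun i _ =>
      ((measurable_const.inner h2).pow_const 2).const_mul _).exp
  have h4 := (h3.stronglyMeasurable.integral_prod_right' (ν := ν)).measurable.comp
    (measurable_fst : Measurable (Prod.fst : 𝒢 × Cf → 𝒢))
  have h5 : Measurable fun p : 𝒢 × Cf => ⟪b i, R p.1 (x p.2)⟫ ^ 2 :=
    (measurable_const.inner h2).pow_const 2
  simp only [mR, integral_tilted, smul_eq_mul]
  exact (((h3.div h4).mul h5).stronglyMeasurable.integral_prod_right' (ν := ν)).measurable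

lemma eR_move (ν : Measure Cf) [IsProbabilityMeasure ν] {x : Cf → E} (hx : Measurable x)
    {N : ℝ} (hN : ∀ σ, ‖x σ‖ ^ 2 = N) (b : OrthonormalBasis ι ℝ E) {ρ : Measure 𝒢}
    {R : 𝒢 → E ≃ₗᵢ[ℝ] E} (hR : RotLaw ρ R) {c c' : ι → ℝ} {κ M : ℝ} (hM : 0 ≤ M)
    {D T : Finset ι} (hDT : D ⊆ T) (hT : ∀ i ∈ T, c' i = κ) (h1 : ∀ i ∉ D, c i = c' i)
    (h2 : ∀ i ∈ D, κ - M ≤ c i) :
    T.card * (eR ν x b ρ R c' - eR ν x b ρ R c) ≤ M * D.card * N := by
  classical
  have := hR.prob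
  obtain ⟨B, hB0, hB⟩ := exists_abs_le c'
  obtain ⟨B', hB0', hB'⟩ := exists_abs_le (fun i => c' i - c i)
  have hn : ∀ (L : E ≃ₗᵢ[ℝ] E) σ, ‖L (x σ)‖ ^ 2 ≤ N := fun L σ => by
    rw [L.norm_map]; exact (hN σ).le
  have hprob : ∀ L : E ≃ₗᵢ[ℝ] E,
      IsProbabilityMeasure (ν.tilted fun σ => ∑ l, c' l * ⟪b l, L (x σ)⟫ ^ 2) := fun L =>
    isProbabilityMeasure_tilted (integrable_exp_bdd ν (measurable_quad hx b c' L)
      fun σ => abs_quad_le b hB (hn L σ) hB0)
  have hsq : ∀ (L : E ≃ₗᵢ[ℝ] E) (S : Finset ι) σ, ∑ i ∈ S, ⟪b i, L (x σ)⟫ ^ 2 ≤ N := by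
    intro L S σ
    rw [← hN σ, ← L.norm_map, ← b.sum_sq_inner_right]
    exact Finset.sum_le_sum_of_subset_of_nonneg (Finset.subset_univ _) fun _ _ _ => sq_nonneg _
  have hsq1 : ∀ (L : E ≃ₗᵢ[ℝ] E) i σ, |⟪b i, L (x σ)⟫ ^ 2| ≤ N := by
    intro L i σ
    rw [abs_of_nonneg (sq_nonneg _)]
    simpa using hsq L {i} σ
  have hme : ∀ (L : E ≃ₗᵢ[ℝ] E) i, Measurable fun σ => ⟪b i, L (x σ)⟫ ^ 2 := fun L i =>
    (measurable_const.inner (L.continuous.measurable.comp hx)).pow_const 2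
  have hstep : ∀ L : E ≃ₗᵢ[ℝ] E, fR ν x b c' L - fR ν x b c L ≤ M * ∑ i ∈ D, mR ν x b c' i L := by
    intro L
    have := hprob L
    have h3 := log_sub_le_tilted ν (measurable_quad hx b c' L)
      (measurable_quad hx b (fun i => c' i - c i) L) (fun σ => abs_quad_le b hB (hn L σ) hB0)
      fun σ => abs_quad_le b hB' (hn L σ) hB0'
    have e : ∀ σ, ∑ i, c' i * ⟪b i, L (x σ)⟫ ^ 2 - ∑ i, (c' i - c i) * ⟪b i, L (x σ)⟫ ^ 2 =
        ∑ i, c i * ⟪b i, L (x σ)⟫ ^ 2 := by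
      intro σ
      rw [← Finset.sum_sub_distrib]
      exact Finset.sum_congr rfl fun i _ => by ring
    simp only [e] at h3
    refine h3.trans ?_
    unfold mR
    rw [← integral_finsetSum _ fun i _ => integrable_of_bdd _ (hme L i) (hsq1 L i),
      ← integral_const_mul]
    refine integral_mono (integrable_of_bdd _ (measurable_quad hx b _ L)
      fun σ => abs_quad_le b hB' (hn L σ) hB0')
      ((integrable_finsetSum _ fun i _ => integrable_of_bdd _ (hme L i) (hsq1 L i)).const_mul _)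
      fun σ => ?_
    simp only
    rw [← Finset.sum_subset (Finset.subset_univ D) fun i _ hi => by rw [h1 i hi]; ring,
      Finset.mul_sum]
    refine Finset.sum_le_sum fun i hi => mul_le_mul_of_nonneg_right ?_ (sq_nonneg _)
    linarith [hT i (hDT hi), h2 i hi]
  have hmB : ∀ i (L : E ≃ₗᵢ[ℝ] E), |mR ν x b c' i L| ≤ N := fun i L => by
    have := hprob L
    exact abs_integral_le_bdd _ (hsq1 L i)
  have hmi : ∀ i, Integrable (fun g => mR ν x b c' i (R g)) ρ := fun i =>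
    integrable_of_bdd _ (measurable_mR ν hx b c' i hR.meas) fun g => hmB i _
  set m : ι → ℝ := fun i => ∫ g, mR ν x b c' i (R g) ∂ρ with hm
  have hsym : ∀ i ∈ T, ∀ j ∈ T, m i = m j := by
    intro i hi j hj
    obtain ⟨τ, hτ, hτR⟩ := hR.inv (b.equiv b (Equiv.swap i j))
    simp only [hm]
    conv_rhs => rw [← hτ.map_eq]
    rw [integral_map hτ.measurable.aemeasurable
      (measurable_mR ν hx b c' j hR.meas).aestronglyMeasurable]
    congr 1
    funext g
    simp only [mR, hτR]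
    have e1 : ∀ y, ⟪b j, b.equiv b (Equiv.swap i j) y⟫ = ⟪b i, y⟫ := fun y => by
      rw [← inner_perm b (Equiv.swap i j) i y, Equiv.swap_apply_left]
    have e2 : ∀ y, ∑ l, c' l * ⟪b l, b.equiv b (Equiv.swap i j) y⟫ ^ 2 =
        ∑ l, c' l * ⟪b l, y⟫ ^ 2 := by
      intro y
      rw [← Equiv.sum_comp (Equiv.swap i j)]
      refine Finset.sum_congr rfl fun l _ => ?_
      rw [inner_perm]
      congr 1
      rw [Equiv.swap_apply_def]
      split_ifs with h3 h4
      · rw [h3, hT i hi, hT j hj]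
      · rw [h4, hT i hi, hT j hj]
      · rfl
    simp only [e1, e2]
  have hsum : ∑ i ∈ T, m i ≤ N := by
    simp only [hm]
    rw [← integral_finsetSum _ fun i _ => hmi i]
    calc ∫ g, ∑ i ∈ T, mR ν x b c' i (R g) ∂ρ ≤ ∫ _g, N ∂ρ := by
          refine integral_mono (integrable_finsetSum _ fun i _ => hmi i) (integrable_const _)
            fun g => ?_
          have := hprob (R g)
          simp only [mR]
          rw [← integral_finsetSum _ fun i _ => integrable_of_bdd _ (hme _ i) (hsq1 _ i)]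
          refine (le_abs_self _).trans (abs_integral_le_bdd _ fun σ => ?_)
          rw [abs_of_nonneg (Finset.sum_nonneg fun _ _ => sq_nonneg _)]
          exact hsq _ _ _
      _ = N := by simp
  have hD : ∀ i ∈ D, T.card * m i ≤ N := by
    intro i hi
    refine le_of_eq_of_le ?_ hsum
    rw [Finset.sum_congr rfl fun j hj => hsym j hj i (hDT hi)]
    simp
  have h3 : eR ν x b ρ R c' - eR ν x b ρ R c ≤ M * ∑ i ∈ D, m i := by
    unfold eR
    rw [← integral_sub (integrable_fR ν hx hN b hR c') (integrable_fR ν hx hN b hR c)]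
    simp only [hm]
    rw [← integral_finsetSum _ fun i _ => hmi i, ← integral_const_mul]
    exact integral_mono ((integrable_fR ν hx hN b hR c').sub (integrable_fR ν hx hN b hR c))
      ((integrable_finsetSum _ fun i _ => hmi i).const_mul _) fun g => hstep _
  calc T.card * (eR ν x b ρ R c' - eR ν x b ρ R c) ≤ T.card * (M * ∑ i ∈ D, m i) := by gcongr
    _ = M * ∑ i ∈ D, T.card * m i := by rw [← Finset.mul_sum]; ring
    _ ≤ M * ∑ _i ∈ D, N := by gcongr with i hi; exact hD i hi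
    _ = M * D.card * N := by simp [mul_assoc]

/-- number of coefficients at most `v` -/
def cnt (c : ι → ℝ) (v : ℝ) : ℕ := (Finset.univ.filter fun i => c i ≤ v).card

lemma cnt_comp {ι' : Type*} [Fintype ι'] (c : ι → ℝ) (e : ι' ≃ ι) (v : ℝ) :
    cnt (c ∘ e) v = cnt c v := by
  unfold cnt
  exact Finset.card_equiv e (by simp)

lemma card_bad_le {n : ℕ} {a a' : Fin n → ℝ} (ha : Monotone a) (ha' : Monotone a')
    (V : Finset ℝ) {δ : ℝ} (hV : ∀ i, a' i ∈ V ∧ ∃ w ∈ V, a' i - δ ≤ w ∧ w < a' i) :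
    (((Finset.univ.filter fun i => ¬ (a i ≤ a' i ∧ a' i ≤ a i + δ)).card : ℕ) : ℝ) ≤
      ∑ v ∈ V, |(cnt a v : ℝ) - cnt a' v| := by
  classical
  set I : ℝ → Finset (Fin n) := fun v => Finset.univ.filter fun i =>
    min (cnt a v) (cnt a' v) ≤ (i : ℕ) ∧ (i : ℕ) < max (cnt a v) (cnt a' v) with hI
  have hsub : (Finset.univ.filter fun i => ¬ (a i ≤ a' i ∧ a' i ≤ a i + δ)) ⊆ V.biUnion I := by
    intro i hi
    have hi' := (Finset.mem_filter.1 hi).2
    obtain ⟨h1, w, hw, h2, h3⟩ := hV i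
    have k : ∀ v, (i : ℕ) < cnt a v ↔ a i ≤ v := fun v =>
      Tuple.lt_card_le_iff_apply_le_of_monotone ha
    have k' : ∀ v, (i : ℕ) < cnt a' v ↔ a' i ≤ v := fun v =>
      Tuple.lt_card_le_iff_apply_le_of_monotone ha'
    rw [Finset.mem_biUnion]
    by_cases h : a i ≤ a' i
    · have h4 : a i + δ < a' i := lt_of_not_ge fun h5 => hi' ⟨h, h5⟩
      refine ⟨w, hw, Finset.mem_filter.2 ⟨Finset.mem_univ _, ?_⟩⟩
      have h5 := (k w).2 (by linarith)
      have h6 := mt (k' w).1 (not_le.2 h3)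
      omega
    · refine ⟨a' i, h1, Finset.mem_filter.2 ⟨Finset.mem_univ _, ?_⟩⟩
      have h5 := (k' (a' i)).2 le_rfl
      have h6 := mt (k (a' i)).1 h
      omega
  have hc : ∀ v, ((I v).card : ℝ) ≤ |(cnt a v : ℝ) - cnt a' v| := by
    intro v
    have h1 : (I v).card ≤ (Finset.Ico (min (cnt a v) (cnt a' v)) (max (cnt a v) (cnt a' v))).card :=
      Finset.card_le_card_of_injOn (fun i => (i : ℕ))
        (fun i hi => by simpa [hI] using hi) fun i _ j _ h => Fin.ext h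
    rw [Nat.card_Ico] at h1
    rcases le_total (cnt a v) (cnt a' v) with h | h
    · rw [min_eq_left h, max_eq_right h] at h1
      have h2 : ((I v).card : ℝ) ≤ ((cnt a' v - cnt a v : ℕ) : ℝ) := by exact_mod_cast h1
      rw [Nat.cast_sub h] at h2
      rw [abs_sub_comm]
      exact h2.trans (le_abs_self _)
    · rw [min_eq_right h, max_eq_left h] at h1
      have h2 : ((I v).card : ℝ) ≤ ((cnt a v - cnt a' v : ℕ) : ℝ) := by exact_mod_cast h1
      rw [Nat.cast_sub h] at h2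
      exact h2.trans (le_abs_self _)
  calc (((Finset.univ.filter fun i => ¬ (a i ≤ a' i ∧ a' i ≤ a i + δ)).card : ℕ) : ℝ)
      ≤ ((∑ v ∈ V, (I v).card : ℕ) : ℝ) := by
        exact_mod_cast (Finset.card_le_card hsub).trans Finset.card_biUnion_le
    _ ≤ _ := by push_cast; exact Finset.sum_le_sum fun v _ => hc v

/-- Comparison of a general spectrum `c` with a spectrum `c'` on a grid `V` of mesh `δ`. -/
theorem eR_compare (ν : Measure Cf) [IsProbabilityMeasure ν] {x : Cf → E} (hx : Measurable x)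
    {N : ℝ} (hN : ∀ σ, ‖x σ‖ ^ 2 = N) (b : OrthonormalBasis ι ℝ E) {ρ : Measure 𝒢}
    {R : 𝒢 → E ≃ₗᵢ[ℝ] E} (hR : RotLaw ρ R) {c c' : ι → ℝ} {κ M δ : ℝ} (hM : 0 ≤ M) (hδ : 0 ≤ δ)
    (hc : ∀ i, κ - M ≤ c i ∧ c i ≤ κ) (hc' : ∀ i, κ - M ≤ c' i ∧ c' i ≤ κ)
    (V : Finset ℝ) (hV : ∀ i, c' i ∈ V ∧ ∃ w ∈ V, c' i - δ ≤ w ∧ w < c' i) :
    ((Finset.univ.filter fun i => c' i = κ).card : ℝ) * (|eR ν x b ρ R c - eR ν x b ρ R c'| - δ * N)
      ≤ M * (∑ v ∈ V, |(cnt c v : ℝ) - cnt c' v|) * N := by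
  classical
  have hne : Nonempty Cf := nonempty_of_isProbabilityMeasure ν
  have hN0 : 0 ≤ N := by rw [← hN (Classical.arbitrary Cf)]; positivity
  set e0 : Fin (Fintype.card ι) ≃ ι := (Fintype.equivFin ι).symm
  set e := (Tuple.sort (c ∘ e0)).trans e0 with he
  set e' := (Tuple.sort (c' ∘ e0)).trans e0 with he'
  have hmono : Monotone (c ∘ e) := Tuple.monotone_sort (c ∘ e0)
  have hmono' : Monotone (c' ∘ e') := Tuple.monotone_sort (c' ∘ e0)
  have hbad := card_bad_le hmono hmono' V (δ := δ) fun i => hV (e' i)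
  rw [show (∑ v ∈ V, |(cnt (c ∘ e) v : ℝ) - cnt (c' ∘ e') v|) =
    ∑ v ∈ V, |(cnt c v : ℝ) - cnt c' v| by simp only [cnt_comp]] at hbad
  set a : ι → ℝ := c ∘ (e'.symm.trans e) with ha
  have hea : eR ν x b ρ R a = eR ν x b ρ R c := eR_perm ν hx b hR c _
  set D : Finset ι := Finset.univ.filter fun i => ¬ (a i ≤ c' i ∧ c' i ≤ a i + δ) with hD
  have hDc : (D.card : ℝ) ≤ ∑ v ∈ V, |(cnt c v : ℝ) - cnt c' v| := by
    refine le_of_eq_of_le ?_ hbad
    congr 1
    exact Finset.card_equiv e'.symm (by simp [hD, ha])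
  set T : Finset ι := (Finset.univ.filter fun i => c' i = κ) ∪ D with hT
  set up : ι → ℝ := fun i => if i ∈ D then κ else c' i with hup
  set dn : ι → ℝ := fun i => if i ∈ D then κ - M else c' i with hdn
  have hTup : ∀ i ∈ T, up i = κ := by
    intro i hi
    simp only [hup]
    split_ifs with h
    · rfl
    · rcases Finset.mem_union.1 hi with h1 | h1
      · exact (Finset.mem_filter.1 h1).2
      · exact absurd h1 h
  have hgood : ∀ i ∉ D, a i ≤ c' i ∧ c' i ≤ a i + δ := fun i hi => by simpa [hD] using hi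
  have m1 := eR_move ν hx hN b hR (c := dn) (c' := up) hM (Finset.subset_union_right) hTup
    (fun i hi => by simp only [hup, hdn, if_neg hi]) fun i hi => by simp only [hdn, if_pos hi, le_refl]
  have k1 : eR ν x b ρ R a ≤ eR ν x b ρ R up + 0 * N := eR_le_add ν hx hN b hR fun i => by
    simp only [hup]
    split_ifs with h
    · simpa [ha] using (hc _).2
    · simpa using (hgood i h).1
  have k2 : eR ν x b ρ R c' ≤ eR ν x b ρ R up + 0 * N := eR_le_add ν hx hN b hR fun i => by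
    simp only [hup]
    split_ifs with h
    · simpa using (hc' _).2
    · simp
  have k3 : eR ν x b ρ R dn ≤ eR ν x b ρ R a + δ * N := eR_le_add ν hx hN b hR fun i => by
    simp only [hdn]
    split_ifs with h
    · have := (hc ((e'.symm.trans e) i)).1
      simp only [ha, Function.comp]
      linarith
    · exact (hgood i h).2
  have k4 : eR ν x b ρ R dn ≤ eR ν x b ρ R c' + 0 * N := eR_le_add ν hx hN b hR fun i => by
    simp only [hdn]
    split_ifs with h
    · simpa using (hc' _).1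
    · simp
  have k5 : |eR ν x b ρ R c - eR ν x b ρ R c'| - δ * N ≤ eR ν x b ρ R up - eR ν x b ρ R dn := by
    have : 0 ≤ δ * N := by positivity
    rw [sub_le_iff_le_add, abs_le]
    constructor <;> linarith
  have k6 : 0 ≤ eR ν x b ρ R up - eR ν x b ρ R dn := by linarith
  have k7 : ((Finset.univ.filter fun i => c' i = κ).card : ℝ) ≤ T.card := by
    exact_mod_cast Finset.card_le_card Finset.subset_union_left
  calc _ ≤ ((Finset.univ.filter fun i => c' i = κ).card : ℝ) *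
        (eR ν x b ρ R up - eR ν x b ρ R dn) := by gcongr
    _ ≤ T.card * (eR ν x b ρ R up - eR ν x b ρ R dn) := by gcongr
    _ ≤ M * D.card * N := m1
    _ ≤ _ := by gcongr

end

end Vale.Agent.P166
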