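import Vale.Agent.P166.RedA
import Vale.Agent.P166.Base

/-! The Haar rotation: concentration, fractional moments, comparison of spectra. -/

namespace Vale.Agent.P166

open MeasureTheory ProbabilityTheory Real Function Module Matrix
open scoped RealInnerProductSpace

noncomputable section

variable {ι : Type} [Fintype ι] [DecidableEq ι]

lemma sum_sq_mulVec (U : O ι) (y : ι → ℝ) :
    ∑ i, ((U : Matrix ι ι ℝ) *ᵥ y) i ^ 2 = ∑ i, y i ^ 2 := by
  have h : (U : Matrix ι ι ℝ)ᵀ * U = 1 := (Matrix.mem_orthogonalGroup_iff' ι ℝ).1 U.2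
  have e : ∀ z : ι → ℝ, ∑ i, z i ^ 2 = z ⬝ᵥ z := fun z => by simp [dotProduct, sq]
  rw [e, e, Matrix.dotProduct_mulVec, ← Matrix.mulVec_transpose, Matrix.mulVec_mulVec, h,
    Matrix.one_mulVec]

/-- the isometry of an orthogonal matrix -/
def rot (U : O ι) : EuclideanSpace ℝ ι ≃ₗᵢ[ℝ] EuclideanSpace ℝ ι :=
  LinearIsometry.toLinearIsometryEquiv
    { toLinearMap := Matrix.toLpLin 2 2 (U : Matrix ι ι ℝ)
      norm_map' := fun y => by
        rw [← sq_eq_sq₀ (norm_nonneg _) (norm_nonneg _), EuclideanSpace.real_norm_sq_eq,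
          EuclideanSpace.real_norm_sq_eq]
        exact sum_sq_mulVec U y.ofLp } rfl

lemma rot_apply (U : O ι) (y : EuclideanSpace ℝ ι) :
    rot U y = WithLp.toLp 2 ((U : Matrix ι ι ℝ) *ᵥ y.ofLp) := rfl

lemma exists_rot (L : EuclideanSpace ℝ ι ≃ₗᵢ[ℝ] EuclideanSpace ℝ ι) :
    ∃ W : O ι, ∀ y, rot W y = L y := by
  refine ⟨⟨_, L.toMatrix_mem_unitaryGroup (EuclideanSpace.basisFun ι ℝ)
    (EuclideanSpace.basisFun ι ℝ)⟩, fun y => ?_⟩
  rw [rot_apply]
  ext i
  have := LinearMap.toMatrix_mulVec_repr (EuclideanSpace.basisFun ι ℝ).toBasis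
    (EuclideanSpace.basisFun ι ℝ).toBasis (L.toLinearEquiv : _ →ₗ[ℝ] _) y
  exact congrFun this i

lemma rotLaw_hO : RotLaw (hO ι) (rot (ι := ι)) where
  prob := inferInstance
  meas := by
    simp only [rot_apply]
    apply Continuous.measurable
    refine (PiLp.continuous_toLp 2 _).comp ?_
    exact Continuous.matrix_mulVec (continuous_subtype_val.comp continuous_fst)
      ((PiLp.continuous_ofLp 2 _).comp continuous_snd)
  inv L := by
    obtain ⟨W, hW⟩ := exists_rot L
    refine ⟨fun U => W * U, measurePreserving_mul_left _ W, fun U y => ?_⟩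
    rw [← hW, rot_apply, rot_apply, rot_apply]
    simp [Matrix.mulVec_mulVec]

/-- the spin vector in Euclidean space -/
def sv (σ : ι → Bool) : EuclideanSpace ℝ ι := WithLp.toLp 2 (spin σ)

omit [DecidableEq ι] in
lemma norm_sv (σ : ι → Bool) : ‖sv σ‖ ^ 2 = Fintype.card ι := by
  rw [EuclideanSpace.real_norm_sq_eq]
  have : ∀ i, (sv σ).ofLp i ^ 2 = 1 := fun i => by
    simp only [sv, spin]
    split_ifs <;> norm_num
  simp [this]

omit [DecidableEq ι] in
lemma measurable_sv : Measurable (sv (ι := ι)) := measurable_of_countable _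

lemma lz_eq (c : ι → ℝ) (U : O ι) :
    lz c U = fR (unif ι) sv (EuclideanSpace.basisFun ι ℝ) (fun i => c i / 2) (rot U) := by
  unfold lz fR
  congr 3
  funext σ
  rw [Finset.mul_sum]
  congr 1
  refine Finset.sum_congr rfl fun i _ => ?_
  rw [EuclideanSpace.basisFun_inner, rot_apply]
  simp only [xc, sv]
  ring

/-- the expected log partition function -/
def eL (c : ι → ℝ) : ℝ := ∫ U, lz c U ∂hO ι

lemma eL_eq (c : ι → ℝ) :
    eL c = eR (unif ι) sv (EuclideanSpace.basisFun ι ℝ) (hO ι) rot fun i => c i / 2 := by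
  simp only [eL, eR, lz_eq]

lemma measurable_lz (c : ι → ℝ) : Measurable (lz c) := by
  have := measurable_fR (unif ι) measurable_sv (EuclideanSpace.basisFun ι ℝ) (fun i => c i / 2)
    (rotLaw_hO (ι := ι)).meas
  simpa only [← lz_eq] using this

lemma abs_lz_le {c : ι → ℝ} {M : ℝ} (hM : 0 ≤ M) (hc : ∀ i, |c i| ≤ M) (U : O ι) :
    |lz c U| ≤ M / 2 * Fintype.card ι := by
  rw [lz_eq]
  exact abs_fR_le _ measurable_sv _ (fun i => by rw [abs_div, abs_two]; linarith [hc i])
    (fun σ => (norm_sv σ).le) (by positivity) _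

lemma lz_le_add {c c' : ι → ℝ} {δ : ℝ} (h : ∀ i, c i ≤ c' i + δ) (U : O ι) :
    lz c U ≤ lz c' U + δ / 2 * Fintype.card ι := by
  rw [lz_eq, lz_eq]
  exact fR_le_add _ measurable_sv norm_sv _ (fun i => by linarith [h i]) _

lemma integrable_lz (c : ι → ℝ) : Integrable (lz c) (hO ι) := by
  obtain ⟨M, hM0, hM⟩ := exists_abs_le c
  exact integrable_of_bdd _ (measurable_lz c) (abs_lz_le hM0 hM)

lemma eL_le_add {c c' : ι → ℝ} {δ : ℝ} (h : ∀ i, c i ≤ c' i + δ) :
    eL c ≤ eL c' + δ / 2 * Fintype.card ι := by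
  rw [eL_eq, eL_eq]
  exact eR_le_add _ measurable_sv norm_sv _ rotLaw_hO fun i => by linarith [h i]

lemma eL_shift (c : ι → ℝ) (κ : ℝ) : eL (fun i => κ + c i) = eL c + κ / 2 * Fintype.card ι := by
  have h1 := eL_le_add (c := fun i => κ + c i) (c' := c) (δ := κ) fun i => by linarith
  have h2 := eL_le_add (c := c) (c' := fun i => κ + c i) (δ := -κ) fun i => by linarith
  linarith

lemma abs_eL_le {c : ι → ℝ} {M : ℝ} (hM : 0 ≤ M) (hc : ∀ i, |c i| ≤ M) :
    |eL c| ≤ M / 2 * Fintype.card ι := abs_integral_le_bdd _ (abs_lz_le hM hc)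

theorem conc_lz (c : ι → ℝ) {κ M s : ℝ} (hM0 : 0 < M) (hs : 0 < s) (hc1 : ∀ i, c i ≤ κ)
    (hc2 : ∀ i, κ - M ≤ c i) (T : Finset ι) (hT : ∀ i ∈ T, c i = κ)
    (hTc : 8 * (s * M) * Fintype.card ι ≤ T.card) {t : ℝ} (ht : |t| ≤ s / 4) :
    ∫ U, exp (t * (lz c U - eL c)) ∂hO ι ≤ exp (cC s 4 * t ^ 2 * Fintype.card ι) := by
  simp only [lz_eq, eL]
  exact conc_rot _ measurable_sv norm_sv _ rotLaw_hO (fun i => c i / 2) (κ := κ / 2) (M := M / 2)
    (by positivity) hs (fun i => by linarith [hc1 i]) (fun i => by linarith [hc2 i]) T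
    (fun i hi => by rw [hT i hi]) (by linarith) ht

lemma eL_le_Yk {k : ℕ} (hk : 0 < k) (c : ι → ℝ) : eL c ≤ Yk k c := by
  obtain ⟨M, hM0, hM⟩ := exists_abs_le c
  have hk' : (0 : ℝ) < k := by exact_mod_cast hk
  have hm : Measurable fun U => lz c U / k := (measurable_lz c).div_const _
  have hb : ∀ U, |lz c U / k| ≤ M / 2 * Fintype.card ι / k := fun U => by
    rw [abs_div, abs_of_pos hk']; gcongr; exact abs_lz_le hM0 hM U
  have h1 : exp (∫ U, lz c U / k ∂hO ι) ≤ ∫ U, exp (lz c U / k) ∂hO ι :=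
    convexOn_exp.map_integral_le continuous_exp.continuousOn isClosed_univ
      (Filter.Eventually.of_forall fun _ => trivial) (integrable_of_bdd _ hm hb)
      (integrable_exp_bdd _ hm hb)
  have h2 := log_le_log (exp_pos _) h1
  rw [log_exp, integral_div, div_le_iff₀ hk'] at h2
  unfold Yk eL
  linarith

lemma Yk_le_eL {k : ℕ} (hk : 0 < k) (c : ι → ℝ) {κ M s : ℝ} (hM0 : 0 < M) (hs : 0 < s)
    (hc1 : ∀ i, c i ≤ κ) (hc2 : ∀ i, κ - M ≤ c i) (T : Finset ι) (hT : ∀ i ∈ T, c i = κ)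
    (hTc : 8 * (s * M) * Fintype.card ι ≤ T.card) (ht : 1 / (k : ℝ) ≤ s / 4) :
    Yk k c ≤ eL c + cC s 4 / k * Fintype.card ι := by
  have hk' : (0 : ℝ) < k := by exact_mod_cast hk
  have h1 := conc_lz c hM0 hs hc1 hc2 T hT hTc (t := 1 / k) (by rwa [abs_of_pos (by positivity)])
  obtain ⟨B, hB0, hB⟩ := exists_abs_le c
  have hm : Measurable fun U => 1 / (k : ℝ) * (lz c U - eL c) :=
    ((measurable_lz c).sub_const _).const_mul _
  have hb : ∀ U, |1 / (k : ℝ) * (lz c U - eL c)| ≤ 1 / k * (B / 2 * Fintype.card ι + |eL c|) := by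
    intro U
    rw [abs_mul, abs_of_pos (by positivity)]
    gcongr
    exact (abs_sub _ _).trans (add_le_add (abs_lz_le hB0 hB U) le_rfl)
  have h2 := log_le_log (int_exp_pos _ hm hb) h1
  have h3 := log_int_add (hO ι) hm hb (eL c / k)
  have e : ∀ U, eL c / k + 1 / (k : ℝ) * (lz c U - eL c) = lz c U / k := fun U => by ring
  simp only [e] at h3
  rw [log_exp] at h2
  unfold Yk
  rw [h3]
  have e2 : cC s 4 / k * Fintype.card ι = k * (cC s 4 * (1 / k) ^ 2 * Fintype.card ι) := by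
    field_simp
  have e3 : eL c = k * (eL c / k) := by field_simp
  nlinarith [mul_le_mul_of_nonneg_left h2 hk'.le]

theorem tail_lz (c : ι → ℝ) {κ M s δ : ℝ} (hM0 : 0 < M) (hs : 0 < s) (hδ : 0 ≤ δ)
    (hc1 : ∀ i, c i ≤ κ) (hc2 : ∀ i, κ - M ≤ c i) (T : Finset ι) (hT : ∀ i ∈ T, κ - δ ≤ c i)
    (hTc : 8 * (s * M) * Fintype.card ι ≤ T.card) {t : ℝ} (ht0 : 0 ≤ t) (ht : t ≤ s / 4) (a : ℝ) :
    (hO ι).real {U | δ * Fintype.card ι + a ≤ |lz c U - eL c|} ≤
      2 * exp (-t * a + cC s 4 * t ^ 2 * Fintype.card ι) := by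
  set c' : ι → ℝ := fun i => if i ∈ T then κ else c i with hc'
  have h1 : ∀ i, c i ≤ c' i + 0 := fun i => by
    simp only [hc']; split_ifs; exacts [by linarith [hc1 i], by linarith]
  have h2 : ∀ i, c' i ≤ c i + δ := fun i => by
    simp only [hc']; split_ifs with h; exacts [by linarith [hT i h], by linarith]
  have hconc : ∀ t', |t'| ≤ s / 4 → ∫ U, exp (t' * (lz c' U - eL c')) ∂hO ι ≤
      exp (cC s 4 * t' ^ 2 * Fintype.card ι) := fun t' ht' =>
    conc_lz c' hM0 hs (κ := κ) (fun i => by simp only [hc']; split_ifs; exacts [le_rfl, hc1 i])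
      (fun i => by linarith [h1 i, hc2 i]) T (fun i hi => by simp only [hc', if_pos hi]) hTc ht'
  obtain ⟨B, hB0, hB⟩ := exists_abs_le c'
  have hint : ∀ t', Integrable (fun U => exp (t' * (lz c' U - eL c'))) (hO ι) := fun t' =>
    integrable_of_bdd _ (((measurable_lz c').sub_const _).const_mul _).exp fun U =>
      abs_exp_le ((abs_sub _ _).trans (add_le_add (abs_lz_le hB0 hB U) le_rfl))
  have t1 := measure_ge_le_exp_mul_mgf (μ := hO ι) (X := fun U => lz c' U - eL c') a ht0 (hint t)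
  have t2 := measure_le_le_exp_mul_mgf (μ := hO ι) (X := fun U => lz c' U - eL c') (-a)
    (neg_nonpos.2 ht0) (hint (-t))
  have u1 := hconc t (by rwa [abs_of_nonneg ht0])
  have u2 := hconc (-t) (by rwa [abs_neg, abs_of_nonneg ht0])
  simp only [mgf] at t1 t2
  have hsub : {U | δ * Fintype.card ι + a ≤ |lz c U - eL c|} ⊆
      {U | a ≤ lz c' U - eL c'} ∪ {U | lz c' U - eL c' ≤ -a} := by
    intro U hU
    have k1 := lz_le_add h1 U
    have k2 := lz_le_add h2 U
    have k3 := eL_le_add h1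
    have k4 := eL_le_add h2
    have k5 : 0 ≤ δ * Fintype.card ι := by positivity
    simp only [Set.mem_ofPred_eq, Set.mem_union] at hU ⊢
    rcases le_abs.1 hU with h | h
    · left; linarith
    · right; linarith
  calc _ ≤ (hO ι).real ({U | a ≤ lz c' U - eL c'} ∪ {U | lz c' U - eL c' ≤ -a}) :=
        measureReal_mono hsub
    _ ≤ (hO ι).real {U | a ≤ lz c' U - eL c'} + (hO ι).real {U | lz c' U - eL c' ≤ -a} :=
        measureReal_union_le _ _
    _ ≤ exp (-t * a) * exp (cC s 4 * t ^ 2 * Fintype.card ι) +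
        exp (-t * a) * exp (cC s 4 * t ^ 2 * Fintype.card ι) := by
        refine add_le_add (t1.trans (by gcongr)) (t2.trans ?_)
        rw [neg_sq] at u2
        rw [show - -t * -a = -t * a by ring]
        gcongr
    _ = _ := by rw [exp_add]; ring

theorem eL_compare {c c' : ι → ℝ} {κ M δ : ℝ} (hM : 0 ≤ M) (hδ : 0 ≤ δ)
    (hc : ∀ i, κ - M ≤ c i ∧ c i ≤ κ) (hc' : ∀ i, κ - M ≤ c' i ∧ c' i ≤ κ)
    (V : Finset ℝ) (hV : ∀ i, c' i ∈ V ∧ ∃ w ∈ V, c' i - δ ≤ w ∧ w < c' i) :
    ((Finset.univ.filter fun i => c' i = κ).card : ℝ) * (|eL c - eL c'| - δ / 2 * Fintype.card ι)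
      ≤ M / 2 * (∑ v ∈ V, |(cnt c v : ℝ) - cnt c' v|) * Fintype.card ι := by
  have h := eR_compare (unif ι) measurable_sv norm_sv (EuclideanSpace.basisFun ι ℝ) rotLaw_hO
    (c := fun i => c i / 2) (c' := fun i => c' i / 2) (κ := κ / 2) (M := M / 2) (δ := δ / 2)
    (by positivity) (by positivity) (fun i => by constructor <;> linarith [hc i])
    (fun i => by constructor <;> linarith [hc' i]) (V.image (· / 2)) fun i => by
      obtain ⟨h1, w, hw, h2, h3⟩ := hV i
      exact ⟨Finset.mem_image_of_mem _ h1, w / 2, Finset.mem_image_of_mem _ hw, by linarith,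
        by linarith⟩
  rw [← eL_eq, ← eL_eq, Finset.sum_image fun x _ y _ h => by linarith] at h
  have e1 : ∀ (d : ι → ℝ) v, cnt (fun i => d i / 2) (v / 2) = cnt d v := fun d v => by
    unfold cnt
    congr 2
    funext i
    rw [div_le_div_iff_of_pos_right two_pos]
  have e2 : (Finset.univ.filter fun i => c' i / 2 = κ / 2) =
      Finset.univ.filter fun i => c' i = κ := by
    congr 1
    funext i
    rw [div_left_inj' two_ne_zero]
  simpa only [e1, e2] using h

omit [DecidableEq ι] in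
lemma integral_uniform {Ω : Type*} [Fintype Ω] [MeasurableSpace Ω] [MeasurableSingletonClass Ω]
    (f : Ω → ℝ) : ∫ w, f w ∂uniformOn Set.univ = (Fintype.card Ω : ℝ)⁻¹ * ∑ w, f w := by
  rw [integral_fintype .of_finite, Finset.mul_sum]
  refine Finset.sum_congr rfl fun w _ => ?_
  simp [measureReal_def, uniformOn_univ]

lemma pressure_eq (N : ℕ) (β : ℝ) (lam : Fin N → ℝ) (U : O (Fin N)) :
    pressure N β lam U = lz (fun i => β * lam i) U / N := by
  unfold pressure lz unif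
  rw [integral_uniform, one_div, ← div_eq_inv_mul]
  congr 3
  · simp
  · refine Finset.sum_congr rfl fun σ _ => ?_
    congr 1
    rw [← Matrix.mulVec_mulVec, ← Matrix.mulVec_mulVec, Matrix.dotProduct_mulVec,
      Matrix.vecMul_transpose]
    simp only [dotProduct, Matrix.mulVec_diagonal, xc, Finset.mul_sum]
    refine Finset.sum_congr rfl fun i _ => ?_
    ring

end

end Vale.Agent.P166
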