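import Mathlib

/-! Statement level definitions for the pressure of orthogonally invariant Ising spin glasses. -/

namespace Vale.Agent.P166

open MeasureTheory ProbabilityTheory Real Finset Matrix

noncomputable section

/-- One step of the Parisi recursion: `ζ⁻¹ log E exp (ζ Φ (x + √v z))`, `z` standard Gaussian. -/
def stp (ζ v : ℝ) (Φ : ℝ → ℝ) (x : ℝ) : ℝ :=
  ζ⁻¹ * Real.log (∫ z, Real.exp (ζ * Φ (x + √v * z)) ∂gaussianReal 0 1)

/-- Parisi recursion with terminal function `Φ`: `casc k r Φ n j` applies the levels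
`j, …, j + n - 1`; level `i` has exponent `ζ = (i + 1) / k` and variance `r (i + 1) - r i`. -/
def casc (k : ℕ) (r : ℕ → ℝ) (Φ : ℝ → ℝ) : ℕ → ℕ → ℝ → ℝ
  | 0, _ => Φ
  | n + 1, j => stp (((j : ℝ) + 1) / k) (r (j + 1) - r j) (casc k r Φ n (j + 1))

/-- Ising single site functional of the field path `r`. -/
def XI (k : ℕ) (r : ℕ → ℝ) : ℝ :=
  casc k r (fun x => Real.log (Real.cosh x)) (k - 1) 0 0 - r (k - 1) / 2

/-- The coupling term `∑_{l < k} q_l r_l / (2 k)`. -/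
def pairing (k : ℕ) (q r : ℕ → ℝ) : ℝ := (1 / (2 * (k : ℝ))) * ∑ l ∈ range k, q l * r l

/-- Overlap paths `0 = q 0 ≤ q 1 ≤ ⋯ ≤ q k = 1`. -/
def AdmQ (k : ℕ) (q : ℕ → ℝ) : Prop := q 0 = 0 ∧ Monotone q ∧ q k = 1

/-- Field paths `0 = r 0 ≤ r 1 ≤ ⋯`. -/
def AdmR (r : ℕ → ℝ) : Prop := r 0 = 0 ∧ Monotone r

/-- The rank one spherical integral of `μ` (with `b` the top of the support of `μ`):
`inf_{t > x b} (t - 1 - ∫ log (t - x λ) dμ(λ)) / 2`.  For small `x` it equals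
`∫₀ˣ R_μ / 2`, with `R_μ` the `R`-transform of `μ`. -/
def sphI (μ : Measure ℝ) (b x : ℝ) : ℝ :=
  ⨅ t : {t : ℝ // x * b < t}, (1 / 2) * ((t : ℝ) - 1 - ∫ l, Real.log (t - x * l) ∂μ)

/-- The susceptibilities `θ_j = ∑_{j ≤ i < k} ((i + 1) / k) (q (i + 1) - q i)`. -/
def th (k : ℕ) (q : ℕ → ℝ) (j : ℕ) : ℝ :=
  ∑ i ∈ Ico j k, ((i : ℝ) + 1) / k * (q (i + 1) - q i)

/-- The energy functional `∑_{j < k} (k / (j + 1)) (I (β θ_j) - I (β θ_{j+1}))`. -/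
def EE (μ : Measure ℝ) (b β : ℝ) (k : ℕ) (q : ℕ → ℝ) : ℝ :=
  ∑ j ∈ range k, (k : ℝ) / (j + 1) * (sphI μ b (β * th k q j) - sphI μ b (β * th k q (j + 1)))

/-- The `k` level variational value. -/
def parisi (μ : Measure ℝ) (b β : ℝ) (k : ℕ) : EReal :=
  ⨅ q : {q // AdmQ k q}, ⨆ r : {r // AdmR r},
    ((EE μ b β k q + XI k r + pairing k q r : ℝ) : EReal)

/-- The spin vector of `σ`. -/
def spin {ι : Type*} (σ : ι → Bool) (i : ι) : ℝ := if σ i then 1 else -1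

/-- The pressure `P_N(β)` for the coupling matrix `J = Uᵀ Λ U`, `Λ = diag(lam)`. -/
def pressure (N : ℕ) (β : ℝ) (lam : Fin N → ℝ) (U : Matrix (Fin N) (Fin N) ℝ) : ℝ :=
  (1 / (N : ℝ)) * Real.log ((2 : ℝ)⁻¹ ^ N * ∑ σ : Fin N → Bool,
    Real.exp (β / 2 * (spin σ ⬝ᵥ ((Uᵀ * diagonal lam * U) *ᵥ spin σ))))

end

end Vale.Agent.P166
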