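import Vale.Agent.P166.GR2
import Vale.Agent.P166.Sync

/-! The upper bound. -/

namespace Vale.Agent.P166

open MeasureTheory ProbabilityTheory Real Finset Matrix Filter Topology
open Vale.Agent.P157 (Sys St γ GS s0 YY mm pp sh DirD pull mrg Rg Sp νB xB)
open scoped ENNReal

theorem Atoms.Freq.near {α : Type} [Fintype α] [DecidableEq α] {Λ : Atoms α}
    {ℓ : (N : ℕ) → Fin N → α} (h : Λ.Freq ℓ) {δ : ℝ} (hδ : 0 < δ) :
    ∀ᶠ N in atTop, Near Λ.p δ (ℓ N) := by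
  refine eventually_all.2 fun a => ?_
  filter_upwards [Metric.tendsto_nhds.1 (h a) δ hδ] with N hN
  simpa [blkL, Real.dist_eq] using hN.le

theorem up_deriv_nonpos {f : ℝ → ℝ} {D t0 : ℝ} (h : HasDerivAt f D 0) (ht0 : 0 < t0)
    (hm : ∀ t, 0 < t → t ≤ t0 → f t ≤ f 0) : D ≤ 0 := by
  refine le_of_tendsto h.tendsto_slope_zero_right ?_
  filter_upwards [Ioc_mem_nhdsGT ht0] with t ht
  rw [zero_add, smul_eq_mul]
  exact mul_nonpos_of_nonneg_of_nonpos (inv_nonneg.2 ht.1.le) (sub_nonpos.2 (hm t ht.1 ht.2))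

section Aux

variable {α ι : Type} [Fintype α] [DecidableEq α] [Fintype ι] [DecidableEq ι] (Λ : Atoms α)
  {k : ℕ} (ℓ : ι → α)

/-- the interpolating free energy -/
noncomputable def upF (k : ℕ) (ℓ : ι → α) (x : ℝ × (ℕ → ℝ) × ℝ × (ℕ → ℝ)) : ℝ :=
  YM k (mkM Λ.top ℓ (Λ.e x.1) x.2.2.1 x.2.2.2 fun j _ => x.2.1 j)

theorem upF_le (hk : 0 < k) {s b τ : ℝ} {ρ y : ℕ → ℝ} (hs : 0 ≤ s) (h : Small k τ b y) :
    upF Λ k ℓ (s, ρ, b, y) ≤ Fintype.card ι * (YI k ρ + τ / 2) := by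
  set M := mkM Λ.top ℓ (Λ.e s) b y fun j _ => ρ j
  have h1 : YM k ⟨M.c, fun j _ => ρ j, M.u⟩ ≤ _ := YM_mono_c (c' := 0) (δ := 0) hk fun i => by
    simp only [M, mkM, Pi.zero_apply, add_zero]
    split_ifs
    exacts [neg_nonpos.2 h.1, neg_nonpos.2 (Λ.e_nonneg hs _)]
  have h2 := (YM_u (c := 0) (r := fun j _ => ρ j) (u := M.u) (τ := τ) hk (fun j _ i => by
    simp only [M, mkM]; positivity) fun i => by
      simp only [M, mkM]
      split_ifs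
      · exact h.2.2
      · simpa using h.1.trans h.2.1).2
  rw [YM_field hk] at h2
  change YM k ⟨M.c, fun j _ => ρ j, M.u⟩ ≤ _
  linarith

theorem le_upF (hk : 0 < k) {b : ℝ} {ρ y : ℕ → ℝ} (hb : 0 ≤ b) (hρ : ∀ j, 0 ≤ ρ j) :
    Yk k (fun i => Λ.c (ℓ i)) ≤ upF Λ k ℓ (1, ρ, b, y) + b * Fintype.card ι / 2 := by
  set M := mkM Λ.top ℓ (Λ.e 1) b y fun j _ => ρ j
  have h1 : YM k ⟨fun i => Λ.c (ℓ i), 0, 0⟩ ≤ _ := YM_mono_c (c' := M.c) (δ := b) hk fun i => by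
    simp only [M, mkM, Atoms.e]
    split_ifs with h
    · simp [h, Λ.c_top]
    · simpa using hb
  have h2 := (YM_u (c := M.c) (r := 0) (u := M.u) (τ := ∑ j ∈ range k, y j ^ 2) hk
    (fun j _ i => by simp only [M, mkM]; positivity) fun i => by
      simp only [M, mkM]
      split_ifs
      · exact le_rfl
      · simpa using sum_nonneg fun j _ => sq_nonneg (y j)).1
  have h3 := YM_r (c := M.c) (r := fun j _ => ρ j) (u := M.u) hk fun j _ _ => hρ j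
  rw [YM_zero hk] at h1
  change _ ≤ YM k ⟨M.c, fun j _ => ρ j, M.u⟩ + _
  linarith

theorem upF_cont (hk : 0 < k) : Continuous (upF Λ k ℓ) := by
  refine continuous_iff_continuousAt.2 fun x => YM_cont hk (fun i => ?_) (fun j _ i => ?_)
    fun j _ i => ?_
  · refine Continuous.tendsto (f := fun x : ℝ × (ℕ → ℝ) × ℝ × (ℕ → ℝ) =>
      if ℓ i = Λ.top then -x.2.2.1 else -Λ.e x.1 (ℓ i)) ?_ x
    unfold Atoms.e
    split_ifs <;> fun_prop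
  · exact Continuous.tendsto (f := fun x : ℝ × (ℕ → ℝ) × ℝ × (ℕ → ℝ) => x.2.1 j) (by fun_prop) x
  · refine Continuous.tendsto (f := fun x : ℝ × (ℕ → ℝ) × ℝ × (ℕ → ℝ) =>
      if ℓ i = Λ.top then x.2.2.2 j ^ 2 else 0) ?_ x
    split_ifs <;> fun_prop

theorem upF_deriv (hk : 0 < k) {s b : ℝ} {ρ y : ℕ → ℝ} (hs : 0 < s) (hρ : ∀ j, 0 < ρ j)
    (ρ' : ℕ → ℝ) : HasDerivAt (fun t => upF Λ k ℓ (s - t, fun j => ρ j + t * ρ' j, b, y))
      ((1 / (2 * s)) * (∑ i, Λ.e s (ℓ i) * (mkM Λ.top ℓ (Λ.e s) b y fun j _ => ρ j).tl k (k - 1)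
        fun x y => xs x i * xs y i) + (1 / 2) * Fintype.card ι * ∑ j ∈ range k, ρ' j *
          (mkM Λ.top ℓ (Λ.e s) b y fun j _ => ρ j).tl k j ovs) 0 := by
  have h := YM_deriv hk (mkM Λ.top ℓ (Λ.e s) b y fun j _ => ρ j) (fun i => -Λ.c (ℓ i)) ρ'
    fun j _ _ => hρ j
  convert h using 1
  · funext t
    refine YM_congr (funext fun i => ?_) (fun _ _ => rfl) fun _ _ => rfl
    simp only [mkM, Atoms.e]
    split_ifs with h
    · simp [h, Λ.c_top]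
    · ring
  · congr 1
    rw [mul_sum, mul_sum]
    refine sum_congr rfl fun i _ => ?_
    simp only [Atoms.e]
    field_simp

/-- the penalised functional -/
noncomputable def upP (k : ℕ) (ℓ : ι → α) (q : ℕ → ℝ) (ε d K η : ℝ)
    (x : ℝ × (ℕ → ℝ) × ℝ × (ℕ → ℝ)) : ℝ := upF Λ k ℓ x - Fintype.card ι *
    ((1 / 2) * ∑ j ∈ range k, x.2.1 j * tail k q j + EE Λ.μ 0 x.1 k q + ε * x.1 +
      d * ∑ j ∈ range k, x.2.1 j + K * pen k η x.2.2.1 x.2.2.2)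

theorem upP_deriv (hk : 0 < k) {s b E' : ℝ} {ρ y q : ℕ → ℝ} (ε d K η : ℝ) (hs : 0 < s)
    (hρ : ∀ j, 0 < ρ j) (ρ' : ℕ → ℝ) (hE : HasDerivAt (fun s => EE Λ.μ 0 s k q) E' s) :
    HasDerivAt (fun t => upP Λ k ℓ q ε d K η (s - t, fun j => ρ j + t * ρ' j, b, y))
      ((1 / (2 * s)) * (∑ i, Λ.e s (ℓ i) * (mkM Λ.top ℓ (Λ.e s) b y fun j _ => ρ j).tl k (k - 1)
        fun x y => xs x i * xs y i) + (1 / 2) * Fintype.card ι * ∑ j ∈ range k, ρ' j *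
          (mkM Λ.top ℓ (Λ.e s) b y fun j _ => ρ j).tl k j ovs - Fintype.card ι *
        (1 / 2 * ∑ j ∈ range k, ρ' j * tail k q j + -E' + ε * -1 + d * ∑ j ∈ range k, ρ' j)) 0 := by
  have h3 : HasDerivAt (fun t : ℝ => s - t) (-1) 0 := by
    simpa using (hasDerivAt_id (0 : ℝ)).const_sub s
  have hE' : HasDerivAt (fun t => EE Λ.μ 0 (s - t) k q) (-E') 0 := by
    have := HasDerivAt.comp_of_eq 0 hE h3 (by simp)
    rw [mul_neg, mul_one] at this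
    exact this
  have lin : ∀ f : ℕ → ℝ, HasDerivAt (fun t => ∑ j ∈ range k, (ρ j + t * ρ' j) * f j)
      (∑ j ∈ range k, ρ' j * f j) 0 := fun f => by
    refine HasDerivAt.fun_sum fun j _ => ?_
    simpa using (((hasDerivAt_id (0 : ℝ)).mul_const (ρ' j)).const_add (ρ j)).mul_const (f j)
  have hlin1 : HasDerivAt (fun t => ∑ j ∈ range k, (ρ j + t * ρ' j)) (∑ j ∈ range k, ρ' j) 0 := by
    simpa using lin fun _ => 1
  exact (upF_deriv Λ ℓ hk (b := b) (y := y) hs hρ ρ').fun_sub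
    (((((((lin (tail k q)).const_mul (1 / 2)).fun_add hE').fun_add
    (h3.const_mul ε)).fun_add (hlin1.const_mul d)).add_const (K * pen k η b y)).const_mul _)

theorem upP_cont (hk : 0 < k) {q : ℕ → ℝ} (hq : AdmQ k q) (ε d K η : ℝ)
    {Q : Set (ℝ × (ℕ → ℝ) × ℝ × (ℕ → ℝ))} (hQ : ∀ x ∈ Q, 0 ≤ x.1) :
    ContinuousOn (upP Λ k ℓ q ε d K η) Q := by
  have h1 : ContinuousOn (fun x : ℝ × (ℕ → ℝ) × ℝ × (ℕ → ℝ) => EE Λ.μ 0 x.1 k q) Q :=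
    (EE_cont Λ hq).comp continuousOn_fst fun x hx => hQ x hx
  refine (upF_cont Λ ℓ hk).continuousOn.sub (continuousOn_const.mul
    ((((Continuous.continuousOn ?_).add h1).add (Continuous.continuousOn ?_)).add
      (Continuous.continuousOn ?_) |>.add (Continuous.continuousOn ?_)))
  · fun_prop
  · fun_prop
  · fun_prop
  · unfold pen; fun_prop

end Aux

theorem up_arith {N X Z V W U R E' s s0 e2 d ε B C1 : ℝ} (hN : 1 ≤ N) (hs0 : 0 < s0) (hs : s0 ≤ s)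
    (hε : 0 < ε) (he : 0 < e2) (hd : 0 < d) (hB : 0 ≤ B) (hR : R ≤ B) (hd2 : d * B ≤ ε / 2)
    (he2 : e2 * (C1 + 1 / s0 + B) ≤ ε / 4) (a1 : W - e2 * R ≤ V) (a3 : -e2 ≤ X / N - -s * Z)
    (a4 : 1 / 2 * Z - 1 / 2 * W - (E' - 1 / 2 * U) ≤ C1 * e2) :
    0 < 1 / (2 * s) * X + 1 / 2 * N * V - N * (1 / 2 * U + -E' + ε * -1 + d * R) := by
  have hsp : 0 < s := hs0.trans_le hs
  have a5 : N * (-Z / 2 - e2 * (1 / s0) / 2) ≤ 1 / (2 * s) * X := by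
    have b1 : N * (-s * Z - e2) ≤ X := by
      rw [← le_div_iff₀' (by linarith)]; linarith
    have b2 : 1 / s ≤ 1 / s0 := one_div_le_one_div_of_le hs0 hs
    have b3 : 1 / (2 * s) * (N * (-s * Z - e2)) = N * (-Z / 2 - e2 * (1 / s) / 2) := by
      field_simp
    have b4 := mul_le_mul_of_nonneg_left b1 (show 0 ≤ 1 / (2 * s) by positivity)
    have b5 : N * (-Z / 2 - e2 * (1 / s0) / 2) ≤ N * (-Z / 2 - e2 * (1 / s) / 2) := by
      gcongr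
    linarith
  have a6 := mul_le_mul_of_nonneg_left a1 (show 0 ≤ 1 / 2 * N by positivity)
  have a7 : d * R ≤ ε / 2 := le_trans (by gcongr) hd2
  have a8 : e2 * R ≤ e2 * B := by gcongr
  have a9 : 0 ≤ e2 * (1 / s0) := by positivity
  have a10 : 0 ≤ e2 * B := by positivity
  have a11 : ε / 4 ≤ (-Z / 2 - e2 * (1 / s0) / 2) + (1 / 2) * (W - e2 * R) -
      (1 / 2 * U + -E' + ε * -1 + d * R) := by
    linarith
  nlinarith [mul_le_mul_of_nonneg_left a11 (show 0 ≤ N by linarith)]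

theorem up_arith2 {N Y F F1 I x E E1 S U U1 R Pn s ε d η K C0 : ℝ} (hN : 1 ≤ N) (hs : 0 < s)
    (hε : 0 < ε) (hd : d ≤ 1) (hη : 2 * η ≤ ε) (hK : 0 ≤ K) (hP : 0 ≤ Pn)
    (u1 : F ≤ N * (I + ε / 2)) (u2 : Y ≤ F1 + η * N / 2) (u3 : I - 1 / 2 * U ≤ x) (u4 : x ≤ S)
    (u5 : -(C0 * s) ≤ E) (u6 : F1 - N * (1 / 2 * U1 + E1 + ε * 1 + d * ε + K * 0) ≤
      F - N * (1 / 2 * U + E + ε * s + d * R + K * Pn)) (u7 : U1 ≤ ε) (u8 : C0 * s - d * R ≤ ε) :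
    Y ≤ N * (E1 + S + 5 * ε) := by
  have u9 : I + ε / 2 - (1 / 2 * U + E + ε * s + d * R + K * Pn) +
      (1 / 2 * U1 + E1 + ε * 1 + d * ε) + η / 2 ≤ E1 + S + 5 * ε := by
    nlinarith [mul_nonneg hK hP, mul_pos hε hs]
  nlinarith [mul_le_mul_of_nonneg_left u9 (show 0 ≤ N by linarith)]

/-- the compact parameter set -/
def upQ (s0 g T η : ℝ) : Set (ℝ × (ℕ → ℝ) × ℝ × (ℕ → ℝ)) :=
  Set.Icc s0 1 ×ˢ (Set.pi Set.univ fun _ => Set.Icc g T) ×ˢ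
    Set.Icc (η / 2) (2 * η) ×ˢ Set.pi Set.univ fun _ => Set.Icc (η / 2) (2 * η)

theorem upQ_compact (s0 g T η : ℝ) : IsCompact (upQ s0 g T η) :=
  isCompact_Icc.prod ((isCompact_univ_pi fun _ => isCompact_Icc).prod
    (isCompact_Icc.prod (isCompact_univ_pi fun _ => isCompact_Icc)))

theorem mem_upQ {s0 g T η s b : ℝ} {ρ y : ℕ → ℝ} : (s, ρ, b, y) ∈ upQ s0 g T η ↔
    (s0 ≤ s ∧ s ≤ 1) ∧ (∀ j, g ≤ ρ j ∧ ρ j ≤ T) ∧ Box η b y := by
  simp only [upQ, Set.mem_prod, Set.mem_univ_pi, Set.mem_Icc, Box]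

/-- at a maximum point with `s > s0` the field is large -/
theorem up_key {α ι : Type} [Fintype α] [DecidableEq α] [Fintype ι] [DecidableEq ι] (Λ : Atoms α)
    {k : ℕ} (ℓ : ι → α) (hk : 0 < k) {s0 g η s b ε d K e2 C0 C1 B E' : ℝ} {ρ ρ1 y q A : ℕ → ℝ}
    (hx : (s, ρ, b, y) ∈ upQ s0 g (C0 / d + B + ε) η)
    (hmax : IsMaxOn (upP Λ k ℓ q ε d K η) (upQ s0 g (C0 / d + B + ε) η) (s, ρ, b, y))
    (hι : (1 : ℝ) ≤ Fintype.card ι) (hs0 : 0 < s0) (hg : 0 < g) (hε : 0 < ε) (he : 0 < e2)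
    (hd : 0 < d) (hB : 0 ≤ B) (hC : 0 ≤ C1) (hd2 : d * B ≤ ε / 2)
    (he2 : e2 * (C1 + 1 / s0 + B) ≤ ε / 4) (h1 : s0 < s) (h2 : d * ∑ j ∈ range k, ρ j < C0)
    (g1 : ∀ j < k, |(mkM Λ.top ℓ (Λ.e s) b y fun j _ => ρ j).tl k j ovs -
      tail k (qA k Λ.p (Λ.e s) A) j| ≤ e2) (g2 : |qA k Λ.p (Λ.e s) A k - 1| ≤ e2)
    (g3 : |(∑ i, Λ.e s (ℓ i) * (mkM Λ.top ℓ (Λ.e s) b y fun j _ => ρ j).tl k (k - 1)
      fun x y => xs x i * xs y i) / Fintype.card ι - ∑ a, Λ.p a * Λ.e s a * Tilt k (Λ.e s a) A k| ≤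
        e2) (r0 : ∀ j, 0 ≤ ρ1 j) (r1 : ∑ j ∈ range k, ρ1 j ≤ B)
    (r2 : HasDerivAt (fun s => EE Λ.μ 0 s k q) E' s)
    (r3 : |((1 / 2) * ∑ a, Λ.p a * Λ.c a * Tilt k (Λ.e s a) A k -
          (1 / 2) * ∑ j ∈ range k, ρ1 j * tail k (qA k Λ.p (Λ.e s) A) j) -
        (E' - (1 / 2) * ∑ j ∈ range k, ρ1 j * tail k q j)| ≤
        C1 * |qA k Λ.p (Λ.e s) A k - 1|) : False := by
  obtain ⟨⟨hs, hs'⟩, hρ, hb⟩ := mem_upQ.1 hx
  have hsp : 0 < s := hs0.trans_le hs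
  have hρ0 : ∀ j, 0 < ρ j := fun j => hg.trans_le (hρ j).1
  obtain ⟨ρ', hρ'0, hρ'⟩ : ∃ ρ' : ℕ → ℝ, (∀ j, ¬ j < k → ρ' j = 0) ∧ ∀ j < k, ρ' j = ρ1 j :=
    ⟨fun j => if j < k then ρ1 j else 0, fun j hj => if_neg hj, fun j hj => if_pos hj⟩
  have hs1 : ∀ f : ℕ → ℝ, ∑ j ∈ range k, ρ' j * f j = ∑ j ∈ range k, ρ1 j * f j := fun f =>
    sum_congr rfl fun j hj => by rw [hρ' j (mem_range.1 hj)]
  have hs2 : ∑ j ∈ range k, ρ' j = ∑ j ∈ range k, ρ1 j :=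
    sum_congr rfl fun j hj => hρ' j (mem_range.1 hj)
  have hle := up_deriv_nonpos (upP_deriv Λ ℓ hk (b := b) (y := y) ε d K η hsp hρ0 ρ' r2)
    (t0 := min 1 (s - s0)) (lt_min one_pos (by linarith)) fun t ht ht' => by
      have t1 := ht'.trans (min_le_left _ _)
      have t2 := ht'.trans (min_le_right _ _)
      simp only [sub_zero, zero_mul, add_zero]
      refine hmax (mem_upQ.2 ⟨⟨by linarith, by linarith⟩, fun j => ?_, hb⟩)
      by_cases hj : j < k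
      · have a1 := single_le_sum (fun j _ => (hρ0 j).le) (mem_range.2 hj)
        have a2 := single_le_sum (fun j _ => r0 j) (mem_range.2 hj)
        have a3 : ∑ j ∈ range k, ρ j ≤ C0 / d := by rw [le_div_iff₀ hd]; linarith
        have a4 := r0 j
        have a5 : t * ρ1 j ≤ ρ1 j := mul_le_of_le_one_left a4 t1
        rw [hρ' j hj]
        exact ⟨by linarith [(hρ j).1, mul_nonneg ht.le a4], by linarith⟩
      · simpa [hρ'0 j hj] using hρ j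
  rw [hs1, hs1, hs2] at hle
  have a2 : ∑ a, Λ.p a * Λ.e s a * Tilt k (Λ.e s a) A k =
      -s * ∑ a, Λ.p a * Λ.c a * Tilt k (Λ.e s a) A k := by
    rw [mul_sum]
    exact sum_congr rfl fun a _ => by rw [Atoms.e]; ring
  rw [a2] at g3
  have a4 := abs_le.1 (r3.trans (mul_le_mul_of_nonneg_left g2 hC))
  refine absurd hle (not_le.2 (up_arith hι hs0 hs hε he hd hB r1 hd2 he2 ?_ (abs_le.1 g3).1
    a4.2))
  rw [mul_sum, ← sum_sub_distrib]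
  refine sum_le_sum fun j hj => ?_
  nlinarith [(abs_le.1 (g1 j (mem_range.1 hj))).1, r0 j]

theorem up_small {c ε : ℝ} (hc : 0 ≤ c) (hε : 0 < ε) : ∃ s > (0 : ℝ), s ≤ 1 ∧ s * c ≤ ε :=
  ⟨min 1 (ε / (c + 1)), by positivity, min_le_left _ _, by
    have := (le_div_iff₀ (by positivity)).1 (min_le_right 1 (ε / (c + 1)))
    have h0 : 0 ≤ min 1 (ε / (c + 1)) := by positivity
    nlinarith⟩

theorem up_eta {k δ ε : ℝ} (hk : 1 ≤ k) (hδ : 0 < δ) (hε : 0 < ε) : ∃ η > (0 : ℝ), 2 * η ≤ δ ∧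
    4 * k * η ^ 2 ≤ δ ∧ 2 * η ≤ ε ∧ 4 * k * η ^ 2 ≤ ε := by
  set m := min 1 (min δ ε)
  have h0 : 0 < m := by positivity
  have h1 : m ≤ 1 := min_le_left _ _
  have h2 : m ≤ δ := (min_le_right _ _).trans (min_le_left _ _)
  have h3 : m ≤ ε := (min_le_right _ _).trans (min_le_right _ _)
  have h4 : m / (4 * k) * (4 * k) = m := by field_simp
  have h5 : 0 < m / (4 * k) := by positivity
  have h6 : 2 * (m / (4 * k)) ≤ m := by nlinarith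
  have h7 : 4 * k * (m / (4 * k)) ^ 2 ≤ m := by nlinarith
  exact ⟨m / (4 * k), h5, by linarith, by linarith, by linarith, by linarith⟩

theorem up_main {α : Type} [Fintype α] [DecidableEq α] (Λ : Atoms α) {ε : ℝ} (hε : 0 < ε) :
    ∃ δ > (0 : ℝ), ∃ k0 : ℕ, ∀ k ≥ k0, 0 < k → ∃ N0 : ℕ, ∀ {ι : Type} [Fintype ι] [DecidableEq ι]
    (ℓ : ι → α) (q : ℕ → ℝ) (S : ℝ), N0 ≤ Fintype.card ι → Near Λ.p δ ℓ → AdmQ k q →
    (∀ r, AdmR r → XI k r + pairing k q r ≤ S) →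
    Yk k (fun i => Λ.c (ℓ i)) ≤ Fintype.card ι * (EE Λ.μ 0 1 k q + S + 5 * ε) := by
  obtain ⟨C0, hC0, hE⟩ := EE_bd Λ
  obtain ⟨C1, hC1, hH⟩ := hj Λ
  obtain ⟨c0, hc0, Ce, hCe, he⟩ := Λ.e_bd
  obtain ⟨P, hP, δ0, hδ0, hN⟩ := near_blk Λ.p_pos
  obtain ⟨s0, hs0, hs1, hs2⟩ := up_small hC0 hε
  have hB0 : 0 ≤ C1 * (1 + P) := by positivity
  obtain ⟨d, hd0, hd1, hd2⟩ := up_small hB0 (half_pos hε)
  obtain ⟨e2, he0, -, he2⟩ := up_small (c := C1 + 1 / s0 + C1 * (1 + P)) (ε := ε / 4)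
    (by positivity) (by positivity)
  obtain ⟨δ1, hδ1, N1, hG⟩ := gr2 Λ.top Λ.p_pos Λ.p_sum P (c0 * s0) Ce e2 (by positivity) he0
  obtain ⟨k0, hk0⟩ := sync P δ1 hP hδ1
  refine ⟨min δ0 δ1, by positivity, k0, fun k hk1 hk => ?_⟩
  have hkr : (1 : ℝ) ≤ k := by exact_mod_cast hk
  obtain ⟨η, hη, hη1, hη2, hη3, hη4⟩ := up_eta hkr hδ1 hε
  obtain ⟨K, hK2, hK1⟩ : ∃ K : ℝ, 2 ≤ K ∧ 1 ≤ K * η :=
    ⟨max 2 (1 / η), le_max_left _ _, (div_le_iff₀ hη).1 (le_max_right _ _)⟩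
  obtain ⟨N2, hS⟩ := hk0 k hk1 hk η K hK2 hK1
  refine ⟨max 1 (max N1 N2), fun {ι} _ _ ℓ q S hι hn hq hS' => ?_⟩
  have hι1 : (1 : ℝ) ≤ Fintype.card ι := by exact_mod_cast (le_max_left _ _).trans hι
  obtain ⟨g, hg0, hgk⟩ : ∃ g > (0 : ℝ), k * g = ε := ⟨ε / k, by positivity, by field_simp⟩
  have hge : g ≤ ε := hgk ▸ le_mul_of_one_le_left hg0.le hkr
  have hbox : Box η η fun _ => η := by
    have : η ∈ Set.Icc (η / 2) (2 * η) := ⟨by linarith, by linarith⟩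
    exact ⟨this, fun _ => this⟩
  have h1Q : ((1 : ℝ), fun _ => g, η, fun _ => η) ∈ upQ s0 g (C0 / d + C1 * (1 + P) + ε) η :=
    mem_upQ.2 ⟨⟨hs1, le_rfl⟩, fun _ => ⟨le_rfl, by linarith [div_nonneg hC0 hd0.le]⟩, hbox⟩
  obtain ⟨⟨s, ρ, b, y⟩, hx, hmax⟩ := (upQ_compact _ _ _ _).exists_isMaxOn ⟨_, h1Q⟩
    (upP_cont Λ ℓ hk hq ε d K η fun x hx => hs0.le.trans hx.1.1)
  obtain ⟨⟨hs, hs'⟩, hρ, hb⟩ := mem_upQ.1 hx
  have hsp : 0 < s := hs0.trans_le hs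
  have hρ0 : ∀ j, 0 < ρ j := fun j => hg0.trans_le (hρ j).1
  have hsum : 0 ≤ d * ∑ j ∈ range k, ρ j := mul_nonneg hd0.le (sum_nonneg fun j _ => (hρ0 j).le)
  have u8 : C0 * s - d * ∑ j ∈ range k, ρ j ≤ ε := by
    rcases hs.eq_or_lt with h1 | h1
    · rw [← h1]; linarith
    rcases le_or_gt C0 (d * ∑ j ∈ range k, ρ j) with h2 | h2
    · linarith [mul_le_of_le_one_right hC0 hs']
    exfalso
    have hPN := hN ℓ (hn.mono (min_le_left _ _)) Λ.top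
    have hA := (mkM Λ.top ℓ (Λ.e s) b y fun j _ => ρ j).isPath hk hPN hP.le
    have hsy := (hS Λ.top ℓ (Λ.e s) (fun j _ => ρ j) b y
      ((le_max_right _ _).trans ((le_max_right _ _).trans hι)) hPN hb fun b' y' hb' => by
        have := hmax (mem_upQ.2 ⟨⟨hs, hs'⟩, hρ, hb'⟩)
        simp only [upP, Set.mem_ofPred_eq, upF] at this
        linarith).1
    obtain ⟨g1, g2, g3⟩ := hG ℓ (Λ.e s) b y (fun j _ => ρ j) _ hk (Λ.e_top s) (fun a ha =>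
      ⟨le_trans (mul_le_mul_of_nonneg_left hs hc0.le) ((he s hsp.le).2 a ha),
        ((he s hsp.le).1 a).trans (mul_le_of_le_one_right hCe hs')⟩)
      ((le_max_left _ _).trans ((le_max_right _ _).trans hι)) (hn.mono (min_le_right _ _))
      (hb.small hη1 hη2) hA hsy
    obtain ⟨ρ1, E', r0, r1, r2, r3⟩ := hH k s P _ q hk hsp hs' hA hq
    exact up_key Λ ℓ hk hx hmax hι1 hs0 hg0 hε he0 hd0 hB0 hC1 hd2 he2 h1 h2 g1 g2 g3 r0 r1 r2 r3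
  have u6 := hmax h1Q
  have u7 : ∑ j ∈ range k, g * tail k q j ≤ ε := by
    refine le_trans (sum_le_card_nsmul _ _ g fun j _ => ?_) (by simp [hgk])
    exact mul_le_of_le_one_right hg0.le (hq.isPath.tail_mem j).2
  have h0 : pen k η η (fun _ => η) = 0 := by simp [pen]
  simp only [upP, Set.mem_ofPred_eq, h0, sum_const, card_range, nsmul_eq_mul, hgk] at u6
  exact up_arith2 hι1 hsp hε hd1 hη3 (by linarith) (by unfold pen; positivity)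
    (upF_le Λ ℓ hk (ρ := ρ) hsp.le (hb.small hη3 hη4))
    (le_upF Λ ℓ hk (ρ := fun _ => g) (y := fun _ => η) hη.le fun _ => hg0.le)
    (x := XI k (cum ρ) + pairing k q (cum ρ))
    (by linarith [YI_sub_tail hk (fun j _ => (hρ0 j).le) hq.2.2])
    (hS' _ (admR_cum fun j => (hρ0 j).le)) (abs_le.1 (hE k q s hq hsp.le)).1 u6 u7 u8

theorem coreUpper : CoreUpper := by
  intro α _ _ Λ ε hε
  obtain ⟨δ, hδ, k0, h⟩ := up_main Λ (ε := ε / 5) (by positivity)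
  filter_upwards [eventually_ge_atTop k0, eventually_gt_atTop 0] with k hk0 hk ℓ hℓ q hq S hS
  obtain ⟨N0, hN⟩ := h k hk0 hk
  filter_upwards [hℓ.near hδ, eventually_ge_atTop N0, eventually_gt_atTop 0] with N h1 h2 h3
  have := hN (ℓ N) q S (by simpa using h2) h1 hq hS
  rw [div_le_iff₀' (by exact_mod_cast h3)]
  simpa [mul_div_cancel₀] using this

end Vale.Agent.P166
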